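import Vale.Agent.P224.R2.H178.Minor3
import Vale.Agent.P224.R2.H176.F3.Inp
import Vale.Agent.P224.R2.H433.Main3

/-!
The inputs of the theorem in dimension three.
-/

namespace Vale.Agent.P224.R2.H178

open Vale.Agent.P224.R2.H433 Vale.Agent.P224.R2.H176.F3

/-- all inputs -/
theorem inp3 : Inp3 where
  mom := momAll3
  fint := fInt3
  x1 := x1_3
  x2 := x2_3
  r1 := r1_3
  r2 := r2_3
  minor := ⟨Flow3.δ3, Flow3.δ3_int, Flow3.δ3_le.trans (by norm_num),
    Flow3.minor3 (by positivity) (by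
      rw [div_pow, Real.sq_sqrt (by norm_num)]
      norm_num)⟩

end Vale.Agent.P224.R2.H178
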