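import Vale.Agent.P224.R2.H178.Flow3c

/-!
The closed form of the flow for m = 3, d ^ 2 = 1 / 2: behaviour at T = 0.
-/

namespace Vale.Agent.P224.R2.H178.Flow3

open MeasureTheory Set Filter Function Real Vale.Agent.P224.R2.H925 Asymptotics
open scoped Topology

section

variable {T : ℝ}

lemma rpow_m32 (hT : 0 < T) : T ^ (-(3 / 2) : ℝ) = 1 / (T * √T) := by
  rw [rpow_neg hT.le, show (3 / 2 : ℝ) = 1 + 1 / 2 by norm_num, rpow_add hT, rpow_one,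
    ← sqrt_eq_rpow, one_div]

lemma rpow_m12 (hT : 0 < T) : T ^ (-(1 / 2) : ℝ) = 1 / √T := by
  rw [rpow_neg hT.le, ← sqrt_eq_rpow, one_div]

/-- tails of functions of order T ^ (-3/2) -/
lemma abs_tail_le {g : ℝ → ℝ} {C : ℝ} (hC : 0 ≤ C)
    (hg : ∀ u ∈ Ioc (0 : ℝ) 1, |g u| ≤ C / (u * √u)) (hT : T ∈ Ioc (0 : ℝ) 1) :
    |∫ u in T..1, g u| ≤ 2 * C / √T := by
  have h0 : (0 : ℝ) ∉ uIcc T 1 := by
    rw [uIcc_of_le hT.2]
    exact fun h => (hT.1.trans_le h.1).false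
  have hi : IntervalIntegrable (fun u : ℝ => C * u ^ (-(3 / 2) : ℝ)) volume T 1 :=
    (intervalIntegral.intervalIntegrable_rpow (Or.inr h0)).const_mul C
  have h1 := intervalIntegral.norm_integral_le_of_norm_le (f := g) hT.2 (ae_of_all _ fun u hu => by
    have hu0 : 0 < u := hT.1.trans hu.1
    have := hg u ⟨hu0, hu.2⟩
    rw [Real.norm_eq_abs]
    refine this.trans_eq ?_
    rw [rpow_m32 hu0]
    ring) hi
  rw [Real.norm_eq_abs, intervalIntegral.integral_const_mul, integral_rpow (Or.inr ⟨by norm_num, h0⟩),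
    show (-(3 / 2) + 1 : ℝ) = -(1 / 2) by norm_num, one_rpow, rpow_m12 hT.1] at h1
  refine h1.trans ?_
  have h2 : C * ((1 - 1 / √T) / -(1 / 2)) = 2 * C / √T - 2 * C := by ring
  rw [h2]
  linarith

lemma sqrt8 : (14 / 5 : ℝ) ≤ √8 := by
  rw [le_sqrt (by norm_num) (by norm_num)]
  norm_num

lemma kf_le (hT : T ∈ Ioc (0 : ℝ) 1) : kf T ≤ 27 / 22 / T := by
  unfold kf
  have h9 := nine_pos hT
  have h0 := hT.1
  have h8 : (8 : ℝ) ≤ 9 - T ^ 2 := by nlinarith [hT.1, hT.2]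
  have h1 : √(1 - T ^ 2) ≤ 1 := by
    rw [sqrt_le_one]
    nlinarith
  have h2 : (14 / 5 : ℝ) ≤ √(9 - T ^ 2) := sqrt8.trans (sqrt_le_sqrt h8)
  have h3 : (22 : ℝ) ≤ (9 - T ^ 2) * √(9 - T ^ 2) := by nlinarith
  rw [div_div, div_le_div_iff₀ (by positivity) (by positivity)]
  have h4 : T * 22 ≤ T * ((9 - T ^ 2) * √(9 - T ^ 2)) := mul_le_mul_of_nonneg_left h3 h0.le
  have h5 : 0 ≤ √(1 - T ^ 2) := sqrt_nonneg _
  nlinarith

lemma kf_le' (hT : T ∈ Ioc (0 : ℝ) 1) : kf T ≤ 2 / (T * √T) := by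
  refine (kf_le hT).trans ?_
  have h0 := hT.1
  have h1 : √T ≤ 1 := by rw [sqrt_le_one]; exact hT.2
  have h2 := sqrt_pos.2 h0
  rw [div_le_div_iff₀ h0 (by positivity)]
  nlinarith [mul_pos h0 h2, mul_le_mul_of_nonneg_left h1 h0.le]

lemma K_le (hT : T ∈ Ioc (0 : ℝ) 1) : K T ≤ 4 / √T := by
  have h1 := abs_tail_le (g := kf) (C := 2) (by norm_num) (fun u hu => by
    rw [abs_of_nonneg (kf_nonneg hu)]
    exact kf_le' hu) hT
  have h2 := (le_abs_self _).trans h1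
  norm_num at h2
  exact h2

lemma q_le (hT : T ∈ Icc (0 : ℝ) 1) : q T ≤ 7 / 4 := by
  unfold q
  have h0 := hT.1
  rw [sqrt_le_left (by norm_num), div_le_iff₀ (by positivity)]
  nlinarith

lemma M_le (hT : T ∈ Ioc (0 : ℝ) 1) : M T ≤ 7 / √T := by
  have hT' : T ∈ Icc (0 : ℝ) 1 := ⟨hT.1.le, hT.2⟩
  have h1 := mul_le_mul (q_le hT') (K_le hT) (K_nonneg hT) (by norm_num : (0 : ℝ) ≤ 7 / 4)
  refine h1.trans_eq ?_
  ring

lemma TM_le (hT : T ∈ Ioc (0 : ℝ) 1) : T * M T ≤ 7 * √T := by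
  have h1 := mul_le_mul_of_nonneg_left (M_le hT) hT.1.le
  refine h1.trans_eq ?_
  have h2 := mul_self_sqrt hT.1.le
  have h3 := (sqrt_pos.2 hT.1).ne'
  field_simp
  linarith

lemma abs_om_le (hT : T ∈ Ioc (0 : ℝ) 1) : |om T| ≤ 7 * √T := by
  rw [abs_of_nonpos (om_nonpos hT)]
  unfold om
  rw [neg_neg, div_le_iff₀ (by linarith [hT.1])]
  have h1 := TM_le hT
  have h2 : 0 ≤ √T := sqrt_nonneg _
  nlinarith [hT.1]

lemma abs_om2_le (hT : T ∈ Ioc (0 : ℝ) 1) : |om T / T ^ 2| ≤ 7 / (T * √T) := by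
  have h0 := hT.1
  have h1 := abs_om_le hT
  have h2 := mul_self_sqrt h0.le
  have h3 := sqrt_pos.2 h0
  rw [abs_div, abs_of_pos (by positivity : 0 < T ^ 2), div_le_div_iff₀ (by positivity) (by positivity)]
  calc |om T| * (T * √T) ≤ 7 * √T * (T * √T) := mul_le_mul_of_nonneg_right h1 (by positivity)
    _ = 7 * T * (√T * √T) := by ring
    _ = 7 * T ^ 2 := by rw [h2]; ring

lemma abs_O2_le (hT : T ∈ Ioc (0 : ℝ) 1) : |O2 T| ≤ 14 / √T := by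
  have := abs_tail_le (by norm_num : (0 : ℝ) ≤ 7) (fun u hu => abs_om2_le hu) hT
  norm_num at this
  exact this

lemma abs_σ_le (hT : T ∈ Ioc (0 : ℝ) 1) : |σ T| ≤ 14 * √T := by
  unfold σ
  rw [abs_neg, abs_mul, abs_of_pos hT.1]
  have h1 := mul_le_mul_of_nonneg_left (abs_O2_le hT) hT.1.le
  refine h1.trans_eq ?_
  have h2 := mul_self_sqrt hT.1.le
  have h3 := (sqrt_pos.2 hT.1).ne'
  field_simp
  linarith

lemma om_zero : om 0 = 0 := by simp [om]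

lemma sqrt_to_zero : Tendsto (fun T : ℝ => √T) (𝓝[>] 0) (𝓝 0) := by
  have := (continuous_sqrt.tendsto 0).mono_left (nhdsWithin_le_nhds (s := Ioi 0))
  rwa [sqrt_zero] at this

lemma tendsto_of_sqrt {F : ℝ → ℝ} {C : ℝ} (hF : ∀ T ∈ Ioc (0 : ℝ) 1, |F T| ≤ C * √T) :
    Tendsto F (𝓝[>] 0) (𝓝 0) := by
  have h1 : Tendsto (fun T : ℝ => C * √T) (𝓝[>] 0) (𝓝 0) := by
    simpa using sqrt_to_zero.const_mul C
  refine squeeze_zero_norm' ?_ h1
  have h2 : Ioo (0 : ℝ) 1 ∈ 𝓝[>] (0 : ℝ) := Ioo_mem_nhdsGT one_pos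
  filter_upwards [h2] with T hT using hF T ⟨hT.1, hT.2.le⟩

lemma contOn_Icc {g : ℝ → ℝ} (hg : ContinuousOn g (Ioc 0 1)) (h0 : Tendsto g (𝓝[>] 0) (𝓝 (g 0))) :
    ContinuousOn g (Icc 0 1) := by
  intro x hx
  rcases hx.1.eq_or_lt with h1 | h1
  · subst h1
    have h2 : ContinuousWithinAt g (Ioi 0) 0 := h0
    refine (continuousWithinAt_insert_self.2 h2).mono fun y hy => ?_
    rcases hy.1.eq_or_lt with h3 | h3
    · exact h3 ▸ mem_insert _ _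
    · exact mem_insert_of_mem _ h3
  · refine (hg x ⟨h1, hx.2⟩).mono_of_mem_nhdsWithin ?_
    have h3 : Ioi 0 ∩ Icc 0 1 ∈ 𝓝[Icc 0 1] x :=
      inter_mem (mem_nhdsWithin_of_mem_nhds (Ioi_mem_nhds h1)) self_mem_nhdsWithin
    exact mem_of_superset h3 fun y hy => ⟨hy.1, hy.2.2⟩

lemma om_cont : ContinuousOn om (Icc 0 1) :=
  contOn_Icc om_contOn (by rw [om_zero]; exact tendsto_of_sqrt fun _ hT => abs_om_le hT)

lemma tail_tendsto {g : ℝ → ℝ} (hg : IntervalIntegrable g volume 0 1) :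
    Tendsto (fun T => ∫ u in T..1, g u) (𝓝[>] 0) (𝓝 (∫ u in (0 : ℝ)..1, g u)) := by
  have h1 : IntegrableOn g (uIcc 0 1) volume := by
    rw [uIcc_of_le zero_le_one]
    exact (integrableOn_Icc_iff_integrableOn_Ioc).2
      ((intervalIntegrable_iff_integrableOn_Ioc_of_le zero_le_one).1 hg)
  have h2 := intervalIntegral.continuousOn_primitive_interval_left h1
  rw [uIcc_of_le zero_le_one] at h2
  have h3 := h2 0 ⟨le_rfl, zero_le_one⟩
  unfold ContinuousWithinAt at h3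
  refine h3.mono_left ?_
  rw [← nhdsWithin_Ioo_eq_nhdsGT (one_pos : (0 : ℝ) < 1)]
  exact nhdsWithin_mono _ Ioo_subset_Icc_self

lemma om_int : IntervalIntegrable om volume 0 1 := by
  refine ContinuousOn.intervalIntegrable ?_
  rw [uIcc_of_le zero_le_one]
  exact om_cont

lemma T2O2_to : Tendsto (fun T => T ^ 2 * O2 T) (𝓝[>] 0) (𝓝 0) := by
  refine tendsto_of_sqrt (C := 14) fun T hT => ?_
  have h0 := hT.1
  rw [abs_mul, abs_of_pos (by positivity : 0 < T ^ 2)]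
  have h1 := mul_le_mul_of_nonneg_left (abs_O2_le hT) (by positivity : 0 ≤ T ^ 2)
  refine h1.trans ?_
  have h2 := mul_self_sqrt hT.1.le
  have h3 := (sqrt_pos.2 hT.1)
  rw [mul_div_assoc', div_le_iff₀ h3]
  have h4 : 14 * √T * √T = 14 * T := by rw [mul_assoc, h2]
  rw [h4]
  nlinarith [hT.2]

/-- the value of ρ at T = 0 -/
lemma ρ_zero : ρ 0 = (∫ u in (0 : ℝ)..1, om u) / 2 := by simp [ρ, O1]

lemma ρ_to : Tendsto ρ (𝓝[>] 0) (𝓝 (ρ 0)) := by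
  rw [ρ_zero]
  have := ((tail_tendsto om_int).sub T2O2_to).div_const 2
  rwa [sub_zero] at this

lemma ρ_cont : ContinuousOn ρ (Icc 0 1) := contOn_Icc ρ_contOn ρ_to

lemma σ_zero : σ 0 = 0 := by simp [σ]

lemma σ_to : Tendsto σ (𝓝[>] 0) (𝓝 0) := tendsto_of_sqrt fun _ hT => abs_σ_le hT

lemma σ_cont : ContinuousOn σ (Icc 0 1) := contOn_Icc σ_contOn (by rw [σ_zero]; exact σ_to)

lemma TM_to : Tendsto (fun T => T * M T) (𝓝[>] 0) (𝓝 0) := by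
  refine tendsto_of_sqrt (C := 7) fun T hT => ?_
  rw [abs_of_nonneg (mul_nonneg hT.1.le (M_nonneg hT))]
  exact TM_le hT

lemma j_to : Tendsto j (𝓝[>] 0) (𝓝 (1 / √3)) := by
  have h1 := j_cont 0 ⟨le_rfl, zero_le_one⟩
  unfold ContinuousWithinAt at h1
  have h2 : j 0 = 1 / √3 := by
    unfold j
    norm_num
  rw [h2] at h1
  refine h1.mono_left ?_
  rw [← nhdsWithin_Ioo_eq_nhdsGT (one_pos : (0 : ℝ) < 1)]
  exact nhdsWithin_mono _ Ioo_subset_Icc_self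

lemma to0 {F : ℝ → ℝ} {a : ℝ} {G : ℝ → ℝ} (hG : Tendsto G (𝓝[>] 0) (𝓝 a))
    (h : ∀ T ∈ Ioo (0 : ℝ) 1, G T = F T) : Tendsto F (𝓝[>] 0) (𝓝 a) := by
  refine hG.congr' ?_
  have h2 : Ioo (0 : ℝ) 1 ∈ 𝓝[>] (0 : ℝ) := Ioo_mem_nhdsGT one_pos
  filter_upwards [h2] with T hT using h T hT

/-- a linear combination at T = 0 -/
lemma lin_to {a b c' d : ℝ → ℝ} {A D : ℝ} (ha : Tendsto a (𝓝[>] 0) (𝓝 A))
    (hb : ∃ L, Tendsto b (𝓝[>] 0) (𝓝 L)) (hc : ∃ L, Tendsto (fun T => c' T / T) (𝓝[>] 0) (𝓝 L))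
    (hd : Tendsto d (𝓝[>] 0) (𝓝 D)) :
    Tendsto (lin a b c' d) (𝓝[>] 0) (𝓝 (A * ρ 0 + D * (1 / √3))) := by
  obtain ⟨L1, hb⟩ := hb
  obtain ⟨L2, hc⟩ := hc
  have h1 := (((ha.mul ρ_to).add (hb.mul σ_to)).add (hc.mul TM_to)).add (hd.mul j_to)
  rw [mul_zero, mul_zero, add_zero, add_zero] at h1
  refine to0 h1 fun T hT => ?_
  have := hT.1.ne'
  unfold lin
  field_simp

lemma cto {G : ℝ → ℝ} (hG : Continuous G) : Tendsto G (𝓝[>] 0) (𝓝 (G 0)) :=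
  (hG.tendsto 0).mono_left nhdsWithin_le_nhds

lemma cto' {G : ℝ → ℝ} (hG : ContinuousAt G 0) : Tendsto G (𝓝[>] 0) (𝓝 (G 0)) :=
  hG.tendsto.mono_left nhdsWithin_le_nhds

lemma to_eq {F : ℝ → ℝ} {l : Filter ℝ} {a b : ℝ} (h : Tendsto F l (𝓝 a)) (hab : a = b) :
    Tendsto F l (𝓝 b) := hab ▸ h

lemma e_to : Tendsto e (𝓝[>] 0) (𝓝 0) := by
  have h1 := lin_to (a := fun T => -(T / 12)) (b := fun T => (4 + T ^ 2) / 24)
    (c' := fun T => -(T * (1 + 11 * T) / 24)) (d := fun T => 9 / 8 * (T * (1 - T)))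
    (cto (by fun_prop)) ⟨_, cto (by fun_prop)⟩
    ⟨_, to0 (cto (G := fun T : ℝ => -((1 + 11 * T) / 24)) (by fun_prop)) fun T hT => by
      have := hT.1.ne'
      field_simp⟩ (cto (by fun_prop))
  exact to_eq h1 (by simp)

lemma h_to : Tendsto h (𝓝[>] 0) (𝓝 0) := by
  have h1 := lin_to (a := fun T => -(T * (7 - 2 * T ^ 2) / 48))
    (b := fun T => (5 + 4 * T ^ 2 - T ^ 4) / 48)
    (c' := fun T => T * (1 - T) * (7 + T ^ 2) / 48) (d := fun _ => 0)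
    (cto (by fun_prop)) ⟨_, cto (by fun_prop)⟩
    ⟨_, to0 (cto (G := fun T : ℝ => (1 - T) * (7 + T ^ 2) / 48) (by fun_prop)) fun T hT => by
      have := hT.1.ne'
      field_simp⟩ (cto (by fun_prop))
  exact to_eq h1 (by simp)

lemma Ty_to : Tendsto (fun T => T * y T) (𝓝[>] 0) (𝓝 0) := by
  have h1 := lin_to (a := fun T => -(T / 12)) (b := fun T => (4 + T ^ 2) / 24)
    (c' := fun T => T * (11 + T) / 24) (d := fun T => 9 / 4 * T)
    (cto (by fun_prop)) ⟨_, cto (by fun_prop)⟩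
    ⟨_, to0 (cto (G := fun T : ℝ => (11 + T) / 24) (by fun_prop)) fun T hT => by
      have := hT.1.ne'
      field_simp⟩ (cto (by fun_prop))
  refine to0 (to_eq h1 (by simp)) fun T hT => ?_
  have := hT.1.ne'
  unfold y lin
  field_simp

lemma ε_to : Tendsto ε (𝓝[>] 0) (𝓝 (ρ 0)) := by
  have h1 := lin_to (a := fun T => 1 - 2 * T ^ 2) (b := fun T => -(T * (1 - T ^ 2)))
    (c' := fun _ => 0) (d := fun _ => 0)
    (cto (by fun_prop)) ⟨_, cto (by fun_prop)⟩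
    ⟨0, by simp⟩ (cto (by fun_prop))
  exact to_eq h1 (by simp)

lemma ερ_to : Tendsto (fun T => (ε T - ρ T) / T) (𝓝[>] 0) (𝓝 0) := by
  have h1 := lin_to (a := fun T => -(2 * T)) (b := fun T => -(1 - T ^ 2))
    (c' := fun _ => 0) (d := fun _ => 0)
    (cto (by fun_prop)) ⟨_, cto (by fun_prop)⟩
    ⟨0, by simp⟩ (cto (by fun_prop))
  refine to0 (to_eq h1 (by simp)) fun T hT => ?_
  have := hT.1.ne'
  unfold ε lin
  field_simp
  ring

lemma c0_to {d : ℝ} (hd2 : d ^ 2 = 1 / 2) :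
    Tendsto (fun T => (1 - T ^ 2) * y T + B T / (3 - 1) + (1 - T ^ 2) * d ^ 2 * f T / T)
      (𝓝[>] 0) (𝓝 (1 / 4 * ρ 0 + 81 / 32 * (1 / √3))) := by
  have h1 := lin_to (a := fun T => (1 - T ^ 2) * (-(1 / 12)) + (2 - 5 * T ^ 2) / 48
      + (1 - T ^ 2) * (7 / 24))
    (b := fun T => (-(6 * T) + 5 * T ^ 3) / 96 + (T - 4 * T - T ^ 3) / 24
      + (4 * T - 7 * T + 7 * T ^ 3) / 48)
    (c' := fun T => ((1 - T ^ 2) * (44 + 4 * T) - (10 + 14 * T + 17 * T ^ 2 - 5 * T ^ 3)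
      - (1 - T ^ 2) * (34 - 10 * T)) / 96)
    (d := fun T => (1 - T ^ 2) * (9 / 4) - 9 / 32 * ((1 - 4 * T) * (1 - T))
      + (1 - T ^ 2) * (9 / 16 * (1 - T)))
    (cto (by fun_prop)) ⟨_, cto (by fun_prop)⟩
    ⟨_, to0 (cto (G := fun T : ℝ => ((44 + 4 * T) * (-T) + 4 - (14 + 17 * T - 5 * T ^ 2)
      + T * (34 - 10 * T) + 10) / 96) (by fun_prop)) fun T hT => by
      have := hT.1.ne'
      field_simp
      ring⟩ (cto (by fun_prop))
  refine to0 (to_eq h1 (by norm_num)) fun T hT => ?_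
  have := hT.1.ne'
  unfold y B f lin
  rw [hd2]
  field_simp
  ring

end

end Vale.Agent.P224.R2.H178.Flow3
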