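import Vale.Agent.P224.R2.H178.Flow3d
import Vale.Agent.P224.R2.H925.SLim

/-!
The closed form of the flow for m = 3, d ^ 2 = 1 / 2: the system and its limits.
-/

namespace Vale.Agent.P224.R2.H178.Flow3

open MeasureTheory Set Filter Function Real Vale.Agent.P224.R2.H925 Asymptotics
open scoped Topology

section

variable {T : ℝ}

lemma ρ_nonpos (hT : T ∈ Ioc (0 : ℝ) 1) : ρ T ≤ 0 := by
  have i1 : IntervalIntegrable om volume T 1 := by
    refine ContinuousOn.intervalIntegrable ?_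
    rw [uIcc_of_le hT.2]
    exact om_contOn.mono fun u hu => ⟨hT.1.trans_le hu.1, hu.2⟩
  have i2 : IntervalIntegrable (fun u => om u / u ^ 2) volume T 1 := by
    refine ContinuousOn.intervalIntegrable ?_
    rw [uIcc_of_le hT.2]
    exact om2_contOn.mono fun u hu => ⟨hT.1.trans_le hu.1, hu.2⟩
  have h1 : ρ T = (∫ u in T..1, (om u - T ^ 2 * (om u / u ^ 2))) / 2 := by
    rw [intervalIntegral.integral_sub i1 (i2.const_mul _), intervalIntegral.integral_const_mul]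
    rfl
  have h2 : (∫ u in T..1, -(om u - T ^ 2 * (om u / u ^ 2))) = -(∫ u in T..1, (om u - T ^ 2 * (om u / u ^ 2))) :=
    intervalIntegral.integral_neg
  have h3 : 0 ≤ ∫ u in T..1, -(om u - T ^ 2 * (om u / u ^ 2)) := by
    refine intervalIntegral.integral_nonneg hT.2 fun u hu => ?_
    have hu0 : 0 < u := hT.1.trans_le hu.1
    have h4 := om_nonpos ⟨hu0, hu.2⟩
    have h5 : -(om u - T ^ 2 * (om u / u ^ 2)) = -om u * ((u ^ 2 - T ^ 2) / u ^ 2) := by
      field_simp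
    rw [h5]
    refine mul_nonneg (by linarith) (div_nonneg ?_ (by positivity))
    nlinarith [hT.1, hu.1]
  rw [h1]
  linarith

lemma O2_nonpos (hT : T ∈ Ioc (0 : ℝ) 1) : O2 T ≤ 0 := by
  have h2 : (∫ u in T..1, -(om u / u ^ 2)) = -O2 T := intervalIntegral.integral_neg
  have h3 : 0 ≤ ∫ u in T..1, -(om u / u ^ 2) := by
    refine intervalIntegral.integral_nonneg hT.2 fun u hu => ?_
    have hu0 : 0 < u := hT.1.trans_le hu.1
    have h4 := om_nonpos ⟨hu0, hu.2⟩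
    rw [← neg_div]
    exact div_nonneg (by linarith) (by positivity)
  linarith

lemma σ_nonneg (hT : T ∈ Ioc (0 : ℝ) 1) : 0 ≤ σ T := by
  unfold σ
  have := O2_nonpos hT
  nlinarith [hT.1]

lemma abs_ρ_le (hT : T ∈ Ioc (0 : ℝ) 1) : |ρ T| ≤ 21 / 2 := by
  have h1 : |O1 T| ≤ 7 * |1 - T| := by
    have := intervalIntegral.norm_integral_le_of_norm_le_const (f := om) (a := T) (b := 1) (C := 7)
      (fun u hu => by
        rw [uIoc_of_le hT.2] at hu
        have hu' : u ∈ Ioc (0 : ℝ) 1 := ⟨hT.1.trans hu.1, hu.2⟩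
        have h2 := abs_om_le hu'
        have h3 : √u ≤ 1 := by rw [sqrt_le_one]; exact hu.2
        rw [Real.norm_eq_abs]
        linarith)
    exact this
  have h2 := abs_O2_le hT
  have h3 : T ^ 2 * |O2 T| ≤ 14 := by
    have h4 := mul_le_mul_of_nonneg_left h2 (sq_nonneg T)
    refine h4.trans ?_
    have h5 := mul_self_sqrt hT.1.le
    have h6 := (sqrt_pos.2 hT.1)
    rw [mul_div_assoc', div_le_iff₀ h6]
    have h7 : T ^ 2 ≤ √T := by
      calc T ^ 2 = T * (√T * √T) := by rw [h5]; ring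
        _ ≤ 1 * (√T * 1) := by
          have h8 : √T ≤ 1 := by rw [sqrt_le_one]; exact hT.2
          gcongr
          exact hT.2
        _ = √T := by ring
    linarith
  unfold ρ
  rw [abs_div, abs_two, div_le_div_iff_of_pos_right (by norm_num)]
  have h9 : |1 - T| ≤ 1 := by
    rw [abs_of_nonneg (by linarith [hT.2])]
    linarith [hT.1]
  calc |O1 T - T ^ 2 * O2 T| ≤ |O1 T| + |T ^ 2 * O2 T| := abs_sub _ _
    _ ≤ 7 + 14 := by
      rw [abs_mul, abs_of_nonneg (sq_nonneg T)]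
      linarith
    _ = 21 := by norm_num

lemma j_le (hT : T ∈ Icc (0 : ℝ) 1) : j T ≤ 1 := by
  unfold j
  rw [sqrt_le_one, div_le_one (by linarith [hT.2])]
  linarith

lemma le_sqrt_self (hT : T ∈ Ioc (0 : ℝ) 1) : T ≤ √T := by
  have h5 := mul_self_sqrt hT.1.le
  have h8 : √T ≤ 1 := by rw [sqrt_le_one]; exact hT.2
  nlinarith [sqrt_nonneg T]

lemma abs_e_le (hT : T ∈ Ioc (0 : ℝ) 1) : |e T| ≤ 10 * √T := by
  have h0 := hT.1
  have h1 := abs_ρ_le hT
  have h2 := abs_σ_le hT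
  have h3 := TM_le hT
  have h3' := mul_nonneg h0.le (M_nonneg hT)
  have h4 := j_le ⟨h0.le, hT.2⟩
  have h4' := j_nonneg (T := T)
  have h5 := le_sqrt_self hT
  have h6 : 0 ≤ √T := sqrt_nonneg _
  have e1 : e T = -(T / 12 * ρ T) + (4 + T ^ 2) / 24 * σ T - (1 + 11 * T) / 24 * (T * M T)
      + 9 / 8 * (T * (1 - T)) * j T := by
    unfold e lin
    ring
  have a1 : |T / 12 * ρ T| ≤ √T * (21 / 24) := by
    rw [abs_mul, abs_of_nonneg (by positivity : 0 ≤ T / 12)]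
    calc T / 12 * |ρ T| ≤ √T / 12 * (21 / 2) := by gcongr
      _ = _ := by ring
  have a2 : |(4 + T ^ 2) / 24 * σ T| ≤ 5 / 24 * (14 * √T) := by
    rw [abs_mul, abs_of_nonneg (by positivity : 0 ≤ (4 + T ^ 2) / 24)]
    have : (4 + T ^ 2) / 24 ≤ 5 / 24 := by nlinarith [hT.2]
    gcongr
  have a3 : |(1 + 11 * T) / 24 * (T * M T)| ≤ 1 / 2 * (7 * √T) := by
    rw [abs_mul, abs_of_nonneg (by positivity : 0 ≤ (1 + 11 * T) / 24), abs_of_nonneg h3']
    have : (1 + 11 * T) / 24 ≤ 1 / 2 := by linarith [hT.2]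
    gcongr
  have a4 : |9 / 8 * (T * (1 - T)) * j T| ≤ 9 / 8 * (√T * 1) * 1 := by
    have hn : 0 ≤ 1 - T := by linarith [hT.2]
    rw [abs_of_nonneg (by positivity)]
    gcongr
    linarith
  rw [e1]
  rw [abs_le] at *
  constructor
  · linarith [a1.1, a1.2, a2.1, a2.2, a3.1, a3.2, a4.1, a4.2]
  · linarith [a1.1, a1.2, a2.1, a2.2, a3.1, a3.2, a4.1, a4.2]

lemma ei_bound : ∃ C, ∀ u ∈ Ioc (0 : ℝ) 1, |ei u| ≤ C * u ^ (-(1 / 2) : ℝ) := by
  have hc : ContinuousOn ei (Icc (1 / 2) 1) :=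
    ei_contOn.mono fun u hu => ⟨by linarith [hu.1], hu.2⟩
  obtain ⟨C, hC⟩ := isCompact_Icc.exists_bound_of_continuousOn hc
  refine ⟨max C 20, fun u hu => ?_⟩
  rw [rpow_m12 hu.1]
  have h1 := sqrt_pos.2 hu.1
  have h2 : √u ≤ 1 := by rw [sqrt_le_one]; exact hu.2
  rcases le_or_gt (1 / 2) u with h | h
  · have h3 := hC u ⟨h, hu.2⟩
    rw [Real.norm_eq_abs] at h3
    have h4 : (1 : ℝ) ≤ 1 / √u := by rwa [le_div_iff₀ h1, one_mul]
    have h5 : (0 : ℝ) ≤ max C 20 := le_max_of_le_right (by norm_num)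
    calc |ei u| ≤ max C 20 := h3.trans (le_max_left _ _)
      _ = max C 20 * 1 := (mul_one _).symm
      _ ≤ _ := mul_le_mul_of_nonneg_left h4 h5
  · have h3 := abs_e_le hu
    have hu0 := hu.1
    have h4 : (3 / 4 : ℝ) ≤ 1 - u ^ 2 := by nlinarith
    have h5 : (17 / 20 : ℝ) ≤ √(1 - u ^ 2) := by
      rw [le_sqrt (by norm_num) (by linarith)]
      linarith
    have h6 : (1 / 2 : ℝ) ≤ (1 - u ^ 2) * √(1 - u ^ 2) := by nlinarith
    have h7 := mul_self_sqrt hu.1.le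
    unfold ei
    rw [abs_div, abs_of_pos (by positivity : 0 < u * ((1 - u ^ 2) * √(1 - u ^ 2)))]
    calc |e u| / (u * ((1 - u ^ 2) * √(1 - u ^ 2))) ≤ 10 * √u / (u * (1 / 2)) := by gcongr
      _ = 20 * (1 / √u) := by
        field_simp
        linear_combination 20 * h7
      _ ≤ max C 20 * (1 / √u) := by
        gcongr
        exact le_max_right _ _

lemma ei_int : IntervalIntegrable ei volume 0 1 := by
  obtain ⟨C, hC⟩ := ei_bound
  have h1 : IntervalIntegrable (fun u : ℝ => C * u ^ (-(1 / 2) : ℝ)) volume 0 1 :=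
    (intervalIntegral.intervalIntegrable_rpow' (by norm_num)).const_mul C
  refine h1.mono_fun' ?_ ?_
  · rw [uIoc_of_le zero_le_one]
    exact ei_contOn.aestronglyMeasurable measurableSet_Ioc
  · rw [uIoc_of_le zero_le_one]
    exact (ae_restrict_iff' measurableSet_Ioc).2 (ae_of_all _ fun u hu => hC u hu)

/-- the value of r at T = 0 -/
noncomputable def r0 : ℝ := ∫ u in (0 : ℝ)..1, ei u

lemma r_to : Tendsto r (𝓝[>] 0) (𝓝 r0) := by
  have h1 : Tendsto (fun T : ℝ => √(1 - T ^ 2)) (𝓝[>] 0) (𝓝 1) :=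
    to_eq (cto (G := fun T : ℝ => √(1 - T ^ 2)) (by fun_prop)) (by simp)
  exact to_eq (h1.mul (tail_tendsto ei_int)) (by unfold r0; ring)

end

section main

variable {d : ℝ}

/-- the differential system -/
theorem sys3 (hd2 : d ^ 2 = 1 / 2) : Sys 3 d u3 where
  he _ hT := hd_e hT
  hy _ hT := hd_y hT
  hB _ hT := hd_B hT
  hr _ hT := hasDerivAt_r hT
  hρ _ hT := (hasDerivAt_ρ hT).congr_deriv (ρ_eq hT)
  hε _ hT := hd_ε hT
  hh _ hT := hd_h hT hd2
  hf _ hT := hd_f hT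
  a1 _ _ := alg1 hd2
  a2 _ hT := alg2 hT
  a3 _ hT := alg3 hT hd2

/-- the limits at T = 0 -/
theorem lim0_3 (hd2 : d ^ 2 = 1 / 2) :
    Lim0 3 d u3 (ρ 0) r0 (1 / 4 * ρ 0 + 81 / 32 * (1 / √3)) where
  e := e_to
  h := h_to
  y := Ty_to
  ε := ε_to
  ερ := ερ_to
  r := r_to
  c := c0_to hd2

lemma tendsto_sin_l1 : Tendsto (fun φ => sin φ) (𝓝[<] (π / 2)) (𝓝[<] 1) := by
  refine tendsto_nhdsWithin_iff.2 ⟨?_, ?_⟩
  · have := (continuous_sin.tendsto (π / 2)).mono_left (nhdsWithin_le_nhds (s := Iio (π / 2)))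
    rwa [sin_pi_div_two] at this
  · have h1 : Ioo 0 (π / 2) ∈ 𝓝[<] (π / 2) := Ioo_mem_nhdsLT (by have := pi_pos; positivity)
    filter_upwards [h1] with φ hφ
    have h2 := sin_lt_sin_of_lt_of_le_pi_div_two (by linarith [hφ.1, pi_pos]) le_rfl hφ.2
    rwa [sin_pi_div_two] at h2

lemma c_sin : ∀ᶠ φ in 𝓝[<] (π / 2), c (sin φ) = cos φ ∧ 0 < cos φ := by
  have h1 : Ioo 0 (π / 2) ∈ 𝓝[<] (π / 2) := Ioo_mem_nhdsLT (by have := pi_pos; positivity)
  filter_upwards [h1] with φ hφ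
  have h2 : 0 < cos φ := cos_pos_of_mem_Ioo ⟨by linarith [hφ.1, pi_pos], hφ.2⟩
  refine ⟨?_, h2⟩
  unfold c
  rw [← cos_sq', sqrt_sq h2.le]

lemma cos_to : Tendsto (fun φ => cos φ) (𝓝[<] (π / 2)) (𝓝 0) := by
  have := (continuous_cos.tendsto (π / 2)).mono_left (nhdsWithin_le_nhds (s := Iio (π / 2)))
  rwa [cos_pi_div_two] at this

lemma Ord.small {k l : ℕ} {F : ℝ → ℝ} (h : Ord (l + 1 + k) F) :
    Tendsto (fun φ => F (sin φ) / cos φ ^ l) (𝓝[<] (π / 2)) (𝓝 0) := by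
  obtain ⟨C, hC⟩ := (h.mono (by omega : l + 1 ≤ l + 1 + k)).bound
  have h1 := tendsto_sin_l1.eventually hC
  have h2 : Tendsto (fun φ => |C| * cos φ) (𝓝[<] (π / 2)) (𝓝 0) :=
    to_eq (cos_to.const_mul |C|) (by ring)
  refine squeeze_zero_norm' ?_ h2
  filter_upwards [h1, c_sin] with φ h3 h4
  rw [h4.1, norm_of_nonneg (pow_nonneg h4.2.le _)] at h3
  rw [norm_div, norm_of_nonneg (pow_nonneg h4.2.le _), div_le_iff₀ (pow_pos h4.2 _)]
  refine h3.trans ?_
  have h5 : |C| * cos φ * cos φ ^ l = |C| * cos φ ^ (l + 1) := by ring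
  rw [h5]
  exact mul_le_mul_of_nonneg_right (le_abs_self C) (pow_nonneg h4.2.le _)

/-- the limits at T = 1 -/
theorem lim1_3 : Lim1 3 u3 (9 / 8) where
  y := by
    have h1 : Tendsto (fun φ => (y (sin φ) - 9 / 4 * j (sin φ)) / cos φ ^ 1) (𝓝[<] (π / 2)) (𝓝 0) :=
      Ord.small (k := 1) (F := fun T => y T - 9 / 4 * j T) ord_y
    have h2 : Tendsto (fun φ => 9 / 4 * J (sin φ)) (𝓝[<] (π / 2)) (𝓝 (9 / 4 * J 1)) := by
      have h3 : Tendsto J (𝓝[<] 1) (𝓝 (J 1)) :=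
        J_diff.continuousAt.tendsto.mono_left nhdsWithin_le_nhds
      exact (h3.comp tendsto_sin_l1).const_mul _
    have h4 := h1.add h2
    rw [J_one] at h4
    refine to_eq (a := 0 + 9 / 4 * (1 / 2)) (h4.congr' ?_) (by norm_num)
    have h5 : Ioo 0 (π / 2) ∈ 𝓝[<] (π / 2) := Ioo_mem_nhdsLT (by have := pi_pos; positivity)
    filter_upwards [c_sin, h5] with φ h6 h7
    have h8 : sin φ ∈ Icc (0 : ℝ) 1 :=
      ⟨(sin_pos_of_pos_of_lt_pi h7.1 (by linarith [h7.2, pi_pos])).le, sin_le_one φ⟩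
    have h9 : u3.y = y := rfl
    rw [h9, j_eq h8, h6.1]
    have := h6.2.ne'
    norm_num
    field_simp
    ring
  e := Ord.small (l := 4) (k := 0) ord_e
  h := Ord.small (l := 4) (k := 0) ord_h
  B := Ord.small (l := 3) (k := 1) ord_B
  r := Ord.small (l := 3) (k := 1) ord_r
  ρ := Ord.small (l := 5) (k := 1) ord_ρ
  ε := Ord.small (l := 5) (k := 1) ord_ε

end main

end Vale.Agent.P224.R2.H178.Flow3
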