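import Vale.Agent.P224.R2.H178.OdB
import Vale.Agent.P224.R2.H494.OC4
import Vale.Agent.P224.R2.H494.OA2

/-!
The conditions of the weights hold in every odd dimension from 17 on.
-/

namespace Vale.Agent.P224.R2.H178

open MeasureTheory Set Function Real Vale.Agent.P224.R2.H582 Vale.Agent.P224.R2.H820
  Vale.Agent.P224.R2.H627 Vale.Agent.P224.R2.H742 Vale.Agent.P224.R2.H494.ZT
  Vale.Agent.P224.R2.H424
open Vale.Agent.P224.SM2 hiding ker

set_option linter.unusedSectionVars false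

lemma xiO_eq (m : ℕ) : H494.OC.xiO m = xiO m := by
  funext T
  unfold H494.OC.xiO H494.OC.xiX xiO
  ring

lemma lamP17 (T : ℝ) : lamP 17 17 17 17 17 T = 17 * (1 + T ^ 2 + T ^ 4 + T ^ 6 + T ^ 8) := by
  unfold lamP
  ring

/-- **the conditions of the weights** -/
theorem oddIn_Z {m : ℕ} (hm : 17 ≤ m) {L d : ℝ} (hL : L * ((m : ℝ) ^ 2 - 1) = 4)
    (s : ZSol ((m : ℝ) / 2) L) (hd : 0 < d) (hd2 : d ^ 2 * ((m : ℝ) ^ 2 - 1) = 4) :
    OddIn m s d (lamP 17 17 17 17 17) := by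
  have hmR : (17 : ℝ) ≤ m := by exact_mod_cast hm
  have hm1 : 0 < (m : ℝ) ^ 2 - 1 := by nlinarith
  have hdL : d ^ 2 = L := mul_right_cancel₀ hm1.ne' (hd2.trans hL.symm)
  have h9 : 0 ≤ 1 - 9 / (5 * (m : ℝ)) := by
    have : 9 / (5 * (m : ℝ)) ≤ 1 := by
      rw [div_le_one (by positivity)]
      linarith
    linarith
  refine ⟨fun T _ => rfl, fun T hT hT2 => ?_, fun T hT hT2 => ?_⟩
  · rw [← xiO_eq]
    refine H494.OC.oddAt_Z hm hL s hd.le hdL hT hT2 ?_ ?_ ?_
    · rw [lamP17]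
      have := hT.1
      positivity
    · rw [lamP17]
      have h1 : (1 - T ^ 2) * (17 * (1 + T ^ 2 + T ^ 4 + T ^ 6 + T ^ 8)) = 17 - 17 * T ^ 10 := by
        ring
      rw [h1]
      have := pow_nonneg hT.1.le 10
      linarith
    · unfold lamO
      rw [if_pos hT2, lamP17]
      ring
  · have hk : 0 < 1 - T ^ 2 := by
      have h1 := hT.1
      have h2 := hT.2
      nlinarith
    have hl : lamO m T = max (94 / 5 - 128 / 5 * (2 / (m : ℝ)))
        ((63 / 5 - 73 / 5 * (2 / (m : ℝ))) / (1 - T ^ 2)) := by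
      unfold lamO
      rw [if_neg (not_le.2 hT2)]
    refine H494.OC.oddUp_Z hm hL s hd.le hdL hT ?_ ?_
    · rw [hl]
      exact H494.OC.admO_max (2 / m) (1 - T ^ 2) hk
    · rw [hl]
      refine le_max_of_le_left ?_
      have : 2 / (m : ℝ) ≤ 2 / 17 := by
        apply div_le_div_of_nonneg_left (by norm_num) (by norm_num) hmR
      linarith

/-- the conditions of the weights in dimension `m` -/
theorem oddIns {m : ℕ} (hm : 17 ≤ m) : OddIns m :=
  fun _ _ s hL hd hd2 => ⟨_, oddIn_Z hm hL s hd hd2⟩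

end Vale.Agent.P224.R2.H178
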