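import Vale.Agent.P224.R2.H178.OdC
import Vale.Agent.P224.R2.H178.OIn

/-!
**The sharp volume bound in the odd dimensions from 17 to 35.**
-/

namespace Vale.Agent.P224.R2.H178

open MeasureTheory Set Function Real Module Vale.Agent.P224 Vale.Agent.P224.FV
  Vale.Agent.P224.UE
open Vale.Agent.P224.SM2 hiding ker
open scoped Topology RealInnerProductSpace ContDiff Manifold ENNReal

variable {V W M : Type*} [NormedAddCommGroup V] [InnerProductSpace ℝ V] [FiniteDimensional ℝ V]
  [NormedAddCommGroup W] [InnerProductSpace ℝ W] [FiniteDimensional ℝ W]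
  [TopologicalSpace M] [ChartedSpace V M]
  [MeasurableSpace V] [BorelSpace V] [MeasurableSpace M] [BorelSpace M]
  [MeasurableSpace W] [BorelSpace W] [IsManifold 𝓘(ℝ, V) ∞ M]
  [CompactSpace M] [T2Space M] [ConnectedSpace M]

/-- **The sharp volume bound in the odd dimensions from 17 to 35.** -/
theorem odd_block {h : ℕ} (h1 : 8 ≤ h) (h2 : h ≤ 17) (hV : finrank ℝ V = 2 * h + 1)
    (hW : finrank ℝ W = finrank ℝ V + 2)
    {F : M → W} (hF : SphImm V F) (hmin : ∀ x n, IsUnitNormal V F x n → meanCurv V F x n = 0)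
    (hng : ¬ ∃ a : W, a ≠ 0 ∧ ∀ x, ⟪F x, a⟫ = 0) :
    ENNReal.ofReal (leastClifford (finrank ℝ V)) ≤ volM V F univ :=
  odd_block_of h1 h2 hV hW hF hmin hng (oddIns (by omega))

end Vale.Agent.P224.R2.H178
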