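import Vale.Agent.P224.R2.H178.Mid44
import Vale.Agent.P224.R2.H684.NearF45
import Vale.Agent.P224.R2.H684.NearF60
import Vale.Agent.P224.R2.H684.NearF100
import Vale.Agent.P224.R2.H684.NearF140
import Vale.Agent.P224.R2.H684.NearF150
import Vale.Agent.P224.R2.H684.NearF200
import Vale.Agent.P224.R2.H684.NearF230
import Vale.Agent.P224.R2.H684.NearF250
import Vale.Agent.P224.R2.H684.NearF300
import Vale.Agent.P224.R2.H684.NearF350
import Vale.Agent.P224.R2.H444.F60
import Vale.Agent.P224.R2.H444.F100
import Vale.Agent.P224.R2.H444.F150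
import Vale.Agent.P224.R2.H444.F200
import Vale.Agent.P224.R2.H444.F250
import Vale.Agent.P224.R2.H444.F300

/-!
**The sharp volume bound in the dimensions from 37 to 399.**
-/

namespace Vale.Agent.P224.R2.H178

open MeasureTheory Set Function Real Module Vale.Agent.P224 Vale.Agent.P224.FV
open scoped Topology RealInnerProductSpace ContDiff Manifold ENNReal

set_option linter.unusedSectionVars false

section

variable {V W M : Type*} [NormedAddCommGroup V] [InnerProductSpace ℝ V] [FiniteDimensional ℝ V]
  [NormedAddCommGroup W] [InnerProductSpace ℝ W] [FiniteDimensional ℝ W]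
  [TopologicalSpace M] [ChartedSpace V M]
  [MeasurableSpace V] [BorelSpace V] [MeasurableSpace M] [BorelSpace M]
  [MeasurableSpace W] [BorelSpace W] [IsManifold 𝓘(ℝ, V) ∞ M]
  [CompactSpace M] [T2Space M] [ConnectedSpace M]

/-- **The sharp volume bound in the dimensions from 37 to 399** -/
theorem mid399 (h37 : 37 ≤ finrank ℝ V) (h399 : finrank ℝ V ≤ 399)
    (hW : finrank ℝ W = finrank ℝ V + 2)
    {F : M → W} (hF : SphImm V F) (hmin : ∀ x n, IsUnitNormal V F x n → meanCurv V F x n = 0)
    (hng : ¬ ∃ a : W, a ≠ 0 ∧ ∀ x, ⟪F x, a⟫ = 0) :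
    ENNReal.ofReal (leastClifford (finrank ℝ V)) ≤ volM V F univ := by
  rcases le_or_gt (finrank ℝ V) 44 with h | h
  · exact mid44 h37 h hW hF hmin hng
  rcases le_or_gt (finrank ℝ V) 59 with h59 | h59
  · exact dim_FN h37 h399 hW hF hmin hng
      (H444.far_41_le (by norm_num) (by omega) hW hF hmin hng)
      (H684.nearF_45 (by omega) (by omega) hW hF hmin)
  rcases le_or_gt (finrank ℝ V) 99 with h99 | h99
  · exact dim_FN h37 h399 hW hF hmin hng
      (H444.far_60_le (by norm_num) (by omega) hW hF hmin hng)
      (H684.nearF_60 (by omega) (by omega) hW hF hmin)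
  rcases le_or_gt (finrank ℝ V) 139 with h139 | h139
  · exact dim_FN h37 h399 hW hF hmin hng
      (H444.far_100_le (by norm_num) (by omega) hW hF hmin hng)
      (H684.nearF_100 (by omega) (by omega) hW hF hmin)
  rcases le_or_gt (finrank ℝ V) 149 with h149 | h149
  · exact dim_FN h37 h399 hW hF hmin hng
      (H444.far_100_le (by norm_num) (by omega) hW hF hmin hng)
      (H684.nearF_140 (by omega) (by omega) hW hF hmin)
  rcases le_or_gt (finrank ℝ V) 199 with h199 | h199
  · exact dim_FN h37 h399 hW hF hmin hng
      (H444.far_150_le (by norm_num) (by omega) hW hF hmin hng)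
      (H684.nearF_150 (by omega) (by omega) hW hF hmin)
  rcases le_or_gt (finrank ℝ V) 229 with h229 | h229
  · exact dim_FN h37 h399 hW hF hmin hng
      (H444.far_200_le (by norm_num) (by omega) hW hF hmin hng)
      (H684.nearF_200 (by omega) (by omega) hW hF hmin)
  rcases le_or_gt (finrank ℝ V) 249 with h249 | h249
  · exact dim_FN h37 h399 hW hF hmin hng
      (H444.far_200_le (by norm_num) (by omega) hW hF hmin hng)
      (H684.nearF_230 (by omega) (by omega) hW hF hmin)
  rcases le_or_gt (finrank ℝ V) 299 with h299 | h299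
  · exact dim_FN h37 h399 hW hF hmin hng
      (H444.far_250_le (by norm_num) (by omega) hW hF hmin hng)
      (H684.nearF_250 (by omega) (by omega) hW hF hmin)
  rcases le_or_gt (finrank ℝ V) 349 with h349 | h349
  · exact dim_FN h37 h399 hW hF hmin hng
      (H444.far_300_le (by norm_num) (by omega) hW hF hmin hng)
      (H684.nearF_300 (by omega) (by omega) hW hF hmin)
  · exact dim_FN h37 h399 hW hF hmin hng
      (H444.far_300_le (by norm_num) (by omega) hW hF hmin hng)
      (H684.nearF_350 (by omega) (by omega) hW hF hmin)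

end

end Vale.Agent.P224.R2.H178
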