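import Vale.Agent.P224.R2.H178.WO

/-!
The numbers of the law in odd dimension: kernel checked bounds of the integrals of `wO` and `wO1`,
shift `ξ = (y0 + y1 T + y2 T^2 + y3 T^3) / m` (of any sign above `1/2`).
-/

namespace Vale.Agent.P224.R2.H178

open MeasureTheory Set Filter Function Real Module Vale.Agent.P224 Vale.Agent.P224.FV
open Vale.Agent.P224.SM2 Vale.Agent.P224.R2.H820 Vale.Agent.P224.R2.H728
open Vale.Agent.P224.R2.H582 Vale.Agent.P224.R2.H925 Vale.Agent.P224.R2.H627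
  Vale.Agent.P224.R2.H742
open scoped Topology RealInnerProductSpace ContDiff Manifold

set_option linter.unusedSectionVars false

/-- the coefficients of `(1/2) (y0 + y1 T + y2 T^2 + y3 T^3 + g T^5) (T y + m r)` -/
def xiL2 (m y0 y1 y2 y3 g : ℚ) : List (ℚ × ℚ × ℚ) :=
  [(0, 0, 1 / 2 * m * y0), (1 / 2 * y0, 0, 1 / 2 * m * y1), (1 / 2 * y1, 0, 1 / 2 * m * y2),
    (1 / 2 * y2, 0, 1 / 2 * m * y3), (1 / 2 * y3, 0, 0), (0, 0, 1 / 2 * m * g),
    (1 / 2 * g, 0, 0)]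

variable {m : ℕ}

/-- the shift term -/
noncomputable def xT2 (m : ℕ) (y0 y1 y2 y3 g : ℝ) (T : ℝ) : ℝ :=
  1 / 2 * ((y0 + y1 * T + y2 * T ^ 2 + y3 * T ^ 3 + g * T ^ 5) * (T * yM m T + m * rM m T))

lemma xT2_eq_lc {y0 y1 y2 y3 g : ℝ} (T : ℝ) : xT2 m y0 y1 y2 y3 g T
    = lc [(1 / 2 * y0, 1), (1 / 2 * y1, 2), (1 / 2 * y2, 3), (1 / 2 * y3, 4), (1 / 2 * g, 6)]
        (yM m) T
      + lc [(1 / 2 * m * y0, 0), (1 / 2 * m * y1, 1), (1 / 2 * m * y2, 2), (1 / 2 * m * y3, 3),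
        (1 / 2 * m * g, 5)] (rM m) T := by
  simp only [lc, List.map_cons, List.map_nil, List.sum_cons, List.sum_nil, xT2]
  ring

lemma int_xT2 (h4 : 4 ≤ m) {y0 y1 y2 y3 g : ℚ} :
    IntervalIntegrable (xT2 m y0 y1 y2 y3 g) volume 0 1 ∧
    ∫ T in (0 : ℝ)..1, xT2 m y0 y1 y2 y3 g T
      = lc3 (YM m) (EM m) (RM m) (xiL2 m y0 y1 y2 y3 g) 0 := by
  have cy' := H582.contOn_yM h4
  have cr := contOn_rM h4
  have i1 := fun l => intble (contOn_lc cy' l)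
  have i3 := fun l => intble (contOn_lc cr l)
  have e : xT2 m (y0 : ℝ) y1 y2 y3 g = fun T => lc [(1 / 2 * (y0 : ℝ), 1), (1 / 2 * (y1 : ℝ), 2),
      (1 / 2 * (y2 : ℝ), 3), (1 / 2 * (y3 : ℝ), 4), (1 / 2 * (g : ℝ), 6)] (yM m) T
      + lc [(1 / 2 * m * (y0 : ℝ), 0), (1 / 2 * m * (y1 : ℝ), 1), (1 / 2 * m * (y2 : ℝ), 2),
        (1 / 2 * m * (y3 : ℝ), 3), (1 / 2 * m * (g : ℝ), 5)] (rM m) T := by
    funext T
    exact xT2_eq_lc T
  rw [e]
  refine ⟨(i1 _).add (i3 _), ?_⟩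
  rw [intervalIntegral.integral_add (i1 _) (i3 _), int_lc cy', int_lc cr]
  simp only [lm, List.map_cons, List.map_nil, List.sum_cons, List.sum_nil, xiL2, lc3, YM, RM]
  push_cast
  ring

/-- **The numbers of the law in odd dimension with `T₁ = 1/2`.** -/
theorem WO_half2 {σ l0 l1 l2 l3 l4 y0 y1 y2 y3 g v0 w1 : ℚ} (hm : 17 ≤ m) (hσ : 0 ≤ σ) (h0 : 0 ≤ l0)
    (h1 : 0 ≤ l1) (h2 : 0 ≤ l2) (h3 : 0 ≤ l3) (h4 : 0 ≤ l4) {ξ lam : ℝ → ℝ}
    (hlam : ∀ T ∈ Ioo (0 : ℝ) (1 / 2), lam T = lamP l0 l1 l2 l3 l4 T)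
    (hξ : ∀ T ∈ Ioo (0 : ℝ) (1 / 2), ξ T = 1 / m * (y0 + y1 * T + y2 * T ^ 2 + y3 * T ^ 3))
    (hg : 0 ≤ g)
    (hx : ∀ T ∈ Ioo (1 / 2 : ℝ) 1, (0 : ℝ) ≤ y0 + y1 * T + y2 * T ^ 2 + y3 * T ^ 3 + g * T ^ 5)
    (hadm : ∀ T ∈ Ioo (1 / 2 : ℝ) 1,
      Adm (2 / m) (1 - T ^ 2) ((1 - T ^ 2) * lamP l0 l1 l2 l3 l4 T))
    (c0 : lowOK m (v0 + prQ m σ)
      (sbL (w0L m (31 / 10) σ l0 l1 l2 l3 l4) (xiL2 m y0 y1 y2 y3 g)) = true)
    (c1 : lowOK m (-w1) (ng (w1L m (31 / 10) σ l0 l1 l2 l3 l4)) = true) :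
    IntervalIntegrable (wO m (31 / 10) σ ξ lam) volume 0 (1 / 2)
    ∧ IntervalIntegrable (wO1 m (31 / 10) σ lam) volume 0 (1 / 2)
    ∧ (v0 : ℝ) ≤ ∫ T in (0 : ℝ)..(1 / 2), wO m (31 / 10) σ ξ lam T
    ∧ ∫ T in (0 : ℝ)..(1 / 2), wO1 m (31 / 10) σ lam T ≤ (w1 : ℝ) := by
  have hm4 : 4 ≤ m := by omega
  have hmR : (0 : ℝ) < m := by exact_mod_cast (show 0 < m by omega)
  have hσ' : (0 : ℝ) ≤ σ := by exact_mod_cast hσ
  have hl : ∀ T : ℝ, 0 ≤ lamP l0 l1 l2 l3 l4 T := by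
    intro T
    have g0 : (0 : ℝ) ≤ l0 := by exact_mod_cast h0
    have g1 : (0 : ℝ) ≤ l1 := by exact_mod_cast h1
    have g2 : (0 : ℝ) ≤ l2 := by exact_mod_cast h2
    have g3 : (0 : ℝ) ≤ l3 := by exact_mod_cast h3
    have g4 : (0 : ℝ) ≤ l4 := by exact_mod_cast h4
    unfold lamP
    positivity
  have cy' := H582.contOn_yM hm4
  have ce := contOn_eM hm4
  have cr := contOn_rM hm4
  obtain ⟨i0, e0⟩ := int_b0 (m := m) (κ := 31 / 10) (σ := σ) (l0 := l0) (l1 := l1) (l2 := l2)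
    (l3 := l3) (l4 := l4) cy' ce cr
  obtain ⟨i1, e1⟩ := int_b1 (m := m) (κ := 31 / 10) (σ := σ) (l0 := l0) (l1 := l1) (l2 := l2)
    (l3 := l3) (l4 := l4) cy' ce cr
  obtain ⟨ix, ex⟩ := int_xT2 (m := m) hm4 (y0 := y0) (y1 := y1) (y2 := y2) (y3 := y3) (g := g)
  obtain ⟨iz, -⟩ := int_xT2 (m := m) hm4 (y0 := y0) (y1 := y1) (y2 := y2) (y3 := y3) (g := 0)
  have s1 : uIcc (0 : ℝ) (1 / 2) ⊆ uIcc 0 1 := by
    rw [uIcc_of_le (by norm_num), uIcc_of_le (by norm_num)]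
    exact Icc_subset_Icc le_rfl (by norm_num)
  have s2 : uIcc (1 / 2 : ℝ) 1 ⊆ uIcc 0 1 := by
    rw [uIcc_of_le (by norm_num), uIcc_of_le (by norm_num)]
    exact Icc_subset_Icc (by norm_num) le_rfl
  have j0 := i0.mono_set s1
  have j1 := i1.mono_set s1
  have jx := ix.mono_set s1
  have jz := iz.mono_set s1
  have k0 := i0.mono_set s2
  have k1 := i1.mono_set s2
  have kx := ix.mono_set s2
  have a0 := intervalIntegral.integral_add_adjacent_intervals j0 k0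
  have a1 := intervalIntegral.integral_add_adjacent_intervals j1 k1
  have ax := intervalIntegral.integral_add_adjacent_intervals jx kx
  have q0 : EqOn (fun T => b0 m (31 / 10) σ T (yM m T) (eM m T) (rM m T)
      (lamP l0 l1 l2 l3 l4 T) - xT2 m y0 y1 y2 y3 (0 : ℚ) T) (wO m (31 / 10) σ ξ lam)
      (uIoo 0 (1 / 2)) := by
    rw [uIoo_of_le (by norm_num)]
    intro T hT
    change _ - _ = b0 m (31 / 10) σ T (yM m T) (eM m T) (rM m T) (lam T) - 1 / 2 * (ξ T * PMo m T)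
    rw [hlam T hT, hξ T hT]
    congr 1
    unfold xT2 PMo
    push_cast
    field_simp
    ring
  have q1 : EqOn (fun T => H582.b1 m (31 / 10) σ T (yM m T) (eM m T) (rM m T)
      (lamP l0 l1 l2 l3 l4 T)) (wO1 m (31 / 10) σ lam) (uIoo 0 (1 / 2)) := by
    rw [uIoo_of_le (by norm_num)]
    intro T hT
    change _ = H582.b1 m (31 / 10) σ T (yM m T) (eM m T) (rM m T) (lam T)
    rw [hlam T hT]
  refine ⟨(j0.sub jz).congr_uIoo q0, j1.congr_uIoo q1, ?_, ?_⟩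
  · rw [← intervalIntegral.integral_congr_uIoo q0, intervalIntegral.integral_sub j0 jz]
    have hgR : (0 : ℝ) ≤ g := by exact_mod_cast hg
    have hz : ∫ T in (0 : ℝ)..(1 / 2), xT2 m y0 y1 y2 y3 (0 : ℚ) T
        ≤ ∫ T in (0 : ℝ)..(1 / 2), xT2 m y0 y1 y2 y3 g T := by
      refine intervalIntegral.integral_mono_on_of_le_Ioo (by norm_num) jz jx fun T hT => ?_
      have hT' : T ∈ Ioo (0 : ℝ) 1 := ⟨hT.1, by linarith [hT.2]⟩
      have hy := yM_nonneg hm4 (T := T) ⟨hT'.1.le, hT'.2.le⟩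
      have hr := (certO_M hm4).r0 T hT'
      have hT0 := hT'.1
      have h9 : 0 ≤ (g : ℝ) * T ^ 5 * (T * yM m T + m * rM m T) := by positivity
      unfold xT2
      push_cast
      linarith
    have h5 := lowOK_sound hm c0
    rw [lc3_sbL, ← w0_eq, ← ex] at h5
    have h6 := int_b0_half (κ := 31 / 10) hm (by norm_num) hσ' (fun T _ => hl T) k0
    have h7 := le_prQ (m := m) hσ
    push_cast at h5
    unfold YM EM RM at h5
    rw [← e0, ← a0, ← ax] at h5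
    have h8 : 0 ≤ ∫ T in (1 / 2 : ℝ)..1, xT2 m y0 y1 y2 y3 g T := by
      have h7 := intervalIntegral.integral_mono_on_of_le_Ioo (a := (1 / 2 : ℝ)) (b := 1)
        (by norm_num) (f := fun _ => (0 : ℝ)) (intervalIntegrable_const) kx fun T hT => ?_
      · simp only [intervalIntegral.integral_zero] at h7
        exact h7
      · have hT' : T ∈ Ioo (0 : ℝ) 1 := ⟨by linarith [hT.1], hT.2⟩
        have hy := yM_nonneg hm4 (T := T) ⟨hT'.1.le, hT'.2.le⟩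
        have hr := (certO_M hm4).r0 T hT'
        have hxx := hx T hT
        have := hT'.1
        change 0 ≤ xT2 m y0 y1 y2 y3 g T
        unfold xT2
        positivity
    linarith
  · rw [← intervalIntegral.integral_congr_uIoo q1]
    have h5 := upOK_sound hm c1
    rw [← w1_eq] at h5
    push_cast at h5
    unfold YM EM RM at h5
    rw [← e1, ← a1] at h5
    have h6 : 0 ≤ ∫ T in (1 / 2 : ℝ)..1, H582.b1 m (31 / 10) σ T (yM m T) (eM m T) (rM m T)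
        (lamP l0 l1 l2 l3 l4 T) := by
      have h7 := intervalIntegral.integral_mono_on_of_le_Ioo (a := (1 / 2 : ℝ)) (b := 1)
        (by norm_num) (f := fun _ => (0 : ℝ)) (intervalIntegrable_const) k1 fun T hT => ?_
      · simp only [intervalIntegral.integral_zero] at h7
        exact h7
      · have hT' : T ∈ Ioo (0 : ℝ) 1 := ⟨by linarith [hT.1], hT.2⟩
        have hc := certO_M hm4
        have hy := yM_nonneg hm4 (T := T) ⟨hT'.1.le, hT'.2.le⟩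
        have h8 := le_b1 (m := m) (κ := 31 / 10) (σ := σ) (T := T) (by norm_num) hσ' hT'.1.le
          hT'.2.le hy (hc.e0 T hT') (hc.r0 T hT') (hl T)
        have h9 := tb_nonneg (m := m) (σ := σ) (T := T) hσ' hT'.1.le
          (al_nonneg_M hm hT' (hadm T hT)) (conv_M hm hT' (hadm T hT))
        unfold beM at h9
        linarith
    linarith

/-- the coefficients of the shift of helper494 -/
def yQ0 (m : ℚ) : ℚ := 12 / m ^ 2
def yQ1 (m : ℚ) : ℚ := 21 / 4 + 21 / m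
def yQ2 (m : ℚ) : ℚ := -(27 / 2 + 55 / m)
def yQ3 (m : ℚ) : ℚ := 33 / 4 + 34 / m

/-- the shift -/
noncomputable def xiO (m : ℕ) (T : ℝ) : ℝ :=
  1 / m * (12 / m ^ 2 + T * (1 - T) * ((21 / 4 + 21 / m) - (33 / 4 + 34 / m) * T))

/-- the check of the numbers of one odd dimension -/
def orowOK2 (r : ORow) : Bool :=
  decide (17 ≤ r.m)
    && lowOK r.m (r.v0 + prQ r.m (sgQ r.m))
      (sbL (w0L r.m (31 / 10) (sgQ r.m) 17 17 17 17 17)
        (xiL2 r.m (yQ0 r.m) (yQ1 r.m) (yQ2 r.m) (yQ3 r.m) (3 / 2)))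
    && lowOK r.m (-r.w1) (ng (w1L r.m (31 / 10) (sgQ r.m) 17 17 17 17 17))

lemma xi_up {u T : ℝ} (hu : 0 ≤ u) (hu1 : u ≤ 1 / 17) (hT : T ∈ Ioo (1 / 2 : ℝ) 1) :
    0 ≤ T * (1 - T) * ((21 / 4 + 21 * u) - (33 / 4 + 34 * u) * T) + 3 / 2 * T ^ 5 := by
  have hT0 : 0 < T := by linarith [hT.1]
  have h0 : 0 ≤ (1 - T) * (21 / 4 - 33 / 4 * T) + 3 / 2 * T ^ 4 := by
    nlinarith [sq_nonneg (T ^ 2 - 2 / 3), sq_nonneg (T - 4 / 5), sq_nonneg (T - 3 / 4)]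
  have h1 : 0 ≤ (1 - T) * ((21 / 4 + 21 / 17) - (33 / 4 + 34 / 17) * T) + 3 / 2 * T ^ 4 := by
    nlinarith [sq_nonneg (T ^ 2 - 2 / 3), sq_nonneg (T - 4 / 5), sq_nonneg (T - 3 / 4)]
  have h2 : 0 ≤ (1 - T) * ((21 / 4 + 21 * u) - (33 / 4 + 34 * u) * T) + 3 / 2 * T ^ 4 := by
    have e : (1 - T) * ((21 / 4 + 21 * u) - (33 / 4 + 34 * u) * T) + 3 / 2 * T ^ 4
        = (1 - 17 * u) * ((1 - T) * (21 / 4 - 33 / 4 * T) + 3 / 2 * T ^ 4)
          + 17 * u * ((1 - T) * ((21 / 4 + 21 / 17) - (33 / 4 + 34 / 17) * T) + 3 / 2 * T ^ 4) := by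
      ring
    rw [e]
    exact add_nonneg (mul_nonneg (by linarith) h0) (mul_nonneg (by linarith) h1)
  have h3 := mul_nonneg hT0.le h2
  linarith

/-- the numbers of the law with the threshold `17 (1 - T ^ 10)` and the shift `xiO` -/
theorem orow_sound2 {r : ORow} (h : orowOK2 r = true) {lam : ℝ → ℝ}
    (hlam : ∀ T ∈ Ioo (0 : ℝ) (1 / 2), lam T = lamP 17 17 17 17 17 T) :
    IntervalIntegrable (wO r.m (31 / 10) (sgQ r.m : ℚ) (xiO r.m) lam) volume 0 (1 / 2)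
    ∧ IntervalIntegrable (wO1 r.m (31 / 10) (sgQ r.m : ℚ) lam) volume 0 (1 / 2)
    ∧ (r.v0 : ℝ) ≤ ∫ T in (0 : ℝ)..(1 / 2), wO r.m (31 / 10) (sgQ r.m : ℚ) (xiO r.m) lam T
    ∧ ∫ T in (0 : ℝ)..(1 / 2), wO1 r.m (31 / 10) (sgQ r.m : ℚ) lam T ≤ (r.w1 : ℝ) := by
  simp only [orowOK2, Bool.and_eq_true, decide_eq_true_eq] at h
  obtain ⟨⟨h1, h2⟩, h3⟩ := h
  have hmR : (17 : ℝ) ≤ r.m := by exact_mod_cast h1
  refine WO_half2 h1 (sgQ_nonneg r.m) (by norm_num) (by norm_num) (by norm_num) (by norm_num)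
    (by norm_num) (fun T hT => ?_) (fun T hT => ?_) (by norm_num) (fun T hT => ?_)
    (fun T hT => ?_) h2 h3
  · rw [hlam T hT]
    norm_num
  · unfold xiO yQ0 yQ1 yQ2 yQ3
    push_cast
    congr 1
    ring
  · have hu := xi_up (u := 1 / (r.m : ℝ)) (by positivity) (by
      rw [div_le_div_iff₀ (by linarith) (by norm_num)]
      linarith) hT
    unfold yQ0 yQ1 yQ2 yQ3
    push_cast
    have h9 : 0 ≤ 12 / (r.m : ℝ) ^ 2 := by positivity
    have e1 : (21 : ℝ) / r.m = 21 * (1 / r.m) := by ring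
    have e2 : (55 : ℝ) / r.m = 55 * (1 / r.m) := by ring
    have e3 : (34 : ℝ) / r.m = 34 * (1 / r.m) := by ring
    rw [e1, e2, e3]
    refine (add_nonneg h9 hu).trans (le_of_eq ?_)
    ring
  · have := admP17 r.m (T := T) ⟨by linarith [hT.1], hT.2⟩
    norm_num at this ⊢
    exact this

end Vale.Agent.P224.R2.H178
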