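import Vale.Agent.P224.R2.H742.OddFA2
import Vale.Agent.P224.R2.H433.Gap
import Vale.Agent.P224.R2.H176.G.Glue0

/-!
Final glue in odd dimension: far range, output of the near law at odd dimension and the odd law in
the small box.
-/

namespace Vale.Agent.P224.R2.H178

open MeasureTheory Set Filter Function Real Module Vale.Agent.P224 Vale.Agent.P224.FV
  Vale.Agent.P224.R2.H925 Vale.Agent.P224.R2.H582 Vale.Agent.P224.R2.H728
  Vale.Agent.P224.R2.H742 Vale.Agent.P224.R2.H176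
open Vale.Agent.P224.SM2 Vale.Agent.P224.R2.H820
open scoped RealInnerProductSpace Topology ContDiff Manifold ENNReal

set_option linter.unusedSectionVars false

/-- the flow in odd dimension with the constants of the spectral inequality -/
structure OddFlow (m : ℕ) (d r ε0 r0 c0 lam W1 W2 : ℝ) (u : St) : Prop where
  hr : 0 < r
  hr2 : r ^ 2 = (m : ℝ) ^ 2 - 1
  hd : d = 2 / r
  sys : Sys m d u
  lim0 : Lim0 m d u ε0 r0 c0
  lim1 : Lim1 m u lam
  hlam : 0 ≤ lam
  hε0 : ε0 ≤ 0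
  hc : 0 < c0 + 2 * d * ε0 / (m + 1) * Jkl m r
  hW1 : ((m : ℝ) + 1) * (2 * m - 1) ≤ r * W1
  hW2 : 7 ≤ r * W2

section

variable {V W M : Type*} [NormedAddCommGroup V] [InnerProductSpace ℝ V] [FiniteDimensional ℝ V]
  [NormedAddCommGroup W] [InnerProductSpace ℝ W] [FiniteDimensional ℝ W]
  [TopologicalSpace M] [ChartedSpace V M]
  [MeasurableSpace V] [BorelSpace V] [MeasurableSpace M] [BorelSpace M]
  [MeasurableSpace W] [BorelSpace W]
  [IsManifold 𝓘(ℝ, V) ∞ M] [CompactSpace M] [T2Space M] [ConnectedSpace M]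

/-- **Final glue, odd dimension.** -/
theorem odd_glue {h : ℕ} (h8 : 8 ≤ h) (hV : finrank ℝ V = 2 * h + 1)
    (hW : finrank ℝ W = finrank ℝ V + 2)
    {F : M → W} (hF : SphImm V F) (hmin : ∀ x n, IsUnitNormal V F x n → meanCurv V F x n = 0)
    (hng : ¬ ∃ a : W, a ≠ 0 ∧ ∀ x, ⟪F x, a⟫ = 0)
    {d r ε0 r0 c0 lam W1 W2 h1 d1 ν : ℝ} {u : St}
    (hfl : OddFlow (finrank ℝ V) d r ε0 r0 c0 lam W1 W2 u)
    (hfar : ∀ N : M → W, ContMDiff 𝓘(ℝ, V) 𝓘(ℝ, W) ∞ N → (∀ x, IsUnitNormal V F x (N x)) →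
      ‖∫ x, N x ∂(volM V F)‖ ≤ sphereVol (finrank ℝ V) →
      (volM V F).real univ ≤ leastClifford (finrank ℝ V) →
      ‖∫ x, N x ∂(volM V F)‖ < ν * (volM V F).real univ)
    {gp : ℝ} (hgp : 1 / (3 * (finrank ℝ V : ℝ) ^ 3) ≤ gp)
    (hnear : ∀ (N : M → W) (b : OrthonormalBasis (Fin (finrank ℝ W)) ℝ W)
      (j : Fin (finrank ℝ W) → ℝ), NearData V F N b j ν → NearOut V F N b j gp h1 d1)
    (hodd : ∀ (N : M → W) (b : OrthonormalBasis (Fin (finrank ℝ W)) ℝ W)
      (j : Fin (finrank ℝ W) → ℝ), NearData V F N b j ν →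
      hh (nrm (volM V F)) (Matrix.diagonal j) (co b F) (co b N) ≤ h1 →
      √(fro (De (nrm (volM V F)) (co b F) (co b N))) ≤ d1 →
      NearAtOdd V F N d ε0 r0 W1 W2 u) :
    ENNReal.ofReal (leastClifford (finrank ℝ V)) ≤ volM V F univ := by
  have hle : leastClifford (finrank ℝ V) = oddRatio h * sphereVol (finrank ℝ V) := by
    rw [RIG.leastClifford_eq (by omega), hV, ← clifford_odd]
    congr 1
    omega
  refine odd_final (by omega) hV hW hF hmin hng hfl.hr hfl.hr2 hfl.hd hfl.sys hfl.lim0 hfl.lim1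
    hfl.hlam hfl.hε0 hfl.hc hfl.hW1 hfl.hW2 ?_
  intro N hNs hN hinj htop hlt h65
  have hS0 : 0 < sphereVol (finrank ℝ V) := sphereVol_pos' _
  have hA0 : 0 < (volM V F).real univ := by linarith
  rw [← hle] at hlt
  have hfr := hfar N hNs hN htop hlt.le
  obtain ⟨b, j, h0, hL⟩ := exists_eigen (by omega) hW hF hmin hNs hN
  have hd : NearData V F N b j ν := ⟨hNs, hN, hinj, h0, hL, by
    rw [sqrt_uu hF hNs hA0 b, div_lt_iff₀ hA0]
    exact hfr⟩
  rcases hnear N b j hd with hc | hc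
  · exfalso
    have hg := H433.gap h8
    have em : (finrank ℝ V : ℝ) = 2 * h + 1 := by
      rw [hV]
      push_cast
      ring
    rw [em] at hgp
    have h1 : 1 < oddRatio h * (sphereVol (finrank ℝ V) / (volM V F).real univ) := by
      rw [← mul_div_assoc, one_lt_div hA0, ← hle]
      exact hlt
    have eL : lamM (finrank ℝ V) = lamM (2 * h + 1) := by rw [hV]
    rw [eL] at hc
    set q := sphereVol (finrank ℝ V) / (volM V F).real univ with hq
    have hq0 : 0 ≤ q := div_nonneg hS0.le hA0.le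
    have h2 := mul_le_mul_of_nonneg_right hg hq0
    have h4 : 0 < 1 - 1 / (3 * (2 * (h : ℝ) + 1) ^ 3) := by
      have h5 : (1 : ℝ) < 3 * (2 * (h : ℝ) + 1) ^ 3 := by
        have : (1 : ℝ) ≤ (2 * (h : ℝ) + 1) ^ 3 := one_le_pow₀ (by
          have : (0 : ℝ) ≤ h := Nat.cast_nonneg h
          linarith only [this])
        linarith only [this]
      have := (div_lt_one (by positivity : (0 : ℝ) < 3 * (2 * (h : ℝ) + 1) ^ 3)).2 h5
      linarith only [this]
    have h6 : 0 < (1 - 1 / (3 * (2 * (h : ℝ) + 1) ^ 3)) * (oddRatio h * q - 1) :=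
      mul_pos h4 (by linarith only [h1])
    linarith only [h2, h6, hc, hgp]
  · exact hodd N b j hd hc.1 hc.2

end

end Vale.Agent.P224.R2.H178
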