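import Vale.Agent.P224.R2.H178.M3

/-!
The core theorem and the theorem in dimension three from an abstract law.
-/

namespace Vale.Agent.P224.R2.H178

open MeasureTheory Set Filter Function Module Vale.Agent.P224 Vale.Agent.P224.UE
open Vale.Agent.P224.PO
open Vale.Agent.P224.SM2 hiding ker
open scoped Topology RealInnerProductSpace ENNReal ContDiff Manifold

set_option linter.unusedSectionVars false

section

variable {V W M : Type*} [NormedAddCommGroup V] [InnerProductSpace ℝ V] [FiniteDimensional ℝ V]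
  [NormedAddCommGroup W] [InnerProductSpace ℝ W] [FiniteDimensional ℝ W]
  [TopologicalSpace M] [ChartedSpace V M]
  [MeasurableSpace V] [BorelSpace V] [MeasurableSpace M] [BorelSpace M]
  [IsManifold 𝓘(ℝ, V) ∞ M] [CompactSpace M] [T2Space M] [ConnectedSpace M]
  [MeasurableSpace W] [BorelSpace W]

/-- the law of the certificate with a parameter: `C S A + ∫∫ RT ≤ A ^ 2 + γ |∫ N| ^ 2` for every
normal of an embedded minimal hypersurface -/
def LawTP (V : Type*) {W M : Type*} [NormedAddCommGroup V] [InnerProductSpace ℝ V]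
    [FiniteDimensional ℝ V] [NormedAddCommGroup W] [InnerProductSpace ℝ W] [FiniteDimensional ℝ W]
    [TopologicalSpace M] [ChartedSpace V M] [MeasurableSpace V] [BorelSpace V]
    [MeasurableSpace M] [BorelSpace M] [MeasurableSpace W] [BorelSpace W]
    (m : ℕ) (F : M → W) (C γ : ℝ) (RT : R9 → ℝ) : Prop :=
  ∀ (N : M → W) (B : ℝ), ContMDiff 𝓘(ℝ, V) 𝓘(ℝ, W) ∞ N → (∀ x, IsUnitNormal V F x (N x)) →
    EmbD (volM V F) m F N B (sphereVol m) →
    C * sphereVol m * (volM V F).real univ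
        + ∫ q, RT (dat F N 0 q) ∂((volM V F).prod (volM V F))
      ≤ (volM V F).real univ ^ 2 + γ * ‖∫ x, N x ∂(volM V F)‖ ^ 2

/-- the mean normal is small -/
def SmallNN (V : Type*) {W M : Type*} [NormedAddCommGroup V] [InnerProductSpace ℝ V]
    [FiniteDimensional ℝ V] [NormedAddCommGroup W] [InnerProductSpace ℝ W] [FiniteDimensional ℝ W]
    [TopologicalSpace M] [ChartedSpace V M] [MeasurableSpace V] [BorelSpace V]
    [MeasurableSpace M] [BorelSpace M] [MeasurableSpace W] [BorelSpace W]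
    (m : ℕ) (F : M → W) (C u0 : ℝ) : Prop :=
  ∀ (N : M → W) (B : ℝ), ContMDiff 𝓘(ℝ, V) 𝓘(ℝ, W) ∞ N → (∀ x, IsUnitNormal V F x (N x)) →
    EmbD (volM V F) m F N B (sphereVol m) →
    0 ≤ ∫ q : M × M, ⟪F q.1, F q.2⟫ * ⟪F q.1, N q.2⟫ ∂((volM V F).prod (volM V F)) →
    ‖∫ x, N x ∂(volM V F)‖ ≤ sphereVol m →
    (volM V F).real univ ≤ C * sphereVol m →
    ‖∫ x, N x ∂(volM V F)‖ ^ 2 < u0 * ((volM V F).real univ) ^ 2

/-- the stable resource: `RT` is evaluated at the opposite normal -/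
def StabTN (V : Type*) {W M : Type*} [NormedAddCommGroup V] [InnerProductSpace ℝ V]
    [FiniteDimensional ℝ V] [NormedAddCommGroup W] [InnerProductSpace ℝ W] [FiniteDimensional ℝ W]
    [TopologicalSpace M] [ChartedSpace V M] [MeasurableSpace V] [BorelSpace V]
    [MeasurableSpace M] [BorelSpace M] [MeasurableSpace W] [BorelSpace W]
    (m cd : ℕ) (α : ℝ) (F : M → W) (RT : R9 → ℝ) (kT tT : ℝ) : Prop :=
  ∀ N : M → W, ContMDiff 𝓘(ℝ, V) 𝓘(ℝ, W) ∞ N → (∀ x, IsUnitNormal V F x (N x)) →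
    TwoG (volM V F) m F N →
    0 ≤ ∫ q : M × M, ⟪F q.1, F q.2⟫ * ⟪F q.1, N q.2⟫ ∂((volM V F).prod (volM V F)) →
    ∫ q, RT (dat F (fun x => -N x) 0 q) ∂((volM V F).prod (volM V F))
      < tT * (volM V F).real univ ^ 2 →
    ∃ (b : OrthonormalBasis (Fin (m + 2)) ℝ W) (S : Finset (Fin (m + 2))), S.card = cd ∧
      kT * ((volM V F).real univ * ∫ x, ‖devA α b S (F x) (N x)‖ ^ 2 ∂(volM V F))
        ≤ ∫ q, RT (dat F (fun x => -N x) 0 q) ∂((volM V F).prod (volM V F))

/-- **The sharp bound and its equality case in odd dimension**, from the law of the certificate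
with a parameter, the stable resource and the bound of the mean normal. -/
theorem core_abs {m h : ℕ} (hmh : m = 2 * h + 1) (hm : 1 ≤ h) (hV : finrank ℝ V = m)
    (hW : finrank ℝ W = finrank ℝ V + 2)
    {F : M → W} (hF : SphImm V F) (hmin : ∀ x n, IsUnitNormal V F x n → meanCurv V F x n = 0)
    {C : ℝ} (hC2 : C < 2) (hA0 : 0 < (volM V F).real univ)
    -- the law of the certificate with a parameter
    {γ : ℝ} (hγ : 0 < γ) {RT : R9 → ℝ} (hT : LawTP V m F C γ RT)
    -- the mean normal is small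
    {u0 : ℝ} (hsmall : SmallNN V m F C u0)
    -- the stable resource
    {α kT tT : ℝ} {cd : ℕ} (hkT : 0 < kT) (hsT : StabTN V m cd α F RT kT tT)
    -- the bound of the mean normal
    {K : ℝ} (hK : 0 < K)
    (hone : ∀ N : M → W, ContMDiff 𝓘(ℝ, V) 𝓘(ℝ, W) ∞ N → (∀ x, IsUnitNormal V F x (N x)) →
      TwoG (volM V F) m F N → ∀ (b : OrthonormalBasis (Fin (m + 2)) ℝ W)
      (S : Finset (Fin (m + 2))), S.card = cd →
      ‖∫ x, N x ∂(volM V F)‖ ≤ K * ∫ x, ‖devA α b S (F x) (N x)‖ ^ 2 ∂(volM V F))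
    (hn1 : γ * u0 ≤ tT) (hn2 : (K * γ) ^ 2 * u0 ≤ kT ^ 2)
    (hle : (volM V F).real univ ≤ C * sphereVol m) :
    (volM V F).real univ = C * sphereVol m ∧ Injective F ∧
      ∃ (N : M → W) (b : OrthonormalBasis (Fin (m + 2)) ℝ W) (S : Finset (Fin (m + 2))),
        ContMDiff 𝓘(ℝ, V) 𝓘(ℝ, W) ∞ N ∧ (∀ x, IsUnitNormal V F x (N x)) ∧ S.card = cd ∧
        ∀ x, N x = ∑ i, ((if i ∈ S then α else -(1 / α)) * ⟪F x, b i⟫) • b i := by
  have hm0 : 0 < finrank ℝ V := by omega
  have hfin : IsFiniteMeasure (volM V F) := isFiniteMeasure_volM hF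
  have hne : Nonempty M := inferInstance
  set A := (volM V F).real univ with hA
  set S := sphereVol m with hS
  have hS0 : 0 < S := sphereVol_pos' _
  have hSV : sphereVol (finrank ℝ V) = S := by rw [hV]
  have hinj : Injective F := by
    by_contra hinj
    have h2 := TwoSide.two_le (by omega) hW hF hmin hinj
    rw [hSV] at h2
    have h3 := mul_lt_mul_of_pos_right hC2 hS0
    linarith
  obtain ⟨N, hNs, hN, htop, hor⟩ := exists_normal_or hW hm0 hF hinj
  rw [hSV] at htop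
  obtain ⟨B, hE⟩ := embD_of_inj hm0 hW hF hmin hNs hN hinj
  rw [hSV, hV] at hE
  have hG := hE.toTwoG
  -- the opposite normal
  have hN' : ∀ x, IsUnitNormal V F x (-N x) := fun x =>
    ⟨by rw [norm_neg]; exact (hN x).1, by rw [inner_neg_right, (hN x).2.1, neg_zero],
      fun i => by rw [inner_neg_right, (hN x).2.2 i, neg_zero]⟩
  obtain ⟨B', hE'⟩ := embD_of_inj hm0 hW hF hmin hNs.neg hN' hinj
  rw [hSV, hV] at hE'
  have hG' := hE'.toTwoG
  set e : W := A⁻¹ • ∫ x, N x ∂(volM V F) with he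
  have he' : A • e = ∫ x, N x ∂(volM V F) := by
    rw [he, smul_smul, mul_inv_cancel₀ hA0.ne', one_smul]
  have hn : ‖∫ x, N x ∂(volM V F)‖ = A * ‖e‖ := by
    rw [← he', norm_smul, Real.norm_eq_abs, abs_of_pos hA0]
  have hn' : ‖∫ x, -N x ∂(volM V F)‖ = A * ‖e‖ := by
    rw [integral_neg, norm_neg, hn]
  rw [hn] at htop
  have hA2 : 0 < A ^ 2 := by positivity
  have hint : ∀ {H : R9 → ℝ} (n : M → W) (v : W), TwoG (volM V F) m F n → Continuous H →
      Integrable (fun q => H (dat F n v q)) ((volM V F).prod (volM V F)) :=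
    fun n v hg hH => integrable_param _ (measurable_dat hg.toPts v) (isCompact_KE (bE v))
      (dat_mem hg.toPts v) hH.measurable hH.continuousOn
  -- the mean normal is small
  have hu : ‖e‖ ^ 2 < u0 := by
    have h1 := hsmall N B hNs hN hE hor (by rw [hn]; exact htop) hle
    rw [hn, ← hA] at h1
    have h2 : A ^ 2 * ‖e‖ ^ 2 < A ^ 2 * u0 := by
      calc A ^ 2 * ‖e‖ ^ 2 = (A * ‖e‖) ^ 2 := by ring
        _ < u0 * A ^ 2 := h1
        _ = A ^ 2 * u0 := mul_comm _ _
    exact lt_of_mul_lt_mul_left h2 hA2.le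
  -- the law with a parameter
  have key2 := hT (fun x => -N x) B' hNs.neg hN' hE'
  rw [hn', ← hA] at key2
  set R := ∫ q, RT (dat F (fun x => -N x) (0 : W) q) ∂((volM V F).prod (volM V F)) with hR
  have hk3 : R ≤ γ * (‖e‖ ^ 2 * A ^ 2) - (C * S * A - A ^ 2) := by
    have h6 : (A * ‖e‖) ^ 2 = ‖e‖ ^ 2 * A ^ 2 := by ring
    rw [h6] at key2
    linarith
  have hCA : A ^ 2 ≤ C * S * A := by
    have := mul_le_mul_of_nonneg_right hle hA0.le
    linarith [sq A]
  have hk4 : R ≤ γ * (‖e‖ ^ 2 * A ^ 2) := by linarith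
  have hRs : R < tT * A ^ 2 := by
    have h6 : ‖e‖ ^ 2 * A ^ 2 < u0 * A ^ 2 := mul_lt_mul_of_pos_right hu hA2
    have h7 := mul_lt_mul_of_pos_left h6 hγ
    have h9 := mul_le_mul_of_nonneg_right hn1 hA2.le
    linarith
  obtain ⟨b, S', hS4, hD⟩ := hsT N hNs hN hG hor hRs
  set D := ∫ x, ‖devA α b S' (F x) (N x)‖ ^ 2 ∂(volM V F) with hDd
  have hD0 : 0 ≤ D := integral_nonneg fun x => by positivity
  have hone' := hone N hNs hN hG b S' hS4
  rw [hn, ← hDd] at hone'
  -- the mean normal vanishes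
  have he0 : ‖e‖ = 0 := arithTo hA0 hkT hK.le (norm_nonneg e) hk4 hD hone' hu hn2 hγ hK
  rw [he0] at hk3
  have hR0' : 0 ≤ R := by
    have : 0 ≤ kT * (A * D) := by positivity
    linarith
  have hAC : A = C * S := by
    have h7 : C * S * A - A ^ 2 ≤ 0 := by linarith
    have h8 : A * (C * S) ≤ A * A := by linarith [sq A]
    exact le_antisymm hle (le_of_mul_le_mul_left h8 hA0)
  have hDz : D = 0 := by
    have h6 : (kT * A) * D ≤ (kT * A) * 0 := by
      have h9 : (kT * A) * D = kT * (A * D) := by ring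
      rw [h9]
      rw [hAC] at hk3
      have h10 : R ≤ 0 := by linarith
      linarith
    exact le_antisymm (le_of_mul_le_mul_left h6 (by positivity)) hD0
  refine ⟨hAC, hinj, N, b, S', hNs, hN, hS4, fun x => ?_⟩
  have hcF : Continuous F := hF.smooth.continuous
  have hcN : Continuous N := hNs.continuous
  have hop : (volM V F).IsOpenPosMeasure :=
    ⟨fun U hU hne => (volM_pos_of_isOpen hW hF hU hne).ne'⟩
  have hcd : Continuous fun x => ‖devA α b S' (F x) (N x)‖ ^ 2 := by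
    unfold devA
    fun_prop
  have hi : Integrable (fun x => ‖devA α b S' (F x) (N x)‖ ^ 2) (volM V F) :=
    FV.integrable_of_cont (volM V F) hcd
  have hz := (integral_eq_zero_iff_of_nonneg (fun x => by positivity) hi).1 (hDd ▸ hDz)
  have hz2 : (fun x => ‖devA α b S' (F x) (N x)‖ ^ 2) = fun _ => (0 : ℝ) :=
    (Continuous.ae_eq_iff_eq (volM V F) hcd continuous_const).1 hz
  have h6 : ‖devA α b S' (F x) (N x)‖ ^ 2 = 0 := congrFun hz2 x
  rw [pow_eq_zero_iff two_ne_zero, norm_eq_zero] at h6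
  unfold devA at h6
  exact sub_eq_zero.1 h6


/-- **Dimension three**: the sharp bound and its case of equality, from an abstract law. -/
theorem three_abs (hV : finrank ℝ V = 3) (hW : finrank ℝ W = finrank ℝ V + 2)
    {F : M → W} (hF : SphImm V F) (hmin : ∀ x n, IsUnitNormal V F x n → meanCurv V F x n = 0)
    (hng : ¬ ∃ a : W, a ≠ 0 ∧ ∀ x, ⟪F x, a⟫ = 0)
    {γ : ℝ} (hγ : 0 < γ) {RT : R9 → ℝ} (hT : LawTP V 3 F (8 / 3 * √(1 / 3)) γ RT)
    -- the mean normal is small
    {u0 : ℝ} (hsmall : SmallNN V 3 F (8 / 3 * √(1 / 3)) u0)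
    -- the stable resource
    {kT tT : ℝ} (hkT : 0 < kT) (hsT : StabTN V 3 3 (√2 / 2) F RT kT tT)
    (hn1 : γ * u0 ≤ tT) (hn2 : (29 / 10 * γ) ^ 2 * u0 ≤ kT ^ 2) :
    ENNReal.ofReal (leastClifford 3) ≤ volM V F Set.univ ∧
      (volM V F Set.univ = ENNReal.ofReal (leastClifford 3) ↔
        Function.Injective F ∧ ∃ U : Submodule ℝ W, finrank ℝ U = 3 / 2 + 1 ∧
          Set.range F = {z | ‖U.starProjection z‖ ^ 2 = ((3 / 2 : ℕ) : ℝ) / ((3 : ℕ) : ℝ) ∧
            ‖z - U.starProjection z‖ ^ 2 = ((3 - 3 / 2 : ℕ) : ℝ) / ((3 : ℕ) : ℝ)}) := by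
  have hfin : IsFiniteMeasure (volM V F) := isFiniteMeasure_volM hF
  have hne : Nonempty M := inferInstance
  have ha : (0 : ℝ) < √2 / 2 := by positivity
  have ha2 : (√(2 : ℝ) / 2) ^ 2 * (((1 : ℕ) : ℝ) + 1) = ((1 : ℕ) : ℝ) := by
    rw [div_pow, Real.sq_sqrt (by norm_num)]
    norm_num
  have hA0 : 0 < (volM V F).real univ := by
    rw [measureReal_def]
    exact ENNReal.toReal_pos (volM_pos_of_isOpen hW hF isOpen_univ univ_nonempty).ne'
      (measure_ne_top _ _)
  exact RIG.iff_of_core' (m := 3) (h := 1) (by norm_num) (by norm_num) hV hW hF ha ha2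
    least3_eq (fun hle => core_abs (m := 3) (h := 1) (by norm_num) (by norm_num) hV hW hF hmin
      a3_lt_two hA0 hγ hT hsmall hkT hsT (K := 29 / 10) (by norm_num)
      (fun N _ _ hN b S _ => hone3 hN (sp_of_hng hng) b S) hn1 hn2 hle)

end

end Vale.Agent.P224.R2.H178
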