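import Vale.Agent.P224.R2.H728.Nc
import Vale.Agent.P224.R2.H742.QT3
import Vale.Agent.P224.R2.H742.LawO

/-!
The scalar inequality of the near law in odd dimension in the small box.
-/

namespace Vale.Agent.P224.R2.H178

open MeasureTheory Set Filter Function Real Finset Matrix Vale.Agent.P224.R2.H582
  Vale.Agent.P224.R2.H728 Vale.Agent.P224.R2.H742

set_option linter.unusedSectionVars false

section

variable {ι Ω : Type*} [Fintype ι] [DecidableEq ι] [MeasurableSpace Ω] {μ : Measure Ω}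
  {m : ℝ} {x N : ι → Ω → ℝ} {j : ι → ℝ}

lemma tc_s3 (A : ι → ι → ι → ℝ) : tc A A = s3 fun a b c => A a b c ^ 2 := by
  unfold tc s3
  exact Finset.sum_congr rfl fun a _ => Finset.sum_congr rfl fun b _ =>
    Finset.sum_congr rfl fun c _ => by ring

lemma nX_sq : tc (m3 μ x x x) (m3 μ x x x) = nX μ x ^ 2 := by
  rw [tc_s3]
  unfold nX
  rw [Real.sq_sqrt (s3_nonneg fun a b c => sq_nonneg _)]

lemma qm_zero (δ : ℝ) : qm μ δ x N 0 = Q2 μ δ x N := by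
  unfold qm Q2
  simp only [pow_zero, one_mul]

lemma qm_one (δ : ℝ) : qm μ δ x N 1 = ∫ q, ip x x q.1 q.2 * qf δ x N q ^ 2 ∂(μ.prod μ) := by
  unfold qm
  simp only [pow_one]

/-- the constant of the contraction term on the box -/
noncomputable def Cx (m ρ ω n r s η : ℝ) : ℝ :=
  8 / (m * (m + 1)) * (ρ * ω * n + 2 * ω * (r + s / (m + 2)) + ρ * η)

/-- the constant of the bound of the third moments on the box -/
noncomputable def Px (m ρ ω n r h1 Ke : ℝ) : ℝ :=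
  2 * (kq m + Ke ^ 2 * h1 / (m + 2)) + 2 * n + Cx m ρ ω n r (Ke * h1) h1 * Ke

/-- the facts on the third moments in the box -/
theorem box_facts (h : T0Data μ m x N) (hm : 17 ≤ m)
    {h1 ρ ω Ke n r : ℝ} (hρ : 0 ≤ ρ) (hω : 0 ≤ ω) (hj : ∀ a, |j a| ≤ ρ)
    (hw : ∑ b, (j b ^ 2 - 1) ^ 2 ≤ ω ^ 2)
    (hr : 0 ≤ r) (hr2 : kq m * h1 ≤ r ^ 2) (hn : 0 < n) (hKe : 0 ≤ Ke)
    (hnX : (2 * h1 + 8 / (m * (m + 1)) * (Ke * h1) * (ρ * ω)) * n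
      + (2 * (kq m * h1 + (Ke * h1) ^ 2 / (m + 2))
        + 8 / (m * (m + 1)) * (Ke * h1) * (2 * ω * (r + (Ke * h1) / (m + 2)) + ρ * h1))
      ≤ (m + 2) * n ^ 2)
    (hh1 : hh μ (diagonal j) x N ≤ h1)
    (hu : √(uu μ N) ≤ Ke * hh μ (diagonal j) x N) :
    uu μ N ≤ Ke ^ 2 * h1 * hh μ (diagonal j) x N ∧ nX μ x ≤ n ∧
      4 / (m + 1) * |∑ b, m1 μ N b * xi μ j x b|
        ≤ Cx m ρ ω n r (Ke * h1) h1 * Ke * hh μ (diagonal j) x N ∧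
      2 * (s3 fun a b c => m3 μ N x x a b c ^ 2) + (m + 2) * nX μ x ^ 2
        ≤ Px m ρ ω n r h1 Ke * hh μ (diagonal j) x N ∧
      0 ≤ Cx m ρ ω n r (Ke * h1) h1 ∧ 0 ≤ Px m ρ ω n r h1 Ke := by
  have hm0 : 0 < m := by linarith only [hm]
  set H := hh μ (diagonal j) x N with hHd
  have hH : 0 ≤ H := h.hh_nonneg _
  have hh10 : 0 ≤ h1 := hH.trans hh1
  have hs : √(uu μ N) ≤ Ke * h1 := hu.trans (mul_le_mul_of_nonneg_left hh1 hKe)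
  have hs0 : 0 ≤ √(uu μ N) := Real.sqrt_nonneg _
  have huu : 0 ≤ uu μ N := h.uu_nonneg
  have huH : uu μ N ≤ Ke ^ 2 * h1 * H := by
    have e1 := Real.sq_sqrt huu
    have e2 : √(uu μ N) ^ 2 ≤ (Ke * H) ^ 2 := pow_le_pow_left₀ hs0 hu 2
    have e3 : (Ke * H) ^ 2 ≤ Ke ^ 2 * h1 * H := by
      calc (Ke * H) ^ 2 = Ke ^ 2 * (H * H) := by ring
        _ ≤ Ke ^ 2 * (h1 * H) :=
          mul_le_mul_of_nonneg_left (mul_le_mul_of_nonneg_right hh1 hH) (sq_nonneg _)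
        _ = _ := by ring
    linarith only [e1, e2, e3]
  have hnX' : nX μ x ≤ n := h.nX_cell hm0 j hρ hω hj hw hr hr2 hs hh1 hn hnX
  have hXi := h.xi_cell hm0 j hρ hω hj hw hnX' hr hr2 hs hh1
  set Ξ := 4 / (m + 1) * |∑ b, m1 μ N b * xi μ j x b| with hΞ
  set C := Cx m ρ ω n r (Ke * h1) h1 with hC
  have hG0 : 0 ≤ 8 / (m * (m + 1)) := by positivity
  have hC0 : 0 ≤ C := by
    rw [hC]
    unfold Cx
    positivity
  have hXi' : Ξ ≤ C * Ke * H := by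
    have e1 : Ξ ≤ C * √(uu μ N) := hXi
    have e2 : C * √(uu μ N) ≤ C * (Ke * H) := mul_le_mul_of_nonneg_left hu hC0
    linarith only [e1, e2]
  have hN := h.Nxx_le hm0.le j
  rw [← hΞ, ← hHd] at hN
  have hnH : nX μ x * H ≤ n * H := mul_le_mul_of_nonneg_right hnX' hH
  set P := Px m ρ ω n r h1 Ke with hP
  have hPd : P = 2 * (kq m + Ke ^ 2 * h1 / (m + 2)) + 2 * n + C * Ke := rfl
  have hum : uu μ N / (m + 2) ≤ Ke ^ 2 * h1 / (m + 2) * H := by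
    have := div_le_div_of_nonneg_right huH (by linarith only [hm0] : 0 ≤ m + 2)
    refine this.trans_eq ?_
    ring
  refine ⟨huH, hnX', hXi', ?_, hC0, ?_⟩
  · rw [hPd]
    have e1 : (2 * (kq m + Ke ^ 2 * h1 / (m + 2)) + 2 * n + C * Ke) * H
        = 2 * (kq m * H + Ke ^ 2 * h1 / (m + 2) * H) + 2 * (n * H) + C * Ke * H := by ring
    rw [e1]
    linarith only [hN, hum, hnH, hXi']
  · rw [hPd]
    have := kq_nonneg hm0.le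
    positivity

/-- the real inequality of the box -/
lemma box_alg {m δ δU h1 qc Ke η b1 kk V0L V1U σ w2U rel r0U n P C pen kqm H u Y X2 Ξ q0 q1 qa Qp
    Qs nx r0' w1 w2 I0 I1 Ik V0 V1 τ : ℝ} (hm : 17 ≤ m) (hδ : 0 ≤ δ) (hδU : δ ≤ δU)
    (hη : 0 < η) (hb1 : 0 ≤ b1) (hkk : 0 ≤ kk) (hVw : w2U ≤ V0L)
    (hσ : 0 ≤ σ) (hr0U : 0 ≤ r0U) (hpen : 0 ≤ pen) (hpen2 : 2 * kqm - σ * qc ≤ pen)
    (hH : 0 ≤ H) (hu0 : 0 ≤ u) (huH : u ≤ Ke ^ 2 * h1 * H) (hY : 0 ≤ Y) (hX2 : 0 ≤ X2)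
    (hPH : 2 * Y + (m + 2) * X2 ≤ P * H) (hC0 : 0 ≤ C) (hKe : 0 ≤ Ke) (hn : 0 ≤ n)
    (hh10 : 0 ≤ h1) (hΞ : Ξ ≤ C * Ke * H) (hnx : nx ≤ n)
    (hq0 : 0 ≤ q0) (k1 : -(2 + 3 * δ ^ 2) * Y - 2 * δ ^ 2 * (u / (m + 1)) ≤ q1)
    (k2 : qa ≤ η * q0 + (3 / η + 4) * (((m + 2) / 2) ^ 2 * X2 + Y) + 1 / 4 * (u / (m + 1)))
    (hqc : 0 ≤ qc) (hQ : qc * H ≤ Qp) (hs1 : -(2 * kqm * H + 2 * nx * H + Ξ) ≤ Qs)
    (hnum : b1 * ((2 + 3 * δU ^ 2) * (P / 2) + 2 * δU ^ 2 * (Ke ^ 2 * h1 / (m + 1)))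
      + kk * ((3 / η + 4) * ((m + 2) / 4 * P) + 1 / 4 * (Ke ^ 2 * h1 / (m + 1)))
      + V1U * (pen + 2 * n + C * Ke) + rel + r0U * (Ke ^ 2 * h1) ≤ (V0L - w2U) * qc)
    (hI0 : w1 + η * Ik ≤ I0) (hI1 : 0 ≤ I1) (hI1b : I1 ≤ b1)
    (hIk : 0 ≤ Ik) (hIkk : Ik ≤ kk) (hV0 : V0L ≤ V0) (hV1 : 0 ≤ V1U) (hV1' : V1 ≤ V1U)
    (hw2' : w2 ≤ w2U) (hτ : τ ≤ rel * H) (hr0' : r0' ≤ r0U) :
    r0' * u + w1 * q0 + w2 * Qp ≤ I0 * q0 + I1 * q1 - Ik * qa + V0 * Qp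
        + V1 * min (Qs + σ * Qp) 0 - τ := by
  have hm1 : 0 < m + 1 := by linarith only [hm]
  have hum1 : u / (m + 1) ≤ Ke ^ 2 * h1 / (m + 1) * H := by
    have := div_le_div_of_nonneg_right huH hm1.le
    refine this.trans_eq ?_
    ring
  have hum0 : 0 ≤ u / (m + 1) := div_nonneg hu0 hm1.le
  have a1 : ((m + 2) / 2) ^ 2 * X2 + Y ≤ (m + 2) / 4 * (P * H) := by
    have e1 : ((m + 2) / 2) ^ 2 * X2 + Y
        = (m + 2) / 4 * ((m + 2) * X2) + 1 / 2 * (2 * Y) := by ring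
    have e2 : 1 / 2 * (2 * Y) ≤ (m + 2) / 4 * (2 * Y) :=
      mul_le_mul_of_nonneg_right (by linarith only [hm]) (by linarith only [hY])
    have e3 := mul_le_mul_of_nonneg_left hPH (by linarith only [hm] : 0 ≤ (m + 2) / 4)
    linarith only [e1, e2, e3]
  have hX2' : 0 ≤ (m + 2) * X2 := mul_nonneg (by linarith only [hm]) hX2
  have a2 : Y ≤ P / 2 * H := by linarith only [hX2', hPH]
  have hδsq : δ ^ 2 ≤ δU ^ 2 := pow_le_pow_left₀ hδ hδU 2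
  have hδ2 := sq_nonneg δ
  have hKh : 0 ≤ Ke ^ 2 * h1 / (m + 1) := by positivity
  have a3 : (2 + 3 * δ ^ 2) * Y + 2 * δ ^ 2 * (u / (m + 1))
      ≤ ((2 + 3 * δU ^ 2) * (P / 2) + 2 * δU ^ 2 * (Ke ^ 2 * h1 / (m + 1))) * H := by
    have e1 : (2 + 3 * δ ^ 2) * Y ≤ (2 + 3 * δU ^ 2) * (P / 2 * H) :=
      mul_le_mul (by linarith only [hδsq]) a2 hY (by linarith only [hδsq, hδ2])
    have e2 : 2 * δ ^ 2 * (u / (m + 1)) ≤ 2 * δU ^ 2 * (Ke ^ 2 * h1 / (m + 1) * H) :=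
      mul_le_mul (by linarith only [hδsq]) hum1 hum0 (by linarith only [hδsq, hδ2])
    linarith only [e1, e2]
  have hcp : 0 ≤ 3 / η + 4 := by positivity
  have a4 : (3 / η + 4) * (((m + 2) / 2) ^ 2 * X2 + Y) + 1 / 4 * (u / (m + 1))
      ≤ ((3 / η + 4) * ((m + 2) / 4 * P) + 1 / 4 * (Ke ^ 2 * h1 / (m + 1))) * H := by
    have e1 := mul_le_mul_of_nonneg_left a1 hcp
    linarith only [e1, hum1]
  have t1 : -(b1 * (((2 + 3 * δU ^ 2) * (P / 2) + 2 * δU ^ 2 * (Ke ^ 2 * h1 / (m + 1))) * H))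
      ≤ I1 * q1 := by
    have e0 : -((2 + 3 * δ ^ 2) * Y + 2 * δ ^ 2 * (u / (m + 1))) ≤ q1 := by linarith only [k1]
    have e1 : 0 ≤ (2 + 3 * δ ^ 2) * Y + 2 * δ ^ 2 * (u / (m + 1)) := by positivity
    have e2 := mul_le_mul_of_nonneg_left e0 hI1
    have e3 : I1 * ((2 + 3 * δ ^ 2) * Y + 2 * δ ^ 2 * (u / (m + 1)))
        ≤ b1 * (((2 + 3 * δU ^ 2) * (P / 2) + 2 * δU ^ 2 * (Ke ^ 2 * h1 / (m + 1))) * H) :=
      mul_le_mul hI1b a3 e1 hb1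
    linarith only [e2, e3]
  have t2 : -(η * Ik * q0) - kk * (((3 / η + 4) * ((m + 2) / 4 * P)
      + 1 / 4 * (Ke ^ 2 * h1 / (m + 1))) * H) ≤ -(Ik * qa) := by
    have e1 := mul_le_mul_of_nonneg_left k2 hIk
    have e2 : 0 ≤ (3 / η + 4) * (((m + 2) / 2) ^ 2 * X2 + Y) + 1 / 4 * (u / (m + 1)) := by
      positivity
    have e3 : Ik * ((3 / η + 4) * (((m + 2) / 2) ^ 2 * X2 + Y)
        + 1 / 4 * (u / (m + 1))) ≤ kk * (((3 / η + 4) * ((m + 2) / 4 * P)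
      + 1 / 4 * (Ke ^ 2 * h1 / (m + 1))) * H) := mul_le_mul hIkk a4 e2 hkk
    linarith only [e1, e3]
  have t3 : (V0L - w2U) * qc * H ≤ (V0 - w2) * Qp := by
    have e1 : V0L - w2U ≤ V0 - w2 := by linarith only [hV0, hw2']
    calc (V0L - w2U) * qc * H = (V0L - w2U) * (qc * H) := by ring
      _ ≤ (V0 - w2) * Qp :=
        mul_le_mul e1 hQ (mul_nonneg hqc hH) (by linarith only [hV0, hw2', hVw])
  have t4 : -(V1U * ((pen + 2 * n + C * Ke) * H)) ≤ V1 * min (Qs + σ * Qp) 0 := by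
    have hpc : 0 ≤ (pen + 2 * n + C * Ke) * H := by positivity
    have e1 : -((pen + 2 * n + C * Ke) * H) ≤ min (Qs + σ * Qp) 0 := by
      refine le_min ?_ ?_
      · have e2 : σ * (qc * H) ≤ σ * Qp := mul_le_mul_of_nonneg_left hQ hσ
        have e3 := mul_le_mul_of_nonneg_right hpen2 hH
        have e5 := mul_le_mul_of_nonneg_right hnx hH
        linarith only [e2, e3, e5, hs1, hΞ]
      · linarith only [hpc]
    have e3 := mul_le_mul_of_nonneg_left e1 hV1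
    have e4 := mul_le_mul_of_nonpos_right hV1' (min_le_right (Qs + σ * Qp) 0)
    linarith only [e3, e4]
  have t5 : r0' * u ≤ r0U * (Ke ^ 2 * h1) * H := by
    have e1 := mul_le_mul hr0' huH hu0 hr0U
    linarith only [e1]
  have t6 : w1 * q0 + η * Ik * q0 ≤ I0 * q0 := by
    have := mul_le_mul_of_nonneg_right hI0 hq0
    linarith only [this]
  have hfin := mul_le_mul_of_nonneg_right hnum hH
  linarith only [t1, t2, t3, t4, t5, t6, hfin, hτ]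

/-- **The scalar inequality in the small box.** -/
theorem box_real (h : T0Data μ m x N) (hm : 17 ≤ m) (hL : LSq μ (diagonal j) x N)
    {δ δU h1 d1 ρ ω Ke η b1 kk V0L V1U σ w2U rel r0U n r pen : ℝ}
    (hδ : 0 ≤ δ) (hδU : δ ≤ δU) (hδ16 : δU ≤ 1 / 16) (hd1 : d1 ≤ 1)
    (hρ : 0 ≤ ρ) (hω : 0 ≤ ω) (hj : ∀ a, |j a| ≤ ρ) (hw : ∑ b, (j b ^ 2 - 1) ^ 2 ≤ ω ^ 2)
    (hr : 0 ≤ r) (hr2 : kq m * h1 ≤ r ^ 2) (hn : 0 < n) (hKe : 0 ≤ Ke)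
    (hnX : (2 * h1 + 8 / (m * (m + 1)) * (Ke * h1) * (ρ * ω)) * n
      + (2 * (kq m * h1 + (Ke * h1) ^ 2 / (m + 2))
        + 8 / (m * (m + 1)) * (Ke * h1) * (2 * ω * (r + (Ke * h1) / (m + 2)) + ρ * h1))
      ≤ (m + 2) * n ^ 2)
    (hη : 0 < η) (hη1 : η ≤ 1) (hb1 : 0 ≤ b1) (hkk : 0 ≤ kk) (hVw : w2U ≤ V0L)
    (hσ : 0 ≤ σ) (hr0U : 0 ≤ r0U) (hpen : 0 ≤ pen)
    (hpen2 : 2 * kq m - 2 * σ * (1 - d1) / (m + 2) ≤ pen)
    (hh1 : hh μ (diagonal j) x N ≤ h1) (hfd : √(fro (De μ x N)) ≤ d1)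
    (hu : √(uu μ N) ≤ Ke * hh μ (diagonal j) x N)
    (hnum : b1 * ((2 + 3 * δU ^ 2) * (Px m ρ ω n r h1 Ke / 2) + 2 * δU ^ 2 * (Ke ^ 2 * h1 / (m + 1)))
      + kk * ((3 / η + 4) * ((m + 2) / 4 * Px m ρ ω n r h1 Ke) + 1 / 4 * (Ke ^ 2 * h1 / (m + 1)))
      + V1U * (pen + 2 * n + Cx m ρ ω n r (Ke * h1) h1 * Ke) + rel + r0U * (Ke ^ 2 * h1)
      ≤ (V0L - w2U) * (2 * (1 - d1) / (m + 2)))
    {r0' w1 w2 I0 I1 Ik V0 V1 τ : ℝ} (hI0 : w1 + η * Ik ≤ I0) (hI1 : 0 ≤ I1) (hI1b : I1 ≤ b1)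
    (hIk : 0 ≤ Ik) (hIkk : Ik ≤ kk) (hV0 : V0L ≤ V0) (hV1 : 0 ≤ V1U) (hV1' : V1 ≤ V1U)
    (hw2' : w2 ≤ w2U) (hτ : τ ≤ rel * hh μ (diagonal j) x N) (hr0' : r0' ≤ r0U) :
    r0' * uu μ N + w1 * qm μ δ x N 0 + w2 * Qpt μ m x N
      ≤ I0 * qm μ δ x N 0 + I1 * qm μ δ x N 1 - Ik * |qw μ δ x N| + V0 * Qpt μ m x N
        + V1 * min (Qpts μ m x N + σ * Qpt μ m x N) 0 - τ := by
  have hm0 : 0 < m := by linarith only [hm]
  have hδ1 : δ ≤ 1 / 16 := hδU.trans hδ16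
  obtain ⟨f1, f2, f3, f4, f5, f6⟩ := box_facts h hm hρ hω hj hw hr hr2 hn hKe hnX hh1 hu
  have k1 := s_q2_ge h (by linarith only [hm]) hδ hδ1
  have k2 := abs_w_q2_le h (by linarith only [hm]) hδ hδ1 hη hη1
  rw [tc_s3 (m3 μ N x x)] at k1 k2
  rw [nX_sq] at k2
  have eU : (∑ a, m1 μ N a ^ 2) = uu μ N := rfl
  rw [eU] at k1 k2
  rw [← qm_one] at k1
  rw [← qm_zero (μ := μ) (x := x) (N := N) δ] at k2
  have hq0 : 0 ≤ qm μ δ x N 0 := by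
    rw [qm_zero]
    exact integral_nonneg fun q => sq_nonneg _
  have hQ := h.Qpt_ge hm0.le hL hfd
  have hs1 := h.Qpts_ge hm0.le j
  have hpen3 : 2 * kq m - σ * (2 * (1 - d1) / (m + 2)) ≤ pen := by
    refine le_trans (le_of_eq ?_) hpen2
    ring
  exact box_alg (m := m) (kqm := kq m) (H := hh μ (diagonal j) x N) hm hδ hδU hη hb1 hkk hVw hσ
    hr0U hpen hpen3 (h.hh_nonneg _) h.uu_nonneg f1 (s3_nonneg fun a b c => sq_nonneg _)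
    (sq_nonneg _) f4 f5 hKe hn.le ((h.hh_nonneg _).trans hh1) f3 f2 hq0 k1 k2
    (div_nonneg (by linarith only [hd1]) (by linarith only [hm])) hQ hs1 hnum hI0 hI1 hI1b hIk
    hIkk hV0 hV1 hV1' hw2' hτ hr0'

/-- the data of the box -/
structure BoxQ where
  m : ℚ
  δ : ℚ
  h1 : ℚ
  d1 : ℚ
  ρ : ℚ
  Ke : ℚ
  η : ℚ
  b1 : ℚ
  kk : ℚ
  V0 : ℚ
  V1 : ℚ
  σ : ℚ
  w2 : ℚ
  rel : ℚ
  r0 : ℚ
  n : ℚ
  r : ℚ

/-- rational form of `Cx` -/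
def CxQ (m ρ ω n r s η : ℚ) : ℚ :=
  8 / (m * (m + 1)) * (ρ * ω * n + 2 * ω * (r + s / (m + 2)) + ρ * η)

/-- rational form of `Px` -/
def PxQ (m ρ ω n r h1 Ke : ℚ) : ℚ :=
  2 * (kqQ m + Ke ^ 2 * h1 / (m + 2)) + 2 * n + CxQ m ρ ω n r (Ke * h1) h1 * Ke

lemma Cx_cast (m ρ ω n r s η : ℚ) : ((CxQ m ρ ω n r s η : ℚ) : ℝ) = Cx m ρ ω n r s η := by
  unfold CxQ Cx
  push_cast
  ring

lemma Px_cast (m ρ ω n r h1 Ke : ℚ) : ((PxQ m ρ ω n r h1 Ke : ℚ) : ℝ) = Px m ρ ω n r h1 Ke := by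
  unfold PxQ Px
  push_cast
  rw [kq_cast, Cx_cast]
  push_cast
  ring

/-- the conditions of the box without the last inequality -/
def boxOK1 (p : BoxQ) (ω : ℚ) : Bool :=
  decide (17 ≤ p.m) && decide (p.δ ≤ 1 / 16) && decide (0 ≤ p.h1) && decide (0 ≤ p.d1)
    && decide (p.d1 < 1)
    && decide (0 ≤ p.ρ) && decide (1 + (p.m + 2) * (p.d1 / (1 - p.d1)) ≤ p.ρ ^ 2)
    && decide (0 ≤ p.Ke) && decide (0 < p.η) && decide (p.η ≤ 1) && decide (0 ≤ p.b1)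
    && decide (0 ≤ p.kk) && decide (p.w2 ≤ p.V0) && decide (0 ≤ p.V1) && decide (0 ≤ p.σ)
    && decide (0 ≤ p.r0) && decide (0 < p.n) && decide (0 ≤ p.r)
    && decide (kqQ p.m * p.h1 ≤ p.r ^ 2)
    && decide ((2 * p.h1 + 8 / (p.m * (p.m + 1)) * (p.Ke * p.h1) * (p.ρ * ω)) * p.n
      + (2 * (kqQ p.m * p.h1 + (p.Ke * p.h1) ^ 2 / (p.m + 2))
        + 8 / (p.m * (p.m + 1)) * (p.Ke * p.h1)
          * (2 * ω * (p.r + (p.Ke * p.h1) / (p.m + 2)) + p.ρ * p.h1))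
      ≤ (p.m + 2) * p.n ^ 2)

/-- the last inequality -/
def boxOK2 (p : BoxQ) (P C : ℚ) : Bool :=
  decide (p.b1 * ((2 + 3 * p.δ ^ 2) * (P / 2) + 2 * p.δ ^ 2 * (p.Ke ^ 2 * p.h1 / (p.m + 1)))
      + p.kk * ((3 / p.η + 4) * ((p.m + 2) / 4 * P) + 1 / 4 * (p.Ke ^ 2 * p.h1 / (p.m + 1)))
      + p.V1 * (penQ p.m p.σ p.d1 + 2 * p.n + C * p.Ke) + p.rel + p.r0 * (p.Ke ^ 2 * p.h1)
      ≤ (p.V0 - p.w2) * (2 * (1 - p.d1) / (p.m + 2)))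

/-- the width of the weights on the box -/
def boxω (p : BoxQ) : ℚ := (p.m + 2) * ((p.d1 + p.h1) / (1 - p.d1))

/-- **the checker of the box** -/
def boxOK (p : BoxQ) : Bool :=
  boxOK1 p (boxω p)
    && boxOK2 p (PxQ p.m p.ρ (boxω p) p.n p.r p.h1 p.Ke)
      (CxQ p.m p.ρ (boxω p) p.n p.r (p.Ke * p.h1) p.h1)

/-- **Soundness of the checker of the box.** -/
theorem box_sound {p : BoxQ} (hok : boxOK p = true) (h : T0Data μ m x N) (hm : (p.m : ℝ) = m)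
    (hL : LSq μ (diagonal j) x N) {δ : ℝ} (hδ : 0 ≤ δ) (hδU : δ ≤ p.δ)
    (hh1 : hh μ (diagonal j) x N ≤ p.h1) (hfd : √(fro (De μ x N)) ≤ p.d1)
    (hu : √(uu μ N) ≤ p.Ke * hh μ (diagonal j) x N)
    {r0' w1 w2 I0 I1 Ik V0 V1 τ : ℝ} (hI0 : w1 + p.η * Ik ≤ I0) (hI1 : 0 ≤ I1) (hI1b : I1 ≤ p.b1)
    (hIk : 0 ≤ Ik) (hIkk : Ik ≤ p.kk) (hV0 : (p.V0 : ℝ) ≤ V0) (hV1' : V1 ≤ p.V1)
    (hw2' : w2 ≤ p.w2) (hτ : τ ≤ p.rel * hh μ (diagonal j) x N) (hr0' : r0' ≤ p.r0) :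
    r0' * uu μ N + w1 * qm μ δ x N 0 + w2 * Qpt μ m x N
      ≤ I0 * qm μ δ x N 0 + I1 * qm μ δ x N 1 - Ik * |qw μ δ x N| + V0 * Qpt μ m x N
        + V1 * min (Qpts μ m x N + p.σ * Qpt μ m x N) 0 - τ := by
  subst hm
  simp only [boxOK, boxOK1, boxOK2, Bool.and_eq_true, decide_eq_true_eq] at hok
  obtain ⟨⟨⟨⟨⟨⟨⟨⟨⟨⟨⟨⟨⟨⟨⟨⟨⟨⟨⟨⟨c1, c2⟩, c3⟩, c4⟩, c5⟩, c6⟩, c7⟩, c8⟩, c9⟩, c10⟩, c11⟩, c12⟩, c13⟩,
    c14⟩, c15⟩, c16⟩, c17⟩, c18⟩, c19⟩, c20⟩, c21⟩ := hok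
  have hm0 : (0 : ℝ) ≤ p.m := by
    have : (17 : ℝ) ≤ p.m := by exact_mod_cast c1
    linarith
  have hd0 : (0 : ℝ) ≤ p.d1 := by exact_mod_cast c4
  have hd1 : (p.d1 : ℝ) < 1 := by exact_mod_cast c5
  have hh10 : (0 : ℝ) ≤ p.h1 := by exact_mod_cast c3
  have hρ : (0 : ℝ) ≤ p.ρ := by exact_mod_cast c6
  have h7 : 1 + ((p.m : ℝ) + 2) * ((p.d1 : ℝ) / (1 - p.d1)) ≤ (p.ρ : ℝ) ^ 2 := by exact_mod_cast c7
  have h1d : (0 : ℝ) < 1 - p.d1 := by linarith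
  have hf0 : 0 ≤ fro (De μ x N) := fro_nonneg _
  have hfb : fro (De μ x N) ≤ (p.d1 : ℝ) ^ 2 := by
    rw [← Real.sq_sqrt hf0]
    exact pow_le_pow_left₀ (Real.sqrt_nonneg _) hfd 2
  have hj : ∀ a, |j a| ≤ (p.ρ : ℝ) := by
    intro a
    have k1 := h.w_le hm0 hL hd0 hd1 hfb a
    exact abs_le_of_sq_le_sq (by linarith) hρ
  have hωc : ((boxω p : ℚ) : ℝ) = ((p.m : ℝ) + 2) * (((p.d1 : ℝ) + p.h1) / (1 - p.d1)) := by
    unfold boxω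
    push_cast
    ring
  have hω0 : (0 : ℝ) ≤ (boxω p : ℝ) := by
    rw [hωc]
    positivity
  have hwf : ∑ b, (j b ^ 2 - 1) ^ 2 ≤ (boxω p : ℝ) ^ 2 := by
    refine (h.w_fro hm0 hL hd0 hd1 hfb).trans ?_
    rw [hωc]
    refine pow_le_pow_left₀ ?_ ?_ 2
    · have := h.hh_nonneg (diagonal j)
      positivity
    · gcongr
  have k19 := (Rat.cast_le (K := ℝ)).2 c19
  have k20 := (Rat.cast_le (K := ℝ)).2 c20
  have k21 := (Rat.cast_le (K := ℝ)).2 c21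
  push_cast at k19 k20 k21
  rw [kq_cast] at k19 k20
  rw [Px_cast, Cx_cast] at k21
  push_cast at k21
  refine box_real h (by exact_mod_cast c1) hL (δU := p.δ) (h1 := p.h1) (d1 := p.d1) (ρ := p.ρ)
    (ω := boxω p) (Ke := p.Ke) (η := p.η) (b1 := p.b1) (kk := p.kk) (V0L := p.V0) (V1U := p.V1)
    (σ := p.σ) (w2U := p.w2) (rel := p.rel) (r0U := p.r0) (n := p.n) (r := p.r)
    (pen := (penQ p.m p.σ p.d1 : ℚ)) hδ hδU ?_ hd1.le hρ hω0 hj hwf ?_ k19 ?_ ?_ k20 ?_ ?_ ?_ ?_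
    ?_ ?_ ?_ ?_ ?_ hh1 hfd hu k21 hI0 hI1 hI1b hIk hIkk hV0
    (by exact_mod_cast c14) hV1' hw2' hτ hr0'
  · have := (Rat.cast_le (K := ℝ)).2 c2
    push_cast at this
    exact this
  · exact_mod_cast c18
  · exact_mod_cast c17
  · exact_mod_cast c8
  · exact_mod_cast c9
  · exact_mod_cast c10
  · exact_mod_cast c11
  · exact_mod_cast c12
  · exact_mod_cast c13
  · exact_mod_cast c15
  · exact_mod_cast c16
  · exact_mod_cast penQ_nonneg p.m p.σ p.d1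
  · have := le_penQ p.m p.σ p.d1
    have := (Rat.cast_le (K := ℝ)).2 this
    push_cast at this
    rw [kq_cast] at this
    exact this

/-- the checker of the box with a common factor -/
theorem box_sound_K {p : BoxQ} (hok : boxOK p = true) (h : T0Data μ m x N) (hm : (p.m : ℝ) = m)
    (hL : LSq μ (diagonal j) x N) {δ K : ℝ} (hK : 0 < K) (hδ : 0 ≤ δ) (hδU : δ ≤ p.δ)
    (hh1 : hh μ (diagonal j) x N ≤ p.h1) (hfd : √(fro (De μ x N)) ≤ p.d1)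
    (hu : √(uu μ N) ≤ p.Ke * hh μ (diagonal j) x N)
    {r0' w1 w2 I0 I1 Ik V0 V1 τ : ℝ} (hI0 : w1 + p.η * Ik ≤ I0) (hI1 : 0 ≤ I1)
    (hI1b : I1 ≤ K * p.b1) (hIk : 0 ≤ Ik) (hIkk : Ik ≤ K * p.kk) (hV0 : K * (p.V0 : ℝ) ≤ V0)
    (hV1' : V1 ≤ K * p.V1) (hw2' : w2 ≤ K * p.w2) (hτ : τ ≤ K * (p.rel * hh μ (diagonal j) x N))
    (hr0' : r0' ≤ K * p.r0) :
    r0' * uu μ N + w1 * qm μ δ x N 0 + w2 * Qpt μ m x N
      ≤ I0 * qm μ δ x N 0 + I1 * qm μ δ x N 1 - Ik * |qw μ δ x N| + V0 * Qpt μ m x N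
        + V1 * min (Qpts μ m x N + p.σ * Qpt μ m x N) 0 - τ := by
  have h1 := box_sound hok h hm hL hδ hδU hh1 hfd hu (r0' := r0' / K) (w1 := w1 / K)
    (w2 := w2 / K) (I0 := I0 / K) (I1 := I1 / K) (Ik := Ik / K) (V0 := V0 / K) (V1 := V1 / K)
    (τ := τ / K)
    (by
      have e : w1 / K + p.η * (Ik / K) = (w1 + p.η * Ik) / K := by ring
      rw [e]
      exact div_le_div_of_nonneg_right hI0 hK.le)
    (div_nonneg hI1 hK.le) ((div_le_iff₀' hK).2 hI1b) (div_nonneg hIk hK.le)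
    ((div_le_iff₀' hK).2 hIkk) ((le_div_iff₀' hK).2 hV0) ((div_le_iff₀' hK).2 hV1')
    ((div_le_iff₀' hK).2 hw2') ((div_le_iff₀' hK).2 hτ) ((div_le_iff₀' hK).2 hr0')
  have h2 := mul_le_mul_of_nonneg_left h1 hK.le
  have hKn := hK.ne'
  have e1 : K * (r0' / K * uu μ N + w1 / K * qm μ δ x N 0 + w2 / K * Qpt μ m x N)
      = r0' * uu μ N + w1 * qm μ δ x N 0 + w2 * Qpt μ m x N := by
    field_simp
  have e2 : K * (I0 / K * qm μ δ x N 0 + I1 / K * qm μ δ x N 1 - Ik / K * |qw μ δ x N|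
      + V0 / K * Qpt μ m x N + V1 / K * min (Qpts μ m x N + p.σ * Qpt μ m x N) 0 - τ / K)
      = I0 * qm μ δ x N 0 + I1 * qm μ δ x N 1 - Ik * |qw μ δ x N| + V0 * Qpt μ m x N
        + V1 * min (Qpts μ m x N + p.σ * Qpt μ m x N) 0 - τ := by
    field_simp
  rwa [e1, e2] at h2

end

end Vale.Agent.P224.R2.H178
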