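import Vale.Agent.P224.R2.H178.Law3

/-!
`lawT_odd` and `core_odd` for every odd `m = 2 h + 1`, `1 ≤ h`, in particular for `m = 3`.
-/

namespace Vale.Agent.P224.R2.H178

open MeasureTheory Set Filter Function Module Vale.Agent.P224 Vale.Agent.P224.UE
open Vale.Agent.P224.PO
open Vale.Agent.P224.SM2 hiding ker
open scoped Topology RealInnerProductSpace ENNReal ContDiff Manifold

set_option linter.unusedSectionVars false

/-- the limit of the trivial general term -/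
lemma hreg_zero_lim {X : Type*} [MeasurableSpace X] {E : Type*} [NormedAddCommGroup E]
    [InnerProductSpace ℝ E] {μ : Measure X} {p n : X → E} :
    Integrable (fun q => (fun _ : R9 => (0 : ℝ)) (dat p n (0 : E) q)) (μ.prod μ) ∧
      Tendsto (fun T : ℝ => ∫ q, (fun _ _ => (0 : ℝ) : ℝ → R9 → ℝ) T (dat p n (0 : E) q)
        ∂(μ.prod μ)) (𝓝[<] 1) (𝓝 (∫ q, (fun _ : R9 => (0 : ℝ)) (dat p n (0 : E) q)
        ∂(μ.prod μ))) :=
  ⟨integrable_zero _ _ _, tendsto_const_nhds⟩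

section

variable {V W M : Type*} [NormedAddCommGroup V] [InnerProductSpace ℝ V] [FiniteDimensional ℝ V]
  [NormedAddCommGroup W] [InnerProductSpace ℝ W] [FiniteDimensional ℝ W]
  [TopologicalSpace M] [ChartedSpace V M]
  [MeasurableSpace V] [BorelSpace V] [MeasurableSpace M] [BorelSpace M]
  [IsManifold 𝓘(ℝ, V) ∞ M] [CompactSpace M] [T2Space M] [ConnectedSpace M]
  [MeasurableSpace W] [BorelSpace W]

/-- The inequality of the certificate with a parameter, with the value of a continuous term. -/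
lemma lawT3 {m h : ℕ} (hmh : m = 2 * h + 1)
    {X : Type*} [MeasurableSpace X] [Nonempty X] {E : Type*} [NormedAddCommGroup E]
    [InnerProductSpace ℝ E] [FiniteDimensional ℝ E] [MeasurableSpace E] [BorelSpace E]
    {μ : Measure X} [IsFiniteMeasure μ] {F N : X → E} {B S : ℝ}
    (hE : EmbD μ m F N B S) (hA0 : 0 < μ.real univ)
    (l : List SO.GT) (hr : ∀ t ∈ l, t.Reg) (hok : ∀ t ∈ l, t.ok h)
    (hw : ∀ t ∈ l, t.fl h → ∀ x N : E, ‖x‖ = 1 → ‖N‖ = 1 → ⟪x, N⟫ = 0 →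
      t.w (dv x N x N 0) = 1)
    {Ro : ℝ → R9 → ℝ} (hRn : ∀ T ∈ Ioo (0 : ℝ) 1, Null μ F N 0 (Ro T))
    {R0 : R9 → ℝ} (hR0 : Null μ F N 0 R0)
    (hposT : ∀ T ∈ Ioo (0 : ℝ) 1, ∀ x N y w : E, ‖x‖ = 1 → ‖N‖ = 1 → ‖y‖ = 1 → ‖w‖ = 1 →
      ⟪x, N⟫ = 0 → ⟪y, w⟫ = 0 → SO.gS' (l.map SO.GT.v) T (dv x N y w 0)
        ≤ Ro T (dv x N y w 0))
    {c0 γ : ℝ} {R : R9 → ℝ} (hRc : Continuous R)
    (h0 : ∀ x N y w : E, ‖x‖ = 1 → ‖N‖ = 1 → ‖y‖ = 1 → ‖w‖ = 1 → ⟪x, N⟫ = 0 → ⟪y, w⟫ = 0 →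
      (l.map fun t => t.φ 0 * t.Q (dv x N y w 0)).sum
        ≤ c0 * (1 + γ * dv x N y w (0 : E) 3 - R (dv x N y w 0) + R0 (dv x N y w 0))) :
    OT.fluxC m h l * S * μ.real univ + c0 * ∫ q, R (dat F N 0 q) ∂(μ.prod μ)
      ≤ c0 * (μ.real univ ^ 2 + γ * ‖∫ x, N x ∂μ‖ ^ 2) := by
  have hG := hE.toTwoG
  set A := μ.real univ with hA
  have hint : ∀ {G : R9 → ℝ}, Continuous G →
      Integrable (fun q => G (dat F N 0 q)) (μ.prod μ) :=
    fun hG' => integrable_param _ (measurable_dat hG.toPts 0) (isCompact_KE (bE (0 : E)))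
      (dat_mem hG.toPts 0) hG'.measurable hG'.continuousOn
  have iR : Integrable (fun q => R (dat F N 0 q)) (μ.prod μ) := hint hRc
  set Q := ∫ q, R (dat F N 0 q) ∂(μ.prod μ) with hQ
  have hA2 : 0 < A ^ 2 := by positivity
  set δ := Q / A ^ 2 with hδ
  have hδA : δ * A ^ 2 = Q := by rw [hδ]; field_simp
  have hAA : (μ.prod μ).real univ = A ^ 2 := by
    rw [hA, measureReal_def, measureReal_def, ← univ_prod_univ, Measure.prod_prod,
      ENNReal.toReal_mul, sq]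
  have hI0 : ∫ q, (fun d : R9 => c0 * (R d - δ)) (dat F N 0 q) ∂(μ.prod μ) = 0 := by
    simp only
    rw [integral_const_mul, integral_sub iR (integrable_const _), integral_const, smul_eq_mul,
      hAA, ← hQ, mul_comm (A ^ 2), hδA, sub_self, mul_zero]
  have hRn' : ∀ T ∈ Ico (0 : ℝ) 1,
      Null μ F N 0 ((fun T d => if T = 0 then c0 * R0 d else Ro T d : ℝ → R9 → ℝ) T) := by
    intro T hT
    rcases hT.1.eq_or_lt with h | h
    · subst h
      have e : (fun d => if (0 : ℝ) = 0 then c0 * R0 d else Ro 0 d) = fun d => c0 * R0 d := by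
        funext d
        rw [if_pos rfl]
      change Null μ F N 0 (fun d => if (0 : ℝ) = 0 then c0 * R0 d else Ro 0 d)
      rw [e]
      exact ⟨hR0.1.const_mul c0, by rw [integral_const_mul, hR0.2, mul_zero]⟩
    · have e : (fun d => if T = 0 then c0 * R0 d else Ro T d) = Ro T := by
        funext d
        rw [if_neg h.ne']
      change Null μ F N 0 (fun d => if T = 0 then c0 * R0 d else Ro T d)
      rw [e]
      exact hRn T ⟨h, hT.2⟩
  have key := law_PL3 hE hmh l hr hok hw hRn' PO.hreg_zero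
    (hreg_zero_lim (E := E) (μ := μ) (p := F) (n := N))
    (fun T hT x N y w a1 a2 a3 a4 a5 a6 => by
      rw [add_zero]
      simp only [if_neg hT.1.ne']
      exact hposT T hT x N y w a1 a2 a3 a4 a5 a6)
    (c0 := c0 * (1 - δ)) (γ := c0 * γ) (R := fun d => c0 * (R d - δ))
    ((hRc.sub continuous_const).const_mul c0) hI0.ge
    (fun x N y w a1 a2 a3 a4 a5 a6 => by
      have := h0 x N y w a1 a2 a3 a4 a5 a6
      simp only [if_true]
      linarith)
  have key2 := key.2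
  rw [integral_zero, zero_add, ← hA] at key2
  have e1 : c0 * (1 - δ) * A ^ 2 = c0 * A ^ 2 - c0 * Q := by rw [← hδA]; ring
  rw [e1] at key2
  linarith

/-- the mean normal is small: the form of the conclusion of the certificates with the mean
normal -/
def SmallN (V : Type*) {W M : Type*} [NormedAddCommGroup V] [InnerProductSpace ℝ V]
    [FiniteDimensional ℝ V] [NormedAddCommGroup W] [InnerProductSpace ℝ W] [FiniteDimensional ℝ W]
    [TopologicalSpace M] [ChartedSpace V M] [MeasurableSpace V] [BorelSpace V]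
    [MeasurableSpace M] [BorelSpace M] [MeasurableSpace W] [BorelSpace W]
    (m : ℕ) (F : M → W) (u0 : ℝ) : Prop :=
  ∀ (N : M → W) (B : ℝ), EmbD (volM V F) m F N B (sphereVol m) →
    0 ≤ ∫ q : M × M, ⟪F q.1, F q.2⟫ * ⟪F q.1, N q.2⟫ ∂((volM V F).prod (volM V F)) →
    ‖∫ x, N x ∂(volM V F)‖ ≤ sphereVol m →
    ‖∫ x, N x ∂(volM V F)‖ ^ 2 < u0 * ((volM V F).real univ) ^ 2

/-- **The sharp bound and its equality case in odd dimension**, from the certificate with a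
parameter, the stable resource and the bound of the mean normal. -/
theorem core_T3 {m h : ℕ} (hmh : m = 2 * h + 1) (hm : 1 ≤ h) (hV : finrank ℝ V = m)
    (hW : finrank ℝ W = finrank ℝ V + 2)
    {F : M → W} (hF : SphImm V F) (hmin : ∀ x n, IsUnitNormal V F x n → meanCurv V F x n = 0)
    {C : ℝ} (hC2 : C < 2) (hA0 : 0 < (volM V F).real univ)
    -- the certificate with a parameter
    {l : List SO.GT} (hr : ∀ t ∈ l, t.Reg) (hok : ∀ t ∈ l, t.ok h)
    (hw : ∀ t ∈ l, t.fl h → ∀ x N : W, ‖x‖ = 1 → ‖N‖ = 1 → ⟪x, N⟫ = 0 →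
      t.w (dv x N x N 0) = 1)
    {Ro : ℝ → R9 → ℝ} (hRn : ∀ N : M → W, TwoG (volM V F) m F N → ∀ T ∈ Ioo (0 : ℝ) 1,
      Null (volM V F) F N 0 (Ro T))
    {R0 : R9 → ℝ} (hR0 : ∀ N : M → W, TwoG (volM V F) m F N → Null (volM V F) F N 0 R0)
    (hposT : ∀ T ∈ Ioo (0 : ℝ) 1, ∀ x N y w : W, ‖x‖ = 1 → ‖N‖ = 1 → ‖y‖ = 1 → ‖w‖ = 1 →
      ⟪x, N⟫ = 0 → ⟪y, w⟫ = 0 → SO.gS' (l.map SO.GT.v) T (dv x N y w 0)
        ≤ Ro T (dv x N y w 0))
    {c0 κ γ : ℝ} (hc0 : 0 < c0) (hκ : 0 ≤ κ) (hγ : 0 < γ)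
    {RT : R9 → ℝ} (hRTc : Continuous RT)
    (h0 : ∀ x N y w : W, ‖x‖ = 1 → ‖N‖ = 1 → ‖y‖ = 1 → ‖w‖ = 1 → ⟪x, N⟫ = 0 → ⟪y, w⟫ = 0 →
      (l.map fun t => t.φ 0 * t.Q (dv x N y w 0)).sum
        ≤ c0 * (1 + γ * dv x N y w (0 : W) 3
          - (RT (dv x N y w 0) + κ * dv x N y w (0 : W) 0 ^ 3) + R0 (dv x N y w 0)))
    (hfl : OT.fluxC m h l = c0 * C)
    -- the mean normal is small
    {u0 : ℝ} (hsmall : SmallN V m F u0)
    -- the stable resource
    {α kT tT : ℝ} {cd : ℕ} (hkT : 0 < kT)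
    (hsT : ∀ N : M → W, TwoG (volM V F) m F N → 0 ≤ ∫ q : M × M, ⟪F q.1, F q.2⟫
        * ⟪F q.1, N q.2⟫ ∂((volM V F).prod (volM V F)) →
      ∫ q, RT (dat F (fun x => -N x) 0 q) ∂((volM V F).prod (volM V F))
        < tT * (volM V F).real univ ^ 2 →
      ∃ (b : OrthonormalBasis (Fin (m + 2)) ℝ W) (S : Finset (Fin (m + 2))), S.card = cd ∧
        kT * ((volM V F).real univ * ∫ x, ‖devA α b S (F x) (N x)‖ ^ 2 ∂(volM V F))
          ≤ ∫ q, RT (dat F (fun x => -N x) 0 q) ∂((volM V F).prod (volM V F)))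
    -- the bound of the mean normal
    {K : ℝ} (hK : 0 < K)
    (hone : ∀ N : M → W, TwoG (volM V F) m F N → ∀ (b : OrthonormalBasis (Fin (m + 2)) ℝ W)
      (S : Finset (Fin (m + 2))), S.card = cd →
      ‖∫ x, N x ∂(volM V F)‖ ≤ K * ∫ x, ‖devA α b S (F x) (N x)‖ ^ 2 ∂(volM V F))
    (hn1 : γ * u0 ≤ tT) (hn2 : (K * γ) ^ 2 * u0 ≤ kT ^ 2)
    (hle : (volM V F).real univ ≤ C * sphereVol m) :
    (volM V F).real univ = C * sphereVol m ∧ Injective F ∧
      ∃ (N : M → W) (b : OrthonormalBasis (Fin (m + 2)) ℝ W) (S : Finset (Fin (m + 2))),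
        ContMDiff 𝓘(ℝ, V) 𝓘(ℝ, W) ∞ N ∧ (∀ x, IsUnitNormal V F x (N x)) ∧ S.card = cd ∧
        ∀ x, N x = ∑ i, ((if i ∈ S then α else -(1 / α)) * ⟪F x, b i⟫) • b i := by
  have hm0 : 0 < finrank ℝ V := by omega
  have hfin : IsFiniteMeasure (volM V F) := isFiniteMeasure_volM hF
  have hne : Nonempty M := inferInstance
  set A := (volM V F).real univ with hA
  set S := sphereVol m with hS
  have hS0 : 0 < S := sphereVol_pos' _
  have hSV : sphereVol (finrank ℝ V) = S := by rw [hV]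
  have hinj : Injective F := by
    by_contra hinj
    have h2 := TwoSide.two_le (by omega) hW hF hmin hinj
    rw [hSV] at h2
    have h3 := mul_lt_mul_of_pos_right hC2 hS0
    linarith
  obtain ⟨N, hNs, hN, htop, hor⟩ := exists_normal_or hW hm0 hF hinj
  rw [hSV] at htop
  obtain ⟨B, hE⟩ := embD_of_inj hm0 hW hF hmin hNs hN hinj
  rw [hSV, hV] at hE
  have hG := hE.toTwoG
  -- the opposite normal
  have hN' : ∀ x, IsUnitNormal V F x (-N x) := fun x =>
    ⟨by rw [norm_neg]; exact (hN x).1, by rw [inner_neg_right, (hN x).2.1, neg_zero],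
      fun i => by rw [inner_neg_right, (hN x).2.2 i, neg_zero]⟩
  obtain ⟨B', hE'⟩ := embD_of_inj hm0 hW hF hmin hNs.neg hN' hinj
  rw [hSV, hV] at hE'
  have hG' := hE'.toTwoG
  set e : W := A⁻¹ • ∫ x, N x ∂(volM V F) with he
  have he' : A • e = ∫ x, N x ∂(volM V F) := by
    rw [he, smul_smul, mul_inv_cancel₀ hA0.ne', one_smul]
  have hn : ‖∫ x, N x ∂(volM V F)‖ = A * ‖e‖ := by
    rw [← he', norm_smul, Real.norm_eq_abs, abs_of_pos hA0]
  have hn' : ‖∫ x, -N x ∂(volM V F)‖ = A * ‖e‖ := by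
    rw [integral_neg, norm_neg, hn]
  rw [hn] at htop
  have hA2 : 0 < A ^ 2 := by positivity
  have hint : ∀ {H : R9 → ℝ} (n : M → W) (v : W), TwoG (volM V F) m F n → Continuous H →
      Integrable (fun q => H (dat F n v q)) ((volM V F).prod (volM V F)) :=
    fun n v hg hH => integrable_param _ (measurable_dat hg.toPts v) (isCompact_KE (bE v))
      (dat_mem hg.toPts v) hH.measurable hH.continuousOn
  -- the mean normal is small
  have hu : ‖e‖ ^ 2 < u0 := by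
    have h1 := hsmall N B hE hor (by rw [hn]; exact htop)
    rw [hn, ← hA] at h1
    have h2 : A ^ 2 * ‖e‖ ^ 2 < A ^ 2 * u0 := by
      calc A ^ 2 * ‖e‖ ^ 2 = (A * ‖e‖) ^ 2 := by ring
        _ < u0 * A ^ 2 := h1
        _ = A ^ 2 * u0 := mul_comm _ _
    exact lt_of_mul_lt_mul_left h2 hA2.le
  -- the law with a parameter
  have key2 := lawT3 hmh hE' hA0 l hr hok hw (hRn _ hG')
    (hR0 _ hG') hposT (R := fun d => RT d + κ * d 0 ^ 3) (hRTc.add (by fun_prop))
    (γ := γ) (c0 := c0) (fun x N y w a1 a2 a3 a4 a5 a6 => h0 x N y w a1 a2 a3 a4 a5 a6)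
  rw [hfl, hn', ← hA] at key2
  have iS3 : Integrable (fun q => dat F (fun x => -N x) (0 : W) q 0 ^ 3)
      ((volM V F).prod (volM V F)) :=
    hint (H := fun d => d 0 ^ 3) (fun x => -N x) 0 hG' (by fun_prop)
  have iRT : Integrable (fun q => RT (dat F (fun x => -N x) (0 : W) q))
      ((volM V F).prod (volM V F)) := hint (fun x => -N x) 0 hG' hRTc
  have hval : ∫ q, (RT (dat F (fun x => -N x) (0 : W) q)
      + κ * dat F (fun x => -N x) (0 : W) q 0 ^ 3) ∂((volM V F).prod (volM V F))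
      = ∫ q, RT (dat F (fun x => -N x) (0 : W) q) ∂((volM V F).prod (volM V F))
        + κ * ∫ q, dat F (fun x => -N x) (0 : W) q 0 ^ 3 ∂((volM V F).prod (volM V F)) := by
    rw [integral_add iRT (iS3.const_mul κ), integral_const_mul]
  rw [hval] at key2
  have hQ0 : 0 ≤ ∫ q, dat F (fun x => -N x) (0 : W) q 0 ^ 3 ∂((volM V F).prod (volM V F)) :=
    SO.k00 (μ := volM V F) (p := F) ⟨hG.mp, hG.np⟩
  set Q := ∫ q, dat F (fun x => -N x) (0 : W) q 0 ^ 3 ∂((volM V F).prod (volM V F)) with hQ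
  set R := ∫ q, RT (dat F (fun x => -N x) (0 : W) q) ∂((volM V F).prod (volM V F)) with hR
  have hκQ : 0 ≤ κ * Q := mul_nonneg hκ hQ0
  have hk3 : R ≤ γ * (‖e‖ ^ 2 * A ^ 2) - (C * S * A - A ^ 2) := by
    have h6 : (A * ‖e‖) ^ 2 = ‖e‖ ^ 2 * A ^ 2 := by ring
    rw [h6] at key2
    have h7 : c0 * (C * S * A + (R + κ * Q)) ≤ c0 * (A ^ 2 + γ * (‖e‖ ^ 2 * A ^ 2)) := by
      linarith
    have h8 := le_of_mul_le_mul_left h7 hc0
    linarith
  have hCA : A ^ 2 ≤ C * S * A := by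
    have := mul_le_mul_of_nonneg_right hle hA0.le
    linarith [sq A]
  have hk4 : R ≤ γ * (‖e‖ ^ 2 * A ^ 2) := by linarith
  have hRs : R < tT * A ^ 2 := by
    have h6 : ‖e‖ ^ 2 * A ^ 2 < u0 * A ^ 2 := mul_lt_mul_of_pos_right hu hA2
    have h7 := mul_lt_mul_of_pos_left h6 hγ
    have h9 := mul_le_mul_of_nonneg_right hn1 hA2.le
    linarith
  obtain ⟨b, S', hS4, hD⟩ := hsT N hG hor hRs
  set D := ∫ x, ‖devA α b S' (F x) (N x)‖ ^ 2 ∂(volM V F) with hDd
  have hD0 : 0 ≤ D := integral_nonneg fun x => by positivity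
  have hone' := hone N hG b S' hS4
  rw [hn, ← hDd] at hone'
  -- the mean normal vanishes
  have he0 : ‖e‖ = 0 := arithTo hA0 hkT hK.le (norm_nonneg e) hk4 hD hone' hu hn2 hγ hK
  rw [he0] at hk3
  have hR0' : 0 ≤ R := by
    have : 0 ≤ kT * (A * D) := by positivity
    linarith
  have hAC : A = C * S := by
    have h7 : C * S * A - A ^ 2 ≤ 0 := by linarith
    have h8 : A * (C * S) ≤ A * A := by linarith [sq A]
    exact le_antisymm hle (le_of_mul_le_mul_left h8 hA0)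
  have hDz : D = 0 := by
    have h6 : (kT * A) * D ≤ (kT * A) * 0 := by
      have h9 : (kT * A) * D = kT * (A * D) := by ring
      rw [h9]
      rw [hAC] at hk3
      have h10 : R ≤ 0 := by linarith
      linarith
    exact le_antisymm (le_of_mul_le_mul_left h6 (by positivity)) hD0
  refine ⟨hAC, hinj, N, b, S', hNs, hN, hS4, fun x => ?_⟩
  have hcF : Continuous F := hF.smooth.continuous
  have hcN : Continuous N := hNs.continuous
  have hop : (volM V F).IsOpenPosMeasure :=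
    ⟨fun U hU hne => (volM_pos_of_isOpen hW hF hU hne).ne'⟩
  have hcd : Continuous fun x => ‖devA α b S' (F x) (N x)‖ ^ 2 := by
    unfold devA
    fun_prop
  have hi : Integrable (fun x => ‖devA α b S' (F x) (N x)‖ ^ 2) (volM V F) :=
    FV.integrable_of_cont (volM V F) hcd
  have hz := (integral_eq_zero_iff_of_nonneg (fun x => by positivity) hi).1 (hDd ▸ hDz)
  have hz2 : (fun x => ‖devA α b S' (F x) (N x)‖ ^ 2) = fun _ => (0 : ℝ) :=
    (Continuous.ae_eq_iff_eq (volM V F) hcd continuous_const).1 hz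
  have h6 : ‖devA α b S' (F x) (N x)‖ ^ 2 = 0 := congrFun hz2 x
  rw [pow_eq_zero_iff two_ne_zero, norm_eq_zero] at h6
  unfold devA at h6
  exact sub_eq_zero.1 h6

end

end Vale.Agent.P224.R2.H178
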