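import Vale.Agent.P224.R2.H178.OTail
import Vale.Agent.P224.R2.H535.Dim

/-!
One dimension from 37 to 399 from the far range and the near range at a common level.
-/

namespace Vale.Agent.P224.R2.H178

open MeasureTheory Set Function Real Module Vale.Agent.P224 Vale.Agent.P224.FV
open Vale.Agent.P224.R2.H535 (dim_of boxH boxD)
open Vale.Agent.P224.R2.H577 (NearU)
open scoped Topology RealInnerProductSpace ContDiff Manifold ENNReal

set_option linter.unusedSectionVars false

section

variable {V W M : Type*} [NormedAddCommGroup V] [InnerProductSpace ℝ V] [FiniteDimensional ℝ V]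
  [NormedAddCommGroup W] [InnerProductSpace ℝ W] [FiniteDimensional ℝ W]
  [TopologicalSpace M] [ChartedSpace V M]
  [MeasurableSpace V] [BorelSpace V] [MeasurableSpace M] [BorelSpace M]
  [MeasurableSpace W] [BorelSpace W] [IsManifold 𝓘(ℝ, V) ∞ M]
  [CompactSpace M] [T2Space M] [ConnectedSpace M]

/-- **one dimension from 37 to 399** from the far range and the near range at the level `ν` -/
theorem dim_FN (h37 : 37 ≤ finrank ℝ V) (h399 : finrank ℝ V ≤ 399)
    (hW : finrank ℝ W = finrank ℝ V + 2)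
    {F : M → W} (hF : SphImm V F) (hmin : ∀ x n, IsUnitNormal V F x n → meanCurv V F x n = 0)
    (hng : ¬ ∃ a : W, a ≠ 0 ∧ ∀ x, ⟪F x, a⟫ = 0) {ν : ℝ}
    (hfar : ∀ N : M → W, ContMDiff 𝓘(ℝ, V) 𝓘(ℝ, W) ∞ N → (∀ x, IsUnitNormal V F x (N x)) →
      ‖∫ x, N x ∂(volM V F)‖ ≤ sphereVol (finrank ℝ V) →
      (volM V F).real univ ≤ leastClifford (finrank ℝ V) →
      ‖∫ x, N x ∂(volM V F)‖ < ν * (volM V F).real univ)
    (hnear : NearU V ν boxH boxD F) :
    ENNReal.ofReal (leastClifford (finrank ℝ V)) ≤ volM V F univ :=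
  dim_of h37 h399 hW hF hmin hng hfar hnear fun ho => tailO_all h37 h399 ho hW hF hmin

end

end Vale.Agent.P224.R2.H178
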