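import Mathlib

/-!
The closed form of the flow adapted to the Clifford product with (k, l) = (2, 1): basic functions
(formulas found by helper433).
-/

namespace Vale.Agent.P224.R2.H178.Flow3

open MeasureTheory Set Filter Function Real
open scoped Topology

/-- the integrand of K -/
noncomputable def kf (t : ℝ) : ℝ := 27 * √(1 - t ^ 2) / (t * ((9 - t ^ 2) * √(9 - t ^ 2)))

/-- K = artanh p - p, p ^ 2 = 9 (1 - T ^ 2) / (9 - T ^ 2) -/
noncomputable def K (T : ℝ) : ℝ := ∫ t in T..1, kf t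

noncomputable def q (T : ℝ) : ℝ := √((3 + T) / (1 + T))

noncomputable def j (T : ℝ) : ℝ := √((1 - T) / (3 - T))

/-- M = La - 3 j -/
noncomputable def M (T : ℝ) : ℝ := q T * K T

noncomputable def om (T : ℝ) : ℝ := -(T * M T / (1 + T))

noncomputable def O1 (T : ℝ) : ℝ := ∫ u in T..1, om u

noncomputable def O2 (T : ℝ) : ℝ := ∫ u in T..1, om u / u ^ 2

noncomputable def ρ (T : ℝ) : ℝ := (O1 T - T ^ 2 * O2 T) / 2

noncomputable def σ (T : ℝ) : ℝ := -(T * O2 T)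

section basic

variable {T : ℝ}

lemma nine_pos (h : T ∈ Ioc (0 : ℝ) 1) : 0 < 9 - T ^ 2 := by nlinarith [h.1, h.2]

lemma kf_contOn : ContinuousOn kf (Ioo 0 3) := by
  unfold kf
  refine ContinuousOn.div (by fun_prop) (by fun_prop) fun t ht => ?_
  have h1 : 0 < 9 - t ^ 2 := by nlinarith [ht.1, ht.2]
  exact (mul_pos ht.1 (mul_pos h1 (sqrt_pos.2 h1))).ne'

lemma kf_contOn' (hT : 0 < T) : ContinuousOn kf (Icc T 1) :=
  kf_contOn.mono fun x hx => ⟨hT.trans_le hx.1, hx.2.trans_lt (by norm_num)⟩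

lemma kf_nonneg {t : ℝ} (ht : t ∈ Ioc (0 : ℝ) 1) : 0 ≤ kf t := by
  unfold kf
  have h1 := nine_pos ht
  have := ht.1
  positivity

lemma int_kf (h0 : 0 < T) (h1 : T ≤ 1) : IntervalIntegrable kf volume T 1 := by
  refine ContinuousOn.intervalIntegrable ?_
  rw [uIcc_of_le h1]
  exact kf_contOn' h0

/-- the left derivative of a tail integral -/
lemma hasDerivAt_tail {g : ℝ → ℝ} (hg : ContinuousOn g (Ioc 0 1)) (hT : T ∈ Ioo (0 : ℝ) 1) :
    HasDerivAt (fun T => ∫ u in T..1, g u) (-g T) T := by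
  have h1 : IntervalIntegrable g volume T 1 := by
    refine ContinuousOn.intervalIntegrable ?_
    rw [uIcc_of_le hT.2.le]
    exact hg.mono fun x hx => ⟨hT.1.trans_le hx.1, hx.2⟩
  have ho : Ioo (0 : ℝ) 1 ∈ 𝓝 T := Ioo_mem_nhds hT.1 hT.2
  have hc : ContinuousOn g (Ioo 0 1) := hg.mono Ioo_subset_Ioc_self
  exact intervalIntegral.integral_hasDerivAt_left h1
    (hc.stronglyMeasurableAtFilter isOpen_Ioo T hT) (hc.continuousAt ho)

lemma hasDerivAt_K (hT : T ∈ Ioo (0 : ℝ) 1) : HasDerivAt K (-kf T) T :=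
  hasDerivAt_tail (kf_contOn.mono fun _ hx => ⟨hx.1, hx.2.trans_lt (by norm_num)⟩) hT

lemma K_contOn : ContinuousOn K (Ioc 0 1) := by
  intro T hT
  have h1 : ContinuousOn (fun T => ∫ u in T..1, kf u) (uIcc (T / 2) 1) := by
    refine intervalIntegral.continuousOn_primitive_interval_left ?_
    rw [uIcc_of_le (by linarith [hT.1, hT.2])]
    exact (kf_contOn' (by linarith [hT.1])).integrableOn_Icc
  rw [uIcc_of_le (by linarith [hT.1, hT.2])] at h1
  have h2 := h1 T ⟨by linarith [hT.1], hT.2⟩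
  refine h2.mono_of_mem_nhdsWithin ?_
  have h3 : Ioi (T / 2) ∩ Ioc 0 1 ∈ 𝓝[Ioc 0 1] T :=
    inter_mem (mem_nhdsWithin_of_mem_nhds (Ioi_mem_nhds (by linarith [hT.1]))) self_mem_nhdsWithin
  exact mem_of_superset h3 fun x hx => ⟨(le_of_lt hx.1), hx.2.2⟩

lemma K_nonneg (hT : T ∈ Ioc (0 : ℝ) 1) : 0 ≤ K T := by
  refine intervalIntegral.integral_nonneg hT.2 fun u hu => kf_nonneg ⟨hT.1.trans_le hu.1, hu.2⟩

lemma q_sq (hT : T ∈ Ioc (0 : ℝ) 1) : q T ^ 2 = (3 + T) / (1 + T) := by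
  have := hT.1
  exact sq_sqrt (by positivity)

lemma q_pos (hT : T ∈ Icc (0 : ℝ) 1) : 0 < q T := by
  have := hT.1
  exact sqrt_pos.2 (by positivity)

lemma j_pos (hT : T ∈ Ioo (0 : ℝ) 1) : 0 < j T :=
  sqrt_pos.2 (div_pos (by linarith [hT.2]) (by linarith [hT.2]))

lemma j_nonneg : 0 ≤ j T := sqrt_nonneg _

lemma j_sq (hT : T ≤ 1) : j T ^ 2 = (1 - T) / (3 - T) :=
  sq_sqrt (div_nonneg (by linarith) (by linarith))

lemma hasDerivAt_q (hT : T ∈ Ioo (0 : ℝ) 1) : HasDerivAt q (-(q T / ((1 + T) * (3 + T)))) T := by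
  have h1 : (1 : ℝ) + T ≠ 0 := by linarith [hT.1]
  have h3 : (3 : ℝ) + T ≠ 0 := by linarith [hT.1]
  have hq := (q_pos ⟨hT.1.le, hT.2.le⟩).ne'
  have hq2 := q_sq ⟨hT.1, hT.2.le⟩
  have hne : (3 + T) / (1 + T) ≠ 0 := div_ne_zero h3 h1
  have h : HasDerivAt (fun T : ℝ => (3 + T) / (1 + T)) ((1 * (1 + T) - (3 + T) * 1) / (1 + T) ^ 2) T :=
    ((hasDerivAt_id T).const_add 3).fun_div ((hasDerivAt_id T).const_add 1) h1
  refine (h.sqrt hne).congr_deriv ?_
  change _ / (2 * q T) = _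
  rw [div_eq_iff (by positivity)]
  have : -(q T / ((1 + T) * (3 + T))) * (2 * q T) = -(2 * q T ^ 2 / ((1 + T) * (3 + T))) := by ring
  rw [this, hq2]
  field_simp
  ring

lemma hasDerivAt_j (hT : T ∈ Ioo (0 : ℝ) 1) : HasDerivAt j (-(j T / ((1 - T) * (3 - T)))) T := by
  have h1 : (1 : ℝ) - T ≠ 0 := by linarith [hT.2]
  have h3 : (3 : ℝ) - T ≠ 0 := by linarith [hT.2]
  have hj := (j_pos hT).ne'
  have hj2 := j_sq hT.2.le
  have hne : (1 - T) / (3 - T) ≠ 0 := div_ne_zero h1 h3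
  have h : HasDerivAt (fun T : ℝ => (1 - T) / (3 - T))
      ((-1 * (3 - T) - (1 - T) * -1) / (3 - T) ^ 2) T :=
    ((hasDerivAt_id T).const_sub 1).fun_div ((hasDerivAt_id T).const_sub 3) h3
  refine (h.sqrt hne).congr_deriv ?_
  change _ / (2 * j T) = _
  rw [div_eq_iff (by positivity)]
  have : -(j T / ((1 - T) * (3 - T))) * (2 * j T) = -(2 * j T ^ 2 / ((1 - T) * (3 - T))) := by ring
  rw [this, hj2]
  field_simp
  ring

/-- q k = 27 j / (T (9 - T ^ 2)) -/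
lemma q_mul_kf (hT : T ∈ Ioc (0 : ℝ) 1) : q T * kf T = 27 * j T / (T * (9 - T ^ 2)) := by
  have h0 := hT.1
  have h9 := nine_pos hT
  have h1 : (0 : ℝ) < 1 + T := by linarith
  have h3 : (0 : ℝ) < 3 + T := by linarith
  have h4 : (0 : ℝ) < 3 - T := by linarith [hT.2]
  have h5 : (0 : ℝ) ≤ 1 - T := by linarith [hT.2]
  have key : q T * √(1 - T ^ 2) = j T * √(9 - T ^ 2) := by
    unfold q j
    rw [← sqrt_mul (by positivity), ← sqrt_mul (by positivity)]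
    congr 1
    field_simp
    ring
  have hs := (sqrt_pos.2 h9).ne'
  unfold kf
  have : q T * (27 * √(1 - T ^ 2) / (T * ((9 - T ^ 2) * √(9 - T ^ 2))))
      = 27 * (q T * √(1 - T ^ 2)) / (T * ((9 - T ^ 2) * √(9 - T ^ 2))) := by ring
  rw [this, key]
  field_simp

lemma hasDerivAt_M (hT : T ∈ Ioo (0 : ℝ) 1) :
    HasDerivAt M (-(M T / ((1 + T) * (3 + T))) - 27 * j T / (T * (9 - T ^ 2))) T := by
  refine ((hasDerivAt_q hT).fun_mul (hasDerivAt_K hT)).congr_deriv ?_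
  rw [← q_mul_kf ⟨hT.1, hT.2.le⟩]
  unfold M
  ring

lemma q_cont : ContinuousOn q (Icc 0 1) := by
  unfold q
  refine ContinuousOn.sqrt (ContinuousOn.div (by fun_prop) (by fun_prop) fun t ht => ?_)
  linarith [ht.1]

lemma j_cont : ContinuousOn j (Icc 0 1) := by
  unfold j
  refine ContinuousOn.sqrt (ContinuousOn.div (by fun_prop) (by fun_prop) fun t ht => ?_)
  linarith [ht.2]

lemma M_contOn : ContinuousOn M (Ioc 0 1) := (q_cont.mono Ioc_subset_Icc_self).mul K_contOn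

lemma M_nonneg (hT : T ∈ Ioc (0 : ℝ) 1) : 0 ≤ M T :=
  mul_nonneg (q_pos ⟨hT.1.le, hT.2⟩).le (K_nonneg hT)

lemma om_contOn : ContinuousOn om (Ioc 0 1) := by
  unfold om
  exact ((continuousOn_id.mul M_contOn).div (by fun_prop) fun t ht => by linarith [ht.1]).neg

lemma om_nonpos (hT : T ∈ Ioc (0 : ℝ) 1) : om T ≤ 0 := by
  unfold om
  have h1 := M_nonneg hT
  have h2 := hT.1
  have : 0 ≤ T * M T / (1 + T) := by positivity
  linarith

lemma om2_contOn : ContinuousOn (fun u => om u / u ^ 2) (Ioc 0 1) :=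
  om_contOn.div (by fun_prop) fun t ht => pow_ne_zero _ ht.1.ne'

lemma hasDerivAt_O1 (hT : T ∈ Ioo (0 : ℝ) 1) : HasDerivAt O1 (-om T) T :=
  hasDerivAt_tail om_contOn hT

lemma hasDerivAt_O2 (hT : T ∈ Ioo (0 : ℝ) 1) : HasDerivAt O2 (-(om T / T ^ 2)) T :=
  hasDerivAt_tail om2_contOn hT

lemma hasDerivAt_ρ (hT : T ∈ Ioo (0 : ℝ) 1) : HasDerivAt ρ (σ T) T := by
  have h0 := hT.1.ne'
  refine (((hasDerivAt_O1 hT).fun_sub ((hasDerivAt_pow 2 T).fun_mul
    (hasDerivAt_O2 hT))).div_const 2).congr_deriv ?_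
  unfold σ
  field_simp
  ring

lemma hasDerivAt_σ (hT : T ∈ Ioo (0 : ℝ) 1) : HasDerivAt σ (σ T / T - M T / (1 + T)) T := by
  have h0 := hT.1.ne'
  have h1 : (1 : ℝ) + T ≠ 0 := by linarith [hT.1]
  refine ((hasDerivAt_id T).fun_mul (hasDerivAt_O2 hT)).fun_neg.congr_deriv ?_
  unfold σ om
  simp only [id]
  field_simp
  ring

/-- linear combinations of the basic functions -/
noncomputable def lin (a b c d : ℝ → ℝ) (T : ℝ) : ℝ := a T * ρ T + b T * σ T + c T * M T + d T * j T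

lemma hasDerivAt_lin {a b c d : ℝ → ℝ} {a' b' c' d' : ℝ} (ha : HasDerivAt a a' T)
    (hb : HasDerivAt b b' T) (hc : HasDerivAt c c' T) (hd : HasDerivAt d d' T)
    (hT : T ∈ Ioo (0 : ℝ) 1) :
    HasDerivAt (lin a b c d) (a' * ρ T + a T * σ T + b' * σ T + b T * (σ T / T - M T / (1 + T))
      + c' * M T + c T * (-(M T / ((1 + T) * (3 + T))) - 27 * j T / (T * (9 - T ^ 2)))
      + d' * j T + d T * (-(j T / ((1 - T) * (3 - T))))) T := by
  refine ((((ha.fun_mul (hasDerivAt_ρ hT)).fun_add (hb.fun_mul (hasDerivAt_σ hT))).fun_add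
    (hc.fun_mul (hasDerivAt_M hT))).fun_add (hd.fun_mul (hasDerivAt_j hT))).congr_deriv ?_
  ring

end basic

end Vale.Agent.P224.R2.H178.Flow3
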