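import Vale.Agent.P224.R2.H178.Flow3a
import Vale.Agent.P224.R2.H925.Sys

/-!
The closed form of the flow for m = 3, d ^ 2 = 1 / 2: the differential system.
-/

namespace Vale.Agent.P224.R2.H178.Flow3

open MeasureTheory Set Filter Function Real Vale.Agent.P224.R2.H925
open scoped Topology

noncomputable def e : ℝ → ℝ := lin (fun T => -(T / 12)) (fun T => (4 + T ^ 2) / 24)
  (fun T => -(T * (1 + 11 * T) / 24)) (fun T => 9 / 8 * (T * (1 - T)))

noncomputable def y : ℝ → ℝ := lin (fun _ => -(1 / 12)) (fun T => (4 + T ^ 2) / (24 * T))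
  (fun T => (11 + T) / 24) (fun _ => 9 / 4)

noncomputable def h : ℝ → ℝ := lin (fun T => -(T * (7 - 2 * T ^ 2) / 48))
  (fun T => (5 + 4 * T ^ 2 - T ^ 4) / 48) (fun T => T * (1 - T) * (7 + T ^ 2) / 48) (fun _ => 0)

noncomputable def B : ℝ → ℝ := lin (fun T => (2 - 5 * T ^ 2) / 24)
  (fun T => -((8 + 6 * T ^ 2 - 5 * T ^ 4) / (48 * T)))
  (fun T => -((10 + 14 * T + 17 * T ^ 2 - 5 * T ^ 3) / 48))
  (fun T => -(9 / 16 * ((1 - 4 * T) * (1 - T))))

noncomputable def f : ℝ → ℝ := lin (fun T => 7 * T / 12) (fun T => -((4 + 7 * T ^ 2) / 24))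
  (fun T => -(T * (17 - 5 * T) / 24)) (fun T => 9 / 8 * (T * (1 - T)))

noncomputable def Z : ℝ → ℝ := lin (fun _ => -(1 / 12)) (fun T => (4 + T ^ 2) / (24 * T))
  (fun T => (21 + 14 * T + 13 * T ^ 2) / (24 * (3 + T)))
  (fun T => 9 / 8 * ((1 - T) * (7 + T ^ 2)) / ((3 - T) * (3 + T)))

noncomputable def ε : ℝ → ℝ := lin (fun T => 1 - 2 * T ^ 2) (fun T => -(T * (1 - T ^ 2)))
  (fun _ => 0) (fun _ => 0)

noncomputable def E : ℝ → ℝ := lin (fun T => -(4 * T)) (fun T => -(1 - 2 * T ^ 2))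
  (fun T => T * (1 - T)) (fun _ => 0)

noncomputable def f' (T : ℝ) : ℝ :=
  7 / 12 * ρ T + 7 * T / 12 * σ T + -(7 * T / 12) * σ T
    + -((4 + 7 * T ^ 2) / 24) * (σ T / T - M T / (1 + T))
    + -((17 - 10 * T) / 24) * M T
    + -(T * (17 - 5 * T) / 24) * (-(M T / ((1 + T) * (3 + T))) - 27 * j T / (T * (9 - T ^ 2)))
    + 9 / 8 * (1 - 2 * T) * j T + 9 / 8 * (T * (1 - T)) * (-(j T / ((1 - T) * (3 - T))))

noncomputable def ei (u : ℝ) : ℝ := e u / (u * ((1 - u ^ 2) * √(1 - u ^ 2)))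

noncomputable def r (T : ℝ) : ℝ := √(1 - T ^ 2) * ∫ u in T..1, ei u

/-- the flow -/
noncomputable def u3 : St where
  e := e
  y := y
  B := B
  r := r
  ρ := ρ
  ε := ε
  E := E
  h := h
  Z := Z
  f := f
  f' := f'

section

variable {T : ℝ}

lemma hd_e (hT : T ∈ Ioo (0 : ℝ) 1) : HasDerivAt e (eD 3 T (e T) (Z T)) T := by
  have h0 := hT.1.ne'
  have h1 : (1 : ℝ) + T ≠ 0 := by linarith [hT.1]
  have h2 : (1 : ℝ) - T ≠ 0 := by linarith [hT.2]
  have h3 : (3 : ℝ) + T ≠ 0 := by linarith [hT.1]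
  have h4 : (3 : ℝ) - T ≠ 0 := by linarith [hT.2]
  have h9 : 9 - T ^ 2 ≠ 0 := (nine_pos ⟨hT.1, hT.2.le⟩).ne'
  have hid : HasDerivAt (fun T : ℝ => T) 1 T := hasDerivAt_id T
  have hp := hasDerivAt_pow 2 T
  have ha : HasDerivAt (fun T : ℝ => -(T / 12)) (-(1 / 12)) T := (hid.div_const 12).fun_neg
  have hb : HasDerivAt (fun T : ℝ => (4 + T ^ 2) / 24) (T / 12) T :=
    ((hp.const_add 4).div_const 24).congr_deriv (by push_cast; ring)
  have hc : HasDerivAt (fun T : ℝ => -(T * (1 + 11 * T) / 24)) (-((1 + 22 * T) / 24)) T :=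
    ((hid.fun_mul ((hid.const_mul 11).const_add 1)).div_const 24).fun_neg.congr_deriv (by ring)
  have hd : HasDerivAt (fun T : ℝ => 9 / 8 * (T * (1 - T))) (9 / 8 * (1 - 2 * T)) T :=
    ((hid.fun_mul (hid.const_sub 1)).const_mul (9 / 8)).congr_deriv (by ring)
  refine (hasDerivAt_lin ha hb hc hd hT).congr_deriv ?_
  unfold eD e Z lin
  rw [show (9 : ℝ) - T ^ 2 = (3 - T) * (3 + T) by ring] at *
  field_simp
  ring

lemma hd_y (hT : T ∈ Ioo (0 : ℝ) 1) : HasDerivAt y (yD 3 T (y T) (Z T)) T := by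
  have h0 := hT.1.ne'
  have h1 : (1 : ℝ) + T ≠ 0 := by linarith [hT.1]
  have h2 : (1 : ℝ) - T ≠ 0 := by linarith [hT.2]
  have h3 : (3 : ℝ) + T ≠ 0 := by linarith [hT.1]
  have h4 : (3 : ℝ) - T ≠ 0 := by linarith [hT.2]
  have hid : HasDerivAt (fun T : ℝ => T) 1 T := hasDerivAt_id T
  have hp := hasDerivAt_pow 2 T
  have ha : HasDerivAt (fun T : ℝ => -(1 / 12 : ℝ)) 0 T := hasDerivAt_const _ _
  have hb : HasDerivAt (fun T : ℝ => (4 + T ^ 2) / (24 * T)) ((T ^ 2 - 4) / (24 * T ^ 2)) T :=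
    ((hp.const_add 4).fun_div (hid.const_mul 24) (mul_ne_zero (by norm_num) h0)).congr_deriv
      (by push_cast; field_simp; ring)
  have hc : HasDerivAt (fun T : ℝ => (11 + T) / 24) (1 / 24) T := (hid.const_add 11).div_const 24
  have hd : HasDerivAt (fun T : ℝ => (9 / 4 : ℝ)) 0 T := hasDerivAt_const _ _
  refine (hasDerivAt_lin ha hb hc hd hT).congr_deriv ?_
  unfold yD y Z lin
  rw [show (9 : ℝ) - T ^ 2 = (3 - T) * (3 + T) by ring,
    show (1 : ℝ) - T ^ 2 = (1 - T) * (1 + T) by ring]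
  field_simp
  ring

lemma hd_h (hT : T ∈ Ioo (0 : ℝ) 1) {d : ℝ} (hd2 : d ^ 2 = 1 / 2) :
    HasDerivAt h (hD 3 d T (ε T) (E T) (h T) (Z T)) T := by
  have h0 := hT.1.ne'
  have h1 : (1 : ℝ) + T ≠ 0 := by linarith [hT.1]
  have h2 : (1 : ℝ) - T ≠ 0 := by linarith [hT.2]
  have h3 : (3 : ℝ) + T ≠ 0 := by linarith [hT.1]
  have h4 : (3 : ℝ) - T ≠ 0 := by linarith [hT.2]
  have hid : HasDerivAt (fun T : ℝ => T) 1 T := hasDerivAt_id T
  have hp := hasDerivAt_pow 2 T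
  have hp4 := hasDerivAt_pow 4 T
  have ha : HasDerivAt (fun T : ℝ => -(T * (7 - 2 * T ^ 2) / 48)) (-((7 - 6 * T ^ 2) / 48)) T :=
    ((hid.fun_mul ((hp.const_mul 2).const_sub 7)).div_const 48).fun_neg.congr_deriv
      (by push_cast; ring)
  have hb : HasDerivAt (fun T : ℝ => (5 + 4 * T ^ 2 - T ^ 4) / 48) ((8 * T - 4 * T ^ 3) / 48) T :=
    ((((hp.const_mul 4).const_add 5).fun_sub hp4).div_const 48).congr_deriv (by push_cast; ring)
  have hc : HasDerivAt (fun T : ℝ => T * (1 - T) * (7 + T ^ 2) / 48)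
      (((1 - 2 * T) * (7 + T ^ 2) + T * (1 - T) * (2 * T)) / 48) T :=
    (((hid.fun_mul (hid.const_sub 1)).fun_mul (hp.const_add 7)).div_const 48).congr_deriv
      (by push_cast; ring)
  have hd : HasDerivAt (fun T : ℝ => (0 : ℝ)) 0 T := hasDerivAt_const _ _
  refine (hasDerivAt_lin ha hb hc hd hT).congr_deriv ?_
  unfold hD h Z ε E lin
  rw [hd2, show (9 : ℝ) - T ^ 2 = (3 - T) * (3 + T) by ring]
  field_simp
  ring

lemma hd_B (hT : T ∈ Ioo (0 : ℝ) 1) : HasDerivAt B (BD 3 T (B T) (Z T)) T := by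
  have h0 := hT.1.ne'
  have h1 : (1 : ℝ) + T ≠ 0 := by linarith [hT.1]
  have h2 : (1 : ℝ) - T ≠ 0 := by linarith [hT.2]
  have h3 : (3 : ℝ) + T ≠ 0 := by linarith [hT.1]
  have h4 : (3 : ℝ) - T ≠ 0 := by linarith [hT.2]
  have hid : HasDerivAt (fun T : ℝ => T) 1 T := hasDerivAt_id T
  have hp := hasDerivAt_pow 2 T
  have hp3 := hasDerivAt_pow 3 T
  have hp4 := hasDerivAt_pow 4 T
  have ha : HasDerivAt (fun T : ℝ => (2 - 5 * T ^ 2) / 24) (-(10 * T / 24)) T :=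
    (((hp.const_mul 5).const_sub 2).div_const 24).congr_deriv (by push_cast; ring)
  have hb : HasDerivAt (fun T : ℝ => -((8 + 6 * T ^ 2 - 5 * T ^ 4) / (48 * T)))
      (-((-8 + 6 * T ^ 2 - 15 * T ^ 4) / (48 * T ^ 2))) T :=
    (((((hp.const_mul 6).const_add 8).fun_sub (hp4.const_mul 5)).fun_div (hid.const_mul 48)
      (mul_ne_zero (by norm_num) h0))).fun_neg.congr_deriv (by push_cast; field_simp; ring)
  have hc : HasDerivAt (fun T : ℝ => -((10 + 14 * T + 17 * T ^ 2 - 5 * T ^ 3) / 48))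
      (-((14 + 34 * T - 15 * T ^ 2) / 48)) T :=
    (((((hid.const_mul 14).const_add 10).fun_add (hp.const_mul 17)).fun_sub
      (hp3.const_mul 5)).div_const 48).fun_neg.congr_deriv (by push_cast; ring)
  have hd : HasDerivAt (fun T : ℝ => -(9 / 16 * ((1 - 4 * T) * (1 - T))))
      (-(9 / 16 * (-5 + 8 * T))) T :=
    ((((hid.const_mul 4).const_sub 1).fun_mul (hid.const_sub 1)).const_mul
      (9 / 16)).fun_neg.congr_deriv (by ring)
  refine (hasDerivAt_lin ha hb hc hd hT).congr_deriv ?_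
  unfold BD B Z lin
  rw [show (9 : ℝ) - T ^ 2 = (3 - T) * (3 + T) by ring]
  field_simp
  ring

lemma hd_ε (hT : T ∈ Ioo (0 : ℝ) 1) : HasDerivAt ε (E T) T := by
  have h0 := hT.1.ne'
  have h1 : (1 : ℝ) + T ≠ 0 := by linarith [hT.1]
  have hid : HasDerivAt (fun T : ℝ => T) 1 T := hasDerivAt_id T
  have hp := hasDerivAt_pow 2 T
  have ha : HasDerivAt (fun T : ℝ => 1 - 2 * T ^ 2) (-(4 * T)) T :=
    ((hp.const_mul 2).const_sub 1).congr_deriv (by push_cast; ring)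
  have hb : HasDerivAt (fun T : ℝ => -(T * (1 - T ^ 2))) (-(1 - 3 * T ^ 2)) T :=
    (hid.fun_mul (hp.const_sub 1)).fun_neg.congr_deriv (by push_cast; ring)
  have hd : HasDerivAt (fun T : ℝ => (0 : ℝ)) 0 T := hasDerivAt_const _ _
  refine (hasDerivAt_lin ha hb hd hd hT).congr_deriv ?_
  unfold E lin
  field_simp
  ring

lemma hd_f (hT : T ∈ Ioo (0 : ℝ) 1) : HasDerivAt f (f' T) T := by
  have hid : HasDerivAt (fun T : ℝ => T) 1 T := hasDerivAt_id T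
  have hp := hasDerivAt_pow 2 T
  have ha : HasDerivAt (fun T : ℝ => 7 * T / 12) (7 / 12) T :=
    ((hid.const_mul 7).div_const 12).congr_deriv (by ring)
  have hb : HasDerivAt (fun T : ℝ => -((4 + 7 * T ^ 2) / 24)) (-(7 * T / 12)) T :=
    (((hp.const_mul 7).const_add 4).div_const 24).fun_neg.congr_deriv (by push_cast; ring)
  have hc : HasDerivAt (fun T : ℝ => -(T * (17 - 5 * T) / 24)) (-((17 - 10 * T) / 24)) T :=
    ((hid.fun_mul ((hid.const_mul 5).const_sub 17)).div_const 24).fun_neg.congr_deriv (by ring)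
  have hd : HasDerivAt (fun T : ℝ => 9 / 8 * (T * (1 - T))) (9 / 8 * (1 - 2 * T)) T :=
    ((hid.fun_mul (hid.const_sub 1)).const_mul (9 / 8)).congr_deriv (by ring)
  exact hasDerivAt_lin ha hb hc hd hT

lemma ρ_eq (hT : T ∈ Ioo (0 : ℝ) 1) : σ T = pD 3 T (ρ T) (ε T) := by
  have h0 := hT.1.ne'
  have h1 : 1 - T ^ 2 ≠ 0 := by
    have : 0 < 1 - T ^ 2 := by nlinarith [hT.1, hT.2]
    exact this.ne'
  unfold pD ε lin
  field_simp
  ring

lemma alg1 {d : ℝ} (hd2 : d ^ 2 = 1 / 2) : (4 - d ^ 2 * (1 - T ^ 2)) * T * E T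
    = 2 * 3 * (3 + 1) * T * h T + 3 * (2 + d ^ 2 * T ^ 2) * ε T - 2 * 3 * ρ T := by
  unfold E h ε lin
  rw [hd2]
  ring

lemma alg2 (hT : T ∈ Ioo (0 : ℝ) 1) : f T
    = e T - 8 / (3 * (3 + 1)) * E T + 4 / ((3 + 1) * T) * (ε T - ρ T) := by
  have h0 := hT.1.ne'
  unfold f e E ε lin
  field_simp
  ring

lemma alg3 (hT : T ∈ Ioo (0 : ℝ) 1) {d : ℝ} (hd2 : d ^ 2 = 1 / 2) :
    (1 - T ^ 2) * y T - 2 * Z T - B T
    = d ^ 2 * ((1 - T ^ 2) * f' T + ((3 - 1) * T - 1 / T) * f T) := by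
  have h0 := hT.1.ne'
  have h1 : (1 : ℝ) + T ≠ 0 := by linarith [hT.1]
  have h2 : (1 : ℝ) - T ≠ 0 := by linarith [hT.2]
  have h3 : (3 : ℝ) + T ≠ 0 := by linarith [hT.1]
  have h4 : (3 : ℝ) - T ≠ 0 := by linarith [hT.2]
  unfold y Z B f f' lin
  rw [hd2, show (9 : ℝ) - T ^ 2 = (3 - T) * (3 + T) by ring,
    show (1 : ℝ) - T ^ 2 = (1 - T) * (1 + T) by ring]
  field_simp
  ring

end

end Vale.Agent.P224.R2.H178.Flow3
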