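import Vale.Agent.P224.R2.H178.Flow3b

/-!
The closed form of the flow for m = 3, d ^ 2 = 1 / 2: behaviour at T = 1.
-/

namespace Vale.Agent.P224.R2.H178.Flow3

open MeasureTheory Set Filter Function Real Vale.Agent.P224.R2.H925 Asymptotics
open scoped Topology

/-- the cosine -/
noncomputable def c (T : ℝ) : ℝ := √(1 - T ^ 2)

section

variable {T : ℝ}

lemma c_sq (hT : T ∈ Icc (0 : ℝ) 1) : c T ^ 2 = 1 - T ^ 2 :=
  sq_sqrt (by nlinarith [hT.1, hT.2])

lemma c_pos (hT : T ∈ Ioo (0 : ℝ) 1) : 0 < c T := sqrt_pos.2 (by nlinarith [hT.1, hT.2])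

lemma c_nonneg : 0 ≤ c T := sqrt_nonneg _

lemma c_one : c 1 = 0 := by simp [c]

lemma c_anti {S : ℝ} (h0 : 0 ≤ S) (h : S ≤ T) : c T ≤ c S := by
  unfold c
  refine sqrt_le_sqrt ?_
  nlinarith

lemma one_sub_le (hT : T ∈ Icc (0 : ℝ) 1) : 1 - T ≤ c T ^ 2 := by
  rw [c_sq hT]
  nlinarith [hT.1, hT.2]

lemma c_cont : Continuous c := by
  unfold c
  fun_prop

lemma l1_Ioo : ∀ᶠ T in 𝓝[<] (1 : ℝ), T ∈ Ioo (0 : ℝ) 1 := Ioo_mem_nhdsLT one_pos

lemma tendsto_c : Tendsto c (𝓝[<] 1) (𝓝 0) := by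
  have := (c_cont.tendsto 1).mono_left (nhdsWithin_le_nhds (s := Iio 1))
  rwa [c_one] at this

/-- order k at T = 1 -/
abbrev Ord (k : ℕ) (F : ℝ → ℝ) : Prop := F =O[𝓝[<] 1] fun T => c T ^ k

lemma Ord.congr {k : ℕ} {F G : ℝ → ℝ} (h : Ord k F) (hFG : ∀ T ∈ Ioo (0 : ℝ) 1, F T = G T) :
    Ord k G := by
  refine IsBigO.congr' h ?_ EventuallyEq.rfl
  filter_upwards [l1_Ioo] with T hT using hFG T hT

lemma Ord.mono {k l : ℕ} {F : ℝ → ℝ} (h : Ord k F) (hl : l ≤ k) : Ord l F := by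
  refine h.trans ?_
  refine IsBigO.of_bound 1 ?_
  filter_upwards [l1_Ioo] with T hT
  have h1 : c T ≤ 1 := by
    unfold c
    rw [sqrt_le_one]
    nlinarith [hT.1]
  rw [one_mul, norm_of_nonneg (pow_nonneg c_nonneg _), norm_of_nonneg (pow_nonneg c_nonneg _)]
  exact pow_le_pow_of_le_one c_nonneg h1 hl

lemma Ord.mul {k l : ℕ} {F G : ℝ → ℝ} (h : Ord k F) (h' : Ord l G) :
    Ord (k + l) (fun T => F T * G T) := by
  have := IsBigO.mul h h'
  simpa only [← pow_add] using this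

lemma ord0 {G : ℝ → ℝ} (hG : ContinuousAt G 1) : Ord 0 G := by
  have h1 := (hG.tendsto.mono_left (nhdsWithin_le_nhds (s := Iio 1))).isBigO_one ℝ
  exact h1.congr_right fun _ => (pow_zero _).symm

lemma Ord.bmul {k : ℕ} {F G : ℝ → ℝ} (h : Ord k F) (hG : ContinuousAt G 1) :
    Ord k (fun T => G T * F T) := by
  have := (ord0 hG).mul h
  rwa [zero_add] at this

lemma ord_c : Ord 1 c :=
   (isBigO_refl c (𝓝[<] 1)).congr_right fun _ => (pow_one _).symm

lemma ord_one_sub : Ord 2 (fun T => 1 - T) := by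
  refine IsBigO.of_bound 1 ?_
  filter_upwards [l1_Ioo] with T hT
  rw [one_mul, norm_of_nonneg (by linarith [hT.2]), norm_of_nonneg (pow_nonneg c_nonneg _)]
  exact one_sub_le ⟨hT.1.le, hT.2.le⟩

lemma ord2 {G : ℝ → ℝ} (hG : DifferentiableAt ℝ G 1) (h0 : G 1 = 0) : Ord 2 G := by
  have h1 := hG.isBigO_sub.mono (nhdsWithin_le_nhds (s := Iio 1))
  have h2 : (fun T : ℝ => T - 1) =O[𝓝[<] 1] fun T => c T ^ 2 := by
    refine IsBigO.congr' ord_one_sub.neg_left ?_ EventuallyEq.rfl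
    filter_upwards with T
    ring
  simpa [h0] using h1.trans h2

/-- mean value theorem -/
lemma Ord.of_deriv {k : ℕ} {F F' : ℝ → ℝ} (hc : ContinuousOn F (Ioc 0 1)) (h1 : F 1 = 0)
    (hd : ∀ T ∈ Ioo (0 : ℝ) 1, HasDerivAt F (F' T) T) (h : Ord k F') : Ord (k + 2) F := by
  obtain ⟨C, hC⟩ := h.bound
  rw [eventually_nhdsWithin_iff, Metric.eventually_nhds_iff] at hC
  obtain ⟨δ, hδ, hC⟩ := hC
  refine IsBigO.of_bound |C| ?_
  have h2 : Ioo (1 - δ) 1 ∈ 𝓝[<] (1 : ℝ) := Ioo_mem_nhdsLT (by linarith)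
  filter_upwards [l1_Ioo, h2] with T hT hTδ
  obtain ⟨x, hx, hxe⟩ := exists_hasDerivAt_eq_slope F F' hT.2
    (hc.mono fun y hy => ⟨hT.1.trans_le hy.1, hy.2⟩)
    (fun y hy => hd y ⟨hT.1.trans hy.1, hy.2⟩)
  have h3 : F T = -(F' x * (1 - T)) := by
    rw [hxe, h1]
    have : 1 - T ≠ 0 := by linarith [hT.2]
    field_simp
    ring
  have h4 : ‖F' x‖ ≤ C * ‖c x ^ k‖ := by
    refine hC ?_ hx.2
    rw [Real.dist_eq, abs_lt]
    constructor <;> linarith [hx.1, hx.2, hTδ.1]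
  have h5 : c x ^ k ≤ c T ^ k := pow_le_pow_left₀ c_nonneg (c_anti hT.1.le hx.1.le) k
  have h6 := one_sub_le ⟨hT.1.le, hT.2.le⟩
  have h7 : (0 : ℝ) ≤ 1 - T := by linarith [hT.2]
  rw [h3, norm_neg, norm_mul, norm_of_nonneg h7, norm_of_nonneg (pow_nonneg c_nonneg _), pow_add]
  rw [norm_of_nonneg (pow_nonneg c_nonneg _)] at h4
  have h8 : C * c x ^ k ≤ |C| * c T ^ k :=
    mul_le_mul (le_abs_self C) h5 (pow_nonneg c_nonneg _) (abs_nonneg C)
  calc ‖F' x‖ * (1 - T) ≤ (|C| * c T ^ k) * c T ^ 2 :=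
        mul_le_mul (h4.trans h8) h6 h7 (mul_nonneg (abs_nonneg _) (pow_nonneg c_nonneg _))
    _ = _ := by ring

lemma tail_contOn {g : ℝ → ℝ} (hg : ContinuousOn g (Ioc 0 1)) :
    ContinuousOn (fun T => ∫ u in T..1, g u) (Ioc 0 1) := by
  intro T hT
  have h1 : ContinuousOn (fun T => ∫ u in T..1, g u) (uIcc (T / 2) 1) := by
    refine intervalIntegral.continuousOn_primitive_interval_left ?_
    rw [uIcc_of_le (by linarith [hT.1, hT.2])]
    exact (hg.mono fun x hx => ⟨by linarith [hT.1, hx.1], hx.2⟩).integrableOn_Icc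
  rw [uIcc_of_le (by linarith [hT.1, hT.2])] at h1
  have h2 := h1 T ⟨by linarith [hT.1], hT.2⟩
  refine h2.mono_of_mem_nhdsWithin ?_
  have h3 : Ioi (T / 2) ∩ Ioc 0 1 ∈ 𝓝[Ioc 0 1] T :=
    inter_mem (mem_nhdsWithin_of_mem_nhds (Ioi_mem_nhds (by linarith [hT.1]))) self_mem_nhdsWithin
  exact mem_of_superset h3 fun x hx => ⟨(le_of_lt hx.1), hx.2.2⟩

lemma tail_one {g : ℝ → ℝ} : (∫ u in (1 : ℝ)..1, g u) = 0 := intervalIntegral.integral_same

lemma Ord.tail {k : ℕ} {g : ℝ → ℝ} (hg : ContinuousOn g (Ioc 0 1)) (h : Ord k g) :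
    Ord (k + 2) (fun T => ∫ u in T..1, g u) :=
  Ord.of_deriv (F' := fun T => -g T) (tail_contOn hg) tail_one (fun _ hT => hasDerivAt_tail hg hT)
    h.neg_left

/-- the constant of K -/
noncomputable def κ : ℝ := 9 / (8 * √8)

lemma hasDerivAt_c3 (hT : T ∈ Ioo (0 : ℝ) 1) :
    HasDerivAt (fun T => (1 - T ^ 2) * √(1 - T ^ 2)) (-(3 * T * c T)) T := by
  have hw : 0 < 1 - T ^ 2 := by nlinarith [hT.1, hT.2]
  have h1 : HasDerivAt (fun T : ℝ => 1 - T ^ 2) (-(2 * T)) T := by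
    simpa using (hasDerivAt_pow 2 T).const_sub 1
  refine (h1.fun_mul (h1.sqrt hw.ne')).congr_deriv ?_
  have hs := sqrt_pos.2 hw
  unfold c
  have h2 := sq_sqrt hw.le
  field_simp
  linear_combination T * h2

lemma ord_K5 : Ord 5 (fun T => K T - κ * ((1 - T ^ 2) * √(1 - T ^ 2))) := by
  refine Ord.of_deriv (k := 3) (F' := fun T => -kf T - κ * (-(3 * T * c T)))
    (K_contOn.sub (by fun_prop)) (by simp [K]) (fun T hT => ?_) ?_
  · exact (hasDerivAt_K hT).fun_sub ((hasDerivAt_c3 hT).const_mul κ)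
  · have hG : Ord 2 (fun t : ℝ => 3 * κ * t - 27 / (t * ((9 - t ^ 2) * √(9 - t ^ 2)))) := by
      refine ord2 ?_ ?_
      · have h8 : (9 : ℝ) - 1 ^ 2 ≠ 0 := by norm_num
        have hs : DifferentiableAt ℝ (fun t : ℝ => √(9 - t ^ 2)) 1 :=
          DifferentiableAt.sqrt (by fun_prop) h8
        refine DifferentiableAt.sub (by fun_prop) (DifferentiableAt.div (by fun_prop)
          (differentiableAt_id.mul (DifferentiableAt.mul (by fun_prop) hs)) ?_)
        norm_num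
      · unfold κ
        norm_num
        field_simp
        norm_num
    have := hG.mul ord_c
    refine this.congr fun T hT => ?_
    unfold kf c
    ring

lemma ord_K : Ord 3 K := by
  have h1 : Ord 3 (fun T => κ * ((1 - T ^ 2) * √(1 - T ^ 2))) := by
    have h2 : Ord 3 (fun T => c T ^ 3) := isBigO_refl _ _
    have h3 : Ord 3 (fun T => κ * c T ^ 3) := h2.bmul (G := fun _ => κ) continuousAt_const
    refine h3.congr fun T hT => ?_
    have := c_sq (T := T) ⟨hT.1.le, hT.2.le⟩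
    have h4 : c T ^ 3 = c T ^ 2 * c T := by ring
    rw [h4, this, c]
  have h5 := (ord_K5.mono (by norm_num : 3 ≤ 5)).add h1
  refine Ord.congr h5 fun T hT => ?_
  ring

lemma q_cont1 : ContinuousAt q 1 := by
  unfold q
  refine ContinuousAt.sqrt (ContinuousAt.div (by fun_prop) (by fun_prop) (by norm_num))

lemma ord_M : Ord 3 M := ord_K.bmul q_cont1

lemma ord_om : Ord 3 om := by
  have hG : ContinuousAt (fun T : ℝ => -(T / (1 + T))) 1 :=
    (ContinuousAt.div (by fun_prop) (by fun_prop) (by norm_num)).neg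
  refine (ord_M.bmul hG).congr fun T hT => ?_
  unfold om
  ring

lemma ord_om2 : Ord 3 (fun u => om u / u ^ 2) := by
  have hG : ContinuousAt (fun T : ℝ => 1 / T ^ 2) 1 :=
    ContinuousAt.div (by fun_prop) (by fun_prop) (by norm_num)
  refine (ord_om.bmul hG).congr fun T hT => ?_
  ring

lemma ord_O1 : Ord 5 O1 := Ord.tail om_contOn ord_om

lemma ord_O2 : Ord 5 O2 := Ord.tail om2_contOn ord_om2

lemma ord_σ : Ord 5 σ := by
  have hG : ContinuousAt (fun T : ℝ => -T) 1 := by fun_prop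
  refine (ord_O2.bmul hG).congr fun T hT => ?_
  unfold σ
  ring

lemma O1_contOn : ContinuousOn O1 (Ioc 0 1) := tail_contOn om_contOn
lemma O2_contOn : ContinuousOn O2 (Ioc 0 1) := tail_contOn om2_contOn

lemma ρ_contOn : ContinuousOn ρ (Ioc 0 1) := by
  unfold ρ
  exact (O1_contOn.sub ((continuousOn_pow 2).mul O2_contOn)).div_const 2

lemma σ_contOn : ContinuousOn σ (Ioc 0 1) := by
  unfold σ
  exact (continuousOn_id.mul O2_contOn).neg

lemma ρ_one : ρ 1 = 0 := by simp [ρ, O1, O2]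

lemma ord_ρ : Ord 7 ρ := Ord.of_deriv ρ_contOn ρ_one (fun _ hT => hasDerivAt_ρ hT) ord_σ

/-- j / c -/
noncomputable def J (T : ℝ) : ℝ := 1 / √((1 + T) * (3 - T))

lemma J_diff : DifferentiableAt ℝ J 1 := by
  unfold J
  have h8 : ((1 : ℝ) + 1) * (3 - 1) ≠ 0 := by norm_num
  have hs : DifferentiableAt ℝ (fun t : ℝ => √((1 + t) * (3 - t))) 1 :=
    DifferentiableAt.sqrt (by fun_prop) h8
  refine DifferentiableAt.div (by fun_prop) hs ?_
  exact (sqrt_pos.2 (by norm_num)).ne'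

lemma J_one : J 1 = 1 / 2 := by
  unfold J
  rw [show ((1 : ℝ) + 1) * (3 - 1) = 2 ^ 2 by norm_num, sqrt_sq (by norm_num)]

lemma j_eq (hT : T ∈ Icc (0 : ℝ) 1) : j T = c T * J T := by
  unfold j c J
  have h1 : (0 : ℝ) < 1 + T := by linarith [hT.1]
  have h3 : (0 : ℝ) < 3 - T := by linarith [hT.2]
  have h4 : (0 : ℝ) ≤ 1 - T ^ 2 := by nlinarith [hT.1, hT.2]
  rw [mul_one_div, ← sqrt_div h4]
  congr 1
  field_simp
  ring

lemma ord_j : Ord 1 j := by
  have := ord_c.bmul J_diff.continuousAt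
  refine this.congr fun T hT => ?_
  rw [j_eq ⟨hT.1.le, hT.2.le⟩]
  ring

lemma q_diff : DifferentiableAt ℝ q 1 := by
  unfold q
  have hd : DifferentiableAt ℝ (fun T : ℝ => (3 + T) / (1 + T)) 1 :=
    DifferentiableAt.div (by fun_prop) (by fun_prop) (by norm_num)
  exact hd.sqrt (by norm_num)

lemma q_one : q 1 = √2 := by
  unfold q
  norm_num

lemma qκ : √2 * κ = 9 / 16 := by
  unfold κ
  have h2 : √8 = 2 * √2 := by
    rw [show (8 : ℝ) = 2 ^ 2 * 2 by norm_num, sqrt_mul (by norm_num), sqrt_sq (by norm_num)]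
  rw [h2]
  have := (sqrt_pos.2 (by norm_num : (0 : ℝ) < 2)).ne'
  field_simp
  norm_num

/-- cancellation of the leading terms: the combination a M + b (1 - T) j -/
lemma ord_cancel {a b : ℝ → ℝ} (ha : DifferentiableAt ℝ a 1) (hb : DifferentiableAt ℝ b 1)
    (hab : a 1 * (9 / 16) + b 1 / 4 = 0) : Ord 5 (fun T => a T * M T + b T * (1 - T) * j T) := by
  have h1 : Ord 5 (fun T => (a T * q T) * (K T - κ * ((1 - T ^ 2) * √(1 - T ^ 2)))) :=
    ord_K5.bmul (ha.continuousAt.mul q_cont1)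
  have h2 : Ord 2 (fun T => a T * q T * κ + b T * (J T / (1 + T))) := by
    refine ord2 ?_ ?_
    · exact ((ha.mul q_diff).mul_const κ).add
        (hb.mul (J_diff.div (by fun_prop) (by norm_num)))
    · rw [q_one, J_one]
      have := qκ
      linear_combination hab + a 1 * this
  have h3 : Ord 3 (fun T => c T ^ 3) := isBigO_refl _ _
  have h4 := (h2.mul h3).add h1
  refine Ord.congr h4 fun T hT => ?_
  have hT' : T ∈ Icc (0 : ℝ) 1 := ⟨hT.1.le, hT.2.le⟩
  have h5 := c_sq hT'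
  have h6 : √(1 - T ^ 2) = c T := rfl
  have h7 : (1 : ℝ) + T ≠ 0 := by linarith [hT.1]
  rw [j_eq hT', h6, M, ← h5]
  have h8 : 1 - T = c T ^ 2 / (1 + T) := by
    rw [h5]
    field_simp
    ring
  rw [h8]
  field_simp
  ring

lemma ord_e : Ord 5 e := by
  have h1 : Ord 5 (fun T => -(T * (1 + 11 * T) / 24) * M T + 9 / 8 * T * (1 - T) * j T) :=
    ord_cancel (by fun_prop) (by fun_prop) (by norm_num)
  have h2 : Ord 5 (fun T => -(T / 12) * ρ T) :=
    (ord_ρ.mono (by norm_num)).bmul (G := fun T => -(T / 12)) (by fun_prop)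
  have h3 : Ord 5 (fun T => (4 + T ^ 2) / 24 * σ T) :=
    ord_σ.bmul (G := fun T => (4 + T ^ 2) / 24) (by fun_prop)
  refine Ord.congr ((h2.add h3).add h1) fun T hT => ?_
  unfold e lin
  ring

lemma ord_B : Ord 5 B := by
  have h1 : Ord 5 (fun T => -((10 + 14 * T + 17 * T ^ 2 - 5 * T ^ 3) / 48) * M T
      + -(9 / 16 * (1 - 4 * T)) * (1 - T) * j T) :=
    ord_cancel (by fun_prop) (by fun_prop) (by norm_num)
  have h2 : Ord 5 (fun T => (2 - 5 * T ^ 2) / 24 * ρ T) :=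
    (ord_ρ.mono (by norm_num)).bmul (G := fun T => (2 - 5 * T ^ 2) / 24) (by fun_prop)
  have hG : ContinuousAt (fun T : ℝ => -((8 + 6 * T ^ 2 - 5 * T ^ 4) / (48 * T))) 1 :=
    (ContinuousAt.div (by fun_prop) (by fun_prop) (by norm_num)).neg
  have h3 : Ord 5 (fun T => -((8 + 6 * T ^ 2 - 5 * T ^ 4) / (48 * T)) * σ T) := ord_σ.bmul hG
  refine Ord.congr ((h2.add h3).add h1) fun T hT => ?_
  unfold B lin
  ring

lemma ord_h : Ord 5 h := by
  have h1 : Ord 5 (fun T => T * (7 + T ^ 2) / 48 * ((1 - T) * M T)) :=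
    (ord_one_sub.mul ord_M).bmul (G := fun T => T * (7 + T ^ 2) / 48) (by fun_prop)
  have h2 : Ord 5 (fun T => -(T * (7 - 2 * T ^ 2) / 48) * ρ T) :=
    (ord_ρ.mono (by norm_num)).bmul (G := fun T => -(T * (7 - 2 * T ^ 2) / 48)) (by fun_prop)
  have h3 : Ord 5 (fun T => (5 + 4 * T ^ 2 - T ^ 4) / 48 * σ T) :=
    ord_σ.bmul (G := fun T => (5 + 4 * T ^ 2 - T ^ 4) / 48) (by fun_prop)
  refine Ord.congr ((h2.add h3).add h1) fun T hT => ?_
  unfold h lin
  ring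

lemma ord_ε : Ord 7 ε := by
  have h2 : Ord 7 (fun T => (1 - 2 * T ^ 2) * ρ T) :=
    ord_ρ.bmul (G := fun T => 1 - 2 * T ^ 2) (by fun_prop)
  have h3 : Ord 7 (fun T => -(T * (1 + T)) * ((1 - T) * σ T)) :=
    (ord_one_sub.mul ord_σ).bmul (G := fun T => -(T * (1 + T))) (by fun_prop)
  refine Ord.congr (h2.add h3) fun T hT => ?_
  unfold ε lin
  ring

lemma ord_y : Ord 3 (fun T => y T - 9 / 4 * j T) := by
  have h1 : Ord 3 (fun T => (11 + T) / 24 * M T) :=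
    ord_M.bmul (G := fun T => (11 + T) / 24) (by fun_prop)
  have h2 : Ord 3 (fun T => -(1 / 12) * ρ T) :=
    (ord_ρ.mono (by norm_num)).bmul (G := fun _ => -(1 / 12)) (by fun_prop)
  have hG : ContinuousAt (fun T : ℝ => (4 + T ^ 2) / (24 * T)) 1 :=
    ContinuousAt.div (by fun_prop) (by fun_prop) (by norm_num)
  have h3 : Ord 3 (fun T => (4 + T ^ 2) / (24 * T) * σ T) :=
    (ord_σ.mono (by norm_num)).bmul hG
  refine Ord.congr ((h2.add h3).add h1) fun T hT => ?_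
  unfold y lin
  ring

lemma lin_contOn {a b c' d : ℝ → ℝ} (ha : ContinuousOn a (Ioc 0 1)) (hb : ContinuousOn b (Ioc 0 1))
    (hc : ContinuousOn c' (Ioc 0 1)) (hd : ContinuousOn d (Ioc 0 1)) :
    ContinuousOn (lin a b c' d) (Ioc 0 1) :=
  (((ha.mul ρ_contOn).add (hb.mul σ_contOn)).add (hc.mul M_contOn)).add
    (hd.mul (j_cont.mono Ioc_subset_Icc_self))

lemma e_contOn : ContinuousOn e (Ioc 0 1) :=
  lin_contOn (by fun_prop) (by fun_prop) (by fun_prop) (by fun_prop)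

lemma ei_one : ei 1 = 0 := by simp [ei]

lemma ord_ei : Ord 2 ei := by
  obtain ⟨C, hC⟩ := ord_e.bound
  refine IsBigO.of_bound (2 * |C|) ?_
  have h2 : Ioo (1 / 2 : ℝ) 1 ∈ 𝓝[<] (1 : ℝ) := Ioo_mem_nhdsLT (by norm_num)
  filter_upwards [hC, h2] with T h3 h4
  have hT : T ∈ Ioo (0 : ℝ) 1 := ⟨by linarith [h4.1], h4.2⟩
  have h5 := c_sq (T := T) ⟨hT.1.le, hT.2.le⟩
  have h6 : √(1 - T ^ 2) = c T := rfl
  have hc := c_pos hT
  have hT0 := hT.1
  unfold ei
  rw [h6, ← h5, norm_div, norm_of_nonneg (by positivity : 0 ≤ T * (c T ^ 2 * c T)),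
    div_le_iff₀ (by positivity)]
  rw [norm_of_nonneg (pow_nonneg hc.le _)] at h3 ⊢
  refine h3.trans ?_
  have h7 : C * c T ^ 5 ≤ |C| * c T ^ 5 := mul_le_mul_of_nonneg_right (le_abs_self C) (by positivity)
  have h8 : (0 : ℝ) ≤ |C| * c T ^ 5 := by positivity
  have h9 : 2 * |C| * c T ^ 2 * (T * (c T ^ 2 * c T)) = (2 * T) * (|C| * c T ^ 5) := by ring
  rw [h9]
  nlinarith [h4.1]

lemma ei_contOn : ContinuousOn ei (Ioc 0 1) := by
  intro T hT
  rcases hT.2.lt_or_eq with h1 | rfl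
  · have h2 : ContinuousAt ei T := by
      have hT' : T ∈ Ioo (0 : ℝ) 1 := ⟨hT.1, h1⟩
      have h3 : ContinuousAt e T := (hd_e hT').continuousAt
      have hc := c_pos hT'
      have h5 := c_sq (T := T) ⟨hT.1.le, hT.2⟩
      refine h3.div (by fun_prop) ?_
      have h6 : √(1 - T ^ 2) = c T := rfl
      rw [h6, ← h5]
      have := hT.1
      positivity
    exact h2.continuousWithinAt
  · have h1 : Tendsto ei (𝓝[<] 1) (𝓝 0) := by
      refine ord_ei.trans_tendsto ?_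
      have := tendsto_c.pow 2
      simpa using this
    have h2 : ContinuousWithinAt ei (Iio 1) 1 := by
      unfold ContinuousWithinAt
      rwa [ei_one]
    refine (continuousWithinAt_insert_self.2 h2).mono fun x hx => ?_
    rcases hx.2.lt_or_eq with h3 | h3
    · exact mem_insert_of_mem _ h3
    · exact h3 ▸ mem_insert _ _

lemma hasDerivAt_r (hT : T ∈ Ioo (0 : ℝ) 1) : HasDerivAt r (rD 3 T (e T) (r T)) T := by
  have h0 := hT.1.ne'
  have hw : 0 < 1 - T ^ 2 := by nlinarith [hT.1, hT.2]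
  have h1 : HasDerivAt (fun T : ℝ => 1 - T ^ 2) (-(2 * T)) T := by
    simpa using (hasDerivAt_pow 2 T).const_sub 1
  refine ((h1.sqrt hw.ne').fun_mul (hasDerivAt_tail ei_contOn hT)).congr_deriv ?_
  have hs := sqrt_pos.2 hw
  have h2 := sq_sqrt hw.le
  unfold rD r ei
  generalize (∫ u in T..1, e u / (u * ((1 - u ^ 2) * √(1 - u ^ 2)))) = I
  generalize √(1 - T ^ 2) = s at *
  rw [← h2]
  have hs0 := hs.ne'
  field_simp
  ring

lemma ord_r : Ord 5 r := (ord_ei.tail ei_contOn).mul ord_c |>.congr fun T hT => by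
  unfold r c
  ring

end

end Vale.Agent.P224.R2.H178.Flow3
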