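import Vale.Agent.P224.R2.H433.L57

/-!
The contact of the minorant of `(1 - x)⁻⁵` at zero.
-/

namespace Vale.Agent.P224.R2.H178.Flow3

open Vale.Agent.P224.R2.H433

set_option linter.style.longLine false

/-- the remainder factor -/
noncomputable def s5 (x : ℝ) : ℝ := 225 / 512 * (1 - x) ^ 0 + 2925 / 1024 * (1 - x) ^ 1 + 43875 / 4096 * (1 - x) ^ 2 + 249075 / 8192 * (1 - x) ^ 3 + 9510075 / 131072 * (1 - x) ^ 4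

lemma gap5_b0 {x y : ℝ} (hx : 0 ≤ x) (hy : 0 ≤ y) : 0 ≤ 9281723887467 / 3276800 * y ^ 9 + 3403039969541 / 409600 * x * y ^ 8 + 179197735727 / 12800 * x ^ 2 * y ^ 7 + 163763152461 / 1600 * x ^ 3 * y ^ 6 + 168401529501 / 400 * x ^ 4 * y ^ 5 + 41827332747 / 50 * x ^ 5 * y ^ 4 + 23013214424 / 25 * x ^ 6 * y ^ 3 + 14509420096 / 25 * x ^ 7 * y ^ 2 + 4935588224 / 25 * x ^ 8 * y + 705115136 / 25 * x ^ 9 := by
  positivity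

lemma gap5_c0 {T : ℝ} (h0 : (-1 / 8) ≤ T) (h1 : T ≤ 0) : 0 ≤ 73 / 100 - (1 + T) * (T + 1 / 3) ^ 2 * (T - 1 / 5) ^ 2 * s5 T := by
  have h := gap5_b0 (sub_nonneg.2 h0) (sub_nonneg.2 h1)
  refine h.trans_eq ?_
  unfold s5
  ring

lemma gap5_b1 {x y : ℝ} (hx : 0 ≤ x) (hy : 0 ≤ y) : 0 ≤ 705115136 / 25 * y ^ 9 + 7756484224 / 25 * x * y ^ 8 + 37076588096 / 25 * x ^ 2 * y ^ 7 + 101170157224 / 25 * x ^ 3 * y ^ 6 + 347829942347 / 50 * x ^ 4 * y ^ 5 + 3129947952851 / 400 * x ^ 5 * y ^ 4 + 9228192582061 / 1600 * x ^ 6 * y ^ 3 + 34431543104577 / 12800 * x ^ 7 * y ^ 2 + 295395824407941 / 409600 * x ^ 8 * y + 277769860850917 / 3276800 * x ^ 9 := by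
  positivity

lemma gap5_c1 {T : ℝ} (h0 : 0 ≤ T) (h1 : T ≤ 1 / 8) : 0 ≤ 73 / 100 - (1 + T) * (T + 1 / 3) ^ 2 * (T - 1 / 5) ^ 2 * s5 T := by
  have h := gap5_b1 (sub_nonneg.2 h0) (sub_nonneg.2 h1)
  refine h.trans_eq ?_
  unfold s5
  ring

lemma gap5 {T : ℝ} (h0 : (-1 / 8) ≤ T) (h1 : T ≤ 1 / 8) : 0 ≤ 73 / 100 - (1 + T) * (T + 1 / 3) ^ 2 * (T - 1 / 5) ^ 2 * s5 T := by
  rcases le_total T (0) with h | h
  · exact gap5_c0 h0 h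
  have h' := h
  clear h
  exact gap5_c1 h' h1


/-- the contact at zero -/
lemma q5_gap {x : ℝ} (h0 : -(1 / 8) ≤ x) (h1 : x ≤ 1 / 8) :
    ((1 - x) ^ 5)⁻¹ - ev L57.Q5 x ≤ 73 / 100 * x ^ 2 * ((1 - x) ^ 5)⁻¹ := by
  have hp : 0 < (1 - x) ^ 5 := pow_pos (by linarith) 5
  have h2 := Q5_id x
  have h3 := gap5 (T := x) (by linarith) h1
  have h4 : 1 - ev L57.Q5 x * (1 - x) ^ 5 ≤ 73 / 100 * x ^ 2 := by
    have e1 : 1 - ev L57.Q5 x * (1 - x) ^ 5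
        = (1 + x) * (x + 1 / 3) ^ 2 * x ^ 2 * (x - 1 / 5) ^ 2 * s5 x := h2
    rw [e1]
    nlinarith [mul_nonneg h3 (sq_nonneg x)]
  have h5 := mul_le_mul_of_nonneg_right h4 (inv_pos.2 hp).le
  have h6 : (1 - ev L57.Q5 x * (1 - x) ^ 5) * ((1 - x) ^ 5)⁻¹ = ((1 - x) ^ 5)⁻¹ - ev L57.Q5 x := by
    rw [sub_mul, one_mul, mul_assoc, mul_inv_cancel₀ hp.ne', mul_one]
  rwa [h6] at h5

lemma q5_inv {x : ℝ} (h0 : -1 ≤ x) (h1 : x < 1) : ev L57.Q5 x ≤ ((1 - x) ^ 5)⁻¹ := by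
  rw [inv_eq_one_div, le_div_iff₀ (pow_pos (by linarith) 5)]
  exact Q5_le h0 h1.le

lemma q7_inv {x : ℝ} (h0 : -1 ≤ x) (h1 : x < 1) : ev L57.B0 x ≤ ((1 - x) ^ 7)⁻¹ := by
  rw [inv_eq_one_div, le_div_iff₀ (pow_pos (by linarith) 7)]
  exact Q7_le h0 h1.le

end Vale.Agent.P224.R2.H178.Flow3
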