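import Vale.Agent.P224.PO.MainOdd

/-!
The laws of `SO/LawL.lean` and `PO/LawV.lean` and the core theorem of `PO/MainOdd.lean` without the
hypothesis `4 < m`: they hold for every odd `m`, in particular for `m = 3`.
-/

namespace Vale.Agent.P224.R2.H178

open MeasureTheory Set Filter Function
open Vale.Agent.P224.UE Vale.Agent.P224.UG Vale.Agent.P224.OT Vale.Agent.P224.SO
open Vale.Agent.P224.SM2 hiding ker
open scoped Topology RealInnerProductSpace

set_option linter.unusedSectionVars false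

section

variable {X : Type*} [MeasurableSpace X]
  {E : Type*} [NormedAddCommGroup E]
  [InnerProductSpace ℝ E] [MeasurableSpace E] [BorelSpace E] [SecondCountableTopology E]
  {μ : Measure X} [IsFiniteMeasure μ] {m h : ℕ} {p n : X → E} {C S : ℝ}

/-- the law with a static functional -/
theorem law_GL3 (hD : EmbD μ m p n C S) (hmh : m = 2 * h + 1) (l : List GT)
    (hr : ∀ t ∈ l, t.Reg) (hok : ∀ t ∈ l, t.ok h) {H H' : ℝ → R9 → ℝ} {L : R9 → ℝ}
    (hH : HReg H H' L)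
    (hHL : Integrable (fun q => L (dat p n 0 q)) (μ.prod μ) ∧
      Tendsto (fun T => ∫ q, H T (dat p n 0 q) ∂(μ.prod μ)) (𝓝[<] 1)
        (𝓝 (∫ q, L (dat p n 0 q) ∂(μ.prod μ))))
    (hR : ∀ T ∈ Ioo (0 : ℝ) 1, ∃ R : R9 → ℝ, Null μ p n 0 R ∧
      ∀ x N y w : E, ‖x‖ = 1 → ‖N‖ = 1 → ‖y‖ = 1 → ‖w‖ = 1 → ⟪x, N⟫ = 0 → ⟪y, w⟫ = 0 →
        gS' (l.map GT.v) T (dv x N y w 0) + H' T (dv x N y w 0) ≤ R (dv x N y w 0)) :
    (l.map fun t => if t.fl h then t.c * (kap2 m t.a t.q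
        * (S * ∫ y, t.w (dat p n (0 : E) (y, y)) ∂μ)) else 0).sum
        + ∫ q, L (dat p n 0 q) ∂(μ.prod μ)
      ≤ ∫ y, (l.map fun t => t.φ 0 * t.Q (dat p n (0 : E) y)).sum ∂(μ.prod μ) := by
  have hP := hD.toTwoG.toPts
  have hKE : KE (bE (0 : E)) ⊆ {d | d 0 ∈ Icc (-1 : ℝ) 1} := fun d hd => hd.2
  have hr' : ∀ t ∈ l.map GT.v, t.Reg := by
    intro t ht
    obtain ⟨u, hu, rfl⟩ := List.mem_map.1 ht
    exact (hr u hu).v
  have hanti := hD.toTwoG.toTwoE.antitone (0 : E)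
    (g := fun T d => gS (l.map GT.v) T d + H T d)
    (g' := fun T d => gS' (l.map GT.v) T d + H' T d)
    (fun T => (measurable_gS hr' T).add (hH.hm T))
    (fun T => (measurable_gS' hr' T).add (hH.hm' T))
    ((contOn_gS hr' _).add (hH.hc.mono (prod_mono subset_rfl hKE)))
    ((contOn_gS' hr' _).add (hH.hc'.mono (prod_mono subset_rfl hKE)))
    (fun T hT k hk => (hasDerivAt_gS hr' hT hk).add (hH.hd T hT k (hKE hk))) hR
  have hHi : ∀ T ∈ Ico (0 : ℝ) 1, Integrable (fun q => H T (dat p n 0 q)) (μ.prod μ) := by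
    intro T hT
    refine integrable_param (f := H T) _ (measurable_dat hP 0) (isCompact_KE (bE (0 : E)))
      (dat_mem hP 0) (hH.hm T) ?_
    have h1 : ContinuousOn (fun d : R9 => (T, d)) (KE (bE (0 : E))) := by fun_prop
    exact (hH.hc.mono (prod_mono subset_rfl hKE)).comp h1 fun d hd => ⟨hT, hd⟩
  have hGi : ∀ T ∈ Ico (0 : ℝ) 1, Integrable (fun q => gS (l.map GT.v) T (dat p n 0 q))
      (μ.prod μ) := fun T hT => integrable_gS hr' hP 0 hT
  have hspl : ∀ T ∈ Ico (0 : ℝ) 1, ∫ q, (gS (l.map GT.v) T (dat p n 0 q)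
      + H T (dat p n 0 q)) ∂(μ.prod μ)
      = ∫ q, gS (l.map GT.v) T (dat p n 0 q) ∂(μ.prod μ)
        + ∫ q, H T (dat p n 0 q) ∂(μ.prod μ) := fun T hT =>
    integral_add (hGi T hT) (hHi T hT)
  have e0 : ∀ y, (l.map fun t => t.φ 0 * t.Q (dat p n (0 : E) y)).sum
      = gS (l.map GT.v) 0 (dat p n 0 y) + H 0 (dat p n 0 y) := by
    intro y
    rw [hH.h0, add_zero]
    unfold gS VTm.g
    rw [List.map_map]
    congr 1
    refine List.map_congr_left fun t _ => ?_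
    simp [SM2.ker, GT.v]
  simp only [e0]
  have hlG : Tendsto (fun T => ∫ q, gS (l.map GT.v) T (dat p n 0 q) ∂(μ.prod μ)) (𝓝[<] 1)
      (𝓝 (l.map fun t => if t.fl h then t.c * (kap2 m t.a t.q
        * (S * ∫ y, t.w (dat p n (0 : E) (y, y)) ∂μ)) else 0).sum) := by
    have h2 : Tendsto (fun T => (l.map fun t => t.φ T * ∫ y, t.Q (dat p n (0 : E) y)
        * SM2.ker T t.q (dat p n 0 y 0) ∂(μ.prod μ)).sum) (𝓝[<] 1)
        (𝓝 (l.map fun t => if t.fl h then t.c * (kap2 m t.a t.q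
        * (S * ∫ y, t.w (dat p n (0 : E) (y, y)) ∂μ)) else 0).sum) := by
      have h3 := tendsto_list_sum (f := fun (t : GT) T => t.φ T * ∫ y, t.Q (dat p n (0 : E) y)
        * SM2.ker T t.q (dat p n 0 y 0) ∂(μ.prod μ))
        (a := fun t : GT => if t.fl h then t.c * (kap2 m t.a t.q
          * (S * ∫ y, t.w (dat p n (0 : E) (y, y)) ∂μ)) else 0) (x := 𝓝[<] (1 : ℝ)) l
        (fun t ht => by
          by_cases hf : t.fl h
          · simp only [if_pos hf]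
            exact GT.lim_flux hD hmh 0 (hr t ht) hf
          · simp only [if_neg hf]
            rcases hok t ht with h3 | h3
            · exact absurd h3 hf
            · exact GT.lim_null hD hmh 0 (hr t ht) h3)
      exact h3
    refine h2.congr' ?_
    have h0 : ∀ᶠ T in 𝓝[<] (1 : ℝ), T ∈ Ioo (0 : ℝ) 1 := Ioo_mem_nhdsLT one_pos
    filter_upwards [h0] with T hT
    rw [integral_gS hr' hP 0 ⟨hT.1.le, hT.2⟩, List.map_map]
    rfl
  have hlim := hlG.add hHL.2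
  refine le_of_tendsto hlim ?_
  have h0 : ∀ᶠ T in 𝓝[<] (1 : ℝ), T ∈ Ioo (0 : ℝ) 1 := Ioo_mem_nhdsLT one_pos
  filter_upwards [h0] with T hT
  have h1 := hanti ⟨le_rfl, one_pos⟩ ⟨hT.1.le, hT.2⟩ hT.1.le
  simp only at h1
  rw [← hspl T ⟨hT.1.le, hT.2⟩]
  exact h1

/-- the inequality of a certificate with a parameter and a static functional -/
theorem law_PL3 [CompleteSpace E] (hD : EmbD μ m p n C S) (hmh : m = 2 * h + 1)
    (l : List GT) (hr : ∀ t ∈ l, t.Reg) (hok : ∀ t ∈ l, t.ok h)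
    (hw : ∀ t ∈ l, t.fl h → ∀ x N : E, ‖x‖ = 1 → ‖N‖ = 1 → ⟪x, N⟫ = 0 →
      t.w (dv x N x N 0) = 1)
    {Ro : ℝ → R9 → ℝ} (hRn : ∀ T ∈ Ico (0 : ℝ) 1, Null μ p n 0 (Ro T))
    {H H' : ℝ → R9 → ℝ} {L : R9 → ℝ} (hH : HReg H H' L)
    (hHL : Integrable (fun q => L (dat p n 0 q)) (μ.prod μ) ∧
      Tendsto (fun T => ∫ q, H T (dat p n 0 q) ∂(μ.prod μ)) (𝓝[<] 1)
        (𝓝 (∫ q, L (dat p n 0 q) ∂(μ.prod μ))))
    (hpos : ∀ T ∈ Ioo (0 : ℝ) 1, ∀ x N y w : E, ‖x‖ = 1 → ‖N‖ = 1 → ‖y‖ = 1 → ‖w‖ = 1 →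
      ⟪x, N⟫ = 0 → ⟪y, w⟫ = 0 →
        gS' (l.map GT.v) T (dv x N y w 0) + H' T (dv x N y w 0) ≤ Ro T (dv x N y w 0))
    {c0 γ : ℝ} {R : R9 → ℝ} (hRc : Continuous R) (hR : 0 ≤ ∫ q, R (dat p n 0 q) ∂(μ.prod μ))
    (h0 : ∀ x N y w : E, ‖x‖ = 1 → ‖N‖ = 1 → ‖y‖ = 1 → ‖w‖ = 1 → ⟪x, N⟫ = 0 → ⟪y, w⟫ = 0 →
      (l.map fun t => t.φ 0 * t.Q (dv x N y w 0)).sum
        ≤ c0 + γ * dv x N y w (0 : E) 3 - R (dv x N y w 0) + Ro 0 (dv x N y w 0)) :
    Integrable (fun q => L (dat p n 0 q)) (μ.prod μ) ∧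
      ∫ q, L (dat p n 0 q) ∂(μ.prod μ) + fluxC m h l * S * μ.real univ
        ≤ c0 * μ.real univ ^ 2 + γ * ‖∫ x, n x ∂μ‖ ^ 2 := by
  have hG := hD.toTwoG
  have hP := hG.toPts
  refine ⟨hHL.1, ?_⟩
  have key := law_GL3 hD hmh l hr hok hH hHL (fun T hT => ⟨_, hRn T ⟨hT.1.le, hT.2⟩,
    fun x N y w a1 a2 a3 a4 a5 a6 => hpos T hT x N y w a1 a2 a3 a4 a5 a6⟩)
  rw [flux_sum (S := S) h (0 : E) (fun x => ⟨hD.np x, hD.nn x, hD.pn x⟩) hw] at key
  have hint : ∀ {G : R9 → ℝ}, Continuous G → Integrable (fun q => G (dat p n 0 q)) (μ.prod μ) :=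
    fun hG' => integrable_param _ (measurable_dat hP 0) (isCompact_KE (bE (0 : E)))
      (dat_mem hP 0) hG'.measurable hG'.continuousOn
  have iR : Integrable (fun q => R (dat p n 0 q)) (μ.prod μ) := hint hRc
  have i3 : Integrable (fun q => dat p n (0 : E) q 3) (μ.prod μ) :=
    hint (G := fun d => d 3) (by fun_prop)
  have iN := hRn 0 ⟨le_rfl, one_pos⟩
  have iG : Integrable (fun q => (l.map fun t => t.φ 0 * t.Q (dat p n 0 q)).sum)
      (μ.prod μ) := by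
    have hcont : Continuous fun d : R9 => (l.map fun t => t.φ 0 * t.Q d).sum := by
      clear key hint iR i3 iN h0 hpos hok hw
      induction l with
      | nil => simpa using continuous_const
      | cons t l ih =>
        simp only [List.map_cons, List.sum_cons]
        exact (continuous_const.mul (GT.continuous_Q (hr t List.mem_cons_self).hw)).add
          (ih fun u hu => hr u (List.mem_cons_of_mem _ hu))
    exact hint hcont
  have hK := int_c_eq hG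
  have hle : ∫ q, (l.map fun t => t.φ 0 * t.Q (dat p n 0 q)).sum ∂(μ.prod μ)
      ≤ ∫ q, (c0 + γ * dat p n (0 : E) q 3 - R (dat p n 0 q)
          + Ro 0 (dat p n 0 q)) ∂(μ.prod μ) := by
    refine integral_mono iG ?_ fun q => ?_
    · exact (((integrable_const _).add (i3.const_mul _)).sub iR).add iN.1
    · exact h0 _ _ _ _ (hD.np _) (hD.nn _) (hD.np _) (hD.nn _) (hD.pn _) (hD.pn _)
  have hAA : (μ.prod μ).real univ = μ.real univ ^ 2 := by
    rw [measureReal_def, measureReal_def, ← univ_prod_univ, Measure.prod_prod,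
      ENNReal.toReal_mul, sq]
  have j2 : Integrable (fun q => γ * dat p n (0 : E) q 3) (μ.prod μ) := i3.const_mul _
  have j3 : Integrable (fun q => c0 + γ * dat p n (0 : E) q 3) (μ.prod μ) :=
    (integrable_const _).add j2
  have j4 : Integrable (fun q => c0 + γ * dat p n (0 : E) q 3 - R (dat p n 0 q))
    (μ.prod μ) := j3.sub iR
  rw [integral_add j4 iN.1, iN.2, integral_sub j3 iR, integral_add (integrable_const _) j2,
    integral_const_mul, integral_const, smul_eq_mul, hAA, hK] at hle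
  linarith

end

end Vale.Agent.P224.R2.H178
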