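import Vale.Agent.P224.R2.H178.Flow3
import Vale.Agent.P224.R2.H178.CoreA
import Vale.Agent.P224.R2.H925.Law
import Vale.Agent.P224.R2.H176.T0.Stab3

/-!
The law of the certificate in dimension three from the adapted flow.
-/

namespace Vale.Agent.P224.R2.H178

open MeasureTheory Set Filter Function Module Real Vale.Agent.P224 Vale.Agent.P224.UE
open Vale.Agent.P224.PO Vale.Agent.P224.R2.H925 Vale.Agent.P224.R2.H176
open Vale.Agent.P224.SM2 hiding ker
open scoped Topology RealInnerProductSpace ENNReal ContDiff Manifold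

set_option linter.unusedSectionVars false

section

variable {X : Type*} [MeasurableSpace X] {W : Type*} [NormedAddCommGroup W]
  [InnerProductSpace ℝ W] [CompleteSpace W] {μ : Measure X} [IsFiniteMeasure μ]

lemma int_inner_prod {n : X → W} (hI : Integrable n μ)
    (hP : Integrable (fun q : X × X => ⟪n q.1, n q.2⟫) (μ.prod μ)) :
    ∫ q : X × X, ⟪n q.1, n q.2⟫ ∂(μ.prod μ) = ‖∫ x, n x ∂μ‖ ^ 2 := by
  rw [integral_prod _ hP]
  simp only [integral_inner hI]
  have h1 : ∀ x, ⟪n x, ∫ y, n y ∂μ⟫ = ⟪∫ y, n y ∂μ, n x⟫ := fun x => real_inner_comm _ _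
  simp only [h1, integral_inner hI]
  exact real_inner_self_eq_norm_sq _

end

/-- the normalisation -/
noncomputable def Fc : ℝ := 81 / 32 * (1 / √3)

lemma Fc_pos : 0 < Fc := by
  unfold Fc
  positivity

lemma Fc_mul : Fc * (8 / 3 * √(1 / 3)) = 9 / 4 := by
  unfold Fc
  rw [sqrt_div zero_le_one, sqrt_one]
  have h3 : √3 * √3 = 3 := mul_self_sqrt (by norm_num)
  have h0 : √3 ≠ 0 := by positivity
  field_simp
  nlinarith

/-- the square resource of the flow -/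
noncomputable def Gw (d w1 w2 : ℝ) (k : R4) : ℝ :=
  w1 * (k.2.2.2 - k.1 - d * ((k.2.1 + k.2.2.1) / 2)) ^ 2 + 2 * w2 * (k.2.1 - k.2.2.1) ^ 2

/-- the resource of the law -/
noncomputable def RF3 (d ε0 w1 w2 : ℝ) : R9 → ℝ :=
  RQ (-(ε0 / 4) / Fc) (w1 / Fc) (w1 / Fc) (-(2 * w1) / Fc) ((w1 / 4 + 4 * w2 + 5 / 2 * ε0) / Fc)
    ((w1 / 4 - 4 * w2) / Fc) ((2 * d * w1 + d * ε0 / 2) / Fc) ((-(2 * d * w1) - 11 / 4 * (d * ε0)) / Fc)

/-- the identity of the resources at a pair -/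
lemma RF3_eq {d : ℝ} (hd2 : d ^ 2 = 1 / 2) (ε0 r0 w1 w2 : ℝ) (v : R9) :
    Fc * RF3 d ε0 w1 w2 v
      = Gw d w1 w2 (v 0, v 1, v 2, v 3) + (Fc + 3 * r0 * v 3)
        - f0K 3 d ε0 r0 (1 / 4 * ε0 + Fc) (v 0, v 1, v 2, v 3) := by
  unfold RF3 RQ Gw f0K
  have := Fc_pos.ne'
  have h2 : ∀ a b : ℝ, d ^ 2 * a = 1 / 2 * a := fun a b => by rw [hd2]
  field_simp
  push_cast
  ring_nf
  have h3 : d ^ 3 = 1 / 2 * d := by
    calc d ^ 3 = d ^ 2 * d := by ring
      _ = _ := by rw [hd2]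
  simp only [hd2, h3]
  ring

section

variable {V W M : Type*} [NormedAddCommGroup V] [InnerProductSpace ℝ V] [FiniteDimensional ℝ V]
  [NormedAddCommGroup W] [InnerProductSpace ℝ W] [FiniteDimensional ℝ W]
  [TopologicalSpace M] [ChartedSpace V M]
  [MeasurableSpace V] [BorelSpace V] [MeasurableSpace M] [BorelSpace M]
  [IsManifold 𝓘(ℝ, V) ∞ M] [CompactSpace M] [T2Space M] [ConnectedSpace M]
  [MeasurableSpace W] [BorelSpace W]

/-- **the law of the certificate in dimension three** from the adapted flow and a lower bound of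
the integrated defect -/
theorem lawTP_flow (hV : finrank ℝ V = 3) (hW : finrank ℝ W = finrank ℝ V + 2) {F : M → W}
    (hF : SphImm V F) (hmin : ∀ x n, IsUnitNormal V F x n → meanCurv V F x n = 0)
    (hinj : Injective F) {d ε0 r0 w1 w2 μ : ℝ} (hd2 : d ^ 2 = 1 / 2) {u : St} (hs : Sys 3 d u)
    (h0 : Lim0 3 d u ε0 r0 (1 / 4 * ε0 + Fc)) (h1 : Lim1 3 u (9 / 8))
    (hB : ∀ N : M → W, ContMDiff 𝓘(ℝ, V) 𝓘(ℝ, W) ∞ N → (∀ x, IsUnitNormal V F x (N x)) →
      TwoG (volM V F) 3 F N → ∃ B : ℝ → ℝ, IntervalIntegrable B volume 0 1 ∧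
        (∀ T ∈ Ioo (0 : ℝ) 1, B T ≤ DS ((volM V F).prod (volM V F)) 3 (SM2.pr F N) d u T) ∧
        ∫ q, (Gw d w1 w2 (SM2.pr F N q) - μ * (SM2.pr F N q).2.2.2) ∂((volM V F).prod (volM V F))
          ≤ ∫ T in (0 : ℝ)..1, B T) :
    LawTP V 3 F (8 / 3 * √(1 / 3)) ((3 * r0 + μ) / Fc) (RF3 d ε0 w1 w2) := by
  have hfin : IsFiniteMeasure (volM V F) := isFiniteMeasure_volM hF
  intro N Bd hNs hN hE
  have hG := hE.toTwoG
  obtain ⟨B, hBi, hBT, hBG⟩ := hB N hNs hN hG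
  have key := adapted_defect (d := d) (u := u) (lam := 9 / 8) (by omega) hW hF hmin hNs hN hinj
    (by rw [hd2]; norm_num) (by rw [hV]; exact hs) (by rw [hV]; exact h0) (by rw [hV]; exact h1)
    (by norm_num) hBi (by rw [hV]; exact hBT)
  rw [hV] at key
  set ν := (volM V F).prod (volM V F) with hν
  set A := (volM V F).real univ with hA
  have hint : ∀ {H : R9 → ℝ}, Continuous H → Integrable (fun q => H (dat F N (0 : W) q)) ν :=
    fun hH => integrable_param _ (measurable_dat hG.toPts 0) (isCompact_KE (bE (0 : W)))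
      (dat_mem hG.toPts 0) hH.measurable hH.continuousOn
  have hpr : ∀ q : M × M, SM2.pr F N q = ((dat F N (0 : W) q) 0, (dat F N (0 : W) q) 1,
      (dat F N (0 : W) q) 2, (dat F N (0 : W) q) 3) := fun q => rfl
  have hmass : ν.real univ = A ^ 2 := by
    rw [hν, hA, measureReal_def, measureReal_def, ← univ_prod_univ, Measure.prod_prod,
      ENNReal.toReal_mul]
    ring
  have hη : ∫ q, (dat F N (0 : W) q) 3 ∂ν = ‖∫ x, N x ∂(volM V F)‖ ^ 2 := by
    have h2 : Integrable (fun q : M × M => (dat F N (0 : W) q) 3) ν :=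
      hint (H := fun v => v 3) (continuous_apply 3)
    have h3 : ∀ q : M × M, (dat F N (0 : W) q) 3 = ⟪N q.1, N q.2⟫ := fun q => rfl
    simp only [h3] at h2 ⊢
    exact int_inner_prod (integrable_unit hG.mn hG.nn) h2
  have iG : Integrable (fun q => Gw d w1 w2 (SM2.pr F N q)) ν := by
    simp only [hpr]
    exact hint (H := fun v => Gw d w1 w2 (v 0, v 1, v 2, v 3)) (by unfold Gw; fun_prop)
  have iη : Integrable (fun q => (SM2.pr F N q).2.2.2) ν := by
    simp only [hpr]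
    exact hint (H := fun v => v 3) (continuous_apply 3)
  have if0 : Integrable (fun q => f0K 3 d ε0 r0 (1 / 4 * ε0 + Fc) (SM2.pr F N q)) ν := by
    simp only [hpr]
    exact hint (H := fun v => f0K 3 d ε0 r0 (1 / 4 * ε0 + Fc) (v 0, v 1, v 2, v 3))
      (by unfold f0K; fun_prop)
  have hR : Fc * ∫ q, RF3 d ε0 w1 w2 (dat F N (0 : W) q) ∂ν
      = ∫ q, Gw d w1 w2 (SM2.pr F N q) ∂ν + (Fc * A ^ 2 + 3 * r0 * ‖∫ x, N x ∂(volM V F)‖ ^ 2)
        - ∫ q, f0K 3 d ε0 r0 (1 / 4 * ε0 + Fc) (SM2.pr F N q) ∂ν := by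
    rw [← integral_const_mul]
    simp only [RF3_eq hd2 ε0 r0 w1 w2, ← hpr]
    have i1 : Integrable (fun q => Fc + 3 * r0 * (dat F N (0 : W) q) 3) ν :=
      hint (H := fun v => Fc + 3 * r0 * v 3) (by fun_prop)
    have i3 : Integrable (fun q => Gw d w1 w2 (SM2.pr F N q)
        + (Fc + 3 * r0 * (dat F N (0 : W) q) 3)) ν := iG.add i1
    rw [integral_sub i3 if0, integral_add iG i1]
    congr 2
    have i2 : Integrable (fun q => 3 * r0 * (dat F N (0 : W) q) 3) ν :=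
      hint (H := fun v => 3 * r0 * v 3) (by fun_prop)
    rw [integral_add (integrable_const _) i2, integral_const_mul, hη, integral_const,
      smul_eq_mul, hmass]
    ring
  have hBG' : ∫ q, Gw d w1 w2 (SM2.pr F N q) ∂ν - μ * ‖∫ x, N x ∂(volM V F)‖ ^ 2
      ≤ ∫ T in (0 : ℝ)..1, B T := by
    rw [← hη]
    have h5 : ∀ q : M × M, (dat F N (0 : W) q) 3 = (SM2.pr F N q).2.2.2 := fun q => rfl
    simp only [h5]
    rw [integral_sub iG (iη.const_mul μ), integral_const_mul] at hBG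
    exact hBG
  have hF0 := Fc_pos
  have h6 : Fc * (8 / 3 * √(1 / 3) * sphereVol 3 * A
      + ∫ q, RF3 d ε0 w1 w2 (dat F N (0 : W) q) ∂ν)
      ≤ Fc * (A ^ 2 + (3 * r0 + μ) / Fc * ‖∫ x, N x ∂(volM V F)‖ ^ 2) := by
    have h7 : Fc * (A ^ 2 + (3 * r0 + μ) / Fc * ‖∫ x, N x ∂(volM V F)‖ ^ 2)
        = Fc * A ^ 2 + (3 * r0 + μ) * ‖∫ x, N x ∂(volM V F)‖ ^ 2 := by
      field_simp
    have h8 : Fc * (8 / 3 * √(1 / 3) * sphereVol 3 * A) = 9 / 4 * (sphereVol 3 * A) := by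
      rw [← Fc_mul]
      ring
    rw [h7, mul_add, h8, hR]
    have h9 : 2 * (9 / 8 : ℝ) * (sphereVol 3 * A) = 9 / 4 * (sphereVol 3 * A) := by ring
    rw [h9] at key
    linarith
  exact le_of_mul_le_mul_left h6 hF0

end

end Vale.Agent.P224.R2.H178
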