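import Vale.Agent.P224.PO.Num5

/-!
Numerical facts for dimension three.
-/

namespace Vale.Agent.P224.R2.H178

open Vale.Agent.P224 Vale.Agent.P224.UE Vale.Agent.P224.POS Vale.Agent.P224.SO
  Vale.Agent.P224.OT

lemma oddRatio_one : oddRatio 1 = 8 / 3 * √(1 / 3) := by
  have h1 := oddRatio_pow_four 1
  have h2 : (√(1 / 3) : ℝ) ^ 2 = 1 / 3 := Real.sq_sqrt (by norm_num)
  have h3 : (8 / 3 * √(1 / 3) : ℝ) ^ 4 = oddRatio 1 ^ 4 := by
    rw [h1, mul_pow, show (√(1 / 3) : ℝ) ^ 4 = (√(1 / 3) ^ 2) ^ 2 by ring, h2]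
    norm_num
  have h0 : 0 ≤ oddRatio 1 := by
    unfold oddRatio
    positivity
  exact (pow_left_inj₀ h0 (by positivity) (by norm_num)).1 h3.symm

lemma kap_three_three : kap 3 3 = √2 / 4 := by
  rw [kap_self (by norm_num)]
  have h2 : (√2 : ℝ) ^ 2 = 2 := Real.sq_sqrt (by norm_num)
  have h0 : (0 : ℝ) < √2 := Real.sqrt_pos.2 (by norm_num)
  have e : -(((3 : ℕ) : ℝ) / 2) = -(1 : ℝ) + -(1 / 2) := by
    push_cast
    norm_num
  rw [e, Real.rpow_add (by norm_num), Real.rpow_neg (by norm_num), Real.rpow_neg (by norm_num),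
    ← Real.sqrt_eq_rpow]
  rw [show (2 : ℝ) ^ (1 : ℝ) = 2 by norm_num]
  field_simp
  linarith

lemma kap_three_succ {q : ℕ} (hq : 2 ≤ q) : kap 3 (q + 1) = ((q : ℝ) - 3 / 2) * kap 3 q / q := by
  have := kap_succ (m := 3) (q := q) (by omega)
  simpa using this

lemma kap_three_two : kap 3 2 = √2 := by
  have h := kap_three_succ (q := 2) (by norm_num)
  rw [kap_three_three] at h
  norm_num at h
  linarith

lemma kap_three_four : kap 3 4 = √2 / 8 := by
  have h := kap_three_succ (q := 3) (by norm_num)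
  rw [kap_three_three] at h
  norm_num at h
  linarith

lemma kap_three_five : kap 3 5 = 5 * √2 / 64 := by
  have h := kap_three_succ (q := 4) (by norm_num)
  rw [kap_three_four] at h
  norm_num at h
  linarith

/-- the flux against the volume ratio -/
theorem flux_eq3 : (8 : ℝ) / 3 * 1 = √3 * (8 / 3 * √(1 / 3)) := by
  have h : √3 * √(1 / 3) = (1 : ℝ) := by
    rw [← Real.sqrt_mul (by norm_num)]
    norm_num
  calc (8 : ℝ) / 3 * 1 = 8 / 3 * (√3 * √(1 / 3)) := by rw [h]
    _ = _ := by ring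

/-- upper bound of the volume ratio -/
theorem a3_le : (8 : ℝ) / 3 * √(1 / 3) ≤ 15396007179 / 10000000000 := by
  have h : √(1 / 3 : ℝ) ≤ 15396007179 / 10000000000 * (3 / 8) := by
    rw [Real.sqrt_le_left (by norm_num)]
    norm_num
  linarith

/-- lower bound of the volume ratio -/
theorem a3_ge : (15396007178 : ℝ) / 10000000000 ≤ 8 / 3 * √(1 / 3) := by
  have h : (15396007178 : ℝ) / 10000000000 * (3 / 8) ≤ √(1 / 3) := by
    refine Real.le_sqrt_of_sq_le ?_
    norm_num
  linarith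

/-- the volume ratio is less than two -/
theorem a3_lt_two : (8 : ℝ) / 3 * √(1 / 3) < 2 := by
  have := a3_le
  linarith

/-- the least Clifford volume in dimension three -/
theorem least3_eq : leastClifford 3 = 8 / 3 * √(1 / 3) * sphereVol 3 := by
  rw [RIG.leastClifford_eq (m := 3) (by norm_num)]
  have h := clifford_odd (k := 1)
  rw [oddRatio_one] at h
  simpa using h

end Vale.Agent.P224.R2.H178
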