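import Vale.Agent.P224.SO.One
import Vale.Agent.P224.PO.MainOdd

/-!
The one point identity in dimension three: the mean normal of a closed minimal hypersurface is
bounded by the mean square distance of the normal to the Clifford points.
-/

namespace Vale.Agent.P224.R2.H178

open MeasureTheory Set Filter Function Module Vale.Agent.P224.UE Vale.Agent.P224.SO
open Vale.Agent.P224.PO
open scoped Topology RealInnerProductSpace ContDiff

set_option linter.unusedSectionVars false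

/-- the scalar inequality -/
lemma scal_one3 {q H r a b c g : ℝ} (hq : q ^ 2 = 2) (hq0 : 0 ≤ q) (hH : 0 ≤ H)
    (hr1 : -(q / 2) * H ≤ r) (hr2 : r ≤ q * H) (hab : a ^ 2 + b ^ 2 ≤ 1) (hc1 : c ≤ 1)
    (hc2 : -1 ≤ c) (hg : g = 3 / 2 * b + 1 / 2 * c) :
    r * g + 1 / 2 * H * a + q / 8 * (H * (1 - b)) ≤ 29 / 10 * H := by
  have hq1 : q ≤ 1415 / 1000 := by nlinarith
  rcases le_total 0 g with h0 | h0
  · have h1 : r * g ≤ q * H * g := mul_le_mul_of_nonneg_right hr2 h0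
    have h2 : 11 * q / 8 * b + 1 / 2 * a ≤ 2008 / 1000 := by
      have : (11 * q / 8 * b + 1 / 2 * a) ^ 2 ≤ (2008 / 1000) ^ 2 := by
        have e : (11 * q / 8 * b + 1 / 2 * a) ^ 2
            = (121 * q ^ 2 / 64 + 1 / 4) * (a ^ 2 + b ^ 2) - (11 * q / 8 * a - 1 / 2 * b) ^ 2 := by
          ring
        rw [e, hq]
        nlinarith [sq_nonneg (11 * q / 8 * a - 1 / 2 * b)]
      nlinarith [abs_le_of_sq_le_sq this (by norm_num), abs_le_of_sq_le_sq' this (by norm_num)]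
    have h3 : q / 2 * c ≤ q / 2 := by nlinarith
    have h4 : q * g + 1 / 2 * a + q / 8 * (1 - b) ≤ 29 / 10 := by
      rw [hg]
      nlinarith
    nlinarith [mul_le_mul_of_nonneg_left h4 hH]
  · have h1 : r * g ≤ -(q / 2) * H * g := mul_le_mul_of_nonpos_right hr1 h0
    have h2 : -(7 * q / 8 * b) + 1 / 2 * a ≤ 1340 / 1000 := by
      have : (-(7 * q / 8 * b) + 1 / 2 * a) ^ 2 ≤ (1340 / 1000) ^ 2 := by
        have e : (-(7 * q / 8 * b) + 1 / 2 * a) ^ 2
            = (49 * q ^ 2 / 64 + 1 / 4) * (a ^ 2 + b ^ 2)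
              - (7 * q / 8 * a + 1 / 2 * b) ^ 2 := by
          ring
        rw [e, hq]
        nlinarith [sq_nonneg (7 * q / 8 * a + 1 / 2 * b)]
      nlinarith [abs_le_of_sq_le_sq' this (by norm_num)]
    have h3 : -(q / 4 * c) ≤ q / 4 := by nlinarith
    have h4 : -(q / 2) * g + 1 / 2 * a + q / 8 * (1 - b) ≤ 29 / 10 := by
      rw [hg]
      nlinarith
    nlinarith [mul_le_mul_of_nonneg_left h4 hH]

section main

/-- the two values of the Clifford matrix -/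
noncomputable def zc (S : Finset (Fin 5)) (i : Fin 5) : ℝ := if i ∈ S then √2 / 2 else -√2

/-- the weight -/
noncomputable def dc (S : Finset (Fin 5)) (i : Fin 5) : ℝ := if i ∈ S then 3 / 2 else 2

lemma sq2 : √2 ^ 2 = (2 : ℝ) := Real.sq_sqrt (by norm_num)

lemma zc_sq (S : Finset (Fin 5)) (i : Fin 5) : zc S i ^ 2 = -(√2 / 2) * zc S i + 1 := by
  unfold zc
  split_ifs <;> nlinarith [sq2]

lemma dc_eq (S : Finset (Fin 5)) (i : Fin 5) : dc S i = (5 - √2 / 2 * zc S i) / 3 := by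
  unfold dc zc
  split_ifs <;> nlinarith [sq2]

/-- the pointwise inequality -/
lemma pointwise (S : Finset (Fin 5)) (x N u : Fin 5 → ℝ) (hx : ∑ i, x i ^ 2 = 1)
    (hN : ∑ i, N i ^ 2 = 1) (hu : ∑ i, u i ^ 2 = 1) (hxN : ∑ i, x i * N i = 0) :
    ∑ k, (dc S k * ((∑ i, (zc S i + √2 / 2) * (N i - zc S i * x i) ^ 2) * x k)
      + 1 / 2 * ((∑ i, (N i - zc S i * x i) ^ 2) * N k)
      + √2 / 4 * ((∑ i, zc S i * x i ^ 2) * (N k - zc S k * x k))) * u k
      ≤ 29 / 10 * ∑ i, (N i - zc S i * x i) ^ 2 := by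
  set h : Fin 5 → ℝ := fun i => N i - zc S i * x i with hh
  set H := ∑ i, h i ^ 2 with hHd
  set r := ∑ i, (zc S i + √2 / 2) * (N i - zc S i * x i) ^ 2 with hr
  have hq0 : 0 ≤ √2 := Real.sqrt_nonneg _
  have hH0 : 0 ≤ H := Finset.sum_nonneg fun i _ => sq_nonneg _
  have hr1 : -(√2 / 2) * H ≤ r := by
    rw [hHd, hr, Finset.mul_sum]
    refine Finset.sum_le_sum fun i _ => mul_le_mul_of_nonneg_right ?_ (sq_nonneg _)
    unfold zc
    split_ifs <;> linarith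
  have hr2 : r ≤ √2 * H := by
    rw [hHd, hr, Finset.mul_sum]
    refine Finset.sum_le_sum fun i _ => mul_le_mul_of_nonneg_right ?_ (sq_nonneg _)
    unfold zc
    split_ifs <;> linarith
  have hqx : ∑ i, zc S i * x i ^ 2 = -∑ i, h i * x i := by
    have : ∑ i, h i * x i = ∑ i, x i * N i - ∑ i, zc S i * x i ^ 2 := by
      rw [← Finset.sum_sub_distrib]
      exact Finset.sum_congr rfl fun i _ => by simp only [hh]; ring
    rw [this, hxN]
    ring
  set a := ∑ i, N i * u i with ha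
  set b := ∑ i, x i * u i with hb
  set c := ∑ i ∈ Finset.univ \ S, x i * u i with hc
  have hc1 : c ≤ 1 := cs_partial _ x u hx hu
  have hc2 : -1 ≤ c := by
    have := cs_partial (Finset.univ \ S) x (fun i => -u i) hx (by simpa using hu)
    simp only [mul_neg, Finset.sum_neg_distrib] at this
    linarith
  have hab : a ^ 2 + b ^ 2 ≤ 1 := bessel x N u hx hN hu hxN
  have hg : ∑ i, dc S i * (x i * u i) = 3 / 2 * b + 1 / 2 * c := by
    have e1 : ∀ i, dc S i * (x i * u i)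
        = 3 / 2 * (x i * u i) + 1 / 2 * (if i ∈ Finset.univ \ S then x i * u i else 0) := by
      intro i
      unfold dc
      by_cases hi : i ∈ S <;> simp [hi] <;> ring
    simp only [e1]
    rw [Finset.sum_add_distrib, ← Finset.mul_sum, ← Finset.mul_sum, Finset.sum_ite_mem,
      Finset.univ_inter]
  have hcr := cross x h u hx hu
  have key := scal_one3 sq2 hq0 hH0 hr1 hr2 hab hc1 hc2 rfl
  have e0 : ∑ k, (dc S k * (r * x k) + 1 / 2 * (H * N k)
      + √2 / 4 * ((∑ i, zc S i * x i ^ 2) * (N k - zc S k * x k))) * u k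
      = r * (∑ i, dc S i * (x i * u i)) + 1 / 2 * H * a
        + √2 / 4 * ((∑ i, zc S i * x i ^ 2) * ∑ i, h i * u i) := by
    rw [ha]
    simp only [Finset.mul_sum, ← Finset.sum_add_distrib]
    exact Finset.sum_congr rfl fun i _ => by simp only [hh]; ring
  rw [e0, hg, hqx]
  have h6 : √2 / 4 * (-(∑ i, h i * x i) * ∑ i, h i * u i) ≤ √2 / 8 * (H * (1 - b)) := by
    have := mul_le_mul_of_nonneg_left hcr (by positivity : 0 ≤ √2 / 8)
    nlinarith
  linarith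

variable {X : Type*} [MeasurableSpace X] {E : Type*} [NormedAddCommGroup E]
  [InnerProductSpace ℝ E] [FiniteDimensional ℝ E] [MeasurableSpace E] [BorelSpace E]
  {μ : Measure X} [IsFiniteMeasure μ] {p n : X → E}

/-- the integrated identity, for a coordinate -/
lemma one_coord (h : TwoG μ 3 p n) (hp : UF p) (hn : UF n) [Nonempty X]
    (hsp : ∀ w, (∀ x, ⟪p x, w⟫ = 0) → w = 0) (b : OrthonormalBasis (Fin 5) ℝ E)
    (S : Finset (Fin 5)) (k : Fin 5) :
    ∫ x, (dc S k * ((∑ i, (zc S i + √2 / 2) * (⟪n x, b i⟫ - zc S i * ⟪p x, b i⟫) ^ 2)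
        * ⟪p x, b k⟫)
      + 1 / 2 * ((∑ i, (⟪n x, b i⟫ - zc S i * ⟪p x, b i⟫) ^ 2) * ⟪n x, b k⟫)
      + √2 / 4 * ((∑ i, zc S i * ⟪p x, b i⟫ ^ 2) * (⟪n x, b k⟫ - zc S k * ⟪p x, b k⟫))) ∂μ
      = ∫ x, ⟪n x, b k⟫ ∂μ := by
  have bx : ∀ i, BM fun x => ⟪p x, b i⟫ := fun i => bm_inner hp _
  have bn : ∀ i, BM fun x => ⟪n x, b i⟫ := fun i => bm_inner hn _
  have ips : ∀ u v : E, ∑ i, ⟪u, b i⟫ * ⟪v, b i⟫ = ⟪u, v⟫ := by
    intro u v
    rw [← b.sum_inner_mul_inner u v]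
    exact Finset.sum_congr rfl fun i _ => by rw [real_inner_comm v]
  have hxx : ∀ x, ∑ i, ⟪p x, b i⟫ ^ 2 = 1 := fun x => by
    have := ips (p x) (p x)
    rw [real_inner_self_eq_norm_sq, hp.unit, one_pow] at this
    simpa only [sq] using this
  have hnn : ∀ x, ∑ i, ⟪n x, b i⟫ ^ 2 = 1 := fun x => by
    have := ips (n x) (n x)
    rw [real_inner_self_eq_norm_sq, hn.unit, one_pow] at this
    simpa only [sq] using this
  have hxn : ∀ x, ∑ i, ⟪p x, b i⟫ * ⟪n x, b i⟫ = 0 := fun x => by rw [ips, h.pn]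
  -- the moments
  have i1 : ∀ i, Integrable (fun x => zc S i * (⟪p x, b i⟫ ^ 2 * ⟪p x, b k⟫)) μ := fun i => by
    simpa only [sq] using (((bx i).mul (bx i)).mul (bx k)).int.const_mul _
  have i2 : ∀ i, Integrable (fun x => zc S i * (⟪p x, b i⟫ * ⟪n x, b i⟫ * ⟪n x, b k⟫)) μ :=
    fun i => (((bx i).mul (bn i)).mul (bn k)).int.const_mul _
  have i3 : ∀ i, Integrable (fun x => zc S i * (⟪n x, b i⟫ ^ 2 * ⟪p x, b k⟫)) μ := fun i => by
    simpa only [sq] using (((bn i).mul (bn i)).mul (bx k)).int.const_mul _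
  have I1 : ∫ x, ∑ i, zc S i * (⟪p x, b i⟫ ^ 2 * ⟪p x, b k⟫) ∂μ
      = ∑ i, zc S i * ∫ x, ⟪p x, b i⟫ ^ 2 * ⟪p x, b k⟫ ∂μ := by
    rw [integral_finsetSum _ fun i _ => i1 i]
    exact Finset.sum_congr rfl fun i _ => integral_const_mul _ _
  have I2 : ∫ x, ∑ i, zc S i * (⟪p x, b i⟫ * ⟪n x, b i⟫ * ⟪n x, b k⟫) ∂μ
      = ∑ i, zc S i * ∫ x, ⟪p x, b i⟫ * ⟪n x, b i⟫ * ⟪n x, b k⟫ ∂μ := by
    rw [integral_finsetSum _ fun i _ => i2 i]
    exact Finset.sum_congr rfl fun i _ => integral_const_mul _ _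
  have I3 : ∫ x, ∑ i, zc S i * (⟪n x, b i⟫ ^ 2 * ⟪p x, b k⟫) ∂μ
      = ∑ i, zc S i * ∫ x, ⟪n x, b i⟫ ^ 2 * ⟪p x, b k⟫ ∂μ := by
    rw [integral_finsetSum _ fun i _ => i3 i]
    exact Finset.sum_congr rfl fun i _ => integral_const_mul _ _
  set F1 := ∫ x, ∑ i, zc S i * (⟪p x, b i⟫ ^ 2 * ⟪p x, b k⟫) ∂μ with hF1
  set F2 := ∫ x, ∑ i, zc S i * (⟪p x, b i⟫ * ⟪n x, b i⟫ * ⟪n x, b k⟫) ∂μ with hF2
  set F3 := ∫ x, ∑ i, zc S i * (⟪n x, b i⟫ ^ 2 * ⟪p x, b k⟫) ∂μ with hF3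
  have r1 : 5 * F1 + 2 * F2 = 0 := by
    rw [I1, I2, Finset.mul_sum, Finset.mul_sum, ← Finset.sum_add_distrib]
    refine Finset.sum_eq_zero fun i _ => ?_
    have := (TG_all h (by norm_num) hp hn hsp (b i) (b k)).1
    push_cast at this
    linear_combination (zc S i) * this
  have r2 : F3 = F2 := by
    rw [I2, I3]
    refine Finset.sum_congr rfl fun i _ => ?_
    rw [(TG_all h (by norm_num) hp hn hsp (b i) (b k)).2]
  obtain ⟨z0⟩ := ‹Nonempty X›
  have r0 : ∫ x, ⟪p x, b k⟫ ∂μ = 0 := TG_zero h (by norm_num) z0 _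
  -- the integrand
  have e1 : ∀ x, (dc S k * ((∑ i, (zc S i + √2 / 2) * (⟪n x, b i⟫ - zc S i * ⟪p x, b i⟫) ^ 2)
        * ⟪p x, b k⟫)
      + 1 / 2 * ((∑ i, (⟪n x, b i⟫ - zc S i * ⟪p x, b i⟫) ^ 2) * ⟪n x, b k⟫)
      + √2 / 4 * ((∑ i, zc S i * ⟪p x, b i⟫ ^ 2) * (⟪n x, b k⟫ - zc S k * ⟪p x, b k⟫)))
      = 1 * ⟪n x, b k⟫ + ((dc S k * (√2 / 2)) * ⟪p x, b k⟫
        + ((dc S k - √2 / 4 * zc S k) * (∑ i, zc S i * (⟪p x, b i⟫ ^ 2 * ⟪p x, b k⟫))
        + ((-1) * (∑ i, zc S i * (⟪p x, b i⟫ * ⟪n x, b i⟫ * ⟪n x, b k⟫))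
        + dc S k * (∑ i, zc S i * (⟪n x, b i⟫ ^ 2 * ⟪p x, b k⟫))))) := by
    intro x
    have hx := hxx x
    have hn' := hnn x
    have hxn' := hxn x
    set xx : Fin 5 → ℝ := fun i => ⟪p x, b i⟫ with hxxd
    set nn : Fin 5 → ℝ := fun i => ⟪n x, b i⟫ with hnnd
    have g1 : ∑ i, (zc S i + √2 / 2) * (nn i - zc S i * xx i) ^ 2
        = ∑ i, zc S i * nn i ^ 2 + √2 / 2 * ∑ i, nn i ^ 2 - 2 * ∑ i, xx i * nn i
          + ∑ i, zc S i * xx i ^ 2 := by
      simp only [Finset.mul_sum, ← Finset.sum_add_distrib, ← Finset.sum_sub_distrib]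
      refine Finset.sum_congr rfl fun i _ => ?_
      linear_combination (-2 * xx i * nn i + zc S i * xx i ^ 2) * zc_sq S i
    have g2 : ∑ i, (nn i - zc S i * xx i) ^ 2
        = ∑ i, nn i ^ 2 - 2 * ∑ i, zc S i * (xx i * nn i) - √2 / 2 * ∑ i, zc S i * xx i ^ 2
          + ∑ i, xx i ^ 2 := by
      simp only [Finset.mul_sum, ← Finset.sum_add_distrib, ← Finset.sum_sub_distrib]
      refine Finset.sum_congr rfl fun i _ => ?_
      linear_combination (xx i ^ 2) * zc_sq S i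
    have g3 : ∑ i, zc S i * (xx i ^ 2 * xx k) = (∑ i, zc S i * xx i ^ 2) * xx k := by
      rw [Finset.sum_mul]
      exact Finset.sum_congr rfl fun i _ => by ring
    have g4 : ∑ i, zc S i * (xx i * nn i * nn k) = (∑ i, zc S i * (xx i * nn i)) * nn k := by
      rw [Finset.sum_mul]
      exact Finset.sum_congr rfl fun i _ => by ring
    have g5 : ∑ i, zc S i * (nn i ^ 2 * xx k) = (∑ i, zc S i * nn i ^ 2) * xx k := by
      rw [Finset.sum_mul]
      exact Finset.sum_congr rfl fun i _ => by ring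
    change dc S k * ((∑ i, (zc S i + √2 / 2) * (nn i - zc S i * xx i) ^ 2) * xx k)
      + 1 / 2 * ((∑ i, (nn i - zc S i * xx i) ^ 2) * nn k)
      + √2 / 4 * ((∑ i, zc S i * xx i ^ 2) * (nn k - zc S k * xx k))
      = 1 * nn k + ((dc S k * (√2 / 2)) * xx k
        + ((dc S k - √2 / 4 * zc S k) * (∑ i, zc S i * (xx i ^ 2 * xx k))
        + ((-1) * (∑ i, zc S i * (xx i * nn i * nn k))
        + dc S k * (∑ i, zc S i * (nn i ^ 2 * xx k)))))
    rw [g1, g2, g3, g4, g5, hx, hn', hxn']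
    ring
  simp only [e1]
  have j1 : Integrable (fun x => ∑ i, zc S i * (⟪p x, b i⟫ ^ 2 * ⟪p x, b k⟫)) μ :=
    integrable_finsetSum _ fun i _ => i1 i
  have j2 : Integrable (fun x => ∑ i, zc S i * (⟪p x, b i⟫ * ⟪n x, b i⟫ * ⟪n x, b k⟫)) μ :=
    integrable_finsetSum _ fun i _ => i2 i
  have j3 : Integrable (fun x => ∑ i, zc S i * (⟪n x, b i⟫ ^ 2 * ⟪p x, b k⟫)) μ :=
    integrable_finsetSum _ fun i _ => i3 i
  rw [integral_add ((bn k).int.const_mul _) (int_add ((bx k).int.const_mul _)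
      (int_add (j1.const_mul _) (int_add (j2.const_mul _) (j3.const_mul _)))),
    integral_add ((bx k).int.const_mul _)
      (int_add (j1.const_mul _) (int_add (j2.const_mul _) (j3.const_mul _))),
    int3 j1 j2 j3, integral_const_mul, integral_const_mul, r0, ← hF1, ← hF2, ← hF3, r2]
  have h2 : F2 = -(5 / 2) * F1 := by linarith
  rw [h2, dc_eq]
  ring

/-- the one point identity -/
theorem one_point (h : TwoG μ 3 p n) [Nonempty X]
    (hsp : ∀ w, (∀ x, ⟪p x, w⟫ = 0) → w = 0) (b : OrthonormalBasis (Fin 5) ℝ E)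
    (S : Finset (Fin 5)) :
    ‖∫ x, n x ∂μ‖ ≤ 29 / 10 * ∫ x, ‖n x - ∑ i, ((if i ∈ S then √2 / 2 else -√2)
      * ⟪p x, b i⟫) • b i‖ ^ 2 ∂μ := by
  have hp : UF p := ⟨h.mp, h.np⟩
  have hn : UF n := ⟨h.mn, h.nn⟩
  have bx : ∀ i, BM fun x => ⟪p x, b i⟫ := fun i => bm_inner hp _
  have bn : ∀ i, BM fun x => ⟪n x, b i⟫ := fun i => bm_inner hn _
  have ips : ∀ u v : E, ∑ i, ⟪u, b i⟫ * ⟪v, b i⟫ = ⟪u, v⟫ := by
    intro u v
    rw [← b.sum_inner_mul_inner u v]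
    exact Finset.sum_congr rfl fun i _ => by rw [real_inner_comm v]
  have hxx : ∀ x, ∑ i, ⟪p x, b i⟫ ^ 2 = 1 := fun x => by
    have := ips (p x) (p x)
    rw [real_inner_self_eq_norm_sq, hp.unit, one_pow] at this
    simpa only [sq] using this
  have hnn : ∀ x, ∑ i, ⟪n x, b i⟫ ^ 2 = 1 := fun x => by
    have := ips (n x) (n x)
    rw [real_inner_self_eq_norm_sq, hn.unit, one_pow] at this
    simpa only [sq] using this
  have hxn : ∀ x, ∑ i, ⟪p x, b i⟫ * ⟪n x, b i⟫ = 0 := fun x => by rw [ips, h.pn]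
  have hnorm : ∀ x, ‖n x - ∑ i, ((if i ∈ S then √2 / 2 else -√2)
      * ⟪p x, b i⟫) • b i‖ ^ 2 = ∑ i, (⟪n x, b i⟫ - zc S i * ⟪p x, b i⟫) ^ 2 := by
    intro x
    rw [← real_inner_self_eq_norm_sq, ← ips]
    refine Finset.sum_congr rfl fun i _ => ?_
    have : ⟪n x - ∑ j, ((if j ∈ S then √2 / 2 else -√2) * ⟪p x, b j⟫) • b j, b i⟫
        = ⟪n x, b i⟫ - zc S i * ⟪p x, b i⟫ := by
      rw [inner_sub_left, sum_inner]
      congr 1
      rw [Finset.sum_eq_single i]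
      · rw [real_inner_smul_left, orthonormal_iff_ite.1 b.orthonormal i i, if_pos rfl, mul_one]
        rfl
      · intro j _ hj
        rw [real_inner_smul_left, orthonormal_iff_ite.1 b.orthonormal j i, if_neg hj, mul_zero]
      · intro hi
        exact absurd (Finset.mem_univ i) hi
    rw [this, sq]
  simp only [hnorm]
  set v := ∫ x, n x ∂μ with hv
  have hIn : Integrable n μ :=
    Integrable.of_bound hn.meas.aestronglyMeasurable 1
      (Eventually.of_forall fun x => (hn.unit x).le)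
  rcases eq_or_ne v 0 with h0 | h0
  · rw [h0, norm_zero]
    exact mul_nonneg (by norm_num)
      (integral_nonneg fun x => Finset.sum_nonneg fun i _ => sq_nonneg _)
  have hvp : 0 < ‖v‖ := norm_pos_iff.2 h0
  have hvk : ∀ k, ⟪v, b k⟫ = ∫ x, ⟪n x, b k⟫ ∂μ := by
    intro k
    rw [hv, real_inner_comm, ← integral_inner hIn]
    exact integral_congr_ae (Eventually.of_forall fun x => real_inner_comm _ _)
  set u : Fin 5 → ℝ := fun k => ⟪v, b k⟫ / ‖v‖ with hu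
  have huu : ∑ k, u k ^ 2 = 1 := by
    have : ∑ k, u k ^ 2 = (∑ k, ⟪v, b k⟫ * ⟪v, b k⟫) / ‖v‖ ^ 2 := by
      rw [Finset.sum_div]
      exact Finset.sum_congr rfl fun i _ => by simp only [hu]; rw [div_pow, sq ⟪v, b i⟫]
    rw [this, ips, real_inner_self_eq_norm_sq, div_self (by positivity)]
  set V : Fin 5 → X → ℝ := fun k x =>
    dc S k * ((∑ i, (zc S i + √2 / 2) * (⟪n x, b i⟫ - zc S i * ⟪p x, b i⟫) ^ 2) * ⟪p x, b k⟫)
      + 1 / 2 * ((∑ i, (⟪n x, b i⟫ - zc S i * ⟪p x, b i⟫) ^ 2) * ⟪n x, b k⟫)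
      + √2 / 4 * ((∑ i, zc S i * ⟪p x, b i⟫ ^ 2) * (⟪n x, b k⟫ - zc S k * ⟪p x, b k⟫)) with hV
  have bh : ∀ i, BM fun x => ⟪n x, b i⟫ - zc S i * ⟪p x, b i⟫ := fun i => by
    simpa only [neg_mul, ← sub_eq_add_neg] using (bn i).add ((bx i).cmul (-(zc S i)))
  have bH : BM fun x => ∑ i, (⟪n x, b i⟫ - zc S i * ⟪p x, b i⟫) ^ 2 := by
    simpa only [sq] using BM.sum Finset.univ fun i => (bh i).mul (bh i)
  have br : BM fun x => ∑ i, (zc S i + √2 / 2) * (⟪n x, b i⟫ - zc S i * ⟪p x, b i⟫) ^ 2 := by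
    simpa only [sq] using BM.sum Finset.univ fun i => ((bh i).mul (bh i)).cmul (zc S i + √2 / 2)
  have bq : BM fun x => ∑ i, zc S i * ⟪p x, b i⟫ ^ 2 := by
    simpa only [sq] using BM.sum Finset.univ fun i => ((bx i).mul (bx i)).cmul (zc S i)
  have bV : ∀ k, BM (V k) := fun k =>
    (((br.mul (bx k)).cmul _).add ((bH.mul (bn k)).cmul _)).add ((bq.mul (bh k)).cmul _)
  have hVk : ∀ k, ∫ x, V k x ∂μ = ⟪v, b k⟫ := fun k => by
    rw [hvk]
    exact one_coord h hp hn hsp b S k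
  have h1 : ‖v‖ = ∫ x, ∑ k, V k x * u k ∂μ := by
    rw [integral_finsetSum _ fun k _ => (bV k).int.mul_const _]
    have : ∀ k, ∫ x, V k x * u k ∂μ = ⟪v, b k⟫ * ⟪v, b k⟫ / ‖v‖ := by
      intro k
      rw [integral_mul_const, hVk]
      simp only [hu]
      ring
    simp only [this]
    rw [← Finset.sum_div, ips, real_inner_self_eq_norm_sq, sq, mul_div_assoc,
      div_self hvp.ne', mul_one]
  rw [h1, ← integral_const_mul]
  refine integral_mono (BM.sum Finset.univ fun k => (bV k).mul (BM.const (u k))).int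
    (bH.cmul (29 / 10)).int fun x => ?_
  exact pointwise S (fun i => ⟪p x, b i⟫) (fun i => ⟪n x, b i⟫) u (hxx x) (hnn x) huu (hxn x)

end main


/-- the bound of the mean normal in dimension three, in the form of the core theorem -/
theorem hone3 {X : Type*} [MeasurableSpace X] {E : Type*} [NormedAddCommGroup E]
    [InnerProductSpace ℝ E] [FiniteDimensional ℝ E] [MeasurableSpace E] [BorelSpace E]
    {μ : Measure X} [IsFiniteMeasure μ] {p n : X → E} (h : TwoG μ 3 p n) [Nonempty X]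
    (hsp : ∀ w, (∀ x, ⟪p x, w⟫ = 0) → w = 0) (b : OrthonormalBasis (Fin (3 + 2)) ℝ E)
    (S : Finset (Fin (3 + 2))) :
    ‖∫ x, n x ∂μ‖ ≤ 29 / 10 * ∫ x, ‖devA (√2 / 2) b S (p x) (n x)‖ ^ 2 ∂μ := by
  have h1 := one_point h hsp b S
  have e : -(1 / (√2 / 2)) = -√2 := by
    have h2 : √2 * √2 = (2 : ℝ) := Real.mul_self_sqrt (by norm_num)
    have h3 : √2 ≠ 0 := Real.sqrt_ne_zero'.2 (by norm_num)
    rw [neg_inj, one_div, inv_div, div_eq_iff h3]
    exact h2.symm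
  unfold devA
  rw [e]
  exact h1

end Vale.Agent.P224.R2.H178
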