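import Vale.Agent.P224.R2.H178.Core3
import Vale.Agent.P224.R2.H178.One3
import Vale.Agent.P224.R2.H178.Num3
import Vale.Agent.P224.RIG.RangeG

/-!
Dimension three: the sharp bound and its case of equality from the certificate with a parameter,
the smallness of the mean normal and the stable resource.
-/

namespace Vale.Agent.P224.R2.H178

open MeasureTheory Set Filter Function Module Vale.Agent.P224 Vale.Agent.P224.UE
open Vale.Agent.P224.PO
open Vale.Agent.P224.SM2 hiding ker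
open scoped Topology RealInnerProductSpace ENNReal ContDiff Manifold

set_option linter.unusedSectionVars false

section

variable {V W M : Type*} [NormedAddCommGroup V] [InnerProductSpace ℝ V] [FiniteDimensional ℝ V]
  [NormedAddCommGroup W] [InnerProductSpace ℝ W] [FiniteDimensional ℝ W]
  [TopologicalSpace M] [ChartedSpace V M]
  [MeasurableSpace V] [BorelSpace V] [MeasurableSpace M] [BorelSpace M]
  [IsManifold 𝓘(ℝ, V) ∞ M] [CompactSpace M] [T2Space M] [ConnectedSpace M]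
  [MeasurableSpace W] [BorelSpace W]

/-- the stable resource in dimension three: `RT` is evaluated at the opposite normal -/
def StabT (V : Type*) {W M : Type*} [NormedAddCommGroup V] [InnerProductSpace ℝ V]
    [FiniteDimensional ℝ V] [NormedAddCommGroup W] [InnerProductSpace ℝ W] [FiniteDimensional ℝ W]
    [TopologicalSpace M] [ChartedSpace V M] [MeasurableSpace V] [BorelSpace V]
    [MeasurableSpace M] [BorelSpace M] [MeasurableSpace W] [BorelSpace W]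
    (F : M → W) (RT : R9 → ℝ) (kT tT : ℝ) : Prop :=
  ∀ N : M → W, TwoG (volM V F) 3 F N →
    0 ≤ ∫ q : M × M, ⟪F q.1, F q.2⟫ * ⟪F q.1, N q.2⟫ ∂((volM V F).prod (volM V F)) →
    ∫ q, RT (dat F (fun x => -N x) 0 q) ∂((volM V F).prod (volM V F))
      < tT * (volM V F).real univ ^ 2 →
    ∃ (b : OrthonormalBasis (Fin (3 + 2)) ℝ W) (S : Finset (Fin (3 + 2))), S.card = 3 ∧
      kT * ((volM V F).real univ * ∫ x, ‖devA (√2 / 2) b S (F x) (N x)‖ ^ 2 ∂(volM V F))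
        ≤ ∫ q, RT (dat F (fun x => -N x) 0 q) ∂((volM V F).prod (volM V F))

/-- **Dimension three**: the sharp bound and its case of equality. -/
theorem three_of (hV : finrank ℝ V = 3) (hW : finrank ℝ W = finrank ℝ V + 2)
    {F : M → W} (hF : SphImm V F) (hmin : ∀ x n, IsUnitNormal V F x n → meanCurv V F x n = 0)
    (hng : ¬ ∃ a : W, a ≠ 0 ∧ ∀ x, ⟪F x, a⟫ = 0)
    -- the certificate with a parameter
    {l : List SO.GT} (hr : ∀ t ∈ l, t.Reg) (hok : ∀ t ∈ l, t.ok 1)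
    (hw : ∀ t ∈ l, t.fl 1 → ∀ x N : W, ‖x‖ = 1 → ‖N‖ = 1 → ⟪x, N⟫ = 0 →
      t.w (dv x N x N 0) = 1)
    {Ro : ℝ → R9 → ℝ} (hRn : ∀ N : M → W, TwoG (volM V F) 3 F N → ∀ T ∈ Ioo (0 : ℝ) 1,
      Null (volM V F) F N 0 (Ro T))
    {R0 : R9 → ℝ} (hR0 : ∀ N : M → W, TwoG (volM V F) 3 F N → Null (volM V F) F N 0 R0)
    (hposT : ∀ T ∈ Ioo (0 : ℝ) 1, ∀ x N y w : W, ‖x‖ = 1 → ‖N‖ = 1 → ‖y‖ = 1 → ‖w‖ = 1 →
      ⟪x, N⟫ = 0 → ⟪y, w⟫ = 0 → SO.gS' (l.map SO.GT.v) T (dv x N y w 0)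
        ≤ Ro T (dv x N y w 0))
    {c0 κ γ : ℝ} (hc0 : 0 < c0) (hκ : 0 ≤ κ) (hγ : 0 < γ)
    {RT : R9 → ℝ} (hRTc : Continuous RT)
    (h0 : ∀ x N y w : W, ‖x‖ = 1 → ‖N‖ = 1 → ‖y‖ = 1 → ‖w‖ = 1 → ⟪x, N⟫ = 0 → ⟪y, w⟫ = 0 →
      (l.map fun t => t.φ 0 * t.Q (dv x N y w 0)).sum
        ≤ c0 * (1 + γ * dv x N y w (0 : W) 3
          - (RT (dv x N y w 0) + κ * dv x N y w (0 : W) 0 ^ 3) + R0 (dv x N y w 0)))
    (hfl : OT.fluxC 3 1 l = c0 * (8 / 3 * √(1 / 3)))
    -- the mean normal is small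
    {u0 : ℝ} (hsmall : SmallN V 3 F u0)
    -- the stable resource
    {kT tT : ℝ} (hkT : 0 < kT) (hsT : StabT V F RT kT tT)
    (hn1 : γ * u0 ≤ tT) (hn2 : (29 / 10 * γ) ^ 2 * u0 ≤ kT ^ 2) :
    ENNReal.ofReal (leastClifford 3) ≤ volM V F Set.univ ∧
      (volM V F Set.univ = ENNReal.ofReal (leastClifford 3) ↔
        Function.Injective F ∧ ∃ U : Submodule ℝ W, finrank ℝ U = 3 / 2 + 1 ∧
          Set.range F = {z | ‖U.starProjection z‖ ^ 2 = ((3 / 2 : ℕ) : ℝ) / ((3 : ℕ) : ℝ) ∧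
            ‖z - U.starProjection z‖ ^ 2 = ((3 - 3 / 2 : ℕ) : ℝ) / ((3 : ℕ) : ℝ)}) := by
  have hfin : IsFiniteMeasure (volM V F) := isFiniteMeasure_volM hF
  have hne : Nonempty M := inferInstance
  have ha : (0 : ℝ) < √2 / 2 := by positivity
  have ha2 : (√(2 : ℝ) / 2) ^ 2 * (((1 : ℕ) : ℝ) + 1) = ((1 : ℕ) : ℝ) := by
    rw [div_pow, Real.sq_sqrt (by norm_num)]
    norm_num
  have hA0 : 0 < (volM V F).real univ := by
    rw [measureReal_def]
    exact ENNReal.toReal_pos (volM_pos_of_isOpen hW hF isOpen_univ univ_nonempty).ne'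
      (measure_ne_top _ _)
  exact RIG.iff_of_core' (m := 3) (h := 1) (by norm_num) (by norm_num) hV hW hF ha ha2
    least3_eq (fun hle => core_T3 (m := 3) (h := 1) (by norm_num) (by norm_num) hV hW hF hmin
      a3_lt_two hA0 hr hok hw hRn hR0 hposT hc0 hκ hγ hRTc h0 hfl hsmall hkT hsT
      (K := 29 / 10) (by norm_num)
      (fun N hN b S _ => hone3 hN (sp_of_hng hng) b S) hn1 hn2 hle)

end

end Vale.Agent.P224.R2.H178
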