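import Vale.Agent.P224.R2.H577.N36c
import Vale.Agent.P224.R2.H444.F36
import Vale.Agent.P224.R2.H444.F41
import Vale.Agent.P224.R2.H178.FN

/-!
**The sharp volume bound in the dimensions from 37 to 44.**
-/

namespace Vale.Agent.P224.R2.H178

open MeasureTheory Set Function Real Module Vale.Agent.P224 Vale.Agent.P224.FV
open scoped Topology RealInnerProductSpace ContDiff Manifold ENNReal

set_option linter.unusedSectionVars false

section

variable {V W M : Type*} [NormedAddCommGroup V] [InnerProductSpace ℝ V] [FiniteDimensional ℝ V]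
  [NormedAddCommGroup W] [InnerProductSpace ℝ W] [FiniteDimensional ℝ W]
  [TopologicalSpace M] [ChartedSpace V M]
  [MeasurableSpace V] [BorelSpace V] [MeasurableSpace M] [BorelSpace M]
  [MeasurableSpace W] [BorelSpace W] [IsManifold 𝓘(ℝ, V) ∞ M]
  [CompactSpace M] [T2Space M] [ConnectedSpace M]

/-- **The sharp volume bound in the dimensions from 37 to 44** -/
theorem mid44 (h1 : 37 ≤ finrank ℝ V) (h2 : finrank ℝ V ≤ 44)
    (hW : finrank ℝ W = finrank ℝ V + 2)
    {F : M → W} (hF : SphImm V F) (hmin : ∀ x n, IsUnitNormal V F x n → meanCurv V F x n = 0)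
    (hng : ¬ ∃ a : W, a ≠ 0 ∧ ∀ x, ⟪F x, a⟫ = 0) :
    ENNReal.ofReal (leastClifford (finrank ℝ V)) ≤ volM V F univ := by
  rcases le_or_gt (finrank ℝ V) 40 with h3 | h3
  · exact dim_FN h1 (by omega) hW hF hmin hng (H444.far_36 (by omega) hW hF hmin hng)
      (H577.near36 (by omega) h3 hW hF hmin)
  · exact dim_FN h1 (by omega) hW hF hmin hng
      (H444.far_41_le (ν := 1 / 40) (by norm_num) (by omega) hW hF hmin hng)
      (H577.near41 (by omega) h2 hW hF hmin)

end

end Vale.Agent.P224.R2.H178
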