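import Vale.Agent.P224.R2.H178.Pos3t
import Vale.Agent.P224.R2.H178.Gap5
import Vale.Agent.P224.R2.H433.Asm

/-!
The minorant of the defect in dimension three.
-/

namespace Vale.Agent.P224.R2.H178.Flow3

open MeasureTheory Set Filter Function Real Vale.Agent.P224.R2.H433 Vale.Agent.P224.SM2
  Vale.Agent.P224.R2.H925
open scoped Topology

section

/-- the loss -/
noncomputable def δ3 (T : ℝ) : ℝ := if T < 1 / 8 then T ^ 2 / 10 else 0

variable {T : ℝ}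

lemma sq_mul_abs_le {s t : ℝ} (h : s ^ 2 + t ^ 2 ≤ 1) : s ^ 2 * |t| ≤ 386 / 1000 := by
  have h0 := abs_nonneg t
  have h1 : s ^ 2 * |t| ≤ (1 - |t| ^ 2) * |t| := by
    refine mul_le_mul_of_nonneg_right ?_ h0
    rw [sq_abs]
    linarith
  have h2 : |t| ≤ 1 := by
    rw [← sq_le_one_iff_abs_le_one]
    nlinarith [sq_nonneg s]
  generalize |t| = a at *
  have h3 : 0 ≤ (a - 577 / 1000) ^ 2 * (a + 2 * (577 / 1000)) := by positivity
  nlinarith

/-- the loss of the first part on `(0, 1/8)` -/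
lemma lossA {d s t p c v P q e ε : ℝ} (hd : 0 < d) (hd2 : d ^ 2 = 1 / 2) (h1 : s ^ 2 + t ^ 2 ≤ 1)
    (h2 : s ^ 2 + p ^ 2 ≤ 1) (hv : 0 < v) (he : 0 ≤ e) (hε : |ε| ≤ 12 / 100)
    (hP : P ≤ 195 / 100) (hq : q ≤ P) (hg : P - q ≤ 73 / 100 * (T * s) ^ 2 * P) :
    -(T ^ 2 / 10 * qf s (d * t) (d * p) c)
      ≤ (brA e ε v (d * t) * (c - s - d * t) ^ 2 + brA e ε v (d * p) * (c - s - d * p) ^ 2) / 2
        * (P - q) := by
  have hdU : d ≤ 7072 / 10000 := by nlinarith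
  have hE := abs_nonneg ε
  have hgap : 0 ≤ P - q := by linarith
  have key : ∀ z : ℝ, s ^ 2 + z ^ 2 ≤ 1 → -(T ^ 2 * (468 / 10000) * (c - s - d * z) ^ 2)
      ≤ brA e ε v (d * z) * (c - s - d * z) ^ 2 / 2 * (P - q) := by
    intro z hz
    have k1 : -(2 * d * |z| * |ε|) ≤ brA e ε v (d * z) := by
      unfold brA
      have : -(|z| * |ε|) ≤ z * ε := by
        rw [← abs_mul]
        exact neg_abs_le _
      have h5 : 0 ≤ 3 * e * v := by positivity
      nlinarith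
    have k2 : -(2 * d * |z| * |ε|) * (P - q) ≤ brA e ε v (d * z) * (P - q) :=
      mul_le_mul_of_nonneg_right k1 hgap
    have hz0 := abs_nonneg z
    have k3 : 2 * d * |z| * |ε| * (P - q) ≤ 2 * (T ^ 2 * (468 / 10000)) := by
      have hP0 : 0 ≤ 73 / 100 * (T * s) ^ 2 * P := hgap.trans hg
      have a1 : |z| * (P - q) ≤ 73 / 100 * T ^ 2 * (s ^ 2 * |z|) * P := by
        calc |z| * (P - q) ≤ |z| * (73 / 100 * (T * s) ^ 2 * P) :=
              mul_le_mul_of_nonneg_left hg hz0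
          _ = _ := by ring
      have a2 : 73 / 100 * T ^ 2 * (s ^ 2 * |z|) * P ≤ 73 / 100 * T ^ 2 * (s ^ 2 * |z|) * (195 / 100) :=
        mul_le_mul_of_nonneg_left hP (by positivity)
      have a3 : 73 / 100 * T ^ 2 * (s ^ 2 * |z|) * (195 / 100)
          ≤ 73 / 100 * T ^ 2 * (386 / 1000) * (195 / 100) := by
        have := sq_mul_abs_le hz
        gcongr
      have a4 : |z| * (P - q) ≤ 73 / 100 * T ^ 2 * (386 / 1000) * (195 / 100) :=
        a1.trans (a2.trans a3)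
      calc 2 * d * |z| * |ε| * (P - q) = 2 * d * |ε| * (|z| * (P - q)) := by ring
        _ ≤ 2 * (7072 / 10000) * (12 / 100) * (73 / 100 * T ^ 2 * (386 / 1000) * (195 / 100)) := by
          have : 0 ≤ |z| * (P - q) := mul_nonneg hz0 hgap
          gcongr
        _ ≤ _ := by nlinarith [sq_nonneg T]
    have k4 : 0 ≤ (c - s - d * z) ^ 2 := sq_nonneg _
    nlinarith
  have h3 := key t h1
  have h4 := key p h2
  have e1 : (c - s - d * t) ^ 2 + (c - s - d * p) ^ 2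
      = 2 * (c - s - (d * t + d * p) / 2) ^ 2 + (d * p - d * t) ^ 2 / 2 := by ring
  have h5 : 0 ≤ T ^ 2 * (c - s - (d * t + d * p) / 2) ^ 2 := by positivity
  have h6 : 0 ≤ T ^ 2 * (d * p - d * t) ^ 2 := by positivity
  have h7 : T ^ 2 * (468 / 10000) * (c - s - d * t) ^ 2 + T ^ 2 * (468 / 10000) * (c - s - d * p) ^ 2
      = T ^ 2 * (468 / 10000) * (2 * (c - s - (d * t + d * p) / 2) ^ 2 + (d * p - d * t) ^ 2 / 2) := by
    rw [← e1]
    ring
  unfold qf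
  nlinarith

/-- **the pointwise minorant of the defect** -/
theorem minor3 {d : ℝ} (hd : 0 < d) (hd2 : d ^ 2 = 1 / 2) : Minor u3 L57 d δ3 := by
  intro T hT k hk
  have hF := PairF.of_dm hk
  have hs1 : k.1 ≤ 1 := hF.hs.2
  rw [dK_eq hd2 u3 hT k hs1]
  unfold dq
  rw [dens_eq, dens_eq]
  have hη : η T = T * u3.y T + 3 * u3.r T := rfl
  have e3 : brB T (u3.e T) (u3.ε T) (u3.ρ T) (T * u3.y T) (u3.r T) (1 - T * k.1) (d * k.2.1)
      (d * k.2.2.1) k.2.2.2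
      = NBs T k.1 k.2.1 k.2.2.1 k.2.2.2 (η T) (ρ T) (ε T) (e T) (r T) d := brB_eq hd2 hη
  have hI : T ∈ Ioc (0 : ℝ) 1 := ⟨hT.1, hT.2.le⟩
  have hv : 0 < 1 - T * k.1 := by nlinarith [hT.1, hT.2, hF.hs.1]
  have hx1 : T * k.1 < 1 := by linarith
  have hx0 : -1 ≤ T * k.1 := by nlinarith [hT.1, hT.2, hF.hs.1]
  have g5 := q5_inv hx0 hx1
  have g7 := q7_inv hx0 hx1
  have hB : brB T (u3.e T) (u3.ε T) (u3.ρ T) (T * u3.y T) (u3.r T) (1 - T * k.1) (d * k.2.1)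
      (d * k.2.2.1) k.2.2.2 ≤ 0 := by
    rw [e3]
    rcases le_total T (1 / 8) with h | h
    · exact B_small hd hd2 hT.1 h hF
    · exact B_big hd hd2 ⟨h, hT.2.le⟩ hT.2 hF
  set bB := brB T (u3.e T) (u3.ε T) (u3.ρ T) (T * u3.y T) (u3.r T) (1 - T * k.1) (d * k.2.1)
      (d * k.2.2.1) k.2.2.2 with hbB
  have hBB : (d * k.2.2.1 - d * k.2.1) ^ 2 * bB * ((1 - T * k.1) ^ 7)⁻¹
      ≤ (d * k.2.2.1 - d * k.2.1) ^ 2 * bB * ev L57.B0 (T * k.1) :=
    mul_le_mul_of_nonpos_left g7 (mul_nonpos_of_nonneg_of_nonpos (sq_nonneg _) hB)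
  have hAA : -(δ3 T * qf k.1 (d * k.2.1) (d * k.2.2.1) k.2.2.2)
      ≤ (brA (u3.e T) (u3.ε T) (1 - T * k.1) (d * k.2.1) * (k.2.2.2 - k.1 - d * k.2.1) ^ 2
        + brA (u3.e T) (u3.ε T) (1 - T * k.1) (d * k.2.2.1) * (k.2.2.2 - k.1 - d * k.2.2.1) ^ 2) / 2
        * (((1 - T * k.1) ^ 5)⁻¹ - ev L57.Q5 (T * k.1)) := by
    rcases lt_or_ge T (1 / 8) with h | h
    · have hδ : δ3 T = T ^ 2 / 10 := if_pos h
      rw [hδ]
      have hv8 : 7 / 8 ≤ 1 - T * k.1 := by nlinarith [hT.1, hF.hs.1]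
      refine lossA hd hd2 hF.ht hF.hp hv (e_nonneg hI) (ε_small hT.1 h.le) ?_ g5 ?_
      · rw [inv_eq_one_div, div_le_iff₀ (pow_pos hv 5)]
        have := pow_le_pow_left₀ (by norm_num) hv8 5
        norm_num at this
        linarith
      · refine q5_gap ?_ ?_ <;> nlinarith [hT.1, hF.hs.1]
    · have hδ : δ3 T = 0 := if_neg (not_lt.2 h)
      rw [hδ, zero_mul, neg_zero]
      have hA := A_big hd hd2 (T := T) ⟨h, hT.2.le⟩ hT.2
      have a1 := brA_nonneg hF.ht hs1 hT hd hA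
      have a2 := brA_nonneg hF.hp hs1 hT hd hA
      refine mul_nonneg ?_ (by linarith)
      have b1 := mul_nonneg a1 (sq_nonneg (k.2.2.2 - k.1 - d * k.2.1))
      have b2 := mul_nonneg a2 (sq_nonneg (k.2.2.2 - k.1 - d * k.2.2.1))
      change 0 ≤ (brA (e T) (ε T) (1 - T * k.1) (d * k.2.1) * (k.2.2.2 - k.1 - d * k.2.1) ^ 2
        + brA (e T) (ε T) (1 - T * k.1) (d * k.2.2.1) * (k.2.2.2 - k.1 - d * k.2.2.1) ^ 2) / 2
      linarith
  linarith

lemma δ3_meas : Measurable δ3 :=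
  Measurable.ite measurableSet_Iio (by fun_prop) measurable_const

lemma δ3_ii {a b : ℝ} (ha : 0 ≤ a) (hab : a ≤ b) (hb : b ≤ 1) :
    IntervalIntegrable δ3 volume a b := by
  refine (intervalIntegrable_const (c := (1 : ℝ))).mono_fun δ3_meas.aestronglyMeasurable ?_
  refine (ae_restrict_iff' measurableSet_uIoc).2 (Eventually.of_forall fun T hT => ?_)
  rw [uIoc_of_le hab] at hT
  have h0 : 0 < T := ha.trans_lt hT.1
  have h1 : T ≤ 1 := hT.2.trans hb
  unfold δ3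
  beta_reduce
  split_ifs
  · rw [norm_one, norm_of_nonneg (by positivity)]
    nlinarith
  · simp

/-- integrability and size of the loss -/
theorem δ3_int : IntervalIntegrable δ3 volume 0 1 := δ3_ii le_rfl zero_le_one le_rfl

theorem δ3_le : ∫ T in (0 : ℝ)..1, δ3 T ≤ 1 / 10 ^ 4 := by
  have h8 : (0 : ℝ) ≤ 1 / 8 := by norm_num
  have h9 : (1 / 8 : ℝ) ≤ 1 := by norm_num
  rw [← intervalIntegral.integral_add_adjacent_intervals (δ3_ii le_rfl h8 h9)
    (δ3_ii h8 h9 le_rfl)]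
  have h1 : ∫ T in (0 : ℝ)..(1 / 8), δ3 T ≤ ∫ T in (0 : ℝ)..(1 / 8), T ^ 2 / 10 := by
    refine intervalIntegral.integral_mono_on h8 (δ3_ii le_rfl h8 h9)
      (Continuous.intervalIntegrable (by fun_prop) _ _) fun T _ => ?_
    unfold δ3
    split_ifs
    · exact le_rfl
    · positivity
  have h2 : ∫ T in (1 / 8 : ℝ)..1, δ3 T = 0 := by
    have h3 : ∫ T in (1 / 8 : ℝ)..1, δ3 T = ∫ _ in (1 / 8 : ℝ)..1, (0 : ℝ) := by
      refine intervalIntegral.integral_congr fun T hT => ?_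
      rw [uIcc_of_le h9] at hT
      exact if_neg (not_lt.2 hT.1)
    rw [h3, intervalIntegral.integral_zero]
  have h4 : ∫ T in (0 : ℝ)..(1 / 8), T ^ 2 / 10 = 1 / 15360 := by
    rw [intervalIntegral.integral_div, integral_pow]
    norm_num
  rw [h4] at h1
  rw [h2]
  norm_num at h1 ⊢
  linarith

end

end Vale.Agent.P224.R2.H178.Flow3
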