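import Vale.Agent.P224.R2.H178.Od0
import Vale.Agent.P224.R2.H178.WO2
import Vale.Agent.P224.R2.H742.NearO
import Vale.Agent.P224.R2.H742.FlowO

/-!
One odd dimension: the law in the small box from a row of rational numbers.
-/

namespace Vale.Agent.P224.R2.H178

open MeasureTheory Set Function Real Module Matrix Vale.Agent.P224 Vale.Agent.P224.FV
  Vale.Agent.P224.R2.H582 Vale.Agent.P224.R2.H820 Vale.Agent.P224.R2.H627
  Vale.Agent.P224.R2.H484 Vale.Agent.P224.R2.H728 Vale.Agent.P224.R2.H925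
  Vale.Agent.P224.R2.H742 Vale.Agent.P224.R2.H176 Vale.Agent.P224.UE
  Vale.Agent.P224.R2.H424 Vale.Agent.P224.R2.H494.ZT
open Vale.Agent.P224.SM2 hiding ker
open scoped Topology RealInnerProductSpace ContDiff Manifold ENNReal

set_option linter.unusedSectionVars false

/-- the threshold of the tail -/
noncomputable def lamO (m : ℕ) (T : ℝ) : ℝ :=
  if T ≤ 1 / 2 then
    (1 - T ^ 2) * (17 * (1 + T ^ 2 + T ^ 4 + T ^ 6 + T ^ 8)) * ((1 - 9 / (5 * m)) / (1 + 7 / (5 * m)))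
  else max (94 / 5 - 128 / 5 * (2 / m)) ((63 / 5 - 73 / 5 * (2 / m)) / (1 - T ^ 2))

lemma lamO_low {m : ℕ} {T : ℝ} (hT : T ≤ 1 / 2) : 17 * (1 - T ^ 10) * (thO m : ℚ) ≤ lamO m T := by
  unfold lamO thO
  rw [if_pos hT]
  push_cast
  refine le_of_eq ?_
  ring

lemma lamO_high {m : ℕ} {T : ℝ} (hT : 1 / 2 < T) : 94 / 5 - 256 / (5 * m) ≤ lamO m T
    ∧ (63 / 5 - 146 / (5 * m)) / (1 - T ^ 2) ≤ lamO m T := by
  unfold lamO
  rw [if_neg (not_le.2 hT)]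
  refine ⟨le_trans (le_of_eq ?_) (le_max_left _ _), le_trans (le_of_eq ?_) (le_max_right _ _)⟩
  · ring
  · congr 1
    ring

/-- the conditions of the weights for all levels -/
structure OddIn (m : ℕ) {L : ℝ} (s : ZSol ((m : ℝ) / 2) L) (d : ℝ) (lam : ℝ → ℝ) : Prop where
  lam_eq : ∀ T ∈ Ioo (0 : ℝ) (1 / 2), lam T = lamP 17 17 17 17 17 T
  low : ∀ T ∈ Ioo (0 : ℝ) 1, T ≤ 1 / 2 → OddAt m d (K0 ((m : ℝ) / 2) (cn m)) (9 / (5 * m))
    (31 / 10) (7 / (5 * m)) (xiO m) lam (lamO m) (uZ s) T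
  up : ∀ T ∈ Ioo (0 : ℝ) 1, 1 / 2 < T → OddUp m d (K0 ((m : ℝ) / 2) (cn m)) (7 / (5 * m))
    (lamO m) (uZ s) T

/-- the data of the box of one odd dimension -/
structure OBox where
  p : BoxQ
  f : ElQ
  ρ : ℚ
  T : ℚ
  r : ORow
  rl : ℚ

/-- the check of the data -/
def oboxOK (m : ℕ) (h1 d1 : ℚ) (o : OBox) : Bool :=
  decide (o.r.m = m) && orowOK2 o.r && boxOK o.p && boxC m o.p && e7Box o.p o.f o.ρ o.T
    && decide (o.p.σ = sgQ m) && decide (h1 ≤ o.p.h1) && decide (d1 ≤ o.p.d1)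
    && decide (o.p.V0 ≤ (1 - 9 / (5 * m)) * o.r.v0) && decide ((1 - 9 / (5 * m)) * o.r.w1 ≤ o.p.V1)
    && decide ((1 + 7 / (5 * m)) * o.rl ≤ o.p.rel)

section

variable {V W M : Type*} [NormedAddCommGroup V] [InnerProductSpace ℝ V] [FiniteDimensional ℝ V]
  [NormedAddCommGroup W] [InnerProductSpace ℝ W] [FiniteDimensional ℝ W]
  [TopologicalSpace M] [ChartedSpace V M]
  [MeasurableSpace V] [BorelSpace V] [MeasurableSpace M] [BorelSpace M]
  [MeasurableSpace W] [BorelSpace W] [IsManifold 𝓘(ℝ, V) ∞ M]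
  [CompactSpace M] [T2Space M]

/-- **the law in the small box, one odd dimension** -/
theorem hodd_of [Nonempty M] {m : ℕ} (hV : finrank ℝ V = m)
    (hW : finrank ℝ W = finrank ℝ V + 2)
    {F : M → W} (hF : SphImm V F) (hmin : ∀ x n, IsUnitNormal V F x n → meanCurv V F x n = 0)
    {o : OBox} {h1 d1 : ℚ} (ho : oboxOK m h1 d1 o = true)
    {L : ℝ} (hL : L * ((m : ℝ) ^ 2 - 1) = 4) (s : ZSol ((m : ℝ) / 2) L)
    {d r : ℝ} (hr : 0 < r) (hr2 : r ^ 2 = (m : ℝ) ^ 2 - 1) (hd : d = 2 / r)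
    {lam : ℝ → ℝ} (hin : OddIn m s d lam)
    {ν : ℝ} (N : M → W) (b : OrthonormalBasis (Fin (finrank ℝ W)) ℝ W)
    (j : Fin (finrank ℝ W) → ℝ) (hnd : NearData V F N b j ν)
    (htail : AbsTail (volM V F) m F N (lamO m)
      (o.rl * hh (nrm (volM V F)) (diagonal j) (co b F) (co b N)))
    (hh1 : hh (nrm (volM V F)) (Matrix.diagonal j) (co b F) (co b N) ≤ h1)
    (hfd : √(fro (De (nrm (volM V F)) (co b F) (co b N))) ≤ d1) :
    NearAtOdd V F N d (s.P 1) (JE s 0) ((m + 1) * (2 * m - 1) / r) (7 / r) (uZ s) := by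
  simp only [oboxOK, Bool.and_eq_true, decide_eq_true_eq] at ho
  obtain ⟨⟨⟨⟨⟨⟨⟨⟨⟨⟨c1, c2⟩, c3⟩, c4⟩, c5⟩, c6⟩, c7⟩, c8⟩, c9⟩, c10⟩, c11⟩ := ho
  have hm : 17 ≤ m := by
    have := c2
    simp only [orowOK2, Bool.and_eq_true, decide_eq_true_eq] at this
    omega
  have hmR : (17 : ℝ) ≤ m := by exact_mod_cast hm
  obtain ⟨iw, iw1, k0, k1⟩ := orow_sound2 c2 hin.lam_eq
  rw [c1] at iw iw1 k0 k1
  have h0 : T0Data (nrm (volM V F)) (m : ℝ) (co b F) (co b N) := by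
    rw [← hV]
    exact hnd.t0
  have hpm : (o.p.m : ℝ) = m := (boxC_real c4).1
  have hh1' : hh (nrm (volM V F)) (Matrix.diagonal j) (co b F) (co b N) ≤ o.p.h1 :=
    hh1.trans ((Rat.cast_le (K := ℝ)).2 c7)
  have hfd' : √(fro (De (nrm (volM V F)) (co b F) (co b N))) ≤ o.p.d1 :=
    hfd.trans ((Rat.cast_le (K := ℝ)).2 c8)
  have hu := e7Box_sound c5 (by rw [hpm]; exact h0) hnd.lsq hh1' hfd'
  have hth : (0 : ℝ) ≤ 1 - 9 / (5 * m) := by
    have : 9 / (5 * (m : ℝ)) ≤ 1 := by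
      rw [div_le_one (by positivity)]
      linarith
    linarith
  have q9 := (Rat.cast_le (K := ℝ)).2 c9
  have q10 := (Rat.cast_le (K := ℝ)).2 c10
  have q11 := (Rat.cast_le (K := ℝ)).2 c11
  push_cast at q9 q10 q11
  refine near_odd hm hV hW hF hmin hnd.smooth hnd.unit b h0 hnd.lsq hL s hr hr2 hd c3 c4 hh1' hfd'
    hu (θ := 9 / (5 * m)) (κ := 31 / 10) (σ := (sgQ m : ℚ)) (g1 := 7 / (5 * m)) (T1 := 1 / 2)
    (rl := o.rl) (ξ := xiO m) (lam := lam) (l' := lamO m) (by linarith) (by norm_num)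
    (by positivity) (by exact_mod_cast sgQ_nonneg m) (by rw [c6]) (by constructor <;> norm_num)
    hin.low hin.up iw iw1 ?_ ?_ htail q11
  · exact q9.trans (mul_le_mul_of_nonneg_left k0 hth)
  · exact (mul_le_mul_of_nonneg_left k1 hth).trans q10

end

end Vale.Agent.P224.R2.H178
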