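import Vale.Agent.P224.R2.H581.RelOdd
import Vale.Agent.P224.R2.H355.Co37
import Vale.Agent.P224.R2.H355.Co61
import Vale.Agent.P224.R2.H355.Co101
import Vale.Agent.P224.R2.H355.Co201
import Vale.Agent.P224.R2.H535.OddB
import Vale.Agent.P224.R2.H926.RelO

/-!
The relative tail in the odd dimensions from 37 to 399, in the box of the tables.
-/

namespace Vale.Agent.P224.R2.H178

open MeasureTheory Set Function Real Module Matrix Vale.Agent.P224 Vale.Agent.P224.FV
open Vale.Agent.P224.R2.H581 (Thr TailB boxTok tailB_cert AbsTail_mono)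
open Vale.Agent.P224.R2.H535 (TailO)
open Vale.Agent.P224.R2.H926 (rlO rlO_1 rlO_2 rlO_3 rlO_4 rlO_5 rlO_6)
open scoped Topology RealInnerProductSpace ContDiff Manifold ENNReal

set_option linter.unusedSectionVars false

lemma thr_lamO (m : ℕ) : Thr m (H535.lamO m) := by
  refine ⟨fun T _ h => ?_, fun T _ h => ?_⟩
  · unfold H535.lamO
    rw [if_pos h]
  · unfold H535.lamO
    rw [if_neg (not_le.2 h)]
    exact ⟨le_max_left _ _, le_max_right _ _⟩

theorem box37 : boxTok H355.Co37.cert (1 / 59) (358 / 10000) = true := by decide +kernel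

theorem box61 : boxTok H355.Co61.cert (1 / 99) (375 / 10000) = true := by decide +kernel

theorem box101 : boxTok H355.Co101.cert (1 / 199) (310 / 10000) = true := by decide +kernel

theorem box201 : boxTok H355.Co201.cert (1 / 399) (242 / 10000) = true := by decide +kernel

lemma inv_cast {m : ℕ} {a : ℚ} {n : ℕ} (ha : a = 1 / (n : ℚ)) (h0 : 0 < m) (h : m ≤ n) :
    ((a : ℚ) : ℝ) ≤ 1 / (m : ℝ) := by
  subst ha
  push_cast
  have h1 : (0 : ℝ) < m := by exact_mod_cast h0
  have h2 : (m : ℝ) ≤ n := by exact_mod_cast h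
  exact one_div_le_one_div_of_le h1 h2

section

variable {V W M : Type*} [NormedAddCommGroup V] [InnerProductSpace ℝ V] [FiniteDimensional ℝ V]
  [NormedAddCommGroup W] [InnerProductSpace ℝ W] [FiniteDimensional ℝ W]
  [TopologicalSpace M] [ChartedSpace V M]
  [MeasurableSpace V] [BorelSpace V] [MeasurableSpace M] [BorelSpace M]
  [MeasurableSpace W] [BorelSpace W] [IsManifold 𝓘(ℝ, V) ∞ M]
  [CompactSpace M] [T2Space M]

/-- a larger constant -/
lemma tailO_of_B {F : M → W} {ν rl rl' : ℝ} {m : ℕ}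
    (h : TailB V F ν m (H535.lamO m) (40 / (m : ℝ) ^ 3) (6 / (5 * (m : ℝ))) rl) (hr : rl ≤ rl') :
    TailO V F ν rl' m := by
  intro N b j hd h1 h2
  exact AbsTail_mono (h N b j hd h1 h2) (mul_le_mul_of_nonneg_right hr (hd.t0.hh_nonneg _))

/-- **the relative tail in the odd dimensions from 37 to 399**, in the box of the tables -/
theorem tailO_all [Nonempty M] (h37 : 37 ≤ finrank ℝ V) (h399 : finrank ℝ V ≤ 399)
    (hodd : Odd (finrank ℝ V)) (hW : finrank ℝ W = finrank ℝ V + 2) {F : M → W}
    (hF : SphImm V F) (hmin : ∀ x n, IsUnitNormal V F x n → meanCurv V F x n = 0) {ν : ℝ} :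
    TailO V F ν (rlO (finrank ℝ V)) (finrank ℝ V) := by
  obtain ⟨k, hk⟩ := hodd
  have hT := thr_lamO (finrank ℝ V)
  rcases le_or_gt (finrank ℝ V) 59 with h1 | h1
  · refine tailO_of_B (tailB_cert H355.Co37.cert box37 (inv_cast (n := 59) (by norm_num)
      (by omega) h1) rfl h37 (Or.inr h1) hW hF hmin hT) ?_
    rw [rlO_1 h1]
  rcases le_or_gt (finrank ℝ V) 99 with h2 | h2
  · refine tailO_of_B (tailB_cert H355.Co61.cert box61 (inv_cast (n := 99) (by norm_num)
      (by omega) h2) rfl (show 61 ≤ finrank ℝ V by omega) (Or.inr h2) hW hF hmin hT) ?_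
    rw [rlO_2 (by omega) h2]
  rcases le_or_gt (finrank ℝ V) 199 with h3 | h3
  · refine tailO_of_B (tailB_cert H355.Co101.cert box101 (inv_cast (n := 199) (by norm_num)
      (by omega) h3) rfl (show 101 ≤ finrank ℝ V by omega) (Or.inr h3) hW hF hmin hT) ?_
    rcases le_or_gt (finrank ℝ V) 149 with h4 | h4
    · rw [rlO_3 (by omega) h4]
      push_cast
      norm_num
    · rw [rlO_4 (by omega) h3]
  · refine tailO_of_B (tailB_cert H355.Co201.cert box201 (inv_cast (n := 399) (by norm_num)
      (by omega) h399) rfl (show 201 ≤ finrank ℝ V by omega) (Or.inr h399) hW hF hmin hT) ?_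
    rcases le_or_gt (finrank ℝ V) 299 with h4 | h4
    · rw [rlO_5 (by omega) h4]
      push_cast
      norm_num
    · rw [rlO_6 (by omega) h399]

end

end Vale.Agent.P224.R2.H178
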