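import Vale.Agent.P224.R2.H176.G.RelD

/-!
The relative tail of the law in odd dimension: thresholds `17 (1 - T^10) (1 - 9/(5m)) / (1 + 7/(5m))`
on `(0, 1/2]` and `max (94/5 - 256/(5m)) ((63/5 - 146/(5m)) / (1 - T^2))` on `(1/2, 1)`, odd
dimensions 17 to 35.
-/

namespace Vale.Agent.P224.R2.H178

open MeasureTheory Set Filter Function Real Module Matrix Vale.Agent.P224 Vale.Agent.P224.FV
  Vale.Agent.P224.R2.H869 Vale.Agent.P224.R2.H582 Vale.Agent.P224.R2.H820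
  Vale.Agent.P224.R2.H484 Vale.Agent.P224.R2.H728 Vale.Agent.P224.R2.H424.Tls
  Vale.Agent.P224.R2.H176
open Vale.Agent.P224.SM2 hiding ker
open scoped Topology RealInnerProductSpace ContDiff Manifold

set_option linter.unusedSectionVars false

/-- the factor of the threshold -/
def thO (m : ℕ) : ℚ := (1 - 9 / (5 * m)) / (1 + 7 / (5 * m))

/-- thresholds of the cells -/
def lcO (m c : ℕ) : ℚ :=
  if tR (c + 1) ≤ 1 / 2 then (⌊17 * (1 - tR (c + 1) ^ 10) * thO m * 1000⌋ : ℤ) / 1000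
  else if tR c < 1 / 2 then
    min ((⌊17 * (1 - (1 / 2) ^ 10) * thO m * 1000⌋ : ℤ) / 1000) (94 / 5 - 256 / (5 * m))
  else lcG kR (94 / 5 - 256 / (5 * m)) (63 / 5 - 146 / (5 * m)) c

/-- the parameters: `j` and bounds of the moment constants -/
def parO : List (ℕ × ℚ × ℚ × ℚ) := [
  (40, 530757 / 5000000000000, 359489 / 4000000000000, 3817537 / 50000000000000),
  (28, 4123491 / 10000000000000, 3228153 / 10000000000000, 254397 / 1000000000000),
  (22, 9766623 / 10000000000000, 1776513 / 2500000000000, 326427 / 625000000000),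
  (19, 1424853 / 1000000000000, 9766623 / 10000000000000, 6782821 / 10000000000000),
  (16, 1426577 / 500000000000, 1821009 / 1000000000000, 23649 / 20000000000),
  (15, 2846421 / 1000000000000, 1739437 / 1000000000000, 270937 / 250000000000),
  (13, 1098589 / 200000000000, 195787 / 62500000000, 1829597 / 1000000000000),
  (12, 874201 / 125000000000, 758471 / 200000000000, 42249 / 20000000000),
  (12, 1260371 / 250000000000, 2671653 / 1000000000000, 1455111 / 1000000000000),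
  (11, 1470889 / 200000000000, 3696827 / 1000000000000, 1916479 / 1000000000000)]

/-- the relative tail in odd dimension -/
def relO : ℕ → ℚ
  | 17 => 213 / 10000000
  | 19 => 39 / 250000
  | 21 => 113 / 200000
  | 23 => 73 / 50000
  | 25 => 61 / 20000
  | 27 => 7 / 1250
  | 29 => 187 / 20000
  | 31 => 73 / 5000
  | 33 => 107 / 5000
  | 35 => 3 / 100
  | _ => 0

/-- the check of a row -/
def rowO (i : ℕ) : Bool :=
  let r := parO.getD i (0, 0, 0, 0)
  relOKg 200 tR kR wR (lcO (17 + 2 * i)) (fun c => tR (c + 1)) (17 + 2 * i) r.1 1 r.2.1 r.2.2.1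
    r.2.2.2 (relO (17 + 2 * i))

theorem okO : (List.range 10).all rowO = true := by decide +kernel

lemma thO_nonneg {m : ℕ} (hm : 17 ≤ m) : 0 ≤ thO m := by
  have h : (17 : ℚ) ≤ m := by exact_mod_cast hm
  have h1 : 9 / (5 * (m : ℚ)) ≤ 1 := by
    rw [div_le_one (by positivity)]
    linarith
  unfold thO
  exact div_nonneg (by linarith) (by positivity)

section

variable {X : Type*} [MeasurableSpace X] {E : Type*} [NormedAddCommGroup E]
  [InnerProductSpace ℝ E] [MeasurableSpace E] [BorelSpace E] [SecondCountableTopology E]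
  {μ : Measure X} [IsFiniteMeasure μ] {m : ℕ} {p n z : X → E}

/-- rounding down -/
lemma floor_cast_le (x : ℚ) : ((((⌊x * 1000⌋ : ℤ) : ℚ) / 1000 : ℚ) : ℝ) ≤ (x : ℝ) := by
  have h3 := Int.floor_le (x * 1000)
  have h4 : ((⌊x * 1000⌋ : ℤ) : ℚ) / 1000 ≤ x := by linarith
  exact (Rat.cast_le (K := ℝ)).2 h4

lemma lcO_le (hm : 17 ≤ m) {c : ℕ} (hc : c < 200) {l : ℝ → ℝ}
    (l1 : ∀ T ∈ Ioo (0 : ℝ) 1, T ≤ 1 / 2 → 17 * (1 - T ^ 10) * (thO m : ℚ) ≤ l T)
    (l2 : ∀ T ∈ Ioo (0 : ℝ) 1, 1 / 2 < T → 94 / 5 - 256 / (5 * m) ≤ l T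
      ∧ (63 / 5 - 146 / (5 * m)) / (1 - T ^ 2) ≤ l T)
    {T : ℝ} (hT : T ∈ Ioo (0 : ℝ) 1) (hT1 : ((tR c : ℚ) : ℝ) < T) (hT2 : T ≤ tR (c + 1)) :
    ((lcO m c : ℚ) : ℝ) ≤ l T := by
  have ht0 : (0 : ℝ) ≤ (thO m : ℚ) := by exact_mod_cast thO_nonneg hm
  unfold lcO
  split_ifs with h1 h2
  · have h1' : ((tR (c + 1) : ℚ) : ℝ) ≤ 1 / 2 := by
      have : ((tR (c + 1) : ℚ) : ℝ) ≤ ((1 / 2 : ℚ) : ℝ) := by exact_mod_cast h1
      norm_num at this ⊢
      exact this
    refine le_trans ?_ (l1 T hT (hT2.trans h1'))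
    refine (floor_cast_le _).trans ?_
    push_cast
    have h6 : T ^ 10 ≤ ((tR (c + 1) : ℚ) : ℝ) ^ 10 := pow_le_pow_left₀ hT.1.le hT2 10
    exact mul_le_mul_of_nonneg_right (by linarith) ht0
  · rw [Rat.cast_min]
    rcases le_or_gt T (1 / 2) with h3 | h3
    · refine (min_le_left _ _).trans ?_
      refine le_trans ?_ (l1 T hT h3)
      refine (floor_cast_le _).trans ?_
      push_cast
      have h6 : T ^ 10 ≤ (1 / 2 : ℝ) ^ 10 := pow_le_pow_left₀ hT.1.le h3 10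
      exact mul_le_mul_of_nonneg_right (by linarith) ht0
    · refine (min_le_right _ _).trans ?_
      refine le_trans ?_ (l2 T hT h3).1
      push_cast
      exact le_rfl
  · have h3 : (1 / 2 : ℝ) ≤ ((tR c : ℚ) : ℝ) := by
      have : ((1 / 2 : ℚ) : ℝ) ≤ ((tR c : ℚ) : ℝ) := by exact_mod_cast not_lt.1 h2
      norm_num at this ⊢
      exact this
    have h4 := l2 T hT (h3.trans_lt hT1)
    have hmQ : (17 : ℚ) ≤ m := by exact_mod_cast hm
    have h5 : 146 / (5 * (m : ℚ)) ≤ 63 / 5 := by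
      rw [div_le_div_iff₀ (by linarith) (by norm_num)]
      linarith
    refine grdR.lcG_le hc (by linarith) hT hT1 hT2 ?_ ?_
    · push_cast
      exact h4.1
    · push_cast
      exact h4.2

/-- the relative tail for these thresholds -/
theorem rel_O [Nontrivial E] {i : ℕ} (hi : i < 10) (hm : m = 17 + 2 * i) (h2 : Two μ m p n)
    (h1 : MinRow μ m p n) {C0 : ℝ} (hz : Measurable z) (hzC : ∀ x, ‖z x‖ ≤ C0)
    (hzp : ∀ x y, ⟪n x, p y⟫ - ⟪p x, n y⟫ = ⟪z x, p y⟫ - ⟪p x, z y⟫)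
    {l : ℝ → ℝ}
    (l1 : ∀ T ∈ Ioo (0 : ℝ) 1, T ≤ 1 / 2 → 17 * (1 - T ^ 10) * (thO m : ℚ) ≤ l T)
    (l2 : ∀ T ∈ Ioo (0 : ℝ) 1, 1 / 2 < T → 94 / 5 - 256 / (5 * m) ≤ l T
      ∧ (63 / 5 - 146 / (5 * m)) / (1 - T ^ 2) ≤ l T) :
    Tail μ m p n l (relO m * ((∫ x, ‖z x‖ ^ 2 ∂μ) / μ.real univ)) := by
  subst hm
  have hok := okO
  rw [List.all_eq_true] at hok
  exact rel_grd grdR (hok i (List.mem_range.2 hi)) (by omega) h2 h1 hz hzC hzp
    (rad_le hz hzC h2.np h2.mp)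
    fun c hc T hT t1 t2 => lcO_le (by omega) hc l1 l2 hT t1 t2

end

section

variable {V W M : Type*} [NormedAddCommGroup V] [InnerProductSpace ℝ V] [FiniteDimensional ℝ V]
  [NormedAddCommGroup W] [InnerProductSpace ℝ W] [FiniteDimensional ℝ W]
  [TopologicalSpace M] [ChartedSpace V M]
  [MeasurableSpace V] [BorelSpace V] [MeasurableSpace M] [BorelSpace M]
  [MeasurableSpace W] [BorelSpace W] [IsManifold 𝓘(ℝ, V) ∞ M]
  [CompactSpace M] [T2Space M]

/-- **the relative tail in odd dimension**, `17 ≤ m ≤ 35` -/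
theorem relO_min {i : ℕ} (hi : i < 10) {m : ℕ} (hmi : m = 17 + 2 * i) (hmm : m = finrank ℝ V)
    (hW : finrank ℝ W = finrank ℝ V + 2) {F : M → W}
    (hF : SphImm V F) (hmin : ∀ x n, IsUnitNormal V F x n → meanCurv V F x n = 0)
    {N : M → W} (hNs : ContMDiff 𝓘(ℝ, V) 𝓘(ℝ, W) ∞ N) (hN : ∀ x, IsUnitNormal V F x (N x))
    {ι : Type*} [Fintype ι] [DecidableEq ι] (b : OrthonormalBasis ι ℝ W) (j : ι → ℝ)
    {l : ℝ → ℝ}
    (l1 : ∀ T ∈ Ioo (0 : ℝ) 1, T ≤ 1 / 2 → 17 * (1 - T ^ 10) * (thO m : ℚ) ≤ l T)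
    (l2 : ∀ T ∈ Ioo (0 : ℝ) 1, 1 / 2 < T → 94 / 5 - 256 / (5 * m) ≤ l T
      ∧ (63 / 5 - 146 / (5 * m)) / (1 - T ^ 2) ≤ l T) :
    AbsTail (volM V F) m F N l
      (relO m * hh (nrm (volM V F)) (diagonal j) (co b F) (co b N)) := by
  have hfin : IsFiniteMeasure (volM V F) := isFiniteMeasure_volM hF
  have hnt : Nontrivial W := Module.nontrivial_of_finrank_pos (R := ℝ) (by omega)
  have hcF : Continuous F := hF.smooth.continuous
  have hcN : Continuous N := hNs.continuous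
  have hcz : Continuous (zf b j F N) := by
    unfold zf
    fun_prop
  obtain ⟨C0, hC0'⟩ := (isCompact_univ (X := M)).exists_bound_of_continuousOn hcz.continuousOn
  have h2 := two_of_min hW hF hmin hNs hN
  have h1 := H176.minRow_of_min (by omega) hW hF hmin hNs hN
  rw [← hmm] at h1 h2
  have h := rel_O hi hmi h2 h1 hcz.measurable (fun x => hC0' x (mem_univ x)) (zf_pair b j F N)
    l1 l2
  rw [int_zf] at h
  exact h

end

end Vale.Agent.P224.R2.H178
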