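import Vale.Agent.P224.R2.H627.Inst
import Vale.Agent.P224.R2.H742.LawO3

/-!
The numbers of the law in odd dimension: kernel checked bounds of the integrals of `wO` and `wO1`.
-/

namespace Vale.Agent.P224.R2.H178

open MeasureTheory Set Filter Function Real Module Vale.Agent.P224 Vale.Agent.P224.FV
open Vale.Agent.P224.SM2 Vale.Agent.P224.R2.H820 Vale.Agent.P224.R2.H728
open Vale.Agent.P224.R2.H582 Vale.Agent.P224.R2.H925 Vale.Agent.P224.R2.H627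
  Vale.Agent.P224.R2.H742
open scoped Topology RealInnerProductSpace ContDiff Manifold

set_option linter.unusedSectionVars false

/-- the difference of two coefficient lists -/
def sbL : List (ℚ × ℚ × ℚ) → List (ℚ × ℚ × ℚ) → List (ℚ × ℚ × ℚ)
  | [], l => ng l
  | l, [] => l
  | a :: l, b :: l' => (a.1 - b.1, a.2.1 - b.2.1, a.2.2 - b.2.2) :: sbL l l'

lemma lc3_sbL (Y E R : ℕ → ℝ) (l : List (ℚ × ℚ × ℚ)) : ∀ (l' : List (ℚ × ℚ × ℚ)) (j : ℕ),
    lc3 Y E R (sbL l l') j = lc3 Y E R l j - lc3 Y E R l' j := by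
  induction l with
  | nil =>
    intro l' j
    rw [sbL, lc3_ng, lc3]
    ring
  | cons a l ih =>
    intro l' j
    cases l' with
    | nil => simp [sbL, lc3]
    | cons b l' =>
      rw [sbL, lc3, lc3, lc3, ih]
      push_cast
      ring

/-- the coefficients of `(1/2) T x(T) (T y + m r)` -/
def xiL (m x0 x1 x2 : ℚ) : List (ℚ × ℚ × ℚ) :=
  [(0, 0, 0), (0, 0, 1 / 2 * m * x0), (1 / 2 * x0, 0, 1 / 2 * m * x1),
    (1 / 2 * x1, 0, 1 / 2 * m * x2), (1 / 2 * x2, 0, 0)]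

variable {m : ℕ}

/-- the shift term -/
noncomputable def xT (m : ℕ) (x0 x1 x2 : ℝ) (T : ℝ) : ℝ :=
  1 / 2 * (T * (x0 + x1 * T + x2 * T ^ 2) * (T * yM m T + m * rM m T))

lemma xT_eq_lc {x0 x1 x2 : ℝ} (T : ℝ) : xT m x0 x1 x2 T
    = lc [(1 / 2 * x0, 2), (1 / 2 * x1, 3), (1 / 2 * x2, 4)] (yM m) T
      + lc [(1 / 2 * m * x0, 1), (1 / 2 * m * x1, 2), (1 / 2 * m * x2, 3)] (rM m) T := by
  simp only [lc, List.map_cons, List.map_nil, List.sum_cons, List.sum_nil, xT]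
  ring

lemma int_xT (h4 : 4 ≤ m) {x0 x1 x2 : ℚ} :
    IntervalIntegrable (xT m x0 x1 x2) volume 0 1 ∧
    ∫ T in (0 : ℝ)..1, xT m x0 x1 x2 T = lc3 (YM m) (EM m) (RM m) (xiL m x0 x1 x2) 0 := by
  have cy' := H582.contOn_yM h4
  have cr := contOn_rM h4
  have i1 := fun l => intble (contOn_lc cy' l)
  have i3 := fun l => intble (contOn_lc cr l)
  have e : xT m (x0 : ℝ) x1 x2 = fun T => lc [(1 / 2 * (x0 : ℝ), 2), (1 / 2 * (x1 : ℝ), 3),
      (1 / 2 * (x2 : ℝ), 4)] (yM m) T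
      + lc [(1 / 2 * m * (x0 : ℝ), 1), (1 / 2 * m * (x1 : ℝ), 2), (1 / 2 * m * (x2 : ℝ), 3)]
        (rM m) T := by
    funext T
    exact xT_eq_lc T
  rw [e]
  refine ⟨(i1 _).add (i3 _), ?_⟩
  rw [intervalIntegral.integral_add (i1 _) (i3 _), int_lc cy', int_lc cr]
  simp only [lm, List.map_cons, List.map_nil, List.sum_cons, List.sum_nil, xiL, lc3, YM, RM]
  push_cast
  ring

/-- **The numbers of the law in odd dimension with `T₁ = 1/2`.** -/
theorem WO_half {σ l0 l1 l2 l3 l4 x0 x1 x2 v0 w1 : ℚ} (hm : 17 ≤ m) (hσ : 0 ≤ σ) (h0 : 0 ≤ l0)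
    (h1 : 0 ≤ l1) (h2 : 0 ≤ l2) (h3 : 0 ≤ l3) (h4 : 0 ≤ l4) {ξ lam : ℝ → ℝ}
    (hlam : ∀ T ∈ Ioo (0 : ℝ) (1 / 2), lam T = lamP l0 l1 l2 l3 l4 T)
    (hξ : ∀ T ∈ Ioo (0 : ℝ) (1 / 2), ξ T = T / m * (x0 + x1 * T + x2 * T ^ 2))
    (hx : ∀ T ∈ Ioo (1 / 2 : ℝ) 1, (0 : ℝ) ≤ x0 + x1 * T + x2 * T ^ 2)
    (hadm : ∀ T ∈ Ioo (1 / 2 : ℝ) 1,
      Adm (2 / m) (1 - T ^ 2) ((1 - T ^ 2) * lamP l0 l1 l2 l3 l4 T))
    (c0 : lowOK m (v0 + prQ m σ) (sbL (w0L m (31 / 10) σ l0 l1 l2 l3 l4) (xiL m x0 x1 x2)) = true)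
    (c1 : lowOK m (-w1) (ng (w1L m (31 / 10) σ l0 l1 l2 l3 l4)) = true) :
    IntervalIntegrable (wO m (31 / 10) σ ξ lam) volume 0 (1 / 2)
    ∧ IntervalIntegrable (wO1 m (31 / 10) σ lam) volume 0 (1 / 2)
    ∧ (v0 : ℝ) ≤ ∫ T in (0 : ℝ)..(1 / 2), wO m (31 / 10) σ ξ lam T
    ∧ ∫ T in (0 : ℝ)..(1 / 2), wO1 m (31 / 10) σ lam T ≤ (w1 : ℝ) := by
  have hm4 : 4 ≤ m := by omega
  have hmR : (0 : ℝ) < m := by exact_mod_cast (show 0 < m by omega)
  have hσ' : (0 : ℝ) ≤ σ := by exact_mod_cast hσ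
  have hl : ∀ T : ℝ, 0 ≤ lamP l0 l1 l2 l3 l4 T := by
    intro T
    have g0 : (0 : ℝ) ≤ l0 := by exact_mod_cast h0
    have g1 : (0 : ℝ) ≤ l1 := by exact_mod_cast h1
    have g2 : (0 : ℝ) ≤ l2 := by exact_mod_cast h2
    have g3 : (0 : ℝ) ≤ l3 := by exact_mod_cast h3
    have g4 : (0 : ℝ) ≤ l4 := by exact_mod_cast h4
    unfold lamP
    positivity
  have cy' := H582.contOn_yM hm4
  have ce := contOn_eM hm4
  have cr := contOn_rM hm4
  obtain ⟨i0, e0⟩ := int_b0 (m := m) (κ := 31 / 10) (σ := σ) (l0 := l0) (l1 := l1) (l2 := l2)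
    (l3 := l3) (l4 := l4) cy' ce cr
  obtain ⟨i1, e1⟩ := int_b1 (m := m) (κ := 31 / 10) (σ := σ) (l0 := l0) (l1 := l1) (l2 := l2)
    (l3 := l3) (l4 := l4) cy' ce cr
  obtain ⟨ix, ex⟩ := int_xT (m := m) hm4 (x0 := x0) (x1 := x1) (x2 := x2)
  have s1 : uIcc (0 : ℝ) (1 / 2) ⊆ uIcc 0 1 := by
    rw [uIcc_of_le (by norm_num), uIcc_of_le (by norm_num)]
    exact Icc_subset_Icc le_rfl (by norm_num)
  have s2 : uIcc (1 / 2 : ℝ) 1 ⊆ uIcc 0 1 := by
    rw [uIcc_of_le (by norm_num), uIcc_of_le (by norm_num)]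
    exact Icc_subset_Icc (by norm_num) le_rfl
  have j0 := i0.mono_set s1
  have j1 := i1.mono_set s1
  have jx := ix.mono_set s1
  have k0 := i0.mono_set s2
  have k1 := i1.mono_set s2
  have kx := ix.mono_set s2
  have a0 := intervalIntegral.integral_add_adjacent_intervals j0 k0
  have a1 := intervalIntegral.integral_add_adjacent_intervals j1 k1
  have ax := intervalIntegral.integral_add_adjacent_intervals jx kx
  have q0 : EqOn (fun T => b0 m (31 / 10) σ T (yM m T) (eM m T) (rM m T)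
      (lamP l0 l1 l2 l3 l4 T) - xT m x0 x1 x2 T) (wO m (31 / 10) σ ξ lam) (uIoo 0 (1 / 2)) := by
    rw [uIoo_of_le (by norm_num)]
    intro T hT
    change _ - _ = b0 m (31 / 10) σ T (yM m T) (eM m T) (rM m T) (lam T) - 1 / 2 * (ξ T * PMo m T)
    rw [hlam T hT, hξ T hT]
    congr 1
    unfold xT PMo
    field_simp
  have q1 : EqOn (fun T => H582.b1 m (31 / 10) σ T (yM m T) (eM m T) (rM m T)
      (lamP l0 l1 l2 l3 l4 T)) (wO1 m (31 / 10) σ lam) (uIoo 0 (1 / 2)) := by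
    rw [uIoo_of_le (by norm_num)]
    intro T hT
    change _ = H582.b1 m (31 / 10) σ T (yM m T) (eM m T) (rM m T) (lam T)
    rw [hlam T hT]
  refine ⟨(j0.sub jx).congr_uIoo q0, j1.congr_uIoo q1, ?_, ?_⟩
  · rw [← intervalIntegral.integral_congr_uIoo q0, intervalIntegral.integral_sub j0 jx]
    have h5 := lowOK_sound hm c0
    rw [lc3_sbL, ← w0_eq, ← ex] at h5
    have h6 := int_b0_half (κ := 31 / 10) hm (by norm_num) hσ' (fun T _ => hl T) k0
    have h7 := le_prQ (m := m) hσ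
    push_cast at h5
    unfold YM EM RM at h5
    rw [← e0, ← a0, ← ax] at h5
    have h8 : 0 ≤ ∫ T in (1 / 2 : ℝ)..1, xT m x0 x1 x2 T := by
      have h7 := intervalIntegral.integral_mono_on_of_le_Ioo (a := (1 / 2 : ℝ)) (b := 1)
        (by norm_num) (f := fun _ => (0 : ℝ)) (intervalIntegrable_const) kx fun T hT => ?_
      · simp only [intervalIntegral.integral_zero] at h7
        exact h7
      · have hT' : T ∈ Ioo (0 : ℝ) 1 := ⟨by linarith [hT.1], hT.2⟩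
        have hy := yM_nonneg hm4 (T := T) ⟨hT'.1.le, hT'.2.le⟩
        have hr := (certO_M hm4).r0 T hT'
        have hxx := hx T hT
        have := hT'.1
        change 0 ≤ xT m x0 x1 x2 T
        unfold xT
        positivity
    linarith
  · rw [← intervalIntegral.integral_congr_uIoo q1]
    have h5 := upOK_sound hm c1
    rw [← w1_eq] at h5
    push_cast at h5
    unfold YM EM RM at h5
    rw [← e1, ← a1] at h5
    have h6 : 0 ≤ ∫ T in (1 / 2 : ℝ)..1, H582.b1 m (31 / 10) σ T (yM m T) (eM m T) (rM m T)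
        (lamP l0 l1 l2 l3 l4 T) := by
      have h7 := intervalIntegral.integral_mono_on_of_le_Ioo (a := (1 / 2 : ℝ)) (b := 1)
        (by norm_num) (f := fun _ => (0 : ℝ)) (intervalIntegrable_const) k1 fun T hT => ?_
      · simp only [intervalIntegral.integral_zero] at h7
        exact h7
      · have hT' : T ∈ Ioo (0 : ℝ) 1 := ⟨by linarith [hT.1], hT.2⟩
        have hc := certO_M hm4
        have hy := yM_nonneg hm4 (T := T) ⟨hT'.1.le, hT'.2.le⟩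
        have h8 := le_b1 (m := m) (κ := 31 / 10) (σ := σ) (T := T) (by norm_num) hσ' hT'.1.le
          hT'.2.le hy (hc.e0 T hT') (hc.r0 T hT') (hl T)
        have h9 := tb_nonneg (m := m) (σ := σ) (T := T) hσ' hT'.1.le
          (al_nonneg_M hm hT' (hadm T hT)) (conv_M hm hT' (hadm T hT))
        unfold beM at h9
        linarith
    linarith

/-- the numbers of one odd dimension -/
structure ORow where
  m : ℕ
  v0 : ℚ
  w1 : ℚ

/-- the check of the numbers of one odd dimension -/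
def orowOK (l0 l1 l2 l3 l4 x0 x1 x2 : ℚ) (r : ORow) : Bool :=
  decide (17 ≤ r.m)
    && lowOK r.m (r.v0 + prQ r.m (sgQ r.m))
      (sbL (w0L r.m (31 / 10) (sgQ r.m) l0 l1 l2 l3 l4) (xiL r.m x0 x1 x2))
    && lowOK r.m (-r.w1) (ng (w1L r.m (31 / 10) (sgQ r.m) l0 l1 l2 l3 l4))

/-- the numbers of the law with the threshold `17 (1 - T ^ 10)` -/
theorem orow_sound {x0 x1 x2 : ℚ} {r : ORow} (h : orowOK 17 17 17 17 17 x0 x1 x2 r = true)
    {ξ lam : ℝ → ℝ}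
    (hlam : ∀ T ∈ Ioo (0 : ℝ) (1 / 2), lam T = lamP 17 17 17 17 17 T)
    (hξ : ∀ T ∈ Ioo (0 : ℝ) (1 / 2), ξ T = T / r.m * (x0 + x1 * T + x2 * T ^ 2))
    (hx : ∀ T ∈ Ioo (1 / 2 : ℝ) 1, (0 : ℝ) ≤ x0 + x1 * T + x2 * T ^ 2) :
    IntervalIntegrable (wO r.m (31 / 10) (sgQ r.m : ℚ) ξ lam) volume 0 (1 / 2)
    ∧ IntervalIntegrable (wO1 r.m (31 / 10) (sgQ r.m : ℚ) lam) volume 0 (1 / 2)
    ∧ (r.v0 : ℝ) ≤ ∫ T in (0 : ℝ)..(1 / 2), wO r.m (31 / 10) (sgQ r.m : ℚ) ξ lam T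
    ∧ ∫ T in (0 : ℝ)..(1 / 2), wO1 r.m (31 / 10) (sgQ r.m : ℚ) lam T ≤ (r.w1 : ℝ) := by
  simp only [orowOK, Bool.and_eq_true, decide_eq_true_eq] at h
  obtain ⟨⟨h1, h2⟩, h3⟩ := h
  refine WO_half h1 (sgQ_nonneg r.m) (by norm_num) (by norm_num) (by norm_num) (by norm_num)
    (by norm_num) (fun T hT => ?_) hξ hx (fun T hT => ?_) h2 h3
  · rw [hlam T hT]
    norm_num
  · have := admP17 r.m (T := T) ⟨by linarith [hT.1], hT.2⟩
    norm_num at this ⊢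
    exact this

end Vale.Agent.P224.R2.H178
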