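import Vale.Agent.P224.R2.H178.GlueO
import Vale.Agent.P224.R2.H178.BoxO
import Vale.Agent.P224.R2.H178.RelO
import Vale.Agent.P224.R2.H178.WO
import Vale.Agent.P224.R2.H176.G.Ev0

/-!
One odd dimension: from the far range, the checked tables and the law in the small box to the sharp
bound.
-/

namespace Vale.Agent.P224.R2.H178

open MeasureTheory Set Function Real Module Matrix Vale.Agent.P224 Vale.Agent.P224.FV
  Vale.Agent.P224.R2.H582 Vale.Agent.P224.R2.H820 Vale.Agent.P224.R2.H627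
  Vale.Agent.P224.R2.H484 Vale.Agent.P224.R2.H728 Vale.Agent.P224.R2.H925
  Vale.Agent.P224.R2.H742 Vale.Agent.P224.R2.H176 Vale.Agent.P224.UE
open Vale.Agent.P224.SM2 hiding ker
open Vale.Agent.P224.R2.H424.Tls (relD)
open scoped Topology RealInnerProductSpace ContDiff Manifold ENNReal

set_option linter.unusedSectionVars false

section

variable {ι Ω : Type*} [Fintype ι] [DecidableEq ι] [MeasurableSpace Ω] {μ : Measure Ω}
  {x N : ι → Ω → ℝ} {j : ι → ℝ}

/-- the check of the mean normal law in the box -/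
def e7Box (p : BoxQ) (f : ElQ) (ρ T : ℚ) : Bool :=
  e7OK p.m f ρ T && decide (p.d1 ≤ f.d) && decide (p.h1 ≤ f.h) && decide (0 < f.L)
    && decide (f.K ≤ p.Ke * f.L)

/-- the mean normal in the box -/
theorem e7Box_sound {p : BoxQ} {f : ElQ} {ρ T : ℚ} (hok : e7Box p f ρ T = true)
    (h : T0Data μ (p.m : ℝ) x N) (hL : LSq μ (diagonal j) x N)
    (hh1 : hh μ (diagonal j) x N ≤ p.h1) (hfd : √(fro (De μ x N)) ≤ p.d1) :
    √(uu μ N) ≤ p.Ke * hh μ (diagonal j) x N := by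
  simp only [e7Box, Bool.and_eq_true, decide_eq_true_eq] at hok
  obtain ⟨⟨⟨⟨h1, h2⟩, h3⟩, h4⟩, h5⟩ := hok
  have k1 := e7_sound h1 h hL (hfd.trans ((Rat.cast_le (K := ℝ)).2 h2))
    (hh1.trans ((Rat.cast_le (K := ℝ)).2 h3))
  have k4 : (0 : ℝ) < f.L := by exact_mod_cast h4
  have k5 := (Rat.cast_le (K := ℝ)).2 h5
  push_cast at k5
  have k6 := mul_le_mul_of_nonneg_right k5 (h.hh_nonneg (diagonal j))
  have k7 : (f.L : ℝ) * √(uu μ N) ≤ f.L * (p.Ke * hh μ (diagonal j) x N) := by linarith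
  exact le_of_mul_le_mul_left k7 k4

end

section

variable {V W M : Type*} [NormedAddCommGroup V] [InnerProductSpace ℝ V] [FiniteDimensional ℝ V]
  [NormedAddCommGroup W] [InnerProductSpace ℝ W] [FiniteDimensional ℝ W]
  [TopologicalSpace M] [ChartedSpace V M]
  [MeasurableSpace V] [BorelSpace V] [MeasurableSpace M] [BorelSpace M]
  [MeasurableSpace W] [BorelSpace W] [IsManifold 𝓘(ℝ, V) ∞ M]
  [CompactSpace M] [T2Space M]

/-- **one odd dimension**: the far range, the checked tables and the law in the box give the sharp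
bound -/
theorem odd_tab [ConnectedSpace M] {h : ℕ} (h8 : 8 ≤ h) (hV : finrank ℝ V = 2 * h + 1)
    (hW : finrank ℝ W = finrank ℝ V + 2)
    {F : M → W} (hF : SphImm V F) (hmin : ∀ x n, IsUnitNormal V F x n → meanCurv V F x n = 0)
    (hng : ¬ ∃ a : W, a ≠ 0 ∧ ∀ x, ⟪F x, a⟫ = 0) {ν : ℝ}
    (hfar : ∀ N : M → W, ContMDiff 𝓘(ℝ, V) 𝓘(ℝ, W) ∞ N → (∀ x, IsUnitNormal V F x (N x)) →
      ‖∫ x, N x ∂(volM V F)‖ ≤ sphereVol (finrank ℝ V) →
      (volM V F).real univ ≤ leastClifford (finrank ℝ V) →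
      ‖∫ x, N x ∂(volM V F)‖ < ν * (volM V F).real univ)
    {r : NRow} (hr : nrowOK 17 17 17 17 17 r = true) (hmm : r.m = finrank ℝ V) (hm2 : r.m ≤ 36)
    {p : ParQ} {laws : List LawQ} {els : List (ElQ × ℚ × ℚ)} {cols : List ColQ}
    (hrow : rowOK r p laws (relD r.m) = true)
    (hok : nearOK p laws (els.map Prod.fst) cols = true) (hels : e7All p.m els = true)
    (hν : ν ≤ p.ν) (hgp : 1 / (3 * (r.m : ℚ) ^ 3) ≤ p.gp)
    {d r' ε0 r0 c0 lam W1 W2 : ℝ} {u : St}
    (hfl : OddFlow (finrank ℝ V) d r' ε0 r0 c0 lam W1 W2 u)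
    (hodd : ∀ (N : M → W) (b : OrthonormalBasis (Fin (finrank ℝ W)) ℝ W)
      (j : Fin (finrank ℝ W) → ℝ), NearData V F N b j ν →
      hh (nrm (volM V F)) (Matrix.diagonal j) (co b F) (co b N) ≤ p.h1 →
      √(fro (De (nrm (volM V F)) (co b F) (co b N))) ≤ p.d1 →
      NearAtOdd V F N d ε0 r0 W1 W2 u) :
    ENNReal.ofReal (leastClifford (finrank ℝ V)) ≤ volM V F univ := by
  obtain ⟨hm17, -, -, -, -, -⟩ := nrow_sound hr
  refine odd_glue h8 hV hW hF hmin hng hfl hfar (h1 := p.h1) (d1 := p.d1) (gp := p.gp) ?_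
    (fun N b j hd => near_tab hr hmm hm2 hW hF hmin hrow hok hels hν N b j hd) hodd
  have h1 := (Rat.cast_le (K := ℝ)).2 hgp
  push_cast at h1
  rw [hmm] at h1
  exact h1

end

end Vale.Agent.P224.R2.H178
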