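import Vale.Agent.P224.R2.H178.BoxT
import Vale.Agent.P224.R2.H925.TbO

/-!
**The sharp volume bound in the odd dimensions from 17 to 35**, from the far range and the
conditions of the weights.
-/

namespace Vale.Agent.P224.R2.H178

open MeasureTheory Set Function Real Module Matrix Vale.Agent.P224 Vale.Agent.P224.FV
  Vale.Agent.P224.R2.H582 Vale.Agent.P224.R2.H820 Vale.Agent.P224.R2.H627
  Vale.Agent.P224.R2.H484 Vale.Agent.P224.R2.H728 Vale.Agent.P224.R2.H925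
  Vale.Agent.P224.R2.H742 Vale.Agent.P224.R2.H176 Vale.Agent.P224.UE
  Vale.Agent.P224.R2.H424 Vale.Agent.P224.R2.H494.ZT
open Vale.Agent.P224.SM2 hiding ker
open Vale.Agent.P224.R2.H424.Tls (relD)
open scoped Topology RealInnerProductSpace ContDiff Manifold ENNReal

set_option linter.unusedSectionVars false

/-- the conditions of the weights in dimension `m` -/
def OddIns (m : ℕ) : Prop :=
  ∀ (L d : ℝ) (s : ZSol ((m : ℝ) / 2) L), L * ((m : ℝ) ^ 2 - 1) = 4 → 0 < d →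
    d ^ 2 * ((m : ℝ) ^ 2 - 1) = 4 → ∃ lam : ℝ → ℝ, OddIn m s d lam

section

variable {V W M : Type*} [NormedAddCommGroup V] [InnerProductSpace ℝ V] [FiniteDimensional ℝ V]
  [NormedAddCommGroup W] [InnerProductSpace ℝ W] [FiniteDimensional ℝ W]
  [TopologicalSpace M] [ChartedSpace V M]
  [MeasurableSpace V] [BorelSpace V] [MeasurableSpace M] [BorelSpace M]
  [MeasurableSpace W] [BorelSpace W] [IsManifold 𝓘(ℝ, V) ∞ M]
  [CompactSpace M] [T2Space M]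

/-- **one odd dimension from 17 to 35** -/
theorem odd_dim [ConnectedSpace M] {h : ℕ} (h8 : 8 ≤ h) (h17 : h ≤ 17)
    (hV : finrank ℝ V = 2 * h + 1)
    (hW : finrank ℝ W = finrank ℝ V + 2)
    {F : M → W} (hF : SphImm V F) (hmin : ∀ x n, IsUnitNormal V F x n → meanCurv V F x n = 0)
    (hng : ¬ ∃ a : W, a ≠ 0 ∧ ∀ x, ⟪F x, a⟫ = 0) {ν : ℝ}
    (hfar : ∀ N : M → W, ContMDiff 𝓘(ℝ, V) 𝓘(ℝ, W) ∞ N → (∀ x, IsUnitNormal V F x (N x)) →
      ‖∫ x, N x ∂(volM V F)‖ ≤ sphereVol (finrank ℝ V) →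
      (volM V F).real univ ≤ leastClifford (finrank ℝ V) →
      ‖∫ x, N x ∂(volM V F)‖ < ν * (volM V F).real univ)
    {r : NRow} (hr : nrowOK 17 17 17 17 17 r = true) (hmm : r.m = finrank ℝ V)
    {p : ParQ} {laws : List LawQ} {els : List (ElQ × ℚ × ℚ)} {cols : List ColQ}
    (hrow : rowOK r p laws (relD r.m) = true)
    (hok : nearOK p laws (els.map Prod.fst) cols = true) (hels : e7All p.m els = true)
    (hν : ν ≤ p.ν) (hgp : 1 / (3 * (r.m : ℚ) ^ 3) ≤ p.gp)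
    {o : OBox} {h1 d1 : ℚ} (e1 : p.h1 = h1) (e2 : p.d1 = d1)
    (ho : oboxOK (2 * h + 1) h1 d1 o = true) (hrl : o.rl = relO (2 * h + 1))
    (hin : OddIns (2 * h + 1)) :
    ENNReal.ofReal (leastClifford (finrank ℝ V)) ≤ volM V F univ := by
  obtain ⟨m, hm⟩ : ∃ m : ℕ, m = 2 * h + 1 := ⟨_, rfl⟩
  rw [← hm] at hV ho hrl hin
  have hm17 : 17 ≤ m := by omega
  have hmR : (17 : ℝ) ≤ m := by exact_mod_cast hm17
  have hm1 : 0 < (m : ℝ) ^ 2 - 1 := by nlinarith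
  obtain ⟨L, hLd⟩ : ∃ L : ℝ, L = 4 / ((m : ℝ) ^ 2 - 1) := ⟨_, rfl⟩
  have hL : L * ((m : ℝ) ^ 2 - 1) = 4 := by
    rw [hLd, div_mul_cancel₀ _ hm1.ne']
  obtain ⟨r', hr'⟩ : ∃ r' : ℝ, r' = √((m : ℝ) ^ 2 - 1) := ⟨_, rfl⟩
  have hr0 : 0 < r' := by
    rw [hr']
    exact Real.sqrt_pos.2 hm1
  have hr2 : r' ^ 2 = (m : ℝ) ^ 2 - 1 := by
    rw [hr', Real.sq_sqrt hm1.le]
  obtain ⟨d, hd⟩ : ∃ d : ℝ, d = 2 / r' := ⟨_, rfl⟩
  have hd0 : 0 < d := by
    rw [hd]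
    positivity
  have hd2 : d ^ 2 * ((m : ℝ) ^ 2 - 1) = 4 := by
    rw [← hr2, hd, div_pow, div_mul_cancel₀ _ (pow_pos hr0 2).ne']
    norm_num
  have hs := zsol (par_of hm17 hL)
  obtain ⟨lam, hin'⟩ := hin L d hs hL hd0 hd2
  have hfl : OddFlow (finrank ℝ V) d r' (hs.P 1) (JE hs 0)
      ((m - 2) / (m - 1) * hs.y 1 + L * hs.F 1) 1 ((m + 1) * (2 * m - 1) / r') (7 / r')
      (uZ hs) := by
    rw [hV]
    exact flow_uZ hm17 hL hs hr0 hr2 hd
  refine odd_tab h8 (hV.trans hm) hW hF hmin hng hfar hr hmm (by omega) hrow hok hels hν hgp hfl ?_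
  intro N b j hnd hh1 hfd
  have htail := relO_min (V := V) (i := h - 8) (by omega) (m := m) (by omega) hV.symm hW hF hmin
    hnd.smooth hnd.unit b j (l := lamO m) (fun T _ hT => lamO_low hT) (fun T _ hT => lamO_high hT)
  rw [← hrl] at htail
  rw [e1] at hh1
  rw [e2] at hfd
  exact hodd_of hV hW hF hmin ho hL hs hr0 hr2 hd hin' N b j hnd htail hh1 hfd

end

end Vale.Agent.P224.R2.H178
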