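import Vale.Agent.P224.R2.H178.OdB
import Vale.Agent.P224.R2.H567.Thin50

/-!
**The sharp volume bound in the odd dimensions from 17 to 35.**
-/

namespace Vale.Agent.P224.R2.H178

open MeasureTheory Set Function Real Module Vale.Agent.P224 Vale.Agent.P224.FV
  Vale.Agent.P224.R2.H925 Vale.Agent.P224.UE
open Vale.Agent.P224.SM2 hiding ker
open scoped Topology RealInnerProductSpace ContDiff Manifold ENNReal

set_option linter.unusedSectionVars false

section

variable {V W M : Type*} [NormedAddCommGroup V] [InnerProductSpace ℝ V] [FiniteDimensional ℝ V]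
  [NormedAddCommGroup W] [InnerProductSpace ℝ W] [FiniteDimensional ℝ W]
  [TopologicalSpace M] [ChartedSpace V M]
  [MeasurableSpace V] [BorelSpace V] [MeasurableSpace M] [BorelSpace M]
  [MeasurableSpace W] [BorelSpace W] [IsManifold 𝓘(ℝ, V) ∞ M]
  [CompactSpace M] [T2Space M] [ConnectedSpace M]

/-- **The sharp volume bound in the odd dimensions from 17 to 35**, from the conditions of the
weights. -/
theorem odd_block_of {h : ℕ} (h1 : 8 ≤ h) (h2 : h ≤ 17) (hV : finrank ℝ V = 2 * h + 1)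
    (hW : finrank ℝ W = finrank ℝ V + 2)
    {F : M → W} (hF : SphImm V F) (hmin : ∀ x n, IsUnitNormal V F x n → meanCurv V F x n = 0)
    (hng : ¬ ∃ a : W, a ≠ 0 ∧ ∀ x, ⟪F x, a⟫ = 0) (hin : OddIns (2 * h + 1)) :
    ENNReal.ofReal (leastClifford (finrank ℝ V)) ≤ volM V F univ := by
  have hfar : ∀ N : M → W, ContMDiff 𝓘(ℝ, V) 𝓘(ℝ, W) ∞ N → (∀ x, IsUnitNormal V F x (N x)) →
      ‖∫ x, N x ∂(volM V F)‖ ≤ sphereVol (finrank ℝ V) →
      (volM V F).real univ ≤ leastClifford (finrank ℝ V) →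
      ‖∫ x, N x ∂(volM V F)‖ < 1 / 50 * (volM V F).real univ :=
    fun N hNs hN htop hhi => H567.far_thin50 h1 h2 hV hW hF hmin hng hNs hN htop hhi
  interval_cases h
  · exact odd_dim h1 h2 hV hW hF hmin hng hfar TbO.r17_ok (by rw [hV]; rfl) TbO.row17
      TbO.ok17 TbO.el17 (by norm_num [TbO.p17]) (by norm_num [TbO.p17, TbO.r17]) rfl rfl
      BoxT.o17_ok rfl hin
  · exact odd_dim h1 h2 hV hW hF hmin hng hfar TbO.r19_ok (by rw [hV]; rfl) TbO.row19
      TbO.ok19 TbO.el19 (by norm_num [TbO.p19]) (by norm_num [TbO.p19, TbO.r19]) rfl rfl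
      BoxT.o19_ok rfl hin
  · exact odd_dim h1 h2 hV hW hF hmin hng hfar TbO.r21_ok (by rw [hV]; rfl) TbO.row21
      TbO.ok21 TbO.el21 (by norm_num [TbO.p21]) (by norm_num [TbO.p21, TbO.r21]) rfl rfl
      BoxT.o21_ok rfl hin
  · exact odd_dim h1 h2 hV hW hF hmin hng hfar TbO.r23_ok (by rw [hV]; rfl) TbO.row23
      TbO.ok23 TbO.el23 (by norm_num [TbO.p23]) (by norm_num [TbO.p23, TbO.r23]) rfl rfl
      BoxT.o23_ok rfl hin
  · exact odd_dim h1 h2 hV hW hF hmin hng hfar TbO.r25_ok (by rw [hV]; rfl) TbO.row25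
      TbO.ok25 TbO.el25 (by norm_num [TbO.p25]) (by norm_num [TbO.p25, TbO.r25]) rfl rfl
      BoxT.o25_ok rfl hin
  · exact odd_dim h1 h2 hV hW hF hmin hng hfar TbO.r27_ok (by rw [hV]; rfl) TbO.row27
      TbO.ok27 TbO.el27 (by norm_num [TbO.p27]) (by norm_num [TbO.p27, TbO.r27]) rfl rfl
      BoxT.o27_ok rfl hin
  · exact odd_dim h1 h2 hV hW hF hmin hng hfar TbO.r29_ok (by rw [hV]; rfl) TbO.row29
      TbO.ok29 TbO.el29 (by norm_num [TbO.p29]) (by norm_num [TbO.p29, TbO.r29]) rfl rfl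
      BoxT.o29_ok rfl hin
  · exact odd_dim h1 h2 hV hW hF hmin hng hfar TbO.r31_ok (by rw [hV]; rfl) TbO.row31
      TbO.ok31 TbO.el31 (by norm_num [TbO.p31]) (by norm_num [TbO.p31, TbO.r31]) rfl rfl
      BoxT.o31_ok rfl hin
  · exact odd_dim h1 h2 hV hW hF hmin hng hfar TbO.r33_ok (by rw [hV]; rfl) TbO.row33
      TbO.ok33 TbO.el33 (by norm_num [TbO.p33]) (by norm_num [TbO.p33, TbO.r33]) rfl rfl
      BoxT.o33_ok rfl hin
  · exact odd_dim h1 h2 hV hW hF hmin hng hfar TbO.r35_ok (by rw [hV]; rfl) TbO.row35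
      TbO.ok35 TbO.el35 (by norm_num [TbO.p35]) (by norm_num [TbO.p35, TbO.r35]) rfl rfl
      BoxT.o35_ok rfl hin

end

end Vale.Agent.P224.R2.H178
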