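import Mathlib

/-!
Polynomial inequalities for the flow in dimension three (generated).
-/

namespace Vale.Agent.P224.R2.H178.Flow3

open Real

set_option linter.style.longLine false

noncomputable def pqU (T : ℝ) : ℝ := 70711 / 50000 + 147 / 800 * (1 - T) + 4081 / 100000 * (1 - T) ^ 2 + 9021 / 100000 * (1 - T) ^ 3
noncomputable def pPU (T : ℝ) : ℝ := 39799 / 100000 + 721 / 50000 * (1 - T) + (-487 / 2500) * (1 - T) ^ 2 + 11009 / 25000 * (1 - T) ^ 3 + (-26427 / 50000) * (1 - T) ^ 4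
noncomputable def pPU' (T : ℝ) : ℝ := -(721 / 50000 + (-487 / 1250) * (1 - T) + 33027 / 25000 * (1 - T) ^ 2 + (-26427 / 12500) * (1 - T) ^ 3)

lemma hd_pPU (T : ℝ) : HasDerivAt pPU (pPU' T) T := by
  have h1 : HasDerivAt (fun T : ℝ => 1 - T) (-1) T := by simpa using (hasDerivAt_id T).const_sub 1
  have h2 := h1.fun_pow 2
  have h3 := h1.fun_pow 3
  have h4 := h1.fun_pow 4
  have h := ((((hasDerivAt_const T (39799 / 100000 : ℝ)).fun_add (h1.const_mul (721 / 50000 : ℝ))).fun_add (h2.const_mul ((-487 / 2500) : ℝ))).fun_add (h3.const_mul (11009 / 25000 : ℝ))).fun_add (h4.const_mul ((-26427 / 50000) : ℝ))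
  refine h.congr_deriv ?_
  unfold pPU'
  push_cast
  ring

noncomputable def pQU (T : ℝ) : ℝ := 5631 / 100000 + 4321 / 100000 * (1 - T) + (-3891 / 50000) * (1 - T) ^ 2 + 10281 / 50000 * (1 - T) ^ 3 + (-11453 / 50000) * (1 - T) ^ 4
noncomputable def pQU' (T : ℝ) : ℝ := -(4321 / 100000 + (-3891 / 25000) * (1 - T) + 30843 / 50000 * (1 - T) ^ 2 + (-11453 / 12500) * (1 - T) ^ 3)

lemma hd_pQU (T : ℝ) : HasDerivAt pQU (pQU' T) T := by
  have h1 : HasDerivAt (fun T : ℝ => 1 - T) (-1) T := by simpa using (hasDerivAt_id T).const_sub 1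
  have h2 := h1.fun_pow 2
  have h3 := h1.fun_pow 3
  have h4 := h1.fun_pow 4
  have h := ((((hasDerivAt_const T (5631 / 100000 : ℝ)).fun_add (h1.const_mul (4321 / 100000 : ℝ))).fun_add (h2.const_mul ((-3891 / 50000) : ℝ))).fun_add (h3.const_mul (10281 / 50000 : ℝ))).fun_add (h4.const_mul ((-11453 / 50000) : ℝ))
  refine h.congr_deriv ?_
  unfold pQU'
  push_cast
  ring

noncomputable def pUU (T : ℝ) : ℝ := 161 / 20000 + 553 / 50000 * (1 - T) + (-897 / 50000) * (1 - T) ^ 2 + 1139 / 20000 * (1 - T) ^ 3 + (-5461 / 100000) * (1 - T) ^ 4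
noncomputable def pUU' (T : ℝ) : ℝ := -(553 / 50000 + (-897 / 25000) * (1 - T) + 3417 / 20000 * (1 - T) ^ 2 + (-5461 / 25000) * (1 - T) ^ 3)

lemma hd_pUU (T : ℝ) : HasDerivAt pUU (pUU' T) T := by
  have h1 : HasDerivAt (fun T : ℝ => 1 - T) (-1) T := by simpa using (hasDerivAt_id T).const_sub 1
  have h2 := h1.fun_pow 2
  have h3 := h1.fun_pow 3
  have h4 := h1.fun_pow 4
  have h := ((((hasDerivAt_const T (161 / 20000 : ℝ)).fun_add (h1.const_mul (553 / 50000 : ℝ))).fun_add (h2.const_mul ((-897 / 50000) : ℝ))).fun_add (h3.const_mul (1139 / 20000 : ℝ))).fun_add (h4.const_mul ((-5461 / 100000) : ℝ))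
  refine h.congr_deriv ?_
  unfold pUU'
  push_cast
  ring

noncomputable def pEU (T : ℝ) : ℝ := 353 / 6250 + 3483 / 100000 * (1 - T) + (-3127 / 100000) * (1 - T) ^ 2 + 7009 / 50000 * (1 - T) ^ 3 + (-483 / 4000) * (1 - T) ^ 4
noncomputable def pEU' (T : ℝ) : ℝ := -(3483 / 100000 + (-3127 / 50000) * (1 - T) + 21027 / 50000 * (1 - T) ^ 2 + (-483 / 1000) * (1 - T) ^ 3)

lemma hd_pEU (T : ℝ) : HasDerivAt pEU (pEU' T) T := by
  have h1 : HasDerivAt (fun T : ℝ => 1 - T) (-1) T := by simpa using (hasDerivAt_id T).const_sub 1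
  have h2 := h1.fun_pow 2
  have h3 := h1.fun_pow 3
  have h4 := h1.fun_pow 4
  have h := ((((hasDerivAt_const T (353 / 6250 : ℝ)).fun_add (h1.const_mul (3483 / 100000 : ℝ))).fun_add (h2.const_mul ((-3127 / 100000) : ℝ))).fun_add (h3.const_mul (7009 / 50000 : ℝ))).fun_add (h4.const_mul ((-483 / 4000) : ℝ))
  refine h.congr_deriv ?_
  unfold pEU'
  push_cast
  ring

noncomputable def pVU (T : ℝ) : ℝ := 1417 / 100000 + 1247 / 100000 * (1 - T) + (-1799 / 100000) * (1 - T) ^ 2 + 2873 / 50000 * (1 - T) ^ 3 + (-5433 / 100000) * (1 - T) ^ 4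
noncomputable def pVU' (T : ℝ) : ℝ := -(1247 / 100000 + (-1799 / 50000) * (1 - T) + 8619 / 50000 * (1 - T) ^ 2 + (-5433 / 25000) * (1 - T) ^ 3)

lemma hd_pVU (T : ℝ) : HasDerivAt pVU (pVU' T) T := by
  have h1 : HasDerivAt (fun T : ℝ => 1 - T) (-1) T := by simpa using (hasDerivAt_id T).const_sub 1
  have h2 := h1.fun_pow 2
  have h3 := h1.fun_pow 3
  have h4 := h1.fun_pow 4
  have h := ((((hasDerivAt_const T (1417 / 100000 : ℝ)).fun_add (h1.const_mul (1247 / 100000 : ℝ))).fun_add (h2.const_mul ((-1799 / 100000) : ℝ))).fun_add (h3.const_mul (2873 / 50000 : ℝ))).fun_add (h4.const_mul ((-5433 / 100000) : ℝ))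
  refine h.congr_deriv ?_
  unfold pVU'
  push_cast
  ring

noncomputable def pqL (T : ℝ) : ℝ := 141357 / 100000 + 9267 / 50000 * (1 - T) + 803 / 20000 * (1 - T) ^ 2 + 8823 / 100000 * (1 - T) ^ 3
noncomputable def pPL (T : ℝ) : ℝ := 39197 / 100000 + 6251 / 100000 * (1 - T) + (-43427 / 100000) * (1 - T) ^ 2 + 90699 / 100000 * (1 - T) ^ 3 + (-5289 / 6250) * (1 - T) ^ 4
noncomputable def pPL' (T : ℝ) : ℝ := -(6251 / 100000 + (-43427 / 50000) * (1 - T) + 272097 / 100000 * (1 - T) ^ 2 + (-10578 / 3125) * (1 - T) ^ 3)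

lemma hd_pPL (T : ℝ) : HasDerivAt pPL (pPL' T) T := by
  have h1 : HasDerivAt (fun T : ℝ => 1 - T) (-1) T := by simpa using (hasDerivAt_id T).const_sub 1
  have h2 := h1.fun_pow 2
  have h3 := h1.fun_pow 3
  have h4 := h1.fun_pow 4
  have h := ((((hasDerivAt_const T (39197 / 100000 : ℝ)).fun_add (h1.const_mul (6251 / 100000 : ℝ))).fun_add (h2.const_mul ((-43427 / 100000) : ℝ))).fun_add (h3.const_mul (90699 / 100000 : ℝ))).fun_add (h4.const_mul ((-5289 / 6250) : ℝ))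
  refine h.congr_deriv ?_
  unfold pPL'
  push_cast
  ring

noncomputable def pQL (T : ℝ) : ℝ := 1359 / 25000 + 5677 / 100000 * (1 - T) + (-6721 / 50000) * (1 - T) ^ 2 + 7463 / 25000 * (1 - T) ^ 3 + (-707 / 2500) * (1 - T) ^ 4
noncomputable def pQL' (T : ℝ) : ℝ := -(5677 / 100000 + (-6721 / 25000) * (1 - T) + 22389 / 25000 * (1 - T) ^ 2 + (-707 / 625) * (1 - T) ^ 3)

lemma hd_pQL (T : ℝ) : HasDerivAt pQL (pQL' T) T := by
  have h1 : HasDerivAt (fun T : ℝ => 1 - T) (-1) T := by simpa using (hasDerivAt_id T).const_sub 1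
  have h2 := h1.fun_pow 2
  have h3 := h1.fun_pow 3
  have h4 := h1.fun_pow 4
  have h := ((((hasDerivAt_const T (1359 / 25000 : ℝ)).fun_add (h1.const_mul (5677 / 100000 : ℝ))).fun_add (h2.const_mul ((-6721 / 50000) : ℝ))).fun_add (h3.const_mul (7463 / 25000 : ℝ))).fun_add (h4.const_mul ((-707 / 2500) : ℝ))
  refine h.congr_deriv ?_
  unfold pQL'
  push_cast
  ring

noncomputable def pEL (T : ℝ) : ℝ := 43 / 800 + 1299 / 25000 * (1 - T) + (-12403 / 100000) * (1 - T) ^ 2 + 3303 / 10000 * (1 - T) ^ 3 + (-25507 / 100000) * (1 - T) ^ 4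
noncomputable def pEL' (T : ℝ) : ℝ := -(1299 / 25000 + (-12403 / 50000) * (1 - T) + 9909 / 10000 * (1 - T) ^ 2 + (-25507 / 25000) * (1 - T) ^ 3)

lemma hd_pEL (T : ℝ) : HasDerivAt pEL (pEL' T) T := by
  have h1 : HasDerivAt (fun T : ℝ => 1 - T) (-1) T := by simpa using (hasDerivAt_id T).const_sub 1
  have h2 := h1.fun_pow 2
  have h3 := h1.fun_pow 3
  have h4 := h1.fun_pow 4
  have h := ((((hasDerivAt_const T (43 / 800 : ℝ)).fun_add (h1.const_mul (1299 / 25000 : ℝ))).fun_add (h2.const_mul ((-12403 / 100000) : ℝ))).fun_add (h3.const_mul (3303 / 10000 : ℝ))).fun_add (h4.const_mul ((-25507 / 100000) : ℝ))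
  refine h.congr_deriv ?_
  unfold pEL'
  push_cast
  ring

noncomputable def pVL (T : ℝ) : ℝ := 1301 / 100000 + 1967 / 100000 * (1 - T) + (-21 / 400) * (1 - T) ^ 2 + 12219 / 100000 * (1 - T) ^ 3 + (-2427 / 25000) * (1 - T) ^ 4
noncomputable def pVL' (T : ℝ) : ℝ := -(1967 / 100000 + (-21 / 200) * (1 - T) + 36657 / 100000 * (1 - T) ^ 2 + (-2427 / 6250) * (1 - T) ^ 3)

lemma hd_pVL (T : ℝ) : HasDerivAt pVL (pVL' T) T := by
  have h1 : HasDerivAt (fun T : ℝ => 1 - T) (-1) T := by simpa using (hasDerivAt_id T).const_sub 1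
  have h2 := h1.fun_pow 2
  have h3 := h1.fun_pow 3
  have h4 := h1.fun_pow 4
  have h := ((((hasDerivAt_const T (1301 / 100000 : ℝ)).fun_add (h1.const_mul (1967 / 100000 : ℝ))).fun_add (h2.const_mul ((-21 / 400) : ℝ))).fun_add (h3.const_mul (12219 / 100000 : ℝ))).fun_add (h4.const_mul ((-2427 / 25000) : ℝ))
  refine h.congr_deriv ?_
  unfold pVL'
  push_cast
  ring

noncomputable def pSU (T : ℝ) : ℝ := 1 + T ^ 2 / 6 + 133 / 5000 * T ^ 4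
noncomputable def pSL (T : ℝ) : ℝ := 1 + T ^ 2 / 6 + 231 / 10000 * T ^ 4
noncomputable def pJU (T : ℝ) : ℝ := 1 / 2 + 147 / 2000 * (1 - T) ^ 2
noncomputable def pJL (T : ℝ) : ℝ := 1 / 2 + 1 / 16 * (1 - T) ^ 2
/-- the integral of `T E(T)` up to one -/
noncomputable def pI (T : ℝ) : ℝ := 353 / 6250 * (1 - T) + (-433 / 40000) * (1 - T) ^ 2 + (-661 / 30000) * (1 - T) ^ 3 + 3429 / 80000 * (1 - T) ^ 4 + (-26093 / 500000) * (1 - T) ^ 5 + 161 / 8000 * (1 - T) ^ 6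
noncomputable def pH (T : ℝ) : ℝ := 9 / 8 - 2 * (1 - T ^ 2) * pEU T - 6 * pI T
lemma poly_SU_b0 {x y : ℝ} (hx : 0 ≤ x) (hy : 0 ≤ y) : 0 ≤ 6291 / 1250 * x ^ 4 * y ^ 10 + 6291 / 125 * x ^ 5 * y ^ 9 + 1106311 / 5000 * x ^ 6 * y ^ 8 + 351391 / 625 * x ^ 7 * y ^ 7 + 68333690843 / 75000000 * x ^ 8 * y ^ 6 + 12219730843 / 12500000 * x ^ 9 * y ^ 5 + 39100649273 / 56250000 * x ^ 10 * y ^ 4 + 8892975901 / 28125000 * x ^ 11 * y ^ 3 + 196014649 / 2343750 * x ^ 12 * y ^ 2 + 34698104 / 3515625 * x ^ 13 * y + 102983 / 3515625 * x ^ 14 := by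
  positivity

lemma poly_SU_c0 {T : ℝ} (h0 : 0 ≤ T) (h1 : T ≤ 1) : 0 ≤ pSU T ^ 2 * (9 - T ^ 2) ^ 3 - 729 := by
  have h := poly_SU_b0 (sub_nonneg.2 h0) (sub_nonneg.2 h1)
  refine h.trans_eq ?_
  unfold pSU
  ring

lemma poly_SU {T : ℝ} (h0 : 0 ≤ T) (h1 : T ≤ 1) : 0 ≤ pSU T ^ 2 * (9 - T ^ 2) ^ 3 - 729 := by
  exact poly_SU_c0 h0 h1

lemma poly_SL_b0 {x y : ℝ} (hx : 0 ≤ x) (hy : 0 ≤ y) : 0 ≤ 351 / 5000 * x ^ 4 * y ^ 10 + 351 / 500 * x ^ 5 * y ^ 9 + 75223 / 10000 * x ^ 6 * y ^ 8 + 54163 / 1250 * x ^ 7 * y ^ 7 + 41019729493 / 300000000 * x ^ 8 * y ^ 6 + 13047169493 / 50000000 * x ^ 9 * y ^ 5 + 71423824423 / 225000000 * x ^ 10 * y ^ 4 + 28025146451 / 112500000 * x ^ 11 * y ^ 3 + 1149090349 / 9375000 * x ^ 12 * y ^ 2 + 242480777 / 7031250 * x ^ 13 * y + 14910127 / 3515625 * x ^ 14 := by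
  positivity

lemma poly_SL_c0 {T : ℝ} (h0 : 0 ≤ T) (h1 : T ≤ 1) : 0 ≤ 729 - pSL T ^ 2 * (9 - T ^ 2) ^ 3 := by
  have h := poly_SL_b0 (sub_nonneg.2 h0) (sub_nonneg.2 h1)
  refine h.trans_eq ?_
  unfold pSL
  ring

lemma poly_SL {T : ℝ} (h0 : 0 ≤ T) (h1 : T ≤ 1) : 0 ≤ 729 - pSL T ^ 2 * (9 - T ^ 2) ^ 3 := by
  exact poly_SL_c0 h0 h1

lemma poly_qU_b0 {x y : ℝ} (hx : 0 ≤ x) (hy : 0 ≤ y) : 0 ≤ 150455461607 / 9191328125000 * y ^ 7 + 117256429214481 / 18382656250000 * x * y ^ 6 + 798789167534259 / 36765312500000 * x ^ 2 * y ^ 5 + 2022369673357077 / 73530625000000 * x ^ 3 * y ^ 4 + 2242319849337109 / 147061250000000 * x ^ 4 * y ^ 3 + 939770774317747 / 294122500000000 * x ^ 5 * y ^ 2 + 54736491306257 / 588245000000000 * x ^ 6 * y + 668327559423 / 47059600000000 * x ^ 7 := by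
  positivity

lemma poly_qU_c0 {T : ℝ} (h0 : 1 / 8 ≤ T) (h1 : T ≤ 9 / 16) : 0 ≤ pqU T ^ 2 * (1 + T) - (3 + T) := by
  have h := poly_qU_b0 (sub_nonneg.2 h0) (sub_nonneg.2 h1)
  refine h.trans_eq ?_
  unfold pqU
  ring

lemma poly_qU_b1 {x y : ℝ} (hx : 0 ≤ x) (hy : 0 ≤ y) : 0 ≤ 668327559423 / 47059600000000 * y ^ 7 + 972200493637 / 9191328125000 * x * y ^ 6 + 3006949359929 / 919132812500 * x ^ 2 * y ^ 5 + 17345884899632 / 1148916015625 * x ^ 3 * y ^ 4 + 30325856368064 / 1148916015625 * x ^ 4 * y ^ 3 + 23185409337344 / 1148916015625 * x ^ 5 * y ^ 2 + 6556247719936 / 1148916015625 * x ^ 6 * y + 1948254208 / 164130859375 * x ^ 7 := by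
  positivity

lemma poly_qU_c1 {T : ℝ} (h0 : 9 / 16 ≤ T) (h1 : T ≤ 1) : 0 ≤ pqU T ^ 2 * (1 + T) - (3 + T) := by
  have h := poly_qU_b1 (sub_nonneg.2 h0) (sub_nonneg.2 h1)
  refine h.trans_eq ?_
  unfold pqU
  ring

lemma poly_qU {T : ℝ} (h0 : 1 / 8 ≤ T) (h1 : T ≤ 1) : 0 ≤ pqU T ^ 2 * (1 + T) - (3 + T) := by
  rcases le_total T (9 / 16) with h | h
  · exact poly_qU_c0 h0 h
  have h' := h
  clear h
  exact poly_qU_c1 h' h1

lemma poly_qL_b0 {x y : ℝ} (hx : 0 ≤ x) (hy : 0 ≤ y) : 0 ≤ 991003419232256 / 45956640625 * y ^ 7 + 27056189410139392 / 229783203125 * x * y ^ 6 + 311363935750737056 / 1148916015625 * x ^ 2 * y ^ 5 + 390683968879482644 / 1148916015625 * x ^ 3 * y ^ 4 + 575822820857542051 / 2297832031250 * x ^ 4 * y ^ 3 + 1989162996523452691 / 18382656250000 * x ^ 5 * y ^ 2 + 3723242971147429271 / 147061250000000 * x ^ 6 * y + 417010134415923569 / 168070000000000 * x ^ 7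 := by
  positivity

lemma poly_qL_c0 {T : ℝ} (h0 : 1 / 8 ≤ T) (h1 : T ≤ 15 / 64) : 0 ≤ (3 + T) - pqL T ^ 2 * (1 + T) := by
  have h := poly_qL_b0 (sub_nonneg.2 h0) (sub_nonneg.2 h1)
  refine h.trans_eq ?_
  unfold pqL
  ring

lemma poly_qL_b1 {x y : ℝ} (hx : 0 ≤ x) (hy : 0 ≤ y) : 0 ≤ 417010134415923569 / 168070000000000 * y ^ 7 + 5540524701790537797 / 588245000000000 * x * y ^ 6 + 753853279195541039 / 58824500000000 * x ^ 2 * y ^ 5 + 1053283850049042161 / 147061250000000 * x ^ 3 * y ^ 4 + 33451310523097489 / 14706125000000 * x ^ 4 * y ^ 3 + 20740761117674643 / 7353062500000 * x ^ 5 * y ^ 2 + 1863526032482001 / 735306250000 * x ^ 6 * y + 258759961692131 / 367653125000 * x ^ 7 := by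
  positivity

lemma poly_qL_c1 {T : ℝ} (h0 : 15 / 64 ≤ T) (h1 : T ≤ 11 / 32) : 0 ≤ (3 + T) - pqL T ^ 2 * (1 + T) := by
  have h := poly_qL_b1 (sub_nonneg.2 h0) (sub_nonneg.2 h1)
  refine h.trans_eq ?_
  unfold pqL
  ring

lemma poly_qL_b2 {x y : ℝ} (hx : 0 ≤ x) (hy : 0 ≤ y) : 0 ≤ 258759961692131 / 47059600000000 * y ^ 7 + 14281732652211 / 188238400000 * x * y ^ 6 + 24387895498339587 / 58824500000000 * x ^ 2 * y ^ 5 + 30302606663998807 / 29412250000000 * x ^ 3 * y ^ 4 + 97597410502472081 / 73530625000000 * x ^ 4 * y ^ 3 + 33911274947529757 / 36765312500000 * x ^ 5 * y ^ 2 + 6026595108931701 / 18382656250000 * x ^ 6 * y + 17172659886857 / 367653125000 * x ^ 7 := by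
  positivity

lemma poly_qL_c2 {T : ℝ} (h0 : 11 / 32 ≤ T) (h1 : T ≤ 9 / 16) : 0 ≤ (3 + T) - pqL T ^ 2 * (1 + T) := by
  have h := poly_qL_b2 (sub_nonneg.2 h0) (sub_nonneg.2 h1)
  refine h.trans_eq ?_
  unfold pqL
  ring

lemma poly_qL_b3 {x y : ℝ} (hx : 0 ≤ x) (hy : 0 ≤ y) : 0 ≤ 17172659886857 / 367653125000 * y ^ 7 + 5994266811868199 / 18382656250000 * x * y ^ 6 + 33523335382767733 / 36765312500000 * x ^ 2 * y ^ 5 + 95914215968506819 / 73530625000000 * x ^ 3 * y ^ 4 + 148392532108592579 / 147061250000000 * x ^ 4 * y ^ 3 + 119978217406546549 / 294122500000000 * x ^ 5 * y ^ 2 + 9039459158450491 / 117649000000000 * x ^ 6 * y + 7051532832783841 / 1176490000000000 * x ^ 7 := by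
  positivity

lemma poly_qL_c3 {T : ℝ} (h0 : 9 / 16 ≤ T) (h1 : T ≤ 25 / 32) : 0 ≤ (3 + T) - pqL T ^ 2 * (1 + T) := by
  have h := poly_qL_b3 (sub_nonneg.2 h0) (sub_nonneg.2 h1)
  refine h.trans_eq ?_
  unfold pqL
  ring

lemma poly_qL_b4 {x y : ℝ} (hx : 0 ≤ x) (hy : 0 ≤ y) : 0 ≤ 7051532832783841 / 56296884765625 * y ^ 9 + 22429933740036546 / 56296884765625 * x * y ^ 8 + 1601685363955927 / 8042412109375 * x ^ 2 * y ^ 7 + 20868866101244416 / 8042412109375 * x ^ 3 * y ^ 6 + 147533531714624512 / 8042412109375 * x ^ 4 * y ^ 5 + 383262780526952448 / 8042412109375 * x ^ 5 * y ^ 4 + 513857855021907968 / 8042412109375 * x ^ 6 * y ^ 3 + 2691350080056721408 / 56296884765625 * x ^ 7 * y ^ 2 + 214670983447969792 / 11259376953125 * x ^ 8 * y + 3646049277181952 / 1148916015625 * x ^ 9 := by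
  positivity

lemma poly_qL_c4 {T : ℝ} (h0 : 25 / 32 ≤ T) (h1 : T ≤ 1) : 0 ≤ (3 + T) - pqL T ^ 2 * (1 + T) := by
  have h := poly_qL_b4 (sub_nonneg.2 h0) (sub_nonneg.2 h1)
  refine h.trans_eq ?_
  unfold pqL
  ring

lemma poly_qL {T : ℝ} (h0 : 1 / 8 ≤ T) (h1 : T ≤ 1) : 0 ≤ (3 + T) - pqL T ^ 2 * (1 + T) := by
  rcases le_total T (15 / 64) with h | h
  · exact poly_qL_c0 h0 h
  have h' := h
  clear h
  rcases le_total T (11 / 32) with h | h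
  · exact poly_qL_c1 h' h
  clear h'
  have h' := h
  clear h
  rcases le_total T (9 / 16) with h | h
  · exact poly_qL_c2 h' h
  clear h'
  have h' := h
  clear h
  rcases le_total T (25 / 32) with h | h
  · exact poly_qL_c3 h' h
  clear h'
  have h' := h
  clear h
  exact poly_qL_c4 h' h1

lemma poly_JU_b0 {x y : ℝ} (hx : 0 ≤ x) (hy : 0 ≤ y) : 0 ≤ 18092087 / 9604000000 * y ^ 6 + 6178682 / 37515625 * x * y ^ 5 + 14353341 / 37515625 * x ^ 2 * y ^ 4 + 90112 / 300125 * x ^ 3 * y ^ 3 + 22528 / 300125 * x ^ 4 * y ^ 2 := by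
  positivity

lemma poly_JU_c0 {T : ℝ} (h0 : 1 / 8 ≤ T) (h1 : T ≤ 1) : 0 ≤ pJU T ^ 2 * ((1 + T) * (3 - T)) - 1 := by
  have h := poly_JU_b0 (sub_nonneg.2 h0) (sub_nonneg.2 h1)
  refine h.trans_eq ?_
  unfold pJU
  ring

lemma poly_JU {T : ℝ} (h0 : 1 / 8 ≤ T) (h1 : T ≤ 1) : 0 ≤ pJU T ^ 2 * ((1 + T) * (3 - T)) - 1 := by
  exact poly_JU_c0 h0 h1

lemma poly_JL_b0 {x y : ℝ} (hx : 0 ≤ x) (hy : 0 ≤ y) : 0 ≤ 817 / 12544 * y ^ 6 + 6 / 49 * x * y ^ 5 + 3 / 49 * x ^ 2 * y ^ 4 := by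
  positivity

lemma poly_JL_c0 {T : ℝ} (h0 : 1 / 8 ≤ T) (h1 : T ≤ 1) : 0 ≤ 1 - pJL T ^ 2 * ((1 + T) * (3 - T)) := by
  have h := poly_JL_b0 (sub_nonneg.2 h0) (sub_nonneg.2 h1)
  refine h.trans_eq ?_
  unfold pJL
  ring

lemma poly_JL {T : ℝ} (h0 : 1 / 8 ≤ T) (h1 : T ≤ 1) : 0 ≤ 1 - pJL T ^ 2 * ((1 + T) * (3 - T)) := by
  exact poly_JL_c0 h0 h1

lemma poly_KU_b0 {x y : ℝ} (hx : 0 ≤ x) (hy : 0 ≤ y) : 0 ≤ 393001933312 / 1102959375 * y ^ 6 + 443661758208 / 367653125 * x * y ^ 5 + 547672234784 / 367653125 * x ^ 2 * y ^ 4 + 59875627936 / 73530625 * x ^ 3 * y ^ 3 + 67393809122 / 367653125 * x ^ 4 * y ^ 2 + 5060858303 / 367653125 * x ^ 5 * y + 20835637237 / 8823675000 * x ^ 6 := by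
  positivity

lemma poly_KU_c0 {T : ℝ} (h0 : 1 / 8 ≤ T) (h1 : T ≤ 11 / 32) : 0 ≤ (1 + 2 * T ^ 2) * pPU T - T * (1 - T ^ 2) * pPU' T - (T * pSU T) := by
  have h := poly_KU_b0 (sub_nonneg.2 h0) (sub_nonneg.2 h1)
  refine h.trans_eq ?_
  unfold pPU pPU' pSU
  ring

lemma poly_KU_b1 {x y : ℝ} (hx : 0 ≤ x) (hy : 0 ≤ y) : 0 ≤ 20835637237 / 8823675000 * y ^ 6 + 10713920631 / 735306250 * x * y ^ 5 + 137748638369 / 735306250 * x ^ 2 * y ^ 4 + 528726748268 / 1102959375 * x ^ 3 * y ^ 3 + 172342523762 / 367653125 * x ^ 4 * y ^ 2 + 72907830328 / 367653125 * x ^ 5 * y + 11256129272 / 367653125 * x ^ 6 := by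
  positivity

lemma poly_KU_c1 {T : ℝ} (h0 : 11 / 32 ≤ T) (h1 : T ≤ 9 / 16) : 0 ≤ (1 + 2 * T ^ 2) * pPU T - T * (1 - T ^ 2) * pPU' T - (T * pSU T) := by
  have h := poly_KU_b1 (sub_nonneg.2 h0) (sub_nonneg.2 h1)
  refine h.trans_eq ?_
  unfold pPU pPU' pSU
  ring

lemma poly_KU_b2 {x y : ℝ} (hx : 0 ≤ x) (hy : 0 ≤ y) : 0 ≤ 720392273408 / 367653125 * y ^ 6 + 4150479890176 / 367653125 * x * y ^ 5 + 9572840328992 / 367653125 * x ^ 2 * y ^ 4 + 33803354713952 / 1102959375 * x ^ 3 * y ^ 3 + 7121092937794 / 367653125 * x ^ 4 * y ^ 2 + 2292211964823 / 367653125 * x ^ 5 * y + 7079647275829 / 8823675000 * x ^ 6 := by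
  positivity

lemma poly_KU_c2 {T : ℝ} (h0 : 9 / 16 ≤ T) (h1 : T ≤ 43 / 64) : 0 ≤ (1 + 2 * T ^ 2) * pPU T - T * (1 - T ^ 2) * pPU' T - (T * pSU T) := by
  have h := poly_KU_b2 (sub_nonneg.2 h0) (sub_nonneg.2 h1)
  refine h.trans_eq ?_
  unfold pPU pPU' pSU
  ring

lemma poly_KU_b3 {x y : ℝ} (hx : 0 ≤ x) (hy : 0 ≤ y) : 0 ≤ 7079647275829 / 8823675000 * y ^ 6 + 2495223346183 / 735306250 * x * y ^ 5 + 3796182958273 / 735306250 * x ^ 2 * y ^ 4 + 1210128510308 / 367653125 * x ^ 3 * y ^ 3 + 291876980594 / 367653125 * x ^ 4 * y ^ 2 + 62657600184 / 367653125 * x ^ 5 * y + 102834313192 / 1102959375 * x ^ 6 := by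
  positivity

lemma poly_KU_c3 {T : ℝ} (h0 : 43 / 64 ≤ T) (h1 : T ≤ 25 / 32) : 0 ≤ (1 + 2 * T ^ 2) * pPU T - T * (1 - T ^ 2) * pPU' T - (T * pSU T) := by
  have h := poly_KU_b3 (sub_nonneg.2 h0) (sub_nonneg.2 h1)
  refine h.trans_eq ?_
  unfold pPU pPU' pSU
  ring

lemma poly_KU_b4 {x y : ℝ} (hx : 0 ≤ x) (hy : 0 ≤ y) : 0 ≤ 12854289149 / 8823675000 * y ^ 6 + 7682666856 / 367653125 * x * y ^ 5 + 61176937664 / 367653125 * x ^ 2 * y ^ 4 + 180638676992 / 367653125 * x ^ 3 * y ^ 3 + 220287991808 / 367653125 * x ^ 4 * y ^ 2 + 97205092352 / 367653125 * x ^ 5 * y + 7079985152 / 1102959375 * x ^ 6 := by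
  positivity

lemma poly_KU_c4 {T : ℝ} (h0 : 25 / 32 ≤ T) (h1 : T ≤ 1) : 0 ≤ (1 + 2 * T ^ 2) * pPU T - T * (1 - T ^ 2) * pPU' T - (T * pSU T) := by
  have h := poly_KU_b4 (sub_nonneg.2 h0) (sub_nonneg.2 h1)
  refine h.trans_eq ?_
  unfold pPU pPU' pSU
  ring

lemma poly_KU {T : ℝ} (h0 : 1 / 8 ≤ T) (h1 : T ≤ 1) : 0 ≤ (1 + 2 * T ^ 2) * pPU T - T * (1 - T ^ 2) * pPU' T - (T * pSU T) := by
  rcases le_total T (11 / 32) with h | h
  · exact poly_KU_c0 h0 h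
  have h' := h
  clear h
  rcases le_total T (9 / 16) with h | h
  · exact poly_KU_c1 h' h
  clear h'
  have h' := h
  clear h
  rcases le_total T (43 / 64) with h | h
  · exact poly_KU_c2 h' h
  clear h'
  have h' := h
  clear h
  rcases le_total T (25 / 32) with h | h
  · exact poly_KU_c3 h' h
  clear h'
  have h' := h
  clear h
  exact poly_KU_c4 h' h1

lemma poly_OU_b0 {x y : ℝ} (hx : 0 ≤ x) (hy : 0 ≤ y) : 0 ≤ 39667958136463488 / 56296884765625 * y ^ 8 + 55866211885568256 / 11259376953125 * x * y ^ 7 + 102224691291267744 / 8042412109375 * x ^ 2 * y ^ 6 + 25056272472490704 / 1608482421875 * x ^ 3 * y ^ 5 + 75855549300686733 / 8042412109375 * x ^ 4 * y ^ 4 + 18805775545660333 / 8042412109375 * x ^ 5 * y ^ 3 + 1092974687471677 / 64339296875000 * x ^ 6 * y ^ 2 + 19499206431122297 / 900750156250000 * x ^ 7 * y + 1009175471270675729 / 28824005000000000 * x ^ 8 := by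
  positivity

lemma poly_OU_c0 {T : ℝ} (h0 : 1 / 8 ≤ T) (h1 : T ≤ 11 / 32) : 0 ≤ (1 + T) * ((2 + 3 * T ^ 2) * pQU T - T * (1 - T ^ 2) * pQU' T) - (T * (pqU T * pPU T)) := by
  have h := poly_OU_b0 (sub_nonneg.2 h0) (sub_nonneg.2 h1)
  refine h.trans_eq ?_
  unfold pQU pQU' pqU pPU
  ring

lemma poly_OU_b1 {x y : ℝ} (hx : 0 ≤ x) (hy : 0 ≤ y) : 0 ≤ 1009175471270675729 / 28824005000000000 * y ^ 8 + 194035411681686227 / 360300062500000 * x * y ^ 7 + 935550544296073249 / 257357187500000 * x ^ 2 * y ^ 6 + 754849724568319407 / 64339296875000 * x ^ 3 * y ^ 5 + 2601830763110422453 / 128678593750000 * x ^ 4 * y ^ 4 + 316566414891573887 / 16084824218750 * x ^ 5 * y ^ 3 + 173978788705911937 / 16084824218750 * x ^ 6 * y ^ 2 + 175727506030770462 / 56296884765625 * x ^ 7 * y + 41338738545307089 / 112593769531250 * x ^ 8 := by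
  positivity

lemma poly_OU_c1 {T : ℝ} (h0 : 11 / 32 ≤ T) (h1 : T ≤ 9 / 16) : 0 ≤ (1 + T) * ((2 + 3 * T ^ 2) * pQU T - T * (1 - T ^ 2) * pQU' T) - (T * (pqU T * pPU T)) := by
  have h := poly_OU_b1 (sub_nonneg.2 h0) (sub_nonneg.2 h1)
  refine h.trans_eq ?_
  unfold pQU pQU' pqU pPU
  ring

lemma poly_OU_b2 {x y : ℝ} (hx : 0 ≤ x) (hy : 0 ≤ y) : 0 ≤ 41338738545307089 / 112593769531250 * y ^ 8 + 247971843730698 / 90075015625 * x * y ^ 7 + 132488581307743513 / 16084824218750 * x ^ 2 * y ^ 6 + 39879634348106393 / 3216964843750 * x ^ 3 * y ^ 5 + 1234317628922219493 / 128678593750000 * x ^ 4 * y ^ 4 + 213536127706551621 / 64339296875000 * x ^ 5 * y ^ 3 + 2765836339797009 / 10294287500000 * x ^ 6 * y ^ 2 + 85073373009826701 / 1801500312500000 * x ^ 7 * y + 58510128625066137 / 1152960200000000 * x ^ 8 := by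
  positivity

lemma poly_OU_c2 {T : ℝ} (h0 : 9 / 16 ≤ T) (h1 : T ≤ 25 / 32) : 0 ≤ (1 + T) * ((2 + 3 * T ^ 2) * pQU T - T * (1 - T ^ 2) * pQU' T) - (T * (pqU T * pPU T)) := by
  have h := poly_OU_b2 (sub_nonneg.2 h0) (sub_nonneg.2 h1)
  refine h.trans_eq ?_
  unfold pQU pQU' pqU pPU
  ring

lemma poly_OU_b3 {x y : ℝ} (hx : 0 ≤ x) (hy : 0 ≤ y) : 0 ≤ 58510128625066137 / 1152960200000000 * y ^ 8 + 344419960654206681 / 450375078125000 * x * y ^ 7 + 42554761815685164 / 8042412109375 * x ^ 2 * y ^ 6 + 150179336796924672 / 8042412109375 * x ^ 3 * y ^ 5 + 290641934223479808 / 8042412109375 * x ^ 4 * y ^ 4 + 314201807821471744 / 8042412109375 * x ^ 5 * y ^ 3 + 178915744245874688 / 8042412109375 * x ^ 6 * y ^ 2 + 59331950845886464 / 11259376953125 * x ^ 7 * y + 2733555557859328 / 56296884765625 * x ^ 8 := by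
  positivity

lemma poly_OU_c3 {T : ℝ} (h0 : 25 / 32 ≤ T) (h1 : T ≤ 1) : 0 ≤ (1 + T) * ((2 + 3 * T ^ 2) * pQU T - T * (1 - T ^ 2) * pQU' T) - (T * (pqU T * pPU T)) := by
  have h := poly_OU_b3 (sub_nonneg.2 h0) (sub_nonneg.2 h1)
  refine h.trans_eq ?_
  unfold pQU pQU' pqU pPU
  ring

lemma poly_OU {T : ℝ} (h0 : 1 / 8 ≤ T) (h1 : T ≤ 1) : 0 ≤ (1 + T) * ((2 + 3 * T ^ 2) * pQU T - T * (1 - T ^ 2) * pQU' T) - (T * (pqU T * pPU T)) := by
  rcases le_total T (11 / 32) with h | h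
  · exact poly_OU_c0 h0 h
  have h' := h
  clear h
  rcases le_total T (9 / 16) with h | h
  · exact poly_OU_c1 h' h
  clear h'
  have h' := h
  clear h
  rcases le_total T (25 / 32) with h | h
  · exact poly_OU_c2 h' h
  clear h'
  have h' := h
  clear h
  exact poly_OU_c3 h' h1

lemma poly_RU_b0 {x y : ℝ} (hx : 0 ≤ x) (hy : 0 ≤ y) : 0 ≤ 411802320896 / 367653125 * y ^ 6 + 2054501388288 / 367653125 * x * y ^ 5 + 826668154112 / 73530625 * x ^ 2 * y ^ 4 + 4305423127424 / 367653125 * x ^ 3 * y ^ 3 + 98112732468 / 14706125 * x ^ 4 * y ^ 2 + 725316016557 / 367653125 * x ^ 5 * y + 1393253659863 / 5882450000 * x ^ 6 := by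
  positivity

lemma poly_RU_c0 {T : ℝ} (h0 : 1 / 8 ≤ T) (h1 : T ≤ 15 / 64) : 0 ≤ (1 + 6 * T ^ 2) * pUU T - T * (1 - T ^ 2) * pUU' T - (T * pQU T) := by
  have h := poly_RU_b0 (sub_nonneg.2 h0) (sub_nonneg.2 h1)
  refine h.trans_eq ?_
  unfold pUU pUU' pQU
  ring

lemma poly_RU_b1 {x y : ℝ} (hx : 0 ≤ x) (hy : 0 ≤ y) : 0 ≤ 154805962207 / 4050000 * y ^ 6 + 193571630147 / 1012500 * x * y ^ 5 + 637032097 / 1620 * x ^ 2 * y ^ 4 + 107673207946 / 253125 * x ^ 3 * y ^ 3 + 12910355101 / 50625 * x ^ 4 * y ^ 2 + 20321624332 / 253125 * x ^ 5 * y + 291576476 / 28125 * x ^ 6 := by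
  positivity

lemma poly_RU_c1 {T : ℝ} (h0 : 15 / 64 ≤ T) (h1 : T ≤ 9 / 32) : 0 ≤ (1 + 6 * T ^ 2) * pUU T - T * (1 - T ^ 2) * pUU' T - (T * pQU T) := by
  have h := poly_RU_b1 (sub_nonneg.2 h0) (sub_nonneg.2 h1)
  refine h.trans_eq ?_
  unfold pUU pUU' pQU
  ring

lemma poly_RU_b2 {x y : ℝ} (hx : 0 ≤ x) (hy : 0 ≤ y) : 0 ≤ 5904423639 / 3200000 * y ^ 6 + 433941159 / 64000 * x * y ^ 5 + 5828969517 / 640000 * x ^ 2 * y ^ 4 + 4159542817 / 800000 * x ^ 3 * y ^ 3 + 3263877481 / 3200000 * x ^ 4 * y ^ 2 + 86421503 / 1600000 * x ^ 5 * y + 193175999 / 3200000 * x ^ 6 := by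
  positivity

lemma poly_RU_c2 {T : ℝ} (h0 : 9 / 32 ≤ T) (h1 : T ≤ 11 / 32) : 0 ≤ (1 + 6 * T ^ 2) * pUU T - T * (1 - T ^ 2) * pUU' T - (T * pQU T) := by
  have h := poly_RU_b2 (sub_nonneg.2 h0) (sub_nonneg.2 h1)
  refine h.trans_eq ?_
  unfold pUU pUU' pQU
  ring

lemma poly_RU_b3 {x y : ℝ} (hx : 0 ≤ x) (hy : 0 ≤ y) : 0 ≤ 193175999 / 5882450000 * y ^ 6 + 1152700363 / 1470612500 * x * y ^ 5 + 21262080529 / 1470612500 * x ^ 2 * y ^ 4 + 2948552114 / 73530625 * x ^ 3 * y ^ 3 + 14874572721 / 367653125 * x ^ 4 * y ^ 2 + 6349212204 / 367653125 * x ^ 5 * y + 195441228 / 73530625 * x ^ 6 := by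
  positivity

lemma poly_RU_c3 {T : ℝ} (h0 : 11 / 32 ≤ T) (h1 : T ≤ 9 / 16) : 0 ≤ (1 + 6 * T ^ 2) * pUU T - T * (1 - T ^ 2) * pUU' T - (T * pQU T) := by
  have h := poly_RU_b3 (sub_nonneg.2 h0) (sub_nonneg.2 h1)
  refine h.trans_eq ?_
  unfold pUU pUU' pQU
  ring

lemma poly_RU_b4 {x y : ℝ} (hx : 0 ≤ x) (hy : 0 ≤ y) : 0 ≤ 12508238592 / 73530625 * y ^ 6 + 359695946112 / 367653125 * x * y ^ 5 + 824947496976 / 367653125 * x ^ 2 * y ^ 4 + 960114634576 / 367653125 * x ^ 3 * y ^ 3 + 23820122713 / 14706125 * x ^ 4 * y ^ 2 + 373359494723 / 735306250 * x ^ 5 * y + 372764718671 / 5882450000 * x ^ 6 := by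
  positivity

lemma poly_RU_c4 {T : ℝ} (h0 : 9 / 16 ≤ T) (h1 : T ≤ 43 / 64) : 0 ≤ (1 + 6 * T ^ 2) * pUU T - T * (1 - T ^ 2) * pUU' T - (T * pQU T) := by
  have h := poly_RU_b4 (sub_nonneg.2 h0) (sub_nonneg.2 h1)
  refine h.trans_eq ?_
  unfold pUU pUU' pQU
  ring

lemma poly_RU_b5 {x y : ℝ} (hx : 0 ≤ x) (hy : 0 ≤ y) : 0 ≤ 372764718671 / 5882450000 * y ^ 6 + 371575166567 / 1470612500 * x * y ^ 5 + 101258631381 / 294122500 * x ^ 2 * y ^ 4 + 64367200274 / 367653125 * x ^ 3 * y ^ 3 + 2684861693 / 73530625 * x ^ 4 * y ^ 2 + 13613432412 / 367653125 * x ^ 5 * y + 7378256348 / 367653125 * x ^ 6 := by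
  positivity

lemma poly_RU_c5 {T : ℝ} (h0 : 43 / 64 ≤ T) (h1 : T ≤ 25 / 32) : 0 ≤ (1 + 6 * T ^ 2) * pUU T - T * (1 - T ^ 2) * pUU' T - (T * pQU T) := by
  have h := poly_RU_b5 (sub_nonneg.2 h0) (sub_nonneg.2 h1)
  refine h.trans_eq ?_
  unfold pUU pUU' pQU
  ring

lemma poly_RU_b6 {x y : ℝ} (hx : 0 ≤ x) (hy : 0 ≤ y) : 0 ≤ 1844564087 / 5882450000 * y ^ 6 + 329942967 / 73530625 * x * y ^ 5 + 2004246464 / 73530625 * x ^ 2 * y ^ 4 + 25988590592 / 367653125 * x ^ 3 * y ^ 3 + 29745512448 / 367653125 * x ^ 4 * y ^ 2 + 12578717696 / 367653125 * x ^ 5 * y + 134217728 / 367653125 * x ^ 6 := by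
  positivity

lemma poly_RU_c6 {T : ℝ} (h0 : 25 / 32 ≤ T) (h1 : T ≤ 1) : 0 ≤ (1 + 6 * T ^ 2) * pUU T - T * (1 - T ^ 2) * pUU' T - (T * pQU T) := by
  have h := poly_RU_b6 (sub_nonneg.2 h0) (sub_nonneg.2 h1)
  refine h.trans_eq ?_
  unfold pUU pUU' pQU
  ring

lemma poly_RU {T : ℝ} (h0 : 1 / 8 ≤ T) (h1 : T ≤ 1) : 0 ≤ (1 + 6 * T ^ 2) * pUU T - T * (1 - T ^ 2) * pUU' T - (T * pQU T) := by
  rcases le_total T (15 / 64) with h | h
  · exact poly_RU_c0 h0 h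
  have h' := h
  clear h
  rcases le_total T (9 / 32) with h | h
  · exact poly_RU_c1 h' h
  clear h'
  have h' := h
  clear h
  rcases le_total T (11 / 32) with h | h
  · exact poly_RU_c2 h' h
  clear h'
  have h' := h
  clear h
  rcases le_total T (9 / 16) with h | h
  · exact poly_RU_c3 h' h
  clear h'
  have h' := h
  clear h
  rcases le_total T (43 / 64) with h | h
  · exact poly_RU_c4 h' h
  clear h'
  have h' := h
  clear h
  rcases le_total T (25 / 32) with h | h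
  · exact poly_RU_c5 h' h
  clear h'
  have h' := h
  clear h
  exact poly_RU_c6 h' h1

lemma poly_EU_b0 {x y : ℝ} (hx : 0 ≤ x) (hy : 0 ≤ y) : 0 ≤ 10770206947644551890305024 / 135168820322265625 * y ^ 12 + 121242307987239272241659904 / 135168820322265625 * x * y ^ 11 + 119616533612264671322861568 / 27033764064453125 * x ^ 2 * y ^ 10 + 1713360898808775421596391424 / 135168820322265625 * x ^ 3 * y ^ 9 + 3172289453301399079779483264 / 135168820322265625 * x ^ 4 * y ^ 8 + 3985173166973161034034112256 / 135168820322265625 * x ^ 5 * y ^ 7 + 494309056343016557346871392 / 19309831474609375 * x ^ 6 * y ^ 6 + 2070022843890395720722709872 / 135168820322265625 * x ^ 7 * y ^ 5 + 1666518129600771288351388701 / 270337640644531250 * x ^ 8 * y ^ 4 + 86117285606992266743449231 / 54067528128906250 * x ^ 9 * y ^ 3 + 534405053876309218919274659 / 2162701125156250000 * x ^ 10 * y ^ 2 + 19728244108410418559062507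 / 865080450062500000 * x ^ 11 * y + 4298066101710271295692299 / 2768257440200000000 * x ^ 12 := by
  positivity

lemma poly_EU_c0 {T : ℝ} (h0 : 1 / 8 ≤ T) (h1 : T ≤ 11 / 32) : 0 ≤ 48 * (T * ((1 + T) * (3 - T) * (3 + T)) * ((3 / 2 + 7 / 2 * T ^ 2) * pEU T - T * (1 - T ^ 2) * pEU' T)) - ((1 + T) * (3 - T) * (3 + T) * (2 * T * ((1 - T ^ 2) ^ 2 * pUU T) + (4 + T ^ 2) * (1 - T ^ 2) * pQU T) + T * (21 + 14 * T + 13 * T ^ 2) * (pqU T * pPU T) * ((1 + T) * (3 - T)) + 27 * (T ^ 2 * (7 + T ^ 2) * pJU T)) := by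
  have h := poly_EU_b0 (sub_nonneg.2 h0) (sub_nonneg.2 h1)
  refine h.trans_eq ?_
  unfold pEU pEU' pQU pqU pPU pJU pUU
  ring

lemma poly_EU_b1 {x y : ℝ} (hx : 0 ≤ x) (hy : 0 ≤ y) : 0 ≤ 4298066101710271295692299 / 2768257440200000000 * y ^ 12 + 25014503308833232317259471 / 1730160900125000000 * x * y ^ 11 + 1343311045565918611629493771 / 8650804500625000000 * x ^ 2 * y ^ 10 + 460543256694477306548011243 / 432540225031250000 * x ^ 3 * y ^ 9 + 18023375088170640108373857741 / 4325402250312500000 * x ^ 4 * y ^ 8 + 2734516036809954221591615707 / 270337640644531250 * x ^ 5 * y ^ 7 + 626086374319153513690863227 / 38619662949218750 * x ^ 6 * y ^ 6 + 2394896826648288952244926054 / 135168820322265625 * x ^ 7 * y ^ 5 + 3599993922398197540098545373 / 270337640644531250 * x ^ 8 * y ^ 4 + 917108303702505608938797564 / 135168820322265625 * x ^ 9 * y ^ 3 + 302971137832110752193927084 /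 135168820322265625 * x ^ 10 * y ^ 2 + 11721715889997850877313648 / 27033764064453125 * x ^ 11 * y + 40366174507099966396152 / 1081350562578125 * x ^ 12 := by
  positivity

lemma poly_EU_c1 {T : ℝ} (h0 : 11 / 32 ≤ T) (h1 : T ≤ 9 / 16) : 0 ≤ 48 * (T * ((1 + T) * (3 - T) * (3 + T)) * ((3 / 2 + 7 / 2 * T ^ 2) * pEU T - T * (1 - T ^ 2) * pEU' T)) - ((1 + T) * (3 - T) * (3 + T) * (2 * T * ((1 - T ^ 2) ^ 2 * pUU T) + (4 + T ^ 2) * (1 - T ^ 2) * pQU T) + T * (21 + 14 * T + 13 * T ^ 2) * (pqU T * pPU T) * ((1 + T) * (3 - T)) + 27 * (T ^ 2 * (7 + T ^ 2) * pJU T)) := by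
  have h := poly_EU_b1 (sub_nonneg.2 h0) (sub_nonneg.2 h1)
  refine h.trans_eq ?_
  unfold pEU pEU' pQU pqU pPU pJU pUU
  ring

lemma poly_EU_b2 {x y : ℝ} (hx : 0 ≤ x) (hy : 0 ≤ y) : 0 ≤ 5045771813387495799519 / 553651488040000000 * y ^ 12 + 50336426860915109382459 / 432540225031250000 * x * y ^ 11 + 83229190620440606488401 / 135168820322265625 * x ^ 2 * y ^ 10 + 236587164615627099170208 / 135168820322265625 * x ^ 3 * y ^ 9 + 79373975870662834060608 / 27033764064453125 * x ^ 4 * y ^ 8 + 87781273234757977407488 / 27033764064453125 * x ^ 5 * y ^ 7 + 66745708661293852327936 / 19309831474609375 * x ^ 6 * y ^ 6 + 674359122526150435536896 / 135168820322265625 * x ^ 7 * y ^ 5 + 856837758255314126241792 / 135168820322265625 * x ^ 8 * y ^ 4 + 681152818593681832411136 / 135168820322265625 * x ^ 9 * y ^ 3 + 298108965224794751500288 / 135168820322265625 * x ^ 10 * y ^ 2 + 59007379692684465668096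 / 135168820322265625 * x ^ 11 * y + 2245422048109821689856 / 135168820322265625 * x ^ 12 := by
  positivity

lemma poly_EU_c2 {T : ℝ} (h0 : 9 / 16 ≤ T) (h1 : T ≤ 1) : 0 ≤ 48 * (T * ((1 + T) * (3 - T) * (3 + T)) * ((3 / 2 + 7 / 2 * T ^ 2) * pEU T - T * (1 - T ^ 2) * pEU' T)) - ((1 + T) * (3 - T) * (3 + T) * (2 * T * ((1 - T ^ 2) ^ 2 * pUU T) + (4 + T ^ 2) * (1 - T ^ 2) * pQU T) + T * (21 + 14 * T + 13 * T ^ 2) * (pqU T * pPU T) * ((1 + T) * (3 - T)) + 27 * (T ^ 2 * (7 + T ^ 2) * pJU T)) := by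
  have h := poly_EU_b2 (sub_nonneg.2 h0) (sub_nonneg.2 h1)
  refine h.trans_eq ?_
  unfold pEU pEU' pQU pqU pPU pJU pUU
  ring

lemma poly_EU {T : ℝ} (h0 : 1 / 8 ≤ T) (h1 : T ≤ 1) : 0 ≤ 48 * (T * ((1 + T) * (3 - T) * (3 + T)) * ((3 / 2 + 7 / 2 * T ^ 2) * pEU T - T * (1 - T ^ 2) * pEU' T)) - ((1 + T) * (3 - T) * (3 + T) * (2 * T * ((1 - T ^ 2) ^ 2 * pUU T) + (4 + T ^ 2) * (1 - T ^ 2) * pQU T) + T * (21 + 14 * T + 13 * T ^ 2) * (pqU T * pPU T) * ((1 + T) * (3 - T)) + 27 * (T ^ 2 * (7 + T ^ 2) * pJU T)) := by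
  rcases le_total T (11 / 32) with h | h
  · exact poly_EU_c0 h0 h
  have h' := h
  clear h
  rcases le_total T (9 / 16) with h | h
  · exact poly_EU_c1 h' h
  clear h'
  have h' := h
  clear h
  exact poly_EU_c2 h' h1

lemma poly_VU_b0 {x y : ℝ} (hx : 0 ≤ x) (hy : 0 ≤ y) : 0 ≤ 13468161152 / 367653125 * y ^ 6 + 48822841664 / 367653125 * x * y ^ 5 + 13160066648 / 73530625 * x ^ 2 * y ^ 4 + 41677315864 / 367653125 * x ^ 3 * y ^ 3 + 25926721607 / 735306250 * x ^ 4 * y ^ 2 + 1701184033 / 294122500 * x ^ 5 * y + 8158726841 / 11764900000 * x ^ 6 := by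
  positivity

lemma poly_VU_c0 {T : ℝ} (h0 : 1 / 8 ≤ T) (h1 : T ≤ 11 / 32) : 0 ≤ (1 + 3 * T ^ 2) * pVU T - T * (1 - T ^ 2) * pVU' T - (T * pEU T) := by
  have h := poly_VU_b0 (sub_nonneg.2 h0) (sub_nonneg.2 h1)
  refine h.trans_eq ?_
  unfold pVU pVU' pEU
  ring

lemma poly_VU_b1 {x y : ℝ} (hx : 0 ≤ x) (hy : 0 ≤ y) : 0 ≤ 8158726841 / 11764900000 * y ^ 6 + 7464340193 / 2941225000 * x * y ^ 5 + 55969385743 / 2941225000 * x ^ 2 * y ^ 4 + 17764003119 / 367653125 * x ^ 3 * y ^ 3 + 7171658139 / 147061250 * x ^ 4 * y ^ 2 + 7912204386 / 367653125 * x ^ 5 * y + 257829818 / 73530625 * x ^ 6 := by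
  positivity

lemma poly_VU_c1 {T : ℝ} (h0 : 11 / 32 ≤ T) (h1 : T ≤ 9 / 16) : 0 ≤ (1 + 3 * T ^ 2) * pVU T - T * (1 - T ^ 2) * pVU' T - (T * pEU T) := by
  have h := poly_VU_b1 (sub_nonneg.2 h0) (sub_nonneg.2 h1)
  refine h.trans_eq ?_
  unfold pVU pVU' pEU
  ring

lemma poly_VU_b2 {x y : ℝ} (hx : 0 ≤ x) (hy : 0 ≤ y) : 0 ≤ 257829818 / 73530625 * y ^ 6 + 7557584694 / 367653125 * x * y ^ 5 + 1292483751 / 29412250 * x ^ 2 * y ^ 4 + 15444838621 / 367653125 * x ^ 3 * y ^ 3 + 57048588511 / 2941225000 * x ^ 4 * y ^ 2 + 3450461503 / 588245000 * x ^ 5 * y + 14171841697 / 11764900000 * x ^ 6 := by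
  positivity

lemma poly_VU_c2 {T : ℝ} (h0 : 9 / 16 ≤ T) (h1 : T ≤ 25 / 32) : 0 ≤ (1 + 3 * T ^ 2) * pVU T - T * (1 - T ^ 2) * pVU' T - (T * pEU T) := by
  have h := poly_VU_b2 (sub_nonneg.2 h0) (sub_nonneg.2 h1)
  refine h.trans_eq ?_
  unfold pVU pVU' pEU
  ring

lemma poly_VU_b3 {x y : ℝ} (hx : 0 ≤ x) (hy : 0 ≤ y) : 0 ≤ 14171841697 / 11764900000 * y ^ 6 + 3157902197 / 367653125 * x * y ^ 5 + 12137892352 / 367653125 * x ^ 2 * y ^ 4 + 1048056832 / 14706125 * x ^ 3 * y ^ 3 + 28398518272 / 367653125 * x ^ 4 * y ^ 2 + 2486173696 / 73530625 * x ^ 5 * y + 134217728 / 73530625 * x ^ 6 := by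
  positivity

lemma poly_VU_c3 {T : ℝ} (h0 : 25 / 32 ≤ T) (h1 : T ≤ 1) : 0 ≤ (1 + 3 * T ^ 2) * pVU T - T * (1 - T ^ 2) * pVU' T - (T * pEU T) := by
  have h := poly_VU_b3 (sub_nonneg.2 h0) (sub_nonneg.2 h1)
  refine h.trans_eq ?_
  unfold pVU pVU' pEU
  ring

lemma poly_VU {T : ℝ} (h0 : 1 / 8 ≤ T) (h1 : T ≤ 1) : 0 ≤ (1 + 3 * T ^ 2) * pVU T - T * (1 - T ^ 2) * pVU' T - (T * pEU T) := by
  rcases le_total T (11 / 32) with h | h
  · exact poly_VU_c0 h0 h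
  have h' := h
  clear h
  rcases le_total T (9 / 16) with h | h
  · exact poly_VU_c1 h' h
  clear h'
  have h' := h
  clear h
  rcases le_total T (25 / 32) with h | h
  · exact poly_VU_c2 h' h
  clear h'
  have h' := h
  clear h
  exact poly_VU_c3 h' h1

lemma poly_KL_b0 {x y : ℝ} (hx : 0 ≤ x) (hy : 0 ≤ y) : 0 ≤ 164187056 / 1102959375 * y ^ 6 + 1664178168 / 73530625 * x * y ^ 5 + 19710838816 / 367653125 * x ^ 2 * y ^ 4 + 33529542692 / 1102959375 * x ^ 3 * y ^ 3 + 1657439753 / 367653125 * x ^ 4 * y ^ 2 + 320667311 / 735306250 * x ^ 5 * y + 202935643 / 735306250 * x ^ 6 := by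
  positivity

lemma poly_KL_c0 {T : ℝ} (h0 : 1 / 8 ≤ T) (h1 : T ≤ 9 / 16) : 0 ≤ T * pSL T - ((1 + 2 * T ^ 2) * pPL T - T * (1 - T ^ 2) * pPL' T) := by
  have h := poly_KL_b0 (sub_nonneg.2 h0) (sub_nonneg.2 h1)
  refine h.trans_eq ?_
  unfold pPL pPL' pSL
  ring

lemma poly_KL_b1 {x y : ℝ} (hx : 0 ≤ x) (hy : 0 ≤ y) : 0 ≤ 6493940576 / 367653125 * y ^ 6 + 53314788208 / 367653125 * x * y ^ 5 + 207209453168 / 367653125 * x ^ 2 * y ^ 4 + 1177808578088 / 1102959375 * x ^ 3 * y ^ 3 + 354469094158 / 367653125 * x ^ 4 * y ^ 2 + 140373408843 / 367653125 * x ^ 5 * y + 59955915584 / 1102959375 * x ^ 6 := by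
  positivity

lemma poly_KL_c1 {T : ℝ} (h0 : 9 / 16 ≤ T) (h1 : T ≤ 25 / 32) : 0 ≤ T * pSL T - ((1 + 2 * T ^ 2) * pPL T - T * (1 - T ^ 2) * pPL' T) := by
  have h := poly_KL_b1 (sub_nonneg.2 h0) (sub_nonneg.2 h1)
  refine h.trans_eq ?_
  unfold pPL pPL' pSL
  ring

lemma poly_KL_b2 {x y : ℝ} (hx : 0 ≤ x) (hy : 0 ≤ y) : 0 ≤ 3837178597376 / 1102959375 * y ^ 6 + 7019586709152 / 367653125 * x * y ^ 5 + 15150146604688 / 367653125 * x ^ 2 * y ^ 4 + 1938704908592 / 44118375 * x ^ 3 * y ^ 3 + 8785760909384 / 367653125 * x ^ 4 * y ^ 2 + 2319342578962 / 367653125 * x ^ 5 * y + 281703216533 / 367653125 * x ^ 6 := by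
  positivity

lemma poly_KL_c2 {T : ℝ} (h0 : 25 / 32 ≤ T) (h1 : T ≤ 57 / 64) : 0 ≤ T * pSL T - ((1 + 2 * T ^ 2) * pPL T - T * (1 - T ^ 2) * pPL' T) := by
  have h := poly_KL_b2 (sub_nonneg.2 h0) (sub_nonneg.2 h1)
  refine h.trans_eq ?_
  unfold pPL pPL' pSL
  ring

lemma poly_KL_b3 {x y : ℝ} (hx : 0 ≤ x) (hy : 0 ≤ y) : 0 ≤ 281703216533 / 367653125 * y ^ 6 + 1061096019434 / 367653125 * x * y ^ 5 + 2494528111744 / 367653125 * x ^ 2 * y ^ 4 + 19287073570816 / 1102959375 * x ^ 3 * y ^ 3 + 11134528651264 / 367653125 * x ^ 4 * y ^ 2 + 9394469208064 / 367653125 * x ^ 5 * y + 8927089524736 / 1102959375 * x ^ 6 := by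
  positivity

lemma poly_KL_c3 {T : ℝ} (h0 : 57 / 64 ≤ T) (h1 : T ≤ 1) : 0 ≤ T * pSL T - ((1 + 2 * T ^ 2) * pPL T - T * (1 - T ^ 2) * pPL' T) := by
  have h := poly_KL_b3 (sub_nonneg.2 h0) (sub_nonneg.2 h1)
  refine h.trans_eq ?_
  unfold pPL pPL' pSL
  ring

lemma poly_KL {T : ℝ} (h0 : 1 / 8 ≤ T) (h1 : T ≤ 1) : 0 ≤ T * pSL T - ((1 + 2 * T ^ 2) * pPL T - T * (1 - T ^ 2) * pPL' T) := by
  rcases le_total T (9 / 16) with h | h
  · exact poly_KL_c0 h0 h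
  have h' := h
  clear h
  rcases le_total T (25 / 32) with h | h
  · exact poly_KL_c1 h' h
  clear h'
  have h' := h
  clear h
  rcases le_total T (57 / 64) with h | h
  · exact poly_KL_c2 h' h
  clear h'
  have h' := h
  clear h
  exact poly_KL_c3 h' h1

lemma poly_OL_b0 {x y : ℝ} (hx : 0 ≤ x) (hy : 0 ≤ y) : 0 ≤ 22852962087059456 / 78815638671875 * y ^ 9 + 56068167069110272 / 394078193359375 * x * y ^ 8 + 3098897072126927872 / 394078193359375 * x ^ 2 * y ^ 7 + 2906791622295829248 / 56296884765625 * x ^ 3 * y ^ 6 + 7231882481337049408 / 56296884765625 * x ^ 4 * y ^ 5 + 9417484708612923472 / 56296884765625 * x ^ 5 * y ^ 4 + 7068654696354301716 / 56296884765625 * x ^ 6 * y ^ 3 + 21559499973505059023 / 394078193359375 * x ^ 7 * y ^ 2 + 405136119910782011 / 31526255468750 * x ^ 8 * y + 198248467340407929 / 157631277343750 * x ^ 9 := by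
  positivity

lemma poly_OL_c0 {T : ℝ} (h0 : 1 / 8 ≤ T) (h1 : T ≤ 11 / 32) : 0 ≤ T * (pqL T * pPL T) - ((1 + T) * ((2 + 3 * T ^ 2) * pQL T - T * (1 - T ^ 2) * pQL' T)) := by
  have h := poly_OL_b0 (sub_nonneg.2 h0) (sub_nonneg.2 h1)
  refine h.trans_eq ?_
  unfold pQL pQL' pqL pPL
  ring

lemma poly_OL_b1 {x y : ℝ} (hx : 0 ≤ x) (hy : 0 ≤ y) : 0 ≤ 792993869361631716 / 11259376953125 * y ^ 8 + 1172212433582515268 / 2251875390625 * x * y ^ 7 + 13127790607491267818 / 8042412109375 * x ^ 2 * y ^ 6 + 910082368101925003 / 321696484375 * x ^ 3 * y ^ 5 + 4753222075045130756 / 1608482421875 * x ^ 4 * y ^ 4 + 61073835332999266237 / 32169648437500 * x ^ 5 * y ^ 3 + 46960375096360333963 / 64339296875000 * x ^ 6 * y ^ 2 + 27592649759185796667 / 180150031250000 * x ^ 7 * y + 48578554117693137779 / 3603000625000000 * x ^ 8 := by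
  positivity

lemma poly_OL_c1 {T : ℝ} (h0 : 11 / 32 ≤ T) (h1 : T ≤ 29 / 64) : 0 ≤ T * (pqL T * pPL T) - ((1 + T) * ((2 + 3 * T ^ 2) * pQL T - T * (1 - T ^ 2) * pQL' T)) := by
  have h := poly_OL_b1 (sub_nonneg.2 h0) (sub_nonneg.2 h1)
  refine h.trans_eq ?_
  unfold pQL pQL' pqL pPL
  ring

lemma poly_OL_b2 {x y : ℝ} (hx : 0 ≤ x) (hy : 0 ≤ y) : 0 ≤ 48578554117693137779 / 394078193359375 * y ^ 9 + 273982424817067408903 / 394078193359375 * x * y ^ 8 + 114008200941032267508 / 78815638671875 * x ^ 2 * y ^ 7 + 13408008307382885584 / 11259376953125 * x ^ 3 * y ^ 6 + 6452473720157675712 / 56296884765625 * x ^ 4 * y ^ 5 + 10658781276104673024 / 56296884765625 * x ^ 5 * y ^ 4 + 15555829903875965952 / 11259376953125 * x ^ 6 * y ^ 3 + 129280340965183164416 / 78815638671875 * x ^ 7 * y ^ 2 + 312097957375401705472 / 394078193359375 * x ^ 8 * y + 56062989540901781504 / 394078193359375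 * x ^ 9 := by
  positivity

lemma poly_OL_c2 {T : ℝ} (h0 : 29 / 64 ≤ T) (h1 : T ≤ 9 / 16) : 0 ≤ T * (pqL T * pPL T) - ((1 + T) * ((2 + 3 * T ^ 2) * pQL T - T * (1 - T ^ 2) * pQL' T)) := by
  have h := poly_OL_b2 (sub_nonneg.2 h0) (sub_nonneg.2 h1)
  refine h.trans_eq ?_
  unfold pQL pQL' pqL pPL
  ring

lemma poly_OL_b3 {x y : ℝ} (hx : 0 ≤ x) (hy : 0 ≤ y) : 0 ≤ 3421813326471056 / 56296884765625 * y ^ 8 + 10173850260164098 / 11259376953125 * x * y ^ 7 + 1721495418256109 / 321696484375 * x ^ 2 * y ^ 6 + 259133107746765551 / 16084824218750 * x ^ 3 * y ^ 5 + 174435050616486589 / 6433929687500 * x ^ 4 * y ^ 4 + 1687237763384954969 / 64339296875000 * x ^ 5 * y ^ 3 + 1829106416513709199 / 128678593750000 * x ^ 6 * y ^ 2 + 7078386719250199363 / 1801500312500000 * x ^ 7 * y + 61818107006544257 / 144120025000000 * x ^ 8 := by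
  positivity

lemma poly_OL_c3 {T : ℝ} (h0 : 9 / 16 ≤ T) (h1 : T ≤ 25 / 32) : 0 ≤ T * (pqL T * pPL T) - ((1 + T) * ((2 + 3 * T ^ 2) * pQL T - T * (1 - T ^ 2) * pQL' T)) := by
  have h := poly_OL_b3 (sub_nonneg.2 h0) (sub_nonneg.2 h1)
  refine h.trans_eq ?_
  unfold pQL pQL' pqL pPL
  ring

lemma poly_OL_b4 {x y : ℝ} (hx : 0 ≤ x) (hy : 0 ≤ y) : 0 ≤ 247272428026177028 / 2251875390625 * y ^ 8 + 45868181530852310948 / 56296884765625 * x * y ^ 7 + 20482401656443471918 / 8042412109375 * x ^ 2 * y ^ 6 + 34891327438867822387 / 8042412109375 * x ^ 3 * y ^ 5 + 6992799502274733727 / 1608482421875 * x ^ 4 * y ^ 4 + 83045408550882163069 / 32169648437500 * x ^ 5 * y ^ 3 + 56479627878386499169 / 64339296875000 * x ^ 6 * y ^ 2 + 29713670783603781979 / 180150031250000 * x ^ 7 * y + 12751175951632143559 / 720600125000000 * x ^ 8 := by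
  positivity

lemma poly_OL_c4 {T : ℝ} (h0 : 25 / 32 ≤ T) (h1 : T ≤ 57 / 64) : 0 ≤ T * (pqL T * pPL T) - ((1 + T) * ((2 + 3 * T ^ 2) * pQL T - T * (1 - T ^ 2) * pQL' T)) := by
  have h := poly_OL_b4 (sub_nonneg.2 h0) (sub_nonneg.2 h1)
  refine h.trans_eq ?_
  unfold pQL pQL' pqL pPL
  ring

lemma poly_OL_b5 {x y : ℝ} (hx : 0 ≤ x) (hy : 0 ≤ y) : 0 ≤ 12751175951632143559 / 720600125000000 * y ^ 8 + 21291033022924792257 / 180150031250000 * x * y ^ 7 + 4427879184586128108 / 8042412109375 * x ^ 2 * y ^ 6 + 3257540799901148672 / 1608482421875 * x ^ 3 * y ^ 5 + 7783299964484304896 / 1608482421875 * x ^ 4 * y ^ 4 + 56140874153578201088 / 8042412109375 * x ^ 5 * y ^ 3 + 47364438154685710336 / 8042412109375 * x ^ 6 * y ^ 2 + 30220691080768126976 / 11259376953125 * x ^ 7 * y + 28799048745354264576 / 56296884765625 * x ^ 8 := by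
  positivity

lemma poly_OL_c5 {T : ℝ} (h0 : 57 / 64 ≤ T) (h1 : T ≤ 1) : 0 ≤ T * (pqL T * pPL T) - ((1 + T) * ((2 + 3 * T ^ 2) * pQL T - T * (1 - T ^ 2) * pQL' T)) := by
  have h := poly_OL_b5 (sub_nonneg.2 h0) (sub_nonneg.2 h1)
  refine h.trans_eq ?_
  unfold pQL pQL' pqL pPL
  ring

lemma poly_OL {T : ℝ} (h0 : 1 / 8 ≤ T) (h1 : T ≤ 1) : 0 ≤ T * (pqL T * pPL T) - ((1 + T) * ((2 + 3 * T ^ 2) * pQL T - T * (1 - T ^ 2) * pQL' T)) := by
  rcases le_total T (11 / 32) with h | h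
  · exact poly_OL_c0 h0 h
  have h' := h
  clear h
  rcases le_total T (29 / 64) with h | h
  · exact poly_OL_c1 h' h
  clear h'
  have h' := h
  clear h
  rcases le_total T (9 / 16) with h | h
  · exact poly_OL_c2 h' h
  clear h'
  have h' := h
  clear h
  rcases le_total T (25 / 32) with h | h
  · exact poly_OL_c3 h' h
  clear h'
  have h' := h
  clear h
  rcases le_total T (57 / 64) with h | h
  · exact poly_OL_c4 h' h
  clear h'
  have h' := h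
  clear h
  exact poly_OL_c5 h' h1

lemma poly_EL_b0 {x y : ℝ} (hx : 0 ≤ x) (hy : 0 ≤ y) : 0 ≤ 14682642951145343904 / 27033764064453125 * y ^ 12 + 13459206040835823054256 / 135168820322265625 * x * y ^ 11 + 152264419880681340207096 / 135168820322265625 * x ^ 2 * y ^ 10 + 724056939800688470658068 / 135168820322265625 * x ^ 3 * y ^ 9 + 1902697243499048938426052 / 135168820322265625 * x ^ 4 * y ^ 8 + 122796618446223089646942 / 5406752812890625 * x ^ 5 * y ^ 7 + 454851023194576642438361 / 19309831474609375 * x ^ 6 * y ^ 6 + 4326817954884682925797989 / 270337640644531250 * x ^ 7 * y ^ 5 + 1568254863591922857478753 / 216270112515625000 * x ^ 8 * y ^ 4 + 5057438742647346247658631 / 2162701125156250000 * x ^ 9 * y ^ 3 + 2695575928737316989021491 / 4325402250312500000 * x ^ 10 * y ^ 2 + 238998831659811786048237 / 1730160900125000000 * x ^ 11 * y + 283376883847327233111 / 17301609001250000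 * x ^ 12 := by
  positivity

lemma poly_EL_c0 {T : ℝ} (h0 : 1 / 8 ≤ T) (h1 : T ≤ 9 / 16) : 0 ≤ (1 + T) * (3 - T) * (3 + T) * ((4 + T ^ 2) * (1 - T ^ 2) * pQL T) + T * (21 + 14 * T + 13 * T ^ 2) * (pqL T * pPL T) * ((1 + T) * (3 - T)) + 27 * (T ^ 2 * (7 + T ^ 2) * pJL T) - (48 * (T * ((1 + T) * (3 - T) * (3 + T)) * ((3 / 2 + 7 / 2 * T ^ 2) * pEL T - T * (1 - T ^ 2) * pEL' T))) := by
  have h := poly_EL_b0 (sub_nonneg.2 h0) (sub_nonneg.2 h1)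
  refine h.trans_eq ?_
  unfold pEL pEL' pQL pqL pPL pJL
  ring

lemma poly_EL_b1 {x y : ℝ} (hx : 0 ≤ x) (hy : 0 ≤ y) : 0 ≤ 283376883847327233111 / 17301609001250000 * y ^ 12 + 441105689573773573418163 / 1730160900125000000 * x * y ^ 11 + 1031689315171408267711807 / 540675281289062500 * x ^ 2 * y ^ 10 + 1157284767793098360231944 / 135168820322265625 * x ^ 3 * y ^ 9 + 3340345476549377433072832 / 135168820322265625 * x ^ 4 * y ^ 8 + 6391073778868710964685824 / 135168820322265625 * x ^ 5 * y ^ 7 + 1167655289459452328165376 / 19309831474609375 * x ^ 6 * y ^ 6 + 6917621528926774815096832 / 135168820322265625 * x ^ 7 * y ^ 5 + 755832131634560954793984 / 27033764064453125 * x ^ 8 * y ^ 4 + 1323009967809720769052672 / 135168820322265625 * x ^ 9 * y ^ 3 + 354294563997688847663104 / 135168820322265625 * x ^ 10 * y ^ 2 + 21203113674998217179136 / 27033764064453125 * x ^ 11 * y + 21942926938548146798592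 / 135168820322265625 * x ^ 12 := by
  positivity

lemma poly_EL_c1 {T : ℝ} (h0 : 9 / 16 ≤ T) (h1 : T ≤ 1) : 0 ≤ (1 + T) * (3 - T) * (3 + T) * ((4 + T ^ 2) * (1 - T ^ 2) * pQL T) + T * (21 + 14 * T + 13 * T ^ 2) * (pqL T * pPL T) * ((1 + T) * (3 - T)) + 27 * (T ^ 2 * (7 + T ^ 2) * pJL T) - (48 * (T * ((1 + T) * (3 - T) * (3 + T)) * ((3 / 2 + 7 / 2 * T ^ 2) * pEL T - T * (1 - T ^ 2) * pEL' T))) := by
  have h := poly_EL_b1 (sub_nonneg.2 h0) (sub_nonneg.2 h1)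
  refine h.trans_eq ?_
  unfold pEL pEL' pQL pqL pPL pJL
  ring

lemma poly_EL {T : ℝ} (h0 : 1 / 8 ≤ T) (h1 : T ≤ 1) : 0 ≤ (1 + T) * (3 - T) * (3 + T) * ((4 + T ^ 2) * (1 - T ^ 2) * pQL T) + T * (21 + 14 * T + 13 * T ^ 2) * (pqL T * pPL T) * ((1 + T) * (3 - T)) + 27 * (T ^ 2 * (7 + T ^ 2) * pJL T) - (48 * (T * ((1 + T) * (3 - T) * (3 + T)) * ((3 / 2 + 7 / 2 * T ^ 2) * pEL T - T * (1 - T ^ 2) * pEL' T))) := by
  rcases le_total T (9 / 16) with h | h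
  · exact poly_EL_c0 h0 h
  have h' := h
  clear h
  exact poly_EL_c1 h' h1

lemma poly_VL_b0 {x y : ℝ} (hx : 0 ≤ x) (hy : 0 ≤ y) : 0 ≤ 614340096 / 367653125 * y ^ 6 + 23828611584 / 367653125 * x * y ^ 5 + 17517598816 / 73530625 * x ^ 2 * y ^ 4 + 126037829632 / 367653125 * x ^ 3 * y ^ 3 + 87362510514 / 367653125 * x ^ 4 * y ^ 2 + 29250689182 / 367653125 * x ^ 5 * y + 1216680981 / 117649000 * x ^ 6 := by
  positivity

lemma poly_VL_c0 {T : ℝ} (h0 : 1 / 8 ≤ T) (h1 : T ≤ 11 / 32) : 0 ≤ T * pEL T - ((1 + 3 * T ^ 2) * pVL T - T * (1 - T ^ 2) * pVL' T) := by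
  have h := poly_VL_b0 (sub_nonneg.2 h0) (sub_nonneg.2 h1)
  refine h.trans_eq ?_
  unfold pVL pVL' pEL
  ring

lemma poly_VL_b1 {x y : ℝ} (hx : 0 ≤ x) (hy : 0 ≤ y) : 0 ≤ 9733447848 / 14706125 * y ^ 6 + 1254003711976 / 367653125 * x * y ^ 5 + 2590231386294 / 367653125 * x ^ 2 * y ^ 4 + 2743195404748 / 367653125 * x ^ 3 * y ^ 3 + 3141780925939 / 735306250 * x ^ 4 * y ^ 2 + 923210757261 / 735306250 * x ^ 5 * y + 436770337989 / 2941225000 * x ^ 6 := by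
  positivity

lemma poly_VL_c1 {T : ℝ} (h0 : 11 / 32 ≤ T) (h1 : T ≤ 29 / 64) : 0 ≤ T * pEL T - ((1 + 3 * T ^ 2) * pVL T - T * (1 - T ^ 2) * pVL' T) := by
  have h := poly_VL_b1 (sub_nonneg.2 h0) (sub_nonneg.2 h1)
  refine h.trans_eq ?_
  unfold pVL pVL' pEL
  ring

lemma poly_VL_b2 {x y : ℝ} (hx : 0 ≤ x) (hy : 0 ≤ y) : 0 ≤ 436770337989 / 2941225000 * y ^ 6 + 193550128353 / 367653125 * x * y ^ 5 + 230614211582 / 367653125 * x ^ 2 * y ^ 4 + 95119913568 / 367653125 * x ^ 3 * y ^ 3 + 7109918304 / 367653125 * x ^ 4 * y ^ 2 + 11129612544 / 367653125 * x ^ 5 * y + 7729074688 / 367653125 * x ^ 6 := by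
  positivity

lemma poly_VL_c2 {T : ℝ} (h0 : 29 / 64 ≤ T) (h1 : T ≤ 9 / 16) : 0 ≤ T * pEL T - ((1 + 3 * T ^ 2) * pVL T - T * (1 - T ^ 2) * pVL' T) := by
  have h := poly_VL_b2 (sub_nonneg.2 h0) (sub_nonneg.2 h1)
  refine h.trans_eq ?_
  unfold pVL pVL' pEL
  ring

lemma poly_VL_b3 {x y : ℝ} (hx : 0 ≤ x) (hy : 0 ≤ y) : 0 ≤ 120766792 / 367653125 * y ^ 6 + 1826001864 / 367653125 * x * y ^ 5 + 11530880934 / 367653125 * x ^ 2 * y ^ 4 + 27354481932 / 367653125 * x ^ 3 * y ^ 3 + 10986068339 / 147061250 * x ^ 4 * y ^ 2 + 4530926973 / 147061250 * x ^ 5 * y + 13126600101 / 2941225000 * x ^ 6 := by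
  positivity

lemma poly_VL_c3 {T : ℝ} (h0 : 9 / 16 ≤ T) (h1 : T ≤ 25 / 32) : 0 ≤ T * pEL T - ((1 + 3 * T ^ 2) * pVL T - T * (1 - T ^ 2) * pVL' T) := by
  have h := poly_VL_b3 (sub_nonneg.2 h0) (sub_nonneg.2 h1)
  refine h.trans_eq ?_
  unfold pVL pVL' pEL
  ring

lemma poly_VL_b4 {x y : ℝ} (hx : 0 ≤ x) (hy : 0 ≤ y) : 0 ≤ 105012800808 / 367653125 * y ^ 6 + 582641049432 / 367653125 * x * y ^ 5 + 253013715406 / 73530625 * x ^ 2 * y ^ 4 + 1350516049044 / 367653125 * x ^ 3 * y ^ 3 + 1469491623003 / 735306250 * x ^ 4 * y ^ 2 + 399144125403 / 735306250 * x ^ 5 * y + 45042902713 / 588245000 * x ^ 6 := by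
  positivity

lemma poly_VL_c4 {T : ℝ} (h0 : 25 / 32 ≤ T) (h1 : T ≤ 57 / 64) : 0 ≤ T * pEL T - ((1 + 3 * T ^ 2) * pVL T - T * (1 - T ^ 2) * pVL' T) := by
  have h := poly_VL_b4 (sub_nonneg.2 h0) (sub_nonneg.2 h1)
  refine h.trans_eq ?_
  unfold pVL pVL' pEL
  ring

lemma poly_VL_b5 {x y : ℝ} (hx : 0 ≤ x) (hy : 0 ≤ y) : 0 ≤ 45042902713 / 588245000 * y ^ 6 + 138249707646 / 367653125 * x * y ^ 5 + 428134036224 / 367653125 * x ^ 2 * y ^ 4 + 1048858206208 / 367653125 * x ^ 3 * y ^ 3 + 1586542149632 / 367653125 * x ^ 4 * y ^ 2 + 1222689947648 / 367653125 * x ^ 5 * y + 367219703808 / 367653125 * x ^ 6 := by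
  positivity

lemma poly_VL_c5 {T : ℝ} (h0 : 57 / 64 ≤ T) (h1 : T ≤ 1) : 0 ≤ T * pEL T - ((1 + 3 * T ^ 2) * pVL T - T * (1 - T ^ 2) * pVL' T) := by
  have h := poly_VL_b5 (sub_nonneg.2 h0) (sub_nonneg.2 h1)
  refine h.trans_eq ?_
  unfold pVL pVL' pEL
  ring

lemma poly_VL {T : ℝ} (h0 : 1 / 8 ≤ T) (h1 : T ≤ 1) : 0 ≤ T * pEL T - ((1 + 3 * T ^ 2) * pVL T - T * (1 - T ^ 2) * pVL' T) := by
  rcases le_total T (11 / 32) with h | h
  · exact poly_VL_c0 h0 h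
  have h' := h
  clear h
  rcases le_total T (29 / 64) with h | h
  · exact poly_VL_c1 h' h
  clear h'
  have h' := h
  clear h
  rcases le_total T (9 / 16) with h | h
  · exact poly_VL_c2 h' h
  clear h'
  have h' := h
  clear h
  rcases le_total T (25 / 32) with h | h
  · exact poly_VL_c3 h' h
  clear h'
  have h' := h
  clear h
  rcases le_total T (57 / 64) with h | h
  · exact poly_VL_c4 h' h
  clear h'
  have h' := h
  clear h
  exact poly_VL_c5 h' h1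

lemma poly_f2_b0 {x y : ℝ} (hx : 0 ≤ x) (hy : 0 ≤ y) : 0 ≤ 32986899 / 11764900000 * y ^ 6 + 299594007 / 1470612500 * x * y ^ 5 + 555610092 / 367653125 * x ^ 2 * y ^ 4 + 929284032 / 367653125 * x ^ 3 * y ^ 3 + 764300672 / 367653125 * x ^ 4 * y ^ 2 + 80156672 / 73530625 * x ^ 5 * y + 63946752 / 367653125 * x ^ 6 := by
  positivity

lemma poly_f2_c0 {T : ℝ} (h0 : 1 / 8 ≤ T) (h1 : T ≤ 1) : 0 ≤ 6 * (T * pVL T) - (1 - T ^ 2) * pUU T := by
  have h := poly_f2_b0 (sub_nonneg.2 h0) (sub_nonneg.2 h1)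
  refine h.trans_eq ?_
  unfold pVL pUU
  ring

lemma poly_f2 {T : ℝ} (h0 : 1 / 8 ≤ T) (h1 : T ≤ 1) : 0 ≤ 6 * (T * pVL T) - (1 - T ^ 2) * pUU T := by
  exact poly_f2_c0 h0 h1

lemma poly_A_b0 {x y : ℝ} (hx : 0 ≤ x) (hy : 0 ≤ y) : 0 ≤ 424278784301 / 18735603250000 * y ^ 8 + 1162202149879 / 2341950406250 * x * y ^ 7 + 1028806635021 / 334564343750 * x ^ 2 * y ^ 6 + 1410077981036 / 167282171875 * x ^ 3 * y ^ 5 + 2172079023616 / 167282171875 * x ^ 4 * y ^ 4 + 413585158656 / 33456434375 * x ^ 5 * y ^ 3 + 1262539415552 / 167282171875 * x ^ 6 * y ^ 2 + 3118138392576 / 1170975203125 * x ^ 7 * y + 32675856384 / 90075015625 * x ^ 8 := by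
  positivity

lemma poly_A_c0 {T : ℝ} (h0 : 1 / 8 ≤ T) (h1 : T ≤ 1) : 0 ≤ 3 * (T * pEL T) - (2 * (1 - T ^ 2) + 169 / 100) * ((1 - T ^ 2) * pUU T + T * pQU T) * (5 / 13) := by
  have h := poly_A_b0 (sub_nonneg.2 h0) (sub_nonneg.2 h1)
  refine h.trans_eq ?_
  unfold pEL pUU pQU
  ring

lemma poly_A {T : ℝ} (h0 : 1 / 8 ≤ T) (h1 : T ≤ 1) : 0 ≤ 3 * (T * pEL T) - (2 * (1 - T ^ 2) + 169 / 100) * ((1 - T ^ 2) * pUU T + T * pQU T) * (5 / 13) := by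
  exact poly_A_c0 h0 h1

lemma poly_B_b0 {x y : ℝ} (hx : 0 ≤ x) (hy : 0 ≤ y) : 0 ≤ 1551052102905429 / 3460321800250000 * y ^ 12 + 6089767116035373 / 865080450062500 * x * y ^ 11 + 7679505457168857 / 216270112515625 * x ^ 2 * y ^ 10 + 20338242042369304 / 216270112515625 * x ^ 3 * y ^ 9 + 142700737534217344 / 648810337546875 * x ^ 4 * y ^ 8 + 133908271965668864 / 216270112515625 * x ^ 5 * y ^ 7 + 133944534328512512 / 92687191078125 * x ^ 6 * y ^ 6 + 1446074647352705024 / 648810337546875 * x ^ 7 * y ^ 5 + 1448103454425481216 / 648810337546875 * x ^ 8 * y ^ 4 + 63631941609455616 / 43254022503125 * x ^ 9 * y ^ 3 + 135155444418084864 / 216270112515625 * x ^ 10 * y ^ 2 + 6689380425007104 / 43254022503125 * x ^ 11 * y + 231928233984 / 13841287201 * x ^ 12 := by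
  positivity

lemma poly_B_c0 {T : ℝ} (h0 : 1 / 8 ≤ T) (h1 : T ≤ 1) : 0 ≤ T * (3 * pH T - (1 - T ^ 2) * (1 + T) * (24 * pVU T + 12 * (T * pEU T))) - (1 - T ^ 2) * (((1 - T ^ 2) / 2 + 9 / 25) * (5 / 6)) * (12 * ((1 - T ^ 2) * pUU T) + 2 * (1 - T ^ 2) * ((1 - T ^ 2) * pUU T + T * pQU T) + 30 * (T * ((1 + T) ^ 2 * pUU T)) + 60 * (T ^ 2 * pUU T) + 10 * (T * (1 + T) * ((1 - T ^ 2) * pUU T + T * pQU T))) + 4 * ((1 + T) * (1 - T ^ 2) ^ 2 * pUU T) := by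
  have h := poly_B_b0 (sub_nonneg.2 h0) (sub_nonneg.2 h1)
  refine h.trans_eq ?_
  unfold pH pI pVU pEU pUU pQU
  ring

lemma poly_B {T : ℝ} (h0 : 1 / 8 ≤ T) (h1 : T ≤ 1) : 0 ≤ T * (3 * pH T - (1 - T ^ 2) * (1 + T) * (24 * pVU T + 12 * (T * pEU T))) - (1 - T ^ 2) * (((1 - T ^ 2) / 2 + 9 / 25) * (5 / 6)) * (12 * ((1 - T ^ 2) * pUU T) + 2 * (1 - T ^ 2) * ((1 - T ^ 2) * pUU T + T * pQU T) + 30 * (T * ((1 + T) ^ 2 * pUU T)) + 60 * (T ^ 2 * pUU T) + 10 * (T * (1 + T) * ((1 - T ^ 2) * pUU T + T * pQU T))) + 4 * ((1 + T) * (1 - T ^ 2) ^ 2 * pUU T) := by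
  exact poly_B_c0 h0 h1

end Vale.Agent.P224.R2.H178.Flow3
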