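import Vale.Agent.P224.R2.H178.Flow3
import Vale.Agent.P224.R2.H178.Pos3p

/-!
Two sided bounds of the flow in dimension three on `[1/8, 1]`.
-/

namespace Vale.Agent.P224.R2.H178.Flow3

open MeasureTheory Set Filter Function Real
open scoped Topology

section

variable {T : ℝ}

lemma hasDerivAt_c (hT : T ∈ Ioo (0 : ℝ) 1) : HasDerivAt c (-(T / c T)) T := by
  have hw : 0 < 1 - T ^ 2 := by nlinarith [hT.1, hT.2]
  have h1 : HasDerivAt (fun T : ℝ => 1 - T ^ 2) (-(2 * T)) T := by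
    simpa using (hasDerivAt_pow 2 T).const_sub 1
  refine (h1.sqrt hw.ne').congr_deriv ?_
  have := c_pos hT
  change -(2 * T) / (2 * c T) = _
  field_simp

lemma hasDerivAt_cpow (n : ℕ) (hT : T ∈ Ioo (0 : ℝ) 1) :
    HasDerivAt (fun T => c T ^ (n + 2)) (-((n + 2) * T * c T ^ n)) T := by
  refine ((hasDerivAt_c hT).fun_pow (n + 2)).congr_deriv ?_
  have := (c_pos hT).ne'
  have h1 : n + 2 - 1 = n + 1 := by omega
  rw [h1]
  push_cast
  field_simp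
  ring

/-- upper barrier -/
theorem barU {a : ℝ} (ha : 0 < a) {F F' R R' : ℝ → ℝ} (n : ℕ) (hF : ContinuousOn F (Icc a 1))
    (hF1 : F 1 = 0) (hd : ∀ T ∈ Ioo a 1, HasDerivAt F (F' T) T) (hR : ContinuousOn R (Icc a 1))
    (hdR : ∀ T ∈ Ioo a 1, HasDerivAt R (R' T) T)
    (h : ∀ T ∈ Ioo a 1, -F' T ≤ c T ^ n * ((n + 2) * T * R T - (1 - T ^ 2) * R' T)) :
    ∀ T ∈ Icc a 1, F T ≤ c T ^ (n + 2) * R T := by
  have hcont : ContinuousOn (fun T => c T ^ (n + 2) * R T - F T) (Icc a 1) :=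
    ((c_cont.pow _).continuousOn.mul hR).sub hF
  have hder : ∀ T ∈ Ioo a 1, HasDerivAt (fun T => c T ^ (n + 2) * R T - F T)
      (-((n + 2) * T * c T ^ n) * R T + c T ^ (n + 2) * R' T - F' T) T := fun T hT =>
    (((hasDerivAt_cpow n ⟨ha.trans hT.1, hT.2⟩).fun_mul (hdR T hT)).fun_sub (hd T hT))
  have hanti : AntitoneOn (fun T => c T ^ (n + 2) * R T - F T) (Icc a 1) := by
    refine antitoneOn_of_deriv_nonpos (convex_Icc a 1) hcont ?_ ?_
    · rw [interior_Icc]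
      exact fun T hT => (hder T hT).differentiableAt.differentiableWithinAt
    · rw [interior_Icc]
      intro T hT
      rw [(hder T hT).deriv]
      have h1 := h T hT
      have h2 := c_sq (T := T) ⟨(ha.trans hT.1).le, hT.2.le⟩
      have h3 : c T ^ (n + 2) = c T ^ n * (1 - T ^ 2) := by rw [pow_add, h2]
      rw [h3]
      linarith
  intro T hT
  have h4 := hanti hT ⟨hT.1.trans hT.2, le_rfl⟩ hT.2
  simp only [hF1, c_one] at h4
  have h5 : (0 : ℝ) ^ (n + 2) * R 1 - 0 = 0 := by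
    rw [zero_pow (by omega)]
    ring
  linarith

/-- lower barrier -/
theorem barL {a : ℝ} (ha : 0 < a) {F F' R R' : ℝ → ℝ} (n : ℕ) (hF : ContinuousOn F (Icc a 1))
    (hF1 : F 1 = 0) (hd : ∀ T ∈ Ioo a 1, HasDerivAt F (F' T) T) (hR : ContinuousOn R (Icc a 1))
    (hdR : ∀ T ∈ Ioo a 1, HasDerivAt R (R' T) T)
    (h : ∀ T ∈ Ioo a 1, c T ^ n * ((n + 2) * T * R T - (1 - T ^ 2) * R' T) ≤ -F' T) :
    ∀ T ∈ Icc a 1, c T ^ (n + 2) * R T ≤ F T := by
  have h1 := barU ha n (F := fun T => -F T) (F' := fun T => -F' T) (R := fun T => -R T)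
    (R' := fun T => -R' T) hF.neg (by simp [hF1]) (fun T hT => (hd T hT).fun_neg) hR.neg
    (fun T hT => (hdR T hT).fun_neg) (fun T hT => by
      have := h T hT
      have e1 : c T ^ n * ((n + 2) * T * -R T - (1 - T ^ 2) * -R' T)
        = -(c T ^ n * ((n + 2) * T * R T - (1 - T ^ 2) * R' T)) := by ring
      rw [e1]
      linarith)
  intro T hT
  have := h1 T hT
  linarith

/-- derivative of P / T -/
lemma hd_div {P : ℝ → ℝ} {P' : ℝ} (h : HasDerivAt P P' T) (h0 : T ≠ 0) :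
    HasDerivAt (fun T => P T / T) ((P' * T - P T) / T ^ 2) T := by
  refine (h.fun_div (hasDerivAt_id T) h0).congr_deriv ?_
  simp

lemma hd_div2 {P : ℝ → ℝ} {P' : ℝ} (h : HasDerivAt P P' T) (h0 : T ≠ 0) :
    HasDerivAt (fun T => P T / T ^ 2) ((P' * T - 2 * P T) / T ^ 3) T := by
  refine (h.fun_div (hasDerivAt_pow 2 T) (pow_ne_zero 2 h0)).congr_deriv ?_
  push_cast
  field_simp

lemma s9_le (hT : T ∈ Icc (0 : ℝ) 1) : 27 ≤ pSU T * ((9 - T ^ 2) * √(9 - T ^ 2)) := by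
  have h9 : 0 < 9 - T ^ 2 := by nlinarith [hT.1, hT.2]
  have h1 := poly_SU hT.1 hT.2
  have h2 := sq_sqrt h9.le
  have h3 : 0 < pSU T := by
    unfold pSU
    have := hT.1
    positivity
  have h4 : (27 : ℝ) ^ 2 ≤ (pSU T * ((9 - T ^ 2) * √(9 - T ^ 2))) ^ 2 := by
    have : (pSU T * ((9 - T ^ 2) * √(9 - T ^ 2))) ^ 2 = pSU T ^ 2 * (9 - T ^ 2) ^ 2 * √(9 - T ^ 2) ^ 2 := by
      ring
    rw [this, h2]
    nlinarith
  exact le_of_sq_le_sq h4 (by positivity)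

lemma le_s9 (hT : T ∈ Icc (0 : ℝ) 1) : pSL T * ((9 - T ^ 2) * √(9 - T ^ 2)) ≤ 27 := by
  have h9 : 0 < 9 - T ^ 2 := by nlinarith [hT.1, hT.2]
  have h1 := poly_SL hT.1 hT.2
  have h2 := sq_sqrt h9.le
  have h4 : (pSL T * ((9 - T ^ 2) * √(9 - T ^ 2))) ^ 2 ≤ (27 : ℝ) ^ 2 := by
    have : (pSL T * ((9 - T ^ 2) * √(9 - T ^ 2))) ^ 2 = pSL T ^ 2 * (9 - T ^ 2) ^ 2 * √(9 - T ^ 2) ^ 2 := by
      ring
    rw [this, h2]
    nlinarith
  exact le_of_sq_le_sq h4 (by norm_num)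

lemma kf_upper (hT : T ∈ Ioc (0 : ℝ) 1) : kf T ≤ c T * pSU T / T := by
  have h9 := nine_pos hT
  have h0 := hT.1
  have h1 := s9_le ⟨hT.1.le, hT.2⟩
  have h2 := sqrt_pos.2 h9
  unfold kf
  change 27 * c T / _ ≤ _
  rw [div_le_div_iff₀ (by positivity) h0]
  have h3 : 0 ≤ c T := c_nonneg
  calc 27 * c T * T = 27 * (c T * T) := by ring
    _ ≤ pSU T * ((9 - T ^ 2) * √(9 - T ^ 2)) * (c T * T) :=
      mul_le_mul_of_nonneg_right h1 (by positivity)
    _ = _ := by ring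

lemma kf_lower (hT : T ∈ Ioc (0 : ℝ) 1) : c T * pSL T / T ≤ kf T := by
  have h9 := nine_pos hT
  have h0 := hT.1
  have h1 := le_s9 ⟨hT.1.le, hT.2⟩
  have h2 := sqrt_pos.2 h9
  unfold kf
  change _ ≤ 27 * c T / _
  rw [div_le_div_iff₀ h0 (by positivity)]
  have h3 : 0 ≤ c T := c_nonneg
  calc c T * pSL T * (T * ((9 - T ^ 2) * √(9 - T ^ 2)))
      = pSL T * ((9 - T ^ 2) * √(9 - T ^ 2)) * (c T * T) := by ring
    _ ≤ 27 * (c T * T) := mul_le_mul_of_nonneg_right h1 (by positivity)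
    _ = _ := by ring

/-- the interval -/
abbrev I8 : Set ℝ := Icc (1 / 8) 1

lemma I8_sub (hT : T ∈ I8) : T ∈ Ioc (0 : ℝ) 1 := ⟨by linarith [hT.1], hT.2⟩

lemma o8 (hT : T ∈ Ioo (1 / 8 : ℝ) 1) : T ∈ Ioo (0 : ℝ) 1 := ⟨by linarith [hT.1], hT.2⟩

lemma o8' (hT : T ∈ Ioo (1 / 8 : ℝ) 1) : T ∈ I8 := ⟨hT.1.le, hT.2.le⟩

lemma contOn_div {P : ℝ → ℝ} (h : Continuous P) : ContinuousOn (fun T => P T / T) I8 :=
  h.continuousOn.div continuousOn_id fun _ hT => (I8_sub hT).1.ne'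

lemma contOn_div2 {P : ℝ → ℝ} (h : Continuous P) : ContinuousOn (fun T => P T / T ^ 2) I8 :=
  h.continuousOn.div (continuousOn_pow 2) fun _ hT => pow_ne_zero 2 (I8_sub hT).1.ne'

lemma cont_of_hd {P P' : ℝ → ℝ} (h : ∀ T, HasDerivAt P (P' T) T) : Continuous P :=
  continuous_iff_continuousAt.2 fun T => (h T).continuousAt

lemma K_U (hT : T ∈ I8) : K T ≤ c T ^ 3 * (pPU T / T) := by
  refine barU (a := 1 / 8) (by norm_num) 1 (F' := fun T => -kf T)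
    (R' := fun T => (pPU' T * T - pPU T) / T ^ 2)
    (K_contOn.mono fun x hx => I8_sub hx) (by simp [K])
    (fun T hT => hasDerivAt_K (o8 hT)) (contOn_div (cont_of_hd hd_pPU))
    (fun T hT => hd_div (hd_pPU T) (o8 hT).1.ne') (fun T hT => ?_) T hT
  have h0 := (o8 hT).1
  have h1 := kf_upper ⟨h0, hT.2.le⟩
  have h2 := poly_KU hT.1.le hT.2.le
  have hc := c_nonneg (T := T)
  rw [neg_neg]
  refine h1.trans ?_
  have e1 : ((1 : ℕ) + 2 : ℝ) * T * (pPU T / T) - (1 - T ^ 2) * ((pPU' T * T - pPU T) / T ^ 2)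
      = ((1 + 2 * T ^ 2) * pPU T - T * (1 - T ^ 2) * pPU' T) / T ^ 2 := by
    field_simp
    push_cast
    ring
  rw [e1, pow_one, mul_div_assoc]
  refine mul_le_mul_of_nonneg_left ?_ hc
  rw [div_le_div_iff₀ h0 (by positivity)]
  nlinarith

lemma K_L (hT : T ∈ I8) : c T ^ 3 * (pPL T / T) ≤ K T := by
  refine barL (a := 1 / 8) (by norm_num) 1 (F' := fun T => -kf T)
    (R' := fun T => (pPL' T * T - pPL T) / T ^ 2)
    (K_contOn.mono fun x hx => I8_sub hx) (by simp [K])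
    (fun T hT => hasDerivAt_K (o8 hT)) (contOn_div (cont_of_hd hd_pPL))
    (fun T hT => hd_div (hd_pPL T) (o8 hT).1.ne') (fun T hT => ?_) T hT
  have h0 := (o8 hT).1
  have h1 := kf_lower ⟨h0, hT.2.le⟩
  have h2 := poly_KL hT.1.le hT.2.le
  have hc := c_nonneg (T := T)
  rw [neg_neg]
  refine le_trans ?_ h1
  have e1 : ((1 : ℕ) + 2 : ℝ) * T * (pPL T / T) - (1 - T ^ 2) * ((pPL' T * T - pPL T) / T ^ 2)
      = ((1 + 2 * T ^ 2) * pPL T - T * (1 - T ^ 2) * pPL' T) / T ^ 2 := by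
    field_simp
    push_cast
    ring
  rw [e1, pow_one, mul_div_assoc]
  refine mul_le_mul_of_nonneg_left ?_ hc
  rw [div_le_div_iff₀ (by positivity) h0]
  nlinarith

lemma q_U (hT : T ∈ I8) : q T ≤ pqU T := by
  have h0 := (I8_sub hT).1
  have h1 := poly_qU hT.1 hT.2
  have h2 : 0 ≤ pqU T := by
    unfold pqU
    have : 0 ≤ 1 - T := by linarith [hT.2]
    positivity
  unfold q
  rw [sqrt_le_left h2, div_le_iff₀ (by positivity)]
  linarith

lemma pqL_pos (hT : T ∈ I8) : 0 ≤ pqL T := by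
  unfold pqL
  have : 0 ≤ 1 - T := by linarith [hT.2]
  positivity

lemma q_L (hT : T ∈ I8) : pqL T ≤ q T := by
  have h0 := (I8_sub hT).1
  have h1 := poly_qL hT.1 hT.2
  unfold q
  refine le_sqrt_of_sq_le ?_
  rw [le_div_iff₀ (by positivity)]
  linarith

lemma J_U (hT : T ∈ I8) : J T ≤ pJU T := by
  have h0 := (I8_sub hT).1
  have h1 := poly_JU hT.1 hT.2
  have h3 : 0 < (1 + T) * (3 - T) := by nlinarith [hT.2]
  have h4 : 0 ≤ pJU T := by
    unfold pJU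
    positivity
  have h2 := sqrt_pos.2 h3
  unfold J
  rw [div_le_iff₀ h2]
  have h5 : (1 : ℝ) ^ 2 ≤ (pJU T * √((1 + T) * (3 - T))) ^ 2 := by
    rw [mul_pow, sq_sqrt h3.le]
    linarith
  exact le_of_sq_le_sq h5 (by positivity)

lemma J_L (hT : T ∈ I8) : pJL T ≤ J T := by
  have h0 := (I8_sub hT).1
  have h1 := poly_JL hT.1 hT.2
  have h3 : 0 < (1 + T) * (3 - T) := by nlinarith [hT.2]
  have h2 := sqrt_pos.2 h3
  unfold J
  rw [le_div_iff₀ h2]
  have h5 : (pJL T * √((1 + T) * (3 - T))) ^ 2 ≤ (1 : ℝ) ^ 2 := by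
    rw [mul_pow, sq_sqrt h3.le]
    linarith
  exact le_of_sq_le_sq h5 (by norm_num)

end

end Vale.Agent.P224.R2.H178.Flow3
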