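import Vale.Agent.P224.R2.H178.Pos3a

/-!
Two sided bounds of the flow in dimension three on `[1/8, 1]`, second part.
-/

namespace Vale.Agent.P224.R2.H178.Flow3

open MeasureTheory Set Filter Function Real
open scoped Topology

section

variable {T : ℝ}

lemma pPU_nonneg (hT : T ∈ I8) : 0 ≤ pPU T := by
  have h1 := K_U hT
  have h2 := K_nonneg (I8_sub hT)
  rcases hT.2.lt_or_eq with h | h
  · have hc := c_pos ⟨(I8_sub hT).1, h⟩
    have h3 : 0 ≤ c T ^ 3 * (pPU T / T) := h2.trans h1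
    have h4 : 0 ≤ pPU T / T := nonneg_of_mul_nonneg_right h3 (by positivity)
    have := (I8_sub hT).1
    have h5 := mul_nonneg h4 this.le
    rwa [div_mul_cancel₀ _ this.ne'] at h5
  · rw [h]
    unfold pPU
    norm_num

lemma M_U (hT : T ∈ I8) : M T ≤ c T ^ 3 * (pqU T * pPU T / T) := by
  have h1 := K_U hT
  have h2 := q_U hT
  have h3 := K_nonneg (I8_sub hT)
  have h4 : 0 ≤ pqU T := (q_pos ⟨(I8_sub hT).1.le, hT.2⟩).le.trans h2
  calc M T = q T * K T := rfl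
    _ ≤ pqU T * (c T ^ 3 * (pPU T / T)) := mul_le_mul h2 h1 h3 h4
    _ = _ := by ring

lemma M_L (hT : T ∈ I8) : c T ^ 3 * (pqL T * pPL T / T) ≤ M T := by
  have h1 := K_L hT
  have h2 := q_L hT
  have h4 := pqL_pos hT
  have h5 := K_nonneg (I8_sub hT)
  calc c T ^ 3 * (pqL T * pPL T / T) = pqL T * (c T ^ 3 * (pPL T / T)) := by ring
    _ ≤ pqL T * K T := mul_le_mul_of_nonneg_left h1 h4
    _ ≤ q T * K T := mul_le_mul_of_nonneg_right h2 h5

lemma nO_U (hT : T ∈ I8) : -O2 T ≤ c T ^ 5 * (pQU T / T ^ 2) := by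
  refine barU (a := 1 / 8) (by norm_num) 3 (F := fun T => -O2 T) (F' := fun T => om T / T ^ 2)
    (R' := fun T => (pQU' T * T - 2 * pQU T) / T ^ 3)
    (O2_contOn.mono fun x hx => I8_sub hx).neg (by simp [O2])
    (fun T hT => ?_) (contOn_div2 (cont_of_hd hd_pQU))
    (fun T hT => hd_div2 (hd_pQU T) (o8 hT).1.ne') (fun T hT => ?_) T hT
  · have := (hasDerivAt_O2 (o8 hT)).fun_neg
    rwa [neg_neg] at this
  · have h0 := (o8 hT).1
    have h1 := M_U (o8' hT)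
    have h2 := poly_OU hT.1.le hT.2.le
    have hc : 0 ≤ c T ^ 3 := pow_nonneg c_nonneg _
    have e1 : ((3 : ℕ) + 2 : ℝ) * T * (pQU T / T ^ 2) - (1 - T ^ 2) * ((pQU' T * T - 2 * pQU T) / T ^ 3)
        = ((2 + 3 * T ^ 2) * pQU T - T * (1 - T ^ 2) * pQU' T) / T ^ 3 := by
      field_simp
      push_cast
      ring
    have e2 : -(om T / T ^ 2) = M T / (T * (1 + T)) := by
      unfold om
      field_simp
    rw [e1, e2, div_le_iff₀ (by positivity)]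
    refine h1.trans ?_
    rw [mul_assoc]
    refine mul_le_mul_of_nonneg_left ?_ hc
    rw [div_mul_eq_mul_div, div_le_div_iff₀ h0 (by positivity)]
    have h3 : 0 ≤ (1 + T) * ((2 + 3 * T ^ 2) * pQU T - T * (1 - T ^ 2) * pQU' T)
      - T * (pqU T * pPU T) := h2
    nlinarith [mul_nonneg h3 (by positivity : 0 ≤ T ^ 2)]

lemma nO_L (hT : T ∈ I8) : c T ^ 5 * (pQL T / T ^ 2) ≤ -O2 T := by
  refine barL (a := 1 / 8) (by norm_num) 3 (F := fun T => -O2 T) (F' := fun T => om T / T ^ 2)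
    (R' := fun T => (pQL' T * T - 2 * pQL T) / T ^ 3)
    (O2_contOn.mono fun x hx => I8_sub hx).neg (by simp [O2])
    (fun T hT => ?_) (contOn_div2 (cont_of_hd hd_pQL))
    (fun T hT => hd_div2 (hd_pQL T) (o8 hT).1.ne') (fun T hT => ?_) T hT
  · have := (hasDerivAt_O2 (o8 hT)).fun_neg
    rwa [neg_neg] at this
  · have h0 := (o8 hT).1
    have h1 := M_L (o8' hT)
    have h2 := poly_OL hT.1.le hT.2.le
    have hc : 0 ≤ c T ^ 3 := pow_nonneg c_nonneg _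
    have e1 : ((3 : ℕ) + 2 : ℝ) * T * (pQL T / T ^ 2) - (1 - T ^ 2) * ((pQL' T * T - 2 * pQL T) / T ^ 3)
        = ((2 + 3 * T ^ 2) * pQL T - T * (1 - T ^ 2) * pQL' T) / T ^ 3 := by
      field_simp
      push_cast
      ring
    have e2 : -(om T / T ^ 2) = M T / (T * (1 + T)) := by
      unfold om
      field_simp
    rw [e1, e2, le_div_iff₀ (by positivity)]
    refine le_trans ?_ h1
    rw [mul_assoc]
    refine mul_le_mul_of_nonneg_left ?_ hc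
    rw [div_mul_eq_mul_div, div_le_div_iff₀ (by positivity) h0]
    have h3 : 0 ≤ T * (pqL T * pPL T) - (1 + T) * ((2 + 3 * T ^ 2) * pQL T - T * (1 - T ^ 2) * pQL' T)
      := h2
    nlinarith [mul_nonneg h3 (by positivity : 0 ≤ T ^ 2)]

lemma nρ_U (hT : T ∈ I8) : -ρ T ≤ c T ^ 7 * (pUU T / T) := by
  refine barU (a := 1 / 8) (by norm_num) 5 (F := fun T => -ρ T) (F' := fun T => -σ T)
    (R' := fun T => (pUU' T * T - pUU T) / T ^ 2)
    (ρ_contOn.mono fun x hx => I8_sub hx).neg (by simp [ρ_one])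
    (fun T hT => (hasDerivAt_ρ (o8 hT)).fun_neg) (contOn_div (cont_of_hd hd_pUU))
    (fun T hT => hd_div (hd_pUU T) (o8 hT).1.ne') (fun T hT => ?_) T hT
  have h0 := (o8 hT).1
  have h1 := nO_U (o8' hT)
  have h2 := poly_RU hT.1.le hT.2.le
  have hc : 0 ≤ c T ^ 5 := pow_nonneg c_nonneg _
  have e1 : ((5 : ℕ) + 2 : ℝ) * T * (pUU T / T) - (1 - T ^ 2) * ((pUU' T * T - pUU T) / T ^ 2)
      = ((1 + 6 * T ^ 2) * pUU T - T * (1 - T ^ 2) * pUU' T) / T ^ 2 := by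
    field_simp
    push_cast
    ring
  have e2 : -(-σ T) = T * -O2 T := by
    unfold σ
    ring
  rw [e1, e2]
  calc T * -O2 T ≤ T * (c T ^ 5 * (pQU T / T ^ 2)) := mul_le_mul_of_nonneg_left h1 h0.le
    _ = c T ^ 5 * (T * pQU T / T ^ 2) := by ring
    _ ≤ _ := by
      refine mul_le_mul_of_nonneg_left ?_ hc
      rw [div_le_div_iff_of_pos_right (by positivity)]
      linarith

/-- the denominator -/
noncomputable def DD (T : ℝ) : ℝ := (1 + T) * (3 - T) * (3 + T)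

lemma Z_form (hT : T ∈ Ioo (0 : ℝ) 1) : Z T = -ρ T / 12 + (4 + T ^ 2) / 24 * -O2 T
    + (21 + 14 * T + 13 * T ^ 2) / (24 * (3 + T)) * M T
    + 9 / 8 * (7 + T ^ 2) / DD T * (c T ^ 3 * J T) := by
  have h0 := hT.1.ne'
  have h1 : (1 : ℝ) + T ≠ 0 := by linarith [hT.1]
  have h2 : (3 : ℝ) + T ≠ 0 := by linarith [hT.1]
  have h3 : (3 : ℝ) - T ≠ 0 := by linarith [hT.2]
  have h4 := c_sq (T := T) ⟨hT.1.le, hT.2.le⟩
  have h5 := j_eq (T := T) ⟨hT.1.le, hT.2.le⟩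
  have h6 : c T ^ 3 = (1 - T) * (1 + T) * c T := by
    calc c T ^ 3 = c T ^ 2 * c T := by ring
      _ = _ := by rw [h4]; ring
  unfold Z lin DD σ
  rw [h5, h6]
  field_simp

lemma Z_U (hT : T ∈ Ioo (1 / 8 : ℝ) 1) :
    T / 2 * Z T ≤ c T ^ 3 * ((3 / 2 + 7 / 2 * T ^ 2) * pEU T - T * (1 - T ^ 2) * pEU' T) := by
  have h0 := (o8 hT).1
  have h8 := o8' hT
  have h1 := nρ_U h8
  have h2 := nO_U h8
  have h3 := M_U h8
  have h4 := J_U h8
  have h5 := poly_EU hT.1.le hT.2.le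
  have hc : 0 ≤ c T ^ 3 := pow_nonneg c_nonneg _
  have hcp := c_sq (T := T) ⟨h0.le, hT.2.le⟩
  have hD : 0 < DD T := by
    unfold DD
    have : 0 < 3 - T := by linarith [hT.2]
    positivity
  have hT3 : (0 : ℝ) < 3 + T := by linarith
  have e5 : c T ^ 5 = c T ^ 3 * (1 - T ^ 2) := by rw [← hcp]; ring
  have e7 : c T ^ 7 = c T ^ 3 * (1 - T ^ 2) ^ 2 := by rw [← hcp]; ring
  have a1 : -ρ T / 12 ≤ c T ^ 3 * ((1 - T ^ 2) ^ 2 * pUU T / (12 * T)) := by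
    rw [e7] at h1
    calc -ρ T / 12 ≤ c T ^ 3 * (1 - T ^ 2) ^ 2 * (pUU T / T) / 12 := by gcongr
      _ = _ := by field_simp
  have a2 : (4 + T ^ 2) / 24 * -O2 T
      ≤ c T ^ 3 * ((4 + T ^ 2) * (1 - T ^ 2) * pQU T / (24 * T ^ 2)) := by
    rw [e5] at h2
    calc (4 + T ^ 2) / 24 * -O2 T
        ≤ (4 + T ^ 2) / 24 * (c T ^ 3 * (1 - T ^ 2) * (pQU T / T ^ 2)) :=
          mul_le_mul_of_nonneg_left h2 (by positivity)
      _ = _ := by field_simp
  have a3 : (21 + 14 * T + 13 * T ^ 2) / (24 * (3 + T)) * M T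
      ≤ c T ^ 3 * ((21 + 14 * T + 13 * T ^ 2) * (pqU T * pPU T) / (24 * (3 + T) * T)) := by
    calc (21 + 14 * T + 13 * T ^ 2) / (24 * (3 + T)) * M T
        ≤ (21 + 14 * T + 13 * T ^ 2) / (24 * (3 + T)) * (c T ^ 3 * (pqU T * pPU T / T)) :=
          mul_le_mul_of_nonneg_left h3 (by positivity)
      _ = _ := by field_simp
  have a4 : 9 / 8 * (7 + T ^ 2) / DD T * (c T ^ 3 * J T)
      ≤ c T ^ 3 * (9 / 8 * (7 + T ^ 2) * pJU T / DD T) := by
    calc 9 / 8 * (7 + T ^ 2) / DD T * (c T ^ 3 * J T)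
        ≤ 9 / 8 * (7 + T ^ 2) / DD T * (c T ^ 3 * pJU T) :=
          mul_le_mul_of_nonneg_left (mul_le_mul_of_nonneg_left h4 hc) (by positivity)
      _ = _ := by field_simp
  have hZ : T / 2 * Z T ≤ c T ^ 3 * (T / 2 * ((1 - T ^ 2) ^ 2 * pUU T / (12 * T)
      + (4 + T ^ 2) * (1 - T ^ 2) * pQU T / (24 * T ^ 2)
      + (21 + 14 * T + 13 * T ^ 2) * (pqU T * pPU T) / (24 * (3 + T) * T)
      + 9 / 8 * (7 + T ^ 2) * pJU T / DD T)) := by
    rw [Z_form (o8 hT)]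
    have h6 := add_le_add (add_le_add (add_le_add a1 a2) a3) a4
    have h7 := mul_le_mul_of_nonneg_left h6 (by positivity : 0 ≤ T / 2)
    refine h7.trans_eq ?_
    ring
  refine hZ.trans (mul_le_mul_of_nonneg_left ?_ hc)
  have e8 : T / 2 * ((1 - T ^ 2) ^ 2 * pUU T / (12 * T)
      + (4 + T ^ 2) * (1 - T ^ 2) * pQU T / (24 * T ^ 2)
      + (21 + 14 * T + 13 * T ^ 2) * (pqU T * pPU T) / (24 * (3 + T) * T)
      + 9 / 8 * (7 + T ^ 2) * pJU T / DD T)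
      = (DD T * (2 * T * ((1 - T ^ 2) ^ 2 * pUU T) + (4 + T ^ 2) * (1 - T ^ 2) * pQU T)
        + T * (21 + 14 * T + 13 * T ^ 2) * (pqU T * pPU T) * ((1 + T) * (3 - T))
        + 27 * (T ^ 2 * (7 + T ^ 2) * pJU T)) / (48 * (T * DD T)) := by
    have h3' : (3 : ℝ) - T ≠ 0 := by linarith [hT.2]
    unfold DD
    field_simp
    ring
  rw [e8, div_le_iff₀ (by positivity)]
  have h9 : 48 * (T * ((1 + T) * (3 - T) * (3 + T)) * ((3 / 2 + 7 / 2 * T ^ 2) * pEU T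
      - T * (1 - T ^ 2) * pEU' T)) = ((3 / 2 + 7 / 2 * T ^ 2) * pEU T
      - T * (1 - T ^ 2) * pEU' T) * (48 * (T * DD T)) := by
    unfold DD
    ring
  rw [h9] at h5
  unfold DD at h5 ⊢
  linarith

lemma Z_L (hT : T ∈ Ioo (1 / 8 : ℝ) 1) :
    c T ^ 3 * ((3 / 2 + 7 / 2 * T ^ 2) * pEL T - T * (1 - T ^ 2) * pEL' T) ≤ T / 2 * Z T := by
  have h0 := (o8 hT).1
  have h8 := o8' hT
  have h1 := ρ_nonpos (I8_sub h8)
  have h2 := nO_L h8
  have h3 := M_L h8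
  have h4 := J_L h8
  have h5 := poly_EL hT.1.le hT.2.le
  have hc : 0 ≤ c T ^ 3 := pow_nonneg c_nonneg _
  have hcp := c_sq (T := T) ⟨h0.le, hT.2.le⟩
  have hD : 0 < DD T := by
    unfold DD
    have : 0 < 3 - T := by linarith [hT.2]
    positivity
  have hT3 : (0 : ℝ) < 3 + T := by linarith
  have e5 : c T ^ 5 = c T ^ 3 * (1 - T ^ 2) := by rw [← hcp]; ring
  have a1 : 0 ≤ -ρ T / 12 := by linarith
  have a2 : c T ^ 3 * ((4 + T ^ 2) * (1 - T ^ 2) * pQL T / (24 * T ^ 2))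
      ≤ (4 + T ^ 2) / 24 * -O2 T := by
    rw [e5] at h2
    calc _ = (4 + T ^ 2) / 24 * (c T ^ 3 * (1 - T ^ 2) * (pQL T / T ^ 2)) := by field_simp
      _ ≤ _ := mul_le_mul_of_nonneg_left h2 (by positivity)
  have a3 : c T ^ 3 * ((21 + 14 * T + 13 * T ^ 2) * (pqL T * pPL T) / (24 * (3 + T) * T))
      ≤ (21 + 14 * T + 13 * T ^ 2) / (24 * (3 + T)) * M T := by
    calc _ = (21 + 14 * T + 13 * T ^ 2) / (24 * (3 + T)) * (c T ^ 3 * (pqL T * pPL T / T)) := by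
          field_simp
      _ ≤ _ := mul_le_mul_of_nonneg_left h3 (by positivity)
  have a4 : c T ^ 3 * (9 / 8 * (7 + T ^ 2) * pJL T / DD T)
      ≤ 9 / 8 * (7 + T ^ 2) / DD T * (c T ^ 3 * J T) := by
    calc _ = 9 / 8 * (7 + T ^ 2) / DD T * (c T ^ 3 * pJL T) := by field_simp
      _ ≤ _ := mul_le_mul_of_nonneg_left (mul_le_mul_of_nonneg_left h4 hc) (by positivity)
  have hZ : c T ^ 3 * (T / 2 * ((4 + T ^ 2) * (1 - T ^ 2) * pQL T / (24 * T ^ 2)
      + (21 + 14 * T + 13 * T ^ 2) * (pqL T * pPL T) / (24 * (3 + T) * T)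
      + 9 / 8 * (7 + T ^ 2) * pJL T / DD T)) ≤ T / 2 * Z T := by
    rw [Z_form (o8 hT)]
    have h6 := add_le_add (add_le_add (add_le_add a1 a2) a3) a4
    have h7 := mul_le_mul_of_nonneg_left h6 (by positivity : 0 ≤ T / 2)
    refine le_trans (le_of_eq ?_) h7
    ring
  refine le_trans (mul_le_mul_of_nonneg_left ?_ hc) hZ
  have e8 : T / 2 * ((4 + T ^ 2) * (1 - T ^ 2) * pQL T / (24 * T ^ 2)
      + (21 + 14 * T + 13 * T ^ 2) * (pqL T * pPL T) / (24 * (3 + T) * T)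
      + 9 / 8 * (7 + T ^ 2) * pJL T / DD T)
      = (DD T * ((4 + T ^ 2) * (1 - T ^ 2) * pQL T)
        + T * (21 + 14 * T + 13 * T ^ 2) * (pqL T * pPL T) * ((1 + T) * (3 - T))
        + 27 * (T ^ 2 * (7 + T ^ 2) * pJL T)) / (48 * (T * DD T)) := by
    have h3' : (3 : ℝ) - T ≠ 0 := by linarith [hT.2]
    unfold DD
    field_simp
    ring
  rw [e8, le_div_iff₀ (by positivity)]
  have h9 : 48 * (T * ((1 + T) * (3 - T) * (3 + T)) * ((3 / 2 + 7 / 2 * T ^ 2) * pEL T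
      - T * (1 - T ^ 2) * pEL' T)) = ((3 / 2 + 7 / 2 * T ^ 2) * pEL T
      - T * (1 - T ^ 2) * pEL' T) * (48 * (T * DD T)) := by
    unfold DD
    ring
  rw [h9] at h5
  unfold DD at h5 ⊢
  linarith

end

end Vale.Agent.P224.R2.H178.Flow3
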