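import Vale.Agent.P224.R2.H178.Pos3b

/-!
Two sided bounds of the flow in dimension three on `[1/8, 1]`, third part: e, r and eta.
-/

namespace Vale.Agent.P224.R2.H178.Flow3

open MeasureTheory Set Filter Function Real
open scoped Topology

section

variable {T : ℝ}

lemma hasDerivAt_T32 (h0 : 0 < T) : HasDerivAt (fun T : ℝ => T * √T) (3 / 2 * √T) T := by
  refine ((hasDerivAt_id T).fun_mul ((hasDerivAt_id T).sqrt h0.ne')).congr_deriv ?_
  have h1 := sqrt_pos.2 h0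
  have h2 := mul_self_sqrt h0.le
  simp only [id]
  field_simp
  nlinarith

lemma hd_T32 {P : ℝ → ℝ} {P' : ℝ} (h : HasDerivAt P P' T) (h0 : 0 < T) :
    HasDerivAt (fun T => P T / (T * √T)) ((T * P' - 3 / 2 * P T) / (T ^ 2 * √T)) T := by
  have h1 := sqrt_pos.2 h0
  have h2 := sq_sqrt h0.le
  refine (h.fun_div (hasDerivAt_T32 h0) (by positivity)).congr_deriv ?_
  rw [div_eq_div_iff (by positivity) (by positivity)]
  ring

lemma e_one : e 1 = 0 := by
  have h1 : M 1 = 0 := by simp [M, K]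
  have h2 : j 1 = 0 := by simp [j]
  have h3 : σ 1 = 0 := by simp [σ, O2]
  unfold e lin
  rw [h1, h2, h3, ρ_one]
  simp

lemma Z_nonneg (hT : T ∈ Ioo (0 : ℝ) 1) : 0 ≤ Z T := by
  have h0 := hT.1
  have hI : T ∈ Ioc (0 : ℝ) 1 := ⟨hT.1, hT.2.le⟩
  have h1 := ρ_nonpos hI
  have h2 := O2_nonpos hI
  have h3 := M_nonneg hI
  have h4 : 0 ≤ J T := by unfold J; positivity
  have h5 : 0 ≤ c T ^ 3 := pow_nonneg c_nonneg _
  have hD : 0 < DD T := by
    unfold DD
    have : 0 < 3 - T := by linarith [hT.2]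
    positivity
  rw [Z_form hT]
  have a1 : 0 ≤ -ρ T / 12 := by linarith
  have a2 : 0 ≤ (4 + T ^ 2) / 24 * -O2 T := mul_nonneg (by positivity) (by linarith)
  positivity

lemma contOn_T32 {a : ℝ} (ha : 0 < a) {P : ℝ → ℝ} (h : ContinuousOn P (Icc a 1)) :
    ContinuousOn (fun T => P T / (T * √T)) (Icc a 1) :=
  h.div (by fun_prop) fun T hT => by
    have h0 : 0 < T := ha.trans_le hT.1
    have := sqrt_pos.2 h0
    positivity

lemma hd_e32 (hT : T ∈ Ioo (0 : ℝ) 1) :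
    HasDerivAt (fun T => e T / (T * √T)) (-(T / 2 * Z T) / (T ^ 2 * √T)) T := by
  have h0 := hT.1
  have h1 := sqrt_pos.2 h0
  refine (hd_T32 (hd_e hT) h0).congr_deriv ?_
  unfold Vale.Agent.P224.R2.H925.eD
  field_simp
  ring

lemma e_nonneg (hT : T ∈ Ioc (0 : ℝ) 1) : 0 ≤ e T := by
  rcases hT.2.lt_or_eq with h | h
  · have h1 := barL hT.1 3 (F := fun T => e T / (T * √T))
      (F' := fun T => -(T / 2 * Z T) / (T ^ 2 * √T)) (R := fun _ => 0) (R' := fun _ => 0)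
      (contOn_T32 hT.1 (e_contOn.mono fun x hx => ⟨hT.1.trans_le hx.1, hx.2⟩)) (by simp [e_one])
      (fun x hx => hd_e32 ⟨hT.1.trans hx.1, hx.2⟩) continuousOn_const
      (fun x _ => hasDerivAt_const x 0) (fun x hx => by
        have hx0 : 0 < x := hT.1.trans hx.1
        have h2 := Z_nonneg ⟨hx0, hx.2⟩
        have h3 := sqrt_pos.2 hx0
        have : 0 ≤ -(-(x / 2 * Z x) / (x ^ 2 * √x)) := by
          rw [neg_div, neg_neg]
          positivity
        simpa using this) T ⟨le_rfl, h.le⟩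
    rw [mul_zero] at h1
    have h2 := sqrt_pos.2 hT.1
    have h3 : 0 < T * √T := mul_pos hT.1 h2
    have h4 := mul_nonneg h1 h3.le
    rwa [div_mul_cancel₀ _ h3.ne'] at h4
  · rw [h, e_one]

lemma e_U (hT : T ∈ I8) : e T ≤ c T ^ 5 * pEU T := by
  have h0 := (I8_sub hT).1
  have h1 := barU (a := 1 / 8) (by norm_num) 3 (F := fun T => e T / (T * √T))
    (F' := fun T => -(T / 2 * Z T) / (T ^ 2 * √T)) (R := fun T => pEU T / (T * √T))
    (R' := fun T => (T * pEU' T - 3 / 2 * pEU T) / (T ^ 2 * √T))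
    (contOn_T32 (by norm_num) (e_contOn.mono fun x hx => I8_sub hx)) (by simp [e_one])
    (fun x hx => hd_e32 (o8 hx)) (contOn_T32 (by norm_num) (cont_of_hd hd_pEU).continuousOn)
    (fun x hx => hd_T32 (hd_pEU x) (o8 hx).1) (fun T hT => ?_) T hT
  · have h3 := mul_pos h0 (sqrt_pos.2 h0)
    have h4 := mul_le_mul_of_nonneg_right h1 h3.le
    rw [div_mul_cancel₀ _ h3.ne', mul_assoc, div_mul_cancel₀ _ h3.ne'] at h4
    exact h4
  · have h0 := (o8 hT).1
    have h1 := sqrt_pos.2 h0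
    have h2 := Z_U hT
    have e1 : ((3 : ℕ) + 2 : ℝ) * T * (pEU T / (T * √T))
        - (1 - T ^ 2) * ((T * pEU' T - 3 / 2 * pEU T) / (T ^ 2 * √T))
        = ((3 / 2 + 7 / 2 * T ^ 2) * pEU T - T * (1 - T ^ 2) * pEU' T) / (T ^ 2 * √T) := by
      field_simp
      push_cast
      ring
    rw [e1, neg_div, neg_neg, mul_div_assoc', div_le_div_iff_of_pos_right (by positivity)]
    exact h2

lemma e_L (hT : T ∈ I8) : c T ^ 5 * pEL T ≤ e T := by
  have h0 := (I8_sub hT).1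
  have h1 := barL (a := 1 / 8) (by norm_num) 3 (F := fun T => e T / (T * √T))
    (F' := fun T => -(T / 2 * Z T) / (T ^ 2 * √T)) (R := fun T => pEL T / (T * √T))
    (R' := fun T => (T * pEL' T - 3 / 2 * pEL T) / (T ^ 2 * √T))
    (contOn_T32 (by norm_num) (e_contOn.mono fun x hx => I8_sub hx)) (by simp [e_one])
    (fun x hx => hd_e32 (o8 hx)) (contOn_T32 (by norm_num) (cont_of_hd hd_pEL).continuousOn)
    (fun x hx => hd_T32 (hd_pEL x) (o8 hx).1) (fun T hT => ?_) T hT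
  · have h3 := mul_pos h0 (sqrt_pos.2 h0)
    have h4 := mul_le_mul_of_nonneg_right h1 h3.le
    rw [div_mul_cancel₀ _ h3.ne', mul_assoc, div_mul_cancel₀ _ h3.ne'] at h4
    exact h4
  · have h0 := (o8 hT).1
    have h1 := sqrt_pos.2 h0
    have h2 := Z_L hT
    have e1 : ((3 : ℕ) + 2 : ℝ) * T * (pEL T / (T * √T))
        - (1 - T ^ 2) * ((T * pEL' T - 3 / 2 * pEL T) / (T ^ 2 * √T))
        = ((3 / 2 + 7 / 2 * T ^ 2) * pEL T - T * (1 - T ^ 2) * pEL' T) / (T ^ 2 * √T) := by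
      field_simp
      push_cast
      ring
    rw [e1, neg_div, neg_neg, mul_div_assoc', div_le_div_iff_of_pos_right (by positivity)]
    exact h2

/-- r / c -/
noncomputable def Ie (T : ℝ) : ℝ := ∫ u in T..1, ei u

lemma r_eq : r T = c T * Ie T := rfl

lemma ei_eq (hT : T ∈ Ioo (0 : ℝ) 1) : ei T = e T / (T * c T ^ 3) := by
  unfold ei
  have h4 := c_sq (T := T) ⟨hT.1.le, hT.2.le⟩
  have h6 : √(1 - T ^ 2) = c T := rfl
  rw [h6, ← h4]
  congr 2

lemma ei_nonneg (hT : T ∈ Ioc (0 : ℝ) 1) : 0 ≤ ei T := by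
  have h1 := e_nonneg hT
  have h0 := hT.1
  have h2 : 0 ≤ 1 - T ^ 2 := by nlinarith [hT.2]
  unfold ei
  positivity

lemma Ie_nonneg (hT : T ∈ Ioc (0 : ℝ) 1) : 0 ≤ Ie T :=
  intervalIntegral.integral_nonneg hT.2 fun _ hu => ei_nonneg ⟨hT.1.trans_le hu.1, hu.2⟩

lemma r_nonneg (hT : T ∈ Ioc (0 : ℝ) 1) : 0 ≤ r T := mul_nonneg c_nonneg (Ie_nonneg hT)

lemma Ie_U (hT : T ∈ I8) : Ie T ≤ c T ^ 4 * (pVU T / T) := by
  refine barU (a := 1 / 8) (by norm_num) 2 (F := Ie) (F' := fun T => -ei T)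
    (R' := fun T => (pVU' T * T - pVU T) / T ^ 2)
    ((tail_contOn ei_contOn).mono fun x hx => I8_sub hx) (by simp [Ie])
    (fun T hT => hasDerivAt_tail ei_contOn (o8 hT)) (contOn_div (cont_of_hd hd_pVU))
    (fun T hT => hd_div (hd_pVU T) (o8 hT).1.ne') (fun T hT => ?_) T hT
  have h0 := (o8 hT).1
  have hcp := c_pos (o8 hT)
  have h1 := e_U (o8' hT)
  have h2 := poly_VU hT.1.le hT.2.le
  have e1 : ((2 : ℕ) + 2 : ℝ) * T * (pVU T / T) - (1 - T ^ 2) * ((pVU' T * T - pVU T) / T ^ 2)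
      = ((1 + 3 * T ^ 2) * pVU T - T * (1 - T ^ 2) * pVU' T) / T ^ 2 := by
    field_simp
    push_cast
    ring
  rw [e1, neg_neg, ei_eq (o8 hT), div_le_iff₀ (by positivity)]
  refine h1.trans ?_
  have e2 : c T ^ 2 * (((1 + 3 * T ^ 2) * pVU T - T * (1 - T ^ 2) * pVU' T) / T ^ 2)
      * (T * c T ^ 3)
      = c T ^ 5 * (((1 + 3 * T ^ 2) * pVU T - T * (1 - T ^ 2) * pVU' T) / T) := by
    field_simp
  rw [e2]
  refine mul_le_mul_of_nonneg_left ?_ (by positivity)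
  rw [le_div_iff₀ h0]
  linarith

lemma Ie_L (hT : T ∈ I8) : c T ^ 4 * (pVL T / T) ≤ Ie T := by
  refine barL (a := 1 / 8) (by norm_num) 2 (F := Ie) (F' := fun T => -ei T)
    (R' := fun T => (pVL' T * T - pVL T) / T ^ 2)
    ((tail_contOn ei_contOn).mono fun x hx => I8_sub hx) (by simp [Ie])
    (fun T hT => hasDerivAt_tail ei_contOn (o8 hT)) (contOn_div (cont_of_hd hd_pVL))
    (fun T hT => hd_div (hd_pVL T) (o8 hT).1.ne') (fun T hT => ?_) T hT
  have h0 := (o8 hT).1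
  have hcp := c_pos (o8 hT)
  have h1 := e_L (o8' hT)
  have h2 := poly_VL hT.1.le hT.2.le
  have e1 : ((2 : ℕ) + 2 : ℝ) * T * (pVL T / T) - (1 - T ^ 2) * ((pVL' T * T - pVL T) / T ^ 2)
      = ((1 + 3 * T ^ 2) * pVL T - T * (1 - T ^ 2) * pVL' T) / T ^ 2 := by
    field_simp
    push_cast
    ring
  rw [e1, neg_neg, ei_eq (o8 hT), le_div_iff₀ (by positivity)]
  refine le_trans ?_ h1
  have e2 : c T ^ 2 * (((1 + 3 * T ^ 2) * pVL T - T * (1 - T ^ 2) * pVL' T) / T ^ 2)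
      * (T * c T ^ 3)
      = c T ^ 5 * (((1 + 3 * T ^ 2) * pVL T - T * (1 - T ^ 2) * pVL' T) / T) := by
    field_simp
  rw [e2]
  refine mul_le_mul_of_nonneg_left ?_ (by positivity)
  rw [div_le_iff₀ h0]
  linarith

/-- eta -/
noncomputable def η (T : ℝ) : ℝ := T * y T + 3 * r T

lemma hd_η (hT : T ∈ Ioo (0 : ℝ) 1) : HasDerivAt (fun T => η T / c T + 2 * e T / c T ^ 3)
    (6 * T * e T / c T ^ 5) T := by
  have h0 := hT.1.ne'
  have hc := c_pos hT
  have hw : 1 - T ^ 2 ≠ 0 := by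
    have : 0 < 1 - T ^ 2 := by nlinarith [hT.1, hT.2]
    exact this.ne'
  have h1 := ((hasDerivAt_id T).fun_mul (hd_y hT)).fun_add ((hasDerivAt_r hT).const_mul 3)
  have h2 := (h1.fun_div (hasDerivAt_c hT) hc.ne').fun_add
    (((hd_e hT).const_mul 2).fun_div ((hasDerivAt_c hT).fun_pow 3) (by positivity))
  refine h2.congr_deriv ?_
  have h4 := c_sq (T := T) ⟨hT.1.le, hT.2.le⟩
  unfold Vale.Agent.P224.R2.H925.yD Vale.Agent.P224.R2.H925.eD Vale.Agent.P224.R2.H925.rD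
  rw [← h4]
  simp only [id]
  field_simp
  push_cast
  norm_num
  linear_combination (c T ^ 4 * T * y T) * h4

end

end Vale.Agent.P224.R2.H178.Flow3
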