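import Vale.Agent.P224.R2.H178.Pos3c

/-!
The flow in dimension three on `[1/8, 1]`: the lower bound of eta and the final inequalities of
the coefficients.
-/

namespace Vale.Agent.P224.R2.H178.Flow3

open MeasureTheory Set Filter Function Real
open scoped Topology

section

variable {T : ℝ}

lemma Ord.smallT {k l : ℕ} {F : ℝ → ℝ} (h : Ord (l + 1 + k) F) :
    Tendsto (fun T => F T / c T ^ l) (𝓝[<] 1) (𝓝 0) := by
  obtain ⟨C, hC⟩ := (h.mono (by omega : l + 1 ≤ l + 1 + k)).bound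
  have h2 : Tendsto (fun T => |C| * c T) (𝓝[<] 1) (𝓝 0) :=
    to_eq (tendsto_c.const_mul |C|) (by ring)
  refine squeeze_zero_norm' ?_ h2
  filter_upwards [hC, l1_Ioo] with T h3 h4
  have hc := c_pos h4
  rw [norm_of_nonneg (pow_nonneg hc.le _)] at h3
  rw [norm_div, norm_of_nonneg (pow_nonneg hc.le _), div_le_iff₀ (pow_pos hc _)]
  refine h3.trans ?_
  have h5 : |C| * c T * c T ^ l = |C| * c T ^ (l + 1) := by ring
  rw [h5]
  exact mul_le_mul_of_nonneg_right (le_abs_self C) (pow_nonneg hc.le _)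

lemma η_lim : Tendsto (fun T => η T / c T + 2 * e T / c T ^ 3) (𝓝[<] 1) (𝓝 (9 / 8)) := by
  have h1 : Tendsto (fun T => (y T - 9 / 4 * j T) / c T ^ 1) (𝓝[<] 1) (𝓝 0) :=
    Ord.smallT (k := 1) ord_y
  have h2 : Tendsto (fun T => r T / c T ^ 1) (𝓝[<] 1) (𝓝 0) := Ord.smallT (k := 3) ord_r
  have h3 : Tendsto (fun T => e T / c T ^ 3) (𝓝[<] 1) (𝓝 0) := Ord.smallT (k := 1) ord_e
  have h4 : Tendsto J (𝓝[<] 1) (𝓝 (J 1)) :=
    J_diff.continuousAt.tendsto.mono_left nhdsWithin_le_nhds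
  have h5 : Tendsto (fun T : ℝ => T) (𝓝[<] 1) (𝓝 1) := tendsto_id.mono_left nhdsWithin_le_nhds
  rw [J_one] at h4
  have h6 := ((h5.mul (h1.add (h4.const_mul (9 / 4)))).add (h2.const_mul 3)).add (h3.const_mul 2)
  refine to_eq (h6.congr' ?_) (by norm_num : (1 * (0 + 9 / 4 * (1 / 2)) + 3 * 0 + 2 * 0 : ℝ) = 9 / 8)
  filter_upwards [l1_Ioo] with T hT
  have hc := (c_pos hT).ne'
  unfold η
  rw [j_eq ⟨hT.1.le, hT.2.le⟩]
  field_simp
  ring

lemma hd_pI (T : ℝ) : HasDerivAt pI (-(T * pEU T)) T := by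
  have h1 : HasDerivAt (fun T : ℝ => 1 - T) (-1) T := by simpa using (hasDerivAt_id T).const_sub 1
  have h2 := h1.fun_pow 2
  have h3 := h1.fun_pow 3
  have h4 := h1.fun_pow 4
  have h5 := h1.fun_pow 5
  have h6 := h1.fun_pow 6
  have h := (((((h1.const_mul (353 / 6250 : ℝ)).fun_add (h2.const_mul (-433 / 40000 : ℝ))).fun_add
    (h3.const_mul (-661 / 30000 : ℝ))).fun_add (h4.const_mul (3429 / 80000 : ℝ))).fun_add
    (h5.const_mul (-26093 / 500000 : ℝ))).fun_add (h6.const_mul (161 / 8000 : ℝ))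
  refine h.congr_deriv ?_
  unfold pEU
  push_cast
  ring

lemma G_L (hT : T ∈ I8) (h1' : T < 1) : 9 / 8 ≤ η T / c T + 2 * e T / c T ^ 3 + 6 * pI T := by
  have hder : ∀ t ∈ Ioo (0 : ℝ) 1, HasDerivAt (fun T => η T / c T + 2 * e T / c T ^ 3 + 6 * pI T)
      (6 * t * e t / c t ^ 5 + 6 * -(t * pEU t)) t := fun t ht =>
    (hd_η ht).fun_add ((hd_pI t).const_mul 6)
  have hanti : AntitoneOn (fun T => η T / c T + 2 * e T / c T ^ 3 + 6 * pI T) (Ico (1 / 8) 1) := by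
    refine antitoneOn_of_deriv_nonpos (convex_Ico _ _) ?_ ?_ ?_
    · exact fun t ht => (hder t ⟨by linarith [ht.1], ht.2⟩).continuousAt.continuousWithinAt
    · rw [interior_Ico]
      exact fun t ht => (hder t (o8 ht)).differentiableAt.differentiableWithinAt
    · rw [interior_Ico]
      intro t ht
      rw [(hder t (o8 ht)).deriv]
      have h2 := e_U (o8' ht)
      have h3 := c_pos (o8 ht)
      have h0 := (o8 ht).1
      have h4 : 6 * t * e t / c t ^ 5 ≤ 6 * t * pEU t := by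
        rw [div_le_iff₀ (by positivity)]
        calc 6 * t * e t ≤ 6 * t * (c t ^ 5 * pEU t) := mul_le_mul_of_nonneg_left h2 (by positivity)
          _ = _ := by ring
      linarith
  have hlim : Tendsto (fun T => η T / c T + 2 * e T / c T ^ 3 + 6 * pI T) (𝓝[<] 1)
      (𝓝 (9 / 8 + 6 * pI 1)) :=
    η_lim.add (((hd_pI 1).continuousAt.tendsto.mono_left nhdsWithin_le_nhds).const_mul 6)
  have hI1 : pI 1 = 0 := by simp [pI]
  rw [hI1, mul_zero, add_zero] at hlim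
  refine le_of_tendsto hlim ?_
  have h6 : Ioo T 1 ∈ 𝓝[<] (1 : ℝ) := Ioo_mem_nhdsLT h1'
  filter_upwards [h6] with t ht
  exact hanti ⟨hT.1, h1'⟩ ⟨hT.1.trans ht.1.le, ht.2⟩ ht.1.le

lemma η_L (hT : T ∈ I8) (h1' : T < 1) : c T * pH T ≤ η T := by
  have hT' : T ∈ Ioo (0 : ℝ) 1 := ⟨(I8_sub hT).1, h1'⟩
  have hc := c_pos hT'
  have h5 := G_L hT h1'
  have h6 := e_U hT
  have h7 := c_sq (T := T) ⟨hT'.1.le, h1'.le⟩
  have h8 : 2 * e T / c T ^ 3 ≤ 2 * (1 - T ^ 2) * pEU T := by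
    rw [div_le_iff₀ (by positivity), ← h7]
    calc 2 * e T ≤ 2 * (c T ^ 5 * pEU T) := by linarith
      _ = _ := by ring
  have h9 : pH T ≤ η T / c T := by
    unfold pH
    linarith
  rwa [le_div_iff₀ hc, mul_comm] at h9

end

end Vale.Agent.P224.R2.H178.Flow3
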