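import Mathlib

/-!
The algebra of the positivity of the defect in dimension three.
-/

namespace Vale.Agent.P224.R2.H178.Flow3

open Real

section

lemma inv_one_sub {T C : ℝ} (hT0 : 0 < T) (hT1 : T < 1) (hC2 : C ^ 2 = 1 - T ^ 2) :
    1 / (1 - T) = (1 + T) / C ^ 2 := by
  have h0 : (1 - T) ≠ 0 := by linarith
  have h1 : (1 + T) ≠ 0 := by linarith
  rw [hC2, show 1 - T ^ 2 = (1 - T) * (1 + T) by ring]
  field_simp

lemma curly_id {T C d ρ' ε' e r k : ℝ} (hC : C ≠ 0) (hk : k = (1 + T) / C ^ 2) :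
    (8 * (d / 2 * (3 * ρ' + ε' / 2)) / C + 2 * (12 * T * r - 2 * ρ') * k
      + 12 * T * e * k + (5 * d * T * ρ') * (2 / C) * (3 * (1 + T) * k + 6 * T / C ^ 2)
      + 10 * T * (d * ε') / C * k) / C
      = ρ' * ((12 * d * C ^ 2 - 4 * (1 + T) * C + 10 * d * T * (3 * (1 + T) ^ 2 + 6 * T))
      / C ^ 4) + ε' * ((2 * d * C ^ 2 + 10 * T * d * (1 + T)) / C ^ 4)
      + r * (24 * T * (1 + T) / C ^ 3) + e * (12 * T * (1 + T) / C ^ 3) := by
  subst hk
  field_simp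
  ring

lemma coef_nonneg {T C d : ℝ} (hT : 1 / 8 ≤ T) (hT1 : T < 1) (hd : 0 < d)
    (hd2 : d ^ 2 = 1 / 2) :
    0 ≤ 12 * d * C ^ 2 - 4 * (1 + T) * C + 10 * d * T * (3 * (1 + T) ^ 2 + 6 * T) := by
  have h0 : 0 < T := by linarith
  have hd7 : 7 / 10 ≤ d := by nlinarith
  have b1 : C ≤ C ^ 2 + 1 / 4 := by nlinarith [sq_nonneg (C - 1 / 2)]
  have b2 : 4 * (1 + T) * C ≤ 4 * (1 + T) * (C ^ 2 + 1 / 4) :=
    mul_le_mul_of_nonneg_left b1 (by positivity)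
  have b3 : 84 / 10 * C ^ 2 ≤ 12 * d * C ^ 2 := by
    have := mul_le_mul_of_nonneg_right hd7 (sq_nonneg C)
    linarith
  have b4 : 4 * (1 + T) * C ^ 2 ≤ 8 * C ^ 2 := by
    have := mul_le_mul_of_nonneg_right hT1.le (sq_nonneg C)
    linarith
  have b5 : 7 * T * (3 * (1 + T) ^ 2 + 6 * T) ≤ 10 * d * T * (3 * (1 + T) ^ 2 + 6 * T) := by
    have : 7 * T ≤ 10 * d * T := by nlinarith
    exact mul_le_mul_of_nonneg_right this (by positivity)
  have b7 : 3 + 6 * T ≤ 3 * (1 + T) ^ 2 + 6 * T := by nlinarith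
  have b6 : 1 + T ≤ 7 * T * (3 * (1 + T) ^ 2 + 6 * T) := by
    have := mul_le_mul_of_nonneg_left b7 (by positivity : 0 ≤ 7 * T)
    nlinarith
  have b8 := sq_nonneg C
  linarith

lemma dC_le {C d : ℝ} (hd2 : d ^ 2 = 1 / 2) :
    d * C ≤ (C ^ 2 / 2 + 9 / 25) * (5 / 6) := by
  have : (d * C) ^ 2 = C ^ 2 / 2 := by
    rw [mul_pow, hd2]
    ring
  nlinarith [sq_nonneg (d * C - 3 / 5)]

lemma curly_id2 {T C d U V E Q : ℝ} (hC : C ≠ 0) (hT : T ≠ 0) :
    T * (C ^ 7 * (U / T) * ((12 * d * C ^ 2 - 4 * (1 + T) * C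
        + 10 * d * T * (3 * (1 + T) ^ 2 + 6 * T)) / C ^ 4)
      + C ^ 7 * (C ^ 2 * (U / T) + Q) * ((2 * d * C ^ 2 + 10 * T * d * (1 + T)) / C ^ 4)
      + C ^ 5 * (V / T) * (24 * T * (1 + T) / C ^ 3) + C ^ 5 * E * (12 * T * (1 + T) / C ^ 3))
      = d * C * (C ^ 2 * (12 * (C ^ 2 * U) + 2 * C ^ 2 * (C ^ 2 * U + T * Q)
        + 30 * (T * ((1 + T) ^ 2 * U)) + 60 * (T ^ 2 * U)
        + 10 * (T * (1 + T) * (C ^ 2 * U + T * Q))))
      + T * (C ^ 2 * (1 + T) * (24 * V + 12 * (T * E))) - 4 * ((1 + T) * (C ^ 2) ^ 2 * U) := by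
  field_simp
  ring

/-- the scalar inequality -/
lemma curly_le {T C d H U V E Q ρ' ε' e r η : ℝ} (hT : 1 / 8 ≤ T) (hT1 : T < 1) (hC : 0 < C)
    (hC2 : C ^ 2 = 1 - T ^ 2) (hd : 0 < d) (hd2 : d ^ 2 = 1 / 2) (hρ : ρ' ≤ C ^ 7 * (U / T))
    (hε : ε' ≤ C ^ 7 * (C ^ 2 * (U / T) + Q)) (he : e ≤ C ^ 5 * E)
    (hr : r ≤ C ^ 5 * (V / T)) (hη : C * H ≤ η) (hU : 0 ≤ U) (hQ : 0 ≤ Q)
    (hB : 0 ≤ T * (3 * H - C ^ 2 * (1 + T) * (24 * V + 12 * (T * E)))
      - C ^ 2 * ((C ^ 2 / 2 + 9 / 25) * (5 / 6)) * (12 * (C ^ 2 * U)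
        + 2 * C ^ 2 * (C ^ 2 * U + T * Q) + 30 * (T * ((1 + T) ^ 2 * U))
        + 60 * (T ^ 2 * U) + 10 * (T * (1 + T) * (C ^ 2 * U + T * Q)))
      + 4 * ((1 + T) * (C ^ 2) ^ 2 * U)) :
    8 * (d / 2 * (3 * ρ' + ε' / 2)) / C + 2 * (12 * T * r - 2 * ρ') * (1 / (1 - T))
      + 12 * T * e * (1 / (1 - T)) + (5 * d * T * ρ') * (2 / C)
        * (3 * (1 + T) * (1 / (1 - T)) + 6 * T / C ^ 2)
      + 10 * T * (d * ε') / C * (1 / (1 - T)) ≤ 3 * η := by
  have h0 : 0 < T := by linarith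
  have e2 := curly_id (d := d) (ρ' := ρ') (ε' := ε') (e := e) (r := r) hC.ne'
    (inv_one_sub h0 hT1 hC2)
  have hcoef := coef_nonneg (C := C) hT hT1 hd hd2
  have hX : 0 ≤ C ^ 2 * (U / T) + Q := by positivity
  have c1 : ρ' * ((12 * d * C ^ 2 - 4 * (1 + T) * C + 10 * d * T * (3 * (1 + T) ^ 2 + 6 * T))
      / C ^ 4) ≤ C ^ 7 * (U / T) * ((12 * d * C ^ 2 - 4 * (1 + T) * C
        + 10 * d * T * (3 * (1 + T) ^ 2 + 6 * T)) / C ^ 4) :=
    mul_le_mul_of_nonneg_right hρ (by positivity)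
  have c2 : ε' * ((2 * d * C ^ 2 + 10 * T * d * (1 + T)) / C ^ 4)
      ≤ C ^ 7 * (C ^ 2 * (U / T) + Q) * ((2 * d * C ^ 2 + 10 * T * d * (1 + T)) / C ^ 4) :=
    mul_le_mul_of_nonneg_right hε (by positivity)
  have c3 : r * (24 * T * (1 + T) / C ^ 3) ≤ C ^ 5 * (V / T) * (24 * T * (1 + T) / C ^ 3) :=
    mul_le_mul_of_nonneg_right hr (by positivity)
  have c4 : e * (12 * T * (1 + T) / C ^ 3) ≤ C ^ 5 * E * (12 * T * (1 + T) / C ^ 3) :=
    mul_le_mul_of_nonneg_right he (by positivity)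
  have hbr : 0 ≤ 12 * (C ^ 2 * U) + 2 * C ^ 2 * (C ^ 2 * U + T * Q) + 30 * (T * ((1 + T) ^ 2 * U))
        + 60 * (T ^ 2 * U) + 10 * (T * (1 + T) * (C ^ 2 * U + T * Q)) := by positivity
  have c5 := mul_le_mul_of_nonneg_right (dC_le (C := C) hd2) (mul_nonneg (sq_nonneg C) hbr)
  have e3 := curly_id2 (d := d) (U := U) (V := V) (E := E) (Q := Q) hC.ne' h0.ne'
  have h5 := mul_le_mul_of_nonneg_left (add_le_add (add_le_add (add_le_add c1 c2) c3) c4) h0.le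
  rw [e3, ← e2] at h5
  have h4 : T * ((8 * (d / 2 * (3 * ρ' + ε' / 2)) / C + 2 * (12 * T * r - 2 * ρ') * (1 / (1 - T))
      + 12 * T * e * (1 / (1 - T)) + (5 * d * T * ρ') * (2 / C)
        * (3 * (1 + T) * (1 / (1 - T)) + 6 * T / C ^ 2)
      + 10 * T * (d * ε') / C * (1 / (1 - T))) / C) ≤ T * (3 * H) := by
    refine h5.trans ?_
    linarith
  have h3 := le_of_mul_le_mul_left h4 h0
  rw [div_le_iff₀ hC] at h3
  linarith

/-- the row bound of the second functional -/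
lemma f2_bound {T s t p g v : ℝ} (hT : 0 < T) (hT1 : T < 1) (hs : s ∈ Set.Icc (-1 : ℝ) 1)
    (hv : v = 1 - T * s) (hg : -1 ≤ g)
    (hG : -(1 - s ^ 2) + |t * p| - s * (t * p) ≤ (1 - s ^ 2) * g)
    (hp : |t * p| ≤ 1 - s ^ 2) : 0 ≤ 2 * (T + g) * v + 5 * T * (p * t) + 2 * v ^ 2 / (1 - T) := by
  have h1T : 0 < 1 - T := by linarith
  have hv1 : 1 - T ≤ v := by
    rw [hv]
    nlinarith [hs.2]
  have hv0 : 0 < v := by linarith
  have e0 : 2 * v ^ 2 / (1 - T) = v * (2 * v / (1 - T)) := by ring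
  have h2v : 2 ≤ 2 * v / (1 - T) := by
    rw [le_div_iff₀ h1T]
    linarith
  have hA : 0 ≤ 2 * (T - 1) * v + 2 * v ^ 2 / (1 - T) := by
    rw [e0]
    nlinarith
  rcases le_or_gt 0 (t * p) with h | h
  · have h2 : 0 ≤ T * (t * p) := mul_nonneg hT.le h
    nlinarith [mul_nonneg hv0.le (by linarith : 0 ≤ 1 + g)]
  · set w := -(t * p) with hw
    have hw0 : 0 < w := by linarith
    have habs : |t * p| = w := abs_of_neg h
    rw [habs] at hG hp
    have hs1 : -1 < s := by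
      by_contra hcon
      have : s = -1 := le_antisymm (not_lt.1 hcon) hs.1
      rw [this] at hp
      norm_num at hp
      linarith
    have hs2 : s < 1 := by
      by_contra hcon
      have : s = 1 := le_antisymm hs.2 (not_lt.1 hcon)
      rw [this] at hp
      norm_num at hp
      linarith
    have h1s : 0 < 1 - s := by linarith
    have h1s' : 0 < 1 + s := by linarith
    have htp : t * p = -w := by rw [hw]; ring
    have k1 : w ≤ (1 - s) * (1 + g) := by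
      have k2 : (1 + s) * w ≤ (1 + s) * ((1 - s) * (1 + g)) := by
        rw [htp] at hG
        nlinarith
      exact le_of_mul_le_mul_left k2 h1s'
    have hpt : p * t = -w := by rw [mul_comm, htp]
    rw [hpt]
    -- multiply by 1 - s
    refine nonneg_of_mul_nonneg_right (a := 1 - s) ?_ h1s
    have k3 : v * w ≤ v * ((1 - s) * (1 + g)) := mul_le_mul_of_nonneg_left k1 hv0.le
    have k4 : (1 - s) * (2 * (T - 1) * v + 2 * v ^ 2 / (1 - T)) + w * (5 * (1 - T) - 3 * v)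
        ≤ (1 - s) * (2 * (T + g) * v + 5 * T * -w + 2 * v ^ 2 / (1 - T)) := by
      have e3 : T * (1 - s) = v - (1 - T) := by rw [hv]; ring
      have e4 : (1 - s) * (2 * (T + g) * v + 5 * T * -w + 2 * v ^ 2 / (1 - T))
          = (1 - s) * (2 * (T - 1) * v + 2 * v ^ 2 / (1 - T)) + 2 * (v * ((1 - s) * (1 + g)))
            - 5 * (T * (1 - s)) * w := by ring
      rw [e4, e3]
      nlinarith
    refine le_trans ?_ k4
    rcases le_or_gt (3 * v) (5 * (1 - T)) with h5 | h5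
    · have := mul_nonneg hw0.le (by linarith : 0 ≤ 5 * (1 - T) - 3 * v)
      have := mul_nonneg h1s.le hA
      linarith
    · have h6 : w ≤ (1 - s) * (1 + s) := by nlinarith
      have h7 : (1 - s) * ((1 + s) * (5 * (1 - T) - 3 * v)) ≤ w * (5 * (1 - T) - 3 * v) := by
        nlinarith
      have h8 : 0 ≤ 2 * (T - 1) * v + 2 * v ^ 2 / (1 - T) + (1 + s) * (5 * (1 - T) - 3 * v) := by
        have h9 : 2 * (5 * (1 - T) - 3 * v) ≤ (1 + s) * (5 * (1 - T) - 3 * v) := by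
          nlinarith [hs.2]
        refine le_trans ?_ (add_le_add le_rfl h9)
        have h10 : 0 ≤ (1 - T) * (2 * (T - 1) * v + 2 * v ^ 2 / (1 - T) + 2 * (5 * (1 - T) - 3 * v)) := by
          have e5 : (1 - T) * (2 * (T - 1) * v + 2 * v ^ 2 / (1 - T) + 2 * (5 * (1 - T) - 3 * v))
              = 2 * v ^ 2 - 2 * (1 - T) ^ 2 * v - 6 * (1 - T) * v + 10 * (1 - T) ^ 2 := by
            field_simp
            ring
          rw [e5]
          nlinarith [sq_nonneg (v - 2 * (1 - T)), mul_pos h1T h1T, mul_pos (mul_pos h1T h1T) hv0,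
            mul_pos h1T hv0]
        exact nonneg_of_mul_nonneg_right (a := 1 - T) h10 h1T
      nlinarith

/-- the numerator of the second part of the defect -/
noncomputable def NBs (T s t p g : ℝ) (η ρ ε e r d : ℝ) : ℝ :=
  3 * -η * (1 - T * s) ^ 3
    + (4 * (d / 2 * (-(3 * ρ) - ε / 2)) * (p + t) + 2 * T * (-(12 * T * r) - 2 * ρ))
      * (1 - T * s) ^ 2
    + 5 * T * (-(12 * T * r) - 2 * ρ) * (p * t) * (1 - T * s)
    + 3 * T * (-(5 * d * T * ρ)) * (p + t) * (1 - T * s)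
    + 6 * T * (-(5 * d * T * ρ)) * (p * t) * (p + t)
    + g * ((2 * (-(12 * T * r) - 2 * ρ) + 12 * T * e) * (1 - T * s) ^ 2
      + (3 * (-(5 * d * T * ρ)) + 5 * T * (d * ε)) * (p + t) * (1 - T * s))

/-- facts of a pair -/
structure PairF (s t p g : ℝ) : Prop where
  hs : s ∈ Set.Icc (-1 : ℝ) 1
  ht : s ^ 2 + t ^ 2 ≤ 1
  hp : s ^ 2 + p ^ 2 ≤ 1
  hg : |g| ≤ 1
  hG : |(1 - s ^ 2) * g + s * (t * p)| ≤ (1 - s ^ 2) - |t * p|

lemma PairF.abs_tp {s t p g : ℝ} (h : PairF s t p g) : |t * p| ≤ 1 - s ^ 2 := by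
  have h1 := h.ht
  have h2 := h.hp
  rw [abs_le]
  constructor <;> nlinarith [sq_nonneg (t + p), sq_nonneg (t - p)]

/-- the bound of the sum -/
lemma PairF.sum_le {s t p g T C v : ℝ} (h : PairF s t p g) (hT : 0 < T) (hT1 : T < 1) (hC : 0 < C)
    (hC2 : C ^ 2 = 1 - T ^ 2) (hv : v = 1 - T * s) : |p + t| ≤ 2 * (v / C) := by
  have hv0 : 0 < v := by
    rw [hv]
    nlinarith [h.hs.2, h.hs.1]
  have h1 : (p + t) ^ 2 ≤ (2 * (v / C)) ^ 2 := by
    have h2 : (p + t) ^ 2 ≤ 4 * (1 - s ^ 2) := by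
      nlinarith [h.ht, h.hp, sq_nonneg (p - t)]
    have h3 : (1 - s ^ 2) * C ^ 2 ≤ v ^ 2 := by
      rw [hC2, hv]
      nlinarith [sq_nonneg (s - T)]
    have h4 : 1 - s ^ 2 ≤ v ^ 2 / C ^ 2 := by
      rw [le_div_iff₀ (by positivity)]
      exact h3
    calc (p + t) ^ 2 ≤ 4 * (1 - s ^ 2) := h2
      _ ≤ 4 * (v ^ 2 / C ^ 2) := by linarith
      _ = _ := by ring
  exact abs_le_of_sq_le_sq h1 (by positivity)

theorem NBs_gen {T s t p g C d ρ ε e r η X : ℝ} (h : PairF s t p g) (hT : 0 < T) (hT1 : T < 1)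
    (hC : 0 < C) (hC2 : C ^ 2 = 1 - T ^ 2) (hd : 0 < d) (hρ : ρ ≤ 0) (he : 0 ≤ e)
    (hX : 2 * T * (-(12 * T * r) - 2 * ρ) * (1 - T * s) ^ 2
      + 5 * T * (-(12 * T * r) - 2 * ρ) * (p * t) * (1 - T * s)
      + g * (2 * (-(12 * T * r) - 2 * ρ) * (1 - T * s) ^ 2) ≤ (1 - T * s) ^ 3 * X)
    (hcur : 8 * (d / 2 * (3 * -ρ + |ε| / 2)) / C + X
      + 12 * T * e * (1 / (1 - T)) + (5 * d * T * -ρ) * (2 / C)
        * (3 * (1 + T) * (1 / (1 - T)) + 6 * T / C ^ 2)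
      + 10 * T * (d * |ε|) / C * (1 / (1 - T)) ≤ 3 * η) :
    NBs T s t p g η ρ ε e r d ≤ 0 := by
  have h1T : 0 < 1 - T := by linarith
  set v := 1 - T * s with hv
  have hv1 : 1 - T ≤ v := by
    rw [hv]
    nlinarith [h.hs.2]
  have hv0 : 0 < v := by linarith
  have hsum := h.sum_le hT hT1 hC hC2 hv
  have htp := h.abs_tp
  have hg := abs_le.1 h.hg
  have hk : 1 ≤ v * (1 / (1 - T)) := by
    rw [mul_one_div, le_div_iff₀ h1T]
    linarith
  have hk0 : 0 < 1 / (1 - T) := by positivity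
  have hvC : 0 < v / C := by positivity
  have ha : 1 - s ^ 2 ≤ v ^ 2 / C ^ 2 := by
    rw [le_div_iff₀ (by positivity), hC2, hv]
    nlinarith [sq_nonneg (s - T)]
  -- term 1
  have t1 : 4 * (d / 2 * (-(3 * ρ) - ε / 2)) * (p + t) * v ^ 2
      ≤ v ^ 3 * (8 * (d / 2 * (3 * -ρ + |ε| / 2)) / C) := by
    have k1 : |4 * (d / 2 * (-(3 * ρ) - ε / 2))| ≤ 4 * (d / 2 * (3 * -ρ + |ε| / 2)) := by
      have k2 : |-(3 * ρ) - ε / 2| ≤ 3 * -ρ + |ε| / 2 := by
        calc |-(3 * ρ) - ε / 2| ≤ |-(3 * ρ)| + |ε / 2| := abs_sub _ _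
          _ = _ := by
            rw [abs_of_nonneg (by linarith : 0 ≤ -(3 * ρ)), abs_div, abs_two]
            ring
      rw [abs_mul, abs_mul, abs_of_pos (by norm_num : (0 : ℝ) < 4), abs_of_pos (by positivity : 0 < d / 2)]
      gcongr
    calc 4 * (d / 2 * (-(3 * ρ) - ε / 2)) * (p + t) * v ^ 2
        ≤ |4 * (d / 2 * (-(3 * ρ) - ε / 2)) * (p + t)| * v ^ 2 :=
          mul_le_mul_of_nonneg_right (le_abs_self _) (by positivity)
      _ = |4 * (d / 2 * (-(3 * ρ) - ε / 2))| * |p + t| * v ^ 2 := by rw [abs_mul]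
      _ ≤ 4 * (d / 2 * (3 * -ρ + |ε| / 2)) * (2 * (v / C)) * v ^ 2 := by
          have := (abs_nonneg (p + t))
          have k3 : 0 ≤ 4 * (d / 2 * (3 * -ρ + |ε| / 2)) := (abs_nonneg _).trans k1
          exact mul_le_mul_of_nonneg_right (mul_le_mul k1 hsum this k3) (by positivity)
      _ = _ := by ring
  -- term 3
  have t3 : g * (12 * T * e * v ^ 2) ≤ v ^ 3 * (12 * T * e * (1 / (1 - T))) := by
    have k1 : 0 ≤ 12 * T * e * v ^ 2 := by positivity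
    calc g * (12 * T * e * v ^ 2) ≤ 1 * (12 * T * e * v ^ 2) := mul_le_mul_of_nonneg_right hg.2 k1
      _ ≤ (v * (1 / (1 - T))) * (12 * T * e * v ^ 2) := mul_le_mul_of_nonneg_right hk k1
      _ = _ := by ring
  -- term 4
  have t4 : 3 * T * (-(5 * d * T * ρ)) * (p + t) * v + 6 * T * (-(5 * d * T * ρ)) * (p * t) * (p + t)
      + g * (3 * (-(5 * d * T * ρ)) * (p + t) * v)
      ≤ v ^ 3 * ((5 * d * T * -ρ) * (2 / C) * (3 * (1 + T) * (1 / (1 - T)) + 6 * T / C ^ 2)) := by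
    have f0 : 0 ≤ 5 * d * T * -ρ := by
      have : 0 ≤ -ρ := by linarith
      positivity
    have k1 : |3 * (T + g) * v + 6 * T * (p * t)| ≤ v ^ 2 * (3 * (1 + T) * (1 / (1 - T)) + 6 * T / C ^ 2) := by
      calc |3 * (T + g) * v + 6 * T * (p * t)| ≤ |3 * (T + g) * v| + |6 * T * (p * t)| := abs_add_le _ _
        _ = 3 * |T + g| * v + 6 * T * |t * p| := by
          rw [abs_mul, abs_mul, abs_mul (6 * T), abs_of_pos (by norm_num : (0 : ℝ) < 3),
            abs_of_pos hv0, abs_of_pos (by positivity : 0 < 6 * T), mul_comm p t]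
        _ ≤ 3 * (1 + T) * v + 6 * T * (v ^ 2 / C ^ 2) := by
          have k2 : |T + g| ≤ 1 + T := by
            rw [abs_le]
            constructor <;> linarith [hg.1, hg.2]
          have k3 := htp.trans ha
          gcongr
        _ ≤ 3 * (1 + T) * v * (v * (1 / (1 - T))) + 6 * T * (v ^ 2 / C ^ 2) := by
          have : 0 ≤ 3 * (1 + T) * v := by positivity
          have := mul_le_mul_of_nonneg_left hk this
          linarith
        _ = _ := by ring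
    have k4 : (p + t) * (3 * (T + g) * v + 6 * T * (p * t))
        ≤ 2 * (v / C) * (v ^ 2 * (3 * (1 + T) * (1 / (1 - T)) + 6 * T / C ^ 2)) := by
      calc (p + t) * (3 * (T + g) * v + 6 * T * (p * t))
          ≤ |(p + t) * (3 * (T + g) * v + 6 * T * (p * t))| := le_abs_self _
        _ = |p + t| * |3 * (T + g) * v + 6 * T * (p * t)| := abs_mul _ _
        _ ≤ _ := mul_le_mul hsum k1 (abs_nonneg _) (by positivity)
    have k5 := mul_le_mul_of_nonneg_left k4 f0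
    have e1 : 3 * T * (-(5 * d * T * ρ)) * (p + t) * v + 6 * T * (-(5 * d * T * ρ)) * (p * t) * (p + t)
        + g * (3 * (-(5 * d * T * ρ)) * (p + t) * v)
        = 5 * d * T * -ρ * ((p + t) * (3 * (T + g) * v + 6 * T * (p * t))) := by ring
    rw [e1]
    refine k5.trans_eq ?_
    ring
  -- term 5
  have t5 : g * (5 * T * (d * ε) * (p + t) * v) ≤ v ^ 3 * (10 * T * (d * |ε|) / C * (1 / (1 - T))) := by
    calc g * (5 * T * (d * ε) * (p + t) * v) ≤ |g * (5 * T * (d * ε) * (p + t) * v)| := le_abs_self _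
      _ = |g| * (5 * T * (d * |ε|) * |p + t| * v) := by
        rw [abs_mul, abs_mul, abs_mul, abs_mul, abs_mul d, abs_of_pos (by positivity : 0 < 5 * T),
          abs_of_pos hd, abs_of_pos hv0]
      _ ≤ 1 * (5 * T * (d * |ε|) * (2 * (v / C)) * v) := by
        have := h.hg
        have k2 := abs_nonneg ε
        have k3 := abs_nonneg (p + t)
        gcongr
      _ ≤ (v * (1 / (1 - T))) * (5 * T * (d * |ε|) * (2 * (v / C)) * v) := by
        have k2 := abs_nonneg ε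
        exact mul_le_mul_of_nonneg_right hk (by positivity)
      _ = _ := by ring
  have hfin := mul_le_mul_of_nonneg_left hcur (by positivity : 0 ≤ v ^ 3)
  unfold NBs
  rw [← hv]
  have e2 : 3 * -η * v ^ 3
    + (4 * (d / 2 * (-(3 * ρ) - ε / 2)) * (p + t) + 2 * T * (-(12 * T * r) - 2 * ρ)) * v ^ 2
    + 5 * T * (-(12 * T * r) - 2 * ρ) * (p * t) * v
    + 3 * T * (-(5 * d * T * ρ)) * (p + t) * v
    + 6 * T * (-(5 * d * T * ρ)) * (p * t) * (p + t)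
    + g * ((2 * (-(12 * T * r) - 2 * ρ) + 12 * T * e) * v ^ 2
      + (3 * (-(5 * d * T * ρ)) + 5 * T * (d * ε)) * (p + t) * v)
    = 4 * (d / 2 * (-(3 * ρ) - ε / 2)) * (p + t) * v ^ 2
      + (2 * T * (-(12 * T * r) - 2 * ρ) * v ^ 2 + 5 * T * (-(12 * T * r) - 2 * ρ) * (p * t) * v
      + g * (2 * (-(12 * T * r) - 2 * ρ) * v ^ 2)) + g * (12 * T * e * v ^ 2)
      + (3 * T * (-(5 * d * T * ρ)) * (p + t) * v + 6 * T * (-(5 * d * T * ρ)) * (p * t) * (p + t)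
      + g * (3 * (-(5 * d * T * ρ)) * (p + t) * v)) + g * (5 * T * (d * ε) * (p + t) * v)
      - v ^ 3 * (3 * η) := by ring
  rw [e2]
  have := add_le_add (add_le_add (add_le_add (add_le_add t1 hX) t3) t4) t5
  linarith

theorem NBs_nonpos {T s t p g C d ρ ε e r η : ℝ} (h : PairF s t p g) (hT : 0 < T) (hT1 : T < 1)
    (hC : 0 < C) (hC2 : C ^ 2 = 1 - T ^ 2) (hd : 0 < d) (hρ : ρ ≤ 0) (he : 0 ≤ e)
    (hf2 : -(12 * T * r) - 2 * ρ ≤ 0)
    (hcur : 8 * (d / 2 * (3 * -ρ + |ε| / 2)) / C + 2 * (12 * T * r - 2 * -ρ) * (1 / (1 - T))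
      + 12 * T * e * (1 / (1 - T)) + (5 * d * T * -ρ) * (2 / C)
        * (3 * (1 + T) * (1 / (1 - T)) + 6 * T / C ^ 2)
      + 10 * T * (d * |ε|) / C * (1 / (1 - T)) ≤ 3 * η) :
    NBs T s t p g η ρ ε e r d ≤ 0 := by
  refine NBs_gen h hT hT1 hC hC2 hd hρ he ?_ hcur
  have h1T : 0 < 1 - T := by linarith
  set v := 1 - T * s with hv
  have hv1 : 1 - T ≤ v := by
    rw [hv]
    nlinarith [h.hs.2]
  have hv0 : 0 < v := by linarith
  have htp := h.abs_tp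
  have hg := abs_le.1 h.hg
  have hG1 : -(1 - s ^ 2) + |t * p| - s * (t * p) ≤ (1 - s ^ 2) * g := by
    have := (abs_le.1 h.hG).1
    linarith
  have k1 := f2_bound hT hT1 h.hs hv hg.1 hG1 htp
  have k2 : (-(12 * T * r) - 2 * ρ) * v * (2 * (T + g) * v + 5 * T * (p * t) + 2 * v ^ 2 / (1 - T))
      ≤ 0 := mul_nonpos_of_nonpos_of_nonneg (mul_nonpos_of_nonpos_of_nonneg hf2 hv0.le) k1
  have e1 : (-(12 * T * r) - 2 * ρ) * v * (2 * (T + g) * v + 5 * T * (p * t) + 2 * v ^ 2 / (1 - T))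
      = 2 * T * (-(12 * T * r) - 2 * ρ) * v ^ 2
        + 5 * T * (-(12 * T * r) - 2 * ρ) * (p * t) * v
        + g * (2 * (-(12 * T * r) - 2 * ρ) * v ^ 2)
        - v ^ 3 * (2 * (12 * T * r - 2 * -ρ) * (1 / (1 - T))) := by ring
  linarith

/-- the variant with the absolute value -/
theorem NBs_nonpos' {T s t p g C d ρ ε e r η F : ℝ} (h : PairF s t p g) (hT : 0 < T) (hT1 : T < 1)
    (hC : 0 < C) (hC2 : C ^ 2 = 1 - T ^ 2) (hd : 0 < d) (hρ : ρ ≤ 0) (he : 0 ≤ e)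
    (hf2 : |-(12 * T * r) - 2 * ρ| ≤ F)
    (hcur : 8 * (d / 2 * (3 * -ρ + |ε| / 2)) / C + F * (2 * (1 + T) * (1 / (1 - T)) + 5 * T / C ^ 2)
      + 12 * T * e * (1 / (1 - T)) + (5 * d * T * -ρ) * (2 / C)
        * (3 * (1 + T) * (1 / (1 - T)) + 6 * T / C ^ 2)
      + 10 * T * (d * |ε|) / C * (1 / (1 - T)) ≤ 3 * η) :
    NBs T s t p g η ρ ε e r d ≤ 0 := by
  refine NBs_gen h hT hT1 hC hC2 hd hρ he ?_ hcur
  have h1T : 0 < 1 - T := by linarith
  set v := 1 - T * s with hv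
  have hv1 : 1 - T ≤ v := by
    rw [hv]
    nlinarith [h.hs.2]
  have hv0 : 0 < v := by linarith
  have htp := h.abs_tp
  have hg := abs_le.1 h.hg
  have hk : 1 ≤ v * (1 / (1 - T)) := by
    rw [mul_one_div, le_div_iff₀ h1T]
    linarith
  have ha : 1 - s ^ 2 ≤ v ^ 2 / C ^ 2 := by
    rw [le_div_iff₀ (by positivity), hC2, hv]
    nlinarith [sq_nonneg (s - T)]
  have hF : 0 ≤ F := (abs_nonneg _).trans hf2
  have k1 : |2 * (T + g) * v + 5 * T * (p * t)| ≤ v ^ 2 * (2 * (1 + T) * (1 / (1 - T)) + 5 * T / C ^ 2) := by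
    calc |2 * (T + g) * v + 5 * T * (p * t)| ≤ |2 * (T + g) * v| + |5 * T * (p * t)| := abs_add_le _ _
      _ = 2 * |T + g| * v + 5 * T * |t * p| := by
        rw [abs_mul, abs_mul, abs_mul (5 * T), abs_two,
          abs_of_pos hv0, abs_of_pos (by positivity : 0 < 5 * T), mul_comm p t]
      _ ≤ 2 * (1 + T) * v + 5 * T * (v ^ 2 / C ^ 2) := by
        have k2 : |T + g| ≤ 1 + T := by
          rw [abs_le]
          constructor <;> linarith [hg.1, hg.2]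
        have k3 := htp.trans ha
        gcongr
      _ ≤ 2 * (1 + T) * v * (v * (1 / (1 - T))) + 5 * T * (v ^ 2 / C ^ 2) := by
        have : 0 ≤ 2 * (1 + T) * v := by positivity
        have := mul_le_mul_of_nonneg_left hk this
        linarith
      _ = _ := by ring
  calc 2 * T * (-(12 * T * r) - 2 * ρ) * v ^ 2
        + 5 * T * (-(12 * T * r) - 2 * ρ) * (p * t) * v
        + g * (2 * (-(12 * T * r) - 2 * ρ) * v ^ 2)
      = (-(12 * T * r) - 2 * ρ) * (2 * (T + g) * v + 5 * T * (p * t)) * v := by ring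
    _ ≤ |(-(12 * T * r) - 2 * ρ) * (2 * (T + g) * v + 5 * T * (p * t))| * v :=
      mul_le_mul_of_nonneg_right (le_abs_self _) hv0.le
    _ = |-(12 * T * r) - 2 * ρ| * |2 * (T + g) * v + 5 * T * (p * t)| * v := by rw [abs_mul]
    _ ≤ F * (v ^ 2 * (2 * (1 + T) * (1 / (1 - T)) + 5 * T / C ^ 2)) * v :=
      mul_le_mul_of_nonneg_right (mul_le_mul hf2 k1 (abs_nonneg _) hF) hv0.le
    _ = _ := by ring

end

end Vale.Agent.P224.R2.H178.Flow3
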