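import Vale.Agent.P224.R2.H178.Pos3p

/-!
A further polynomial inequality for the flow in dimension three (generated).
-/

namespace Vale.Agent.P224.R2.H178.Flow3

open Real

set_option linter.style.longLine false

lemma poly_X_b0 {x y : ℝ} (hx : 0 ≤ x) (hy : 0 ≤ y) : 0 ≤ 190949029 / 5882450000 * y ^ 6 + 141140826 / 367653125 * x * y ^ 5 + 531036386 / 367653125 * x ^ 2 * y ^ 4 + 733064368 / 367653125 * x ^ 3 * y ^ 3 + 22993024 / 14706125 * x ^ 4 * y ^ 2 + 242970624 / 367653125 * x ^ 5 * y + 39534592 / 367653125 * x ^ 6 := by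
  positivity

lemma poly_X_c0 {T : ℝ} (h0 : 1 / 8 ≤ T) (h1 : T ≤ 1) : 0 ≤ T * pQU T - (2 * T ^ 2 - 1) * pUU T := by
  have h := poly_X_b0 (sub_nonneg.2 h0) (sub_nonneg.2 h1)
  refine h.trans_eq ?_
  unfold pQU pUU
  ring

lemma poly_X {T : ℝ} (h0 : 1 / 8 ≤ T) (h1 : T ≤ 1) : 0 ≤ T * pQU T - (2 * T ^ 2 - 1) * pUU T := by
  exact poly_X_c0 h0 h1

end Vale.Agent.P224.R2.H178.Flow3
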