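import Vale.Agent.P224.R2.H178.Pos3d
import Vale.Agent.P224.R2.H178.Pos3e
import Vale.Agent.P224.R2.H178.Pos3q
import Vale.Agent.P224.R2.H433.Ker3
import Vale.Agent.P224.R2.H433.Dens

/-!
The signs of the two brackets of the defect in dimension three, first on `[1/8, 1)`.
-/

namespace Vale.Agent.P224.R2.H178.Flow3

open MeasureTheory Set Filter Function Real Vale.Agent.P224.R2.H433 Vale.Agent.P224.SM2
  Vale.Agent.P224.R2.H925
open scoped Topology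

section

/-- the facts of the pair data -/
lemma PairF.of_dm {k : R4} (h : Dm k) : PairF k.1 k.2.1 k.2.2.1 k.2.2.2 := by
  obtain ⟨s, t, p, g⟩ := k
  obtain ⟨h1, h2, h3, h4, h5⟩ := h
  simp only at h1 h2 h3 h4 h5 ⊢
  have hs : s ∈ Icc (-1 : ℝ) 1 := abs_le.1 ((sq_le_one_iff_abs_le_one s).1 (by nlinarith [sq_nonneg t]))
  have ha : |t * p| ≤ 1 - s ^ 2 := by
    rw [abs_le]
    constructor <;> nlinarith [sq_nonneg (t + p), sq_nonneg (t - p)]
  refine ⟨hs, h1, h2, (sq_le_one_iff_abs_le_one g).1 (by nlinarith [sq_nonneg t]), ?_⟩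
  refine abs_le_of_sq_le_sq ?_ (by linarith)
  have h6 : 0 ≤ 1 - s ^ 2 := by nlinarith [sq_nonneg t]
  have h7 := mul_nonneg h6 h5
  have h8 : 2 * |t * p| ≤ t ^ 2 + p ^ 2 := by
    rcases abs_cases (t * p) with h | h <;> nlinarith [sq_nonneg (t + p), sq_nonneg (t - p)]
  have h9 := mul_le_mul_of_nonneg_left h8 h6
  have h10 : |t * p| ^ 2 = t ^ 2 * p ^ 2 := by rw [sq_abs]; ring
  nlinarith

/-- the second bracket -/
lemma brB_eq {T s t p g d η w r ρ ε e : ℝ} (hd2 : d ^ 2 = 1 / 2) (hη : η = w + 3 * r) :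
    brB T e ε ρ w r (1 - T * s) (d * t) (d * p) g = NBs T s t p g η ρ ε e r d := by
  have e1 : d * t * (d * p) = 1 / 2 * (t * p) := by
    have : d * t * (d * p) = d ^ 2 * (t * p) := by ring
    rw [this, hd2]
  unfold brB NBs
  rw [hη]
  have e2 : d * t * (d * p) * (d * t + d * p) = 1 / 2 * d * ((t * p) * (t + p)) := by
    rw [e1]
    ring
  rw [e2, e1]
  ring

variable {T : ℝ}

lemma abs_t_le {s t v C : ℝ} (ht : s ^ 2 + t ^ 2 ≤ 1) (hs : s ≤ 1) (hT : T ∈ Ioo (0 : ℝ) 1)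
    (hC2 : C ^ 2 = 1 - T ^ 2) (hv : v = 1 - T * s) : |t| * C ≤ v := by
  have hv0 : 0 < v := by
    rw [hv]
    nlinarith [hT.1, hT.2]
  refine le_of_sq_le_sq ?_ hv0.le
  rw [mul_pow, sq_abs, hC2, hv]
  nlinarith [sq_nonneg (s - T), hT.1, hT.2, mul_pos hT.1 hT.1]

/-- the first bracket -/
lemma brA_nonneg {e ε d s t : ℝ} (ht : s ^ 2 + t ^ 2 ≤ 1) (hs : s ≤ 1) (hT : T ∈ Ioo (0 : ℝ) 1)
    (hd : 0 < d) (hA : 2 * d * |ε| ≤ 3 * e * c T) : 0 ≤ brA e ε (1 - T * s) (d * t) := by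
  have hc := c_pos hT
  have h1 := abs_t_le ht hs hT (c_sq ⟨hT.1.le, hT.2.le⟩) rfl
  have h2 : 2 * d * |ε| * (|t| * c T) ≤ 3 * e * c T * (1 - T * s) :=
    mul_le_mul hA h1 (by positivity) ((by positivity : 0 ≤ 2 * d * |ε|).trans hA)
  have h3 : 2 * d * |ε| * |t| ≤ 3 * e * (1 - T * s) := by
    refine le_of_mul_le_mul_right ?_ hc
    linarith
  have h4 : -(|ε| * |t|) ≤ ε * t := by
    rw [← abs_mul]
    exact neg_abs_le _
  unfold brA
  nlinarith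

/-- the bound of `ε` -/
lemma abs_ε_le (hT : T ∈ I8) : |ε T| ≤ c T ^ 7 * (c T ^ 2 * (pUU T / T) + pQU T) := by
  have h0 := (I8_sub hT).1
  have hI := I8_sub hT
  have h1 := nρ_U hT
  have h2 := nO_U hT
  have h3 := ρ_nonpos hI
  have h4 := O2_nonpos hI
  have h5 := poly_X hT.1 hT.2
  have h6 := c_sq (T := T) ⟨h0.le, hT.2⟩
  have hc := c_nonneg (T := T)
  have h7 : 0 ≤ c T ^ 2 := sq_nonneg _
  have hT2 : 0 ≤ 1 - T ^ 2 := by rw [← h6]; exact h7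
  have e1 : ε T = (1 - 2 * T ^ 2) * ρ T + T ^ 2 * (1 - T ^ 2) * O2 T := by
    unfold ε lin σ
    ring
  -- bounds of products
  have b1 : T ^ 2 * (1 - T ^ 2) * -O2 T ≤ c T ^ 7 * pQU T := by
    have := mul_le_mul_of_nonneg_left h2 (mul_nonneg (sq_nonneg T) hT2)
    refine this.trans_eq ?_
    rw [← h6]
    field_simp
  have b0 : 0 ≤ T ^ 2 * (1 - T ^ 2) * -O2 T :=
    mul_nonneg (mul_nonneg (sq_nonneg T) hT2) (by linarith)
  have b2 : (1 - T ^ 2) * -ρ T ≤ c T ^ 7 * (c T ^ 2 * (pUU T / T)) := by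
    have := mul_le_mul_of_nonneg_left h1 hT2
    refine this.trans_eq ?_
    rw [h6]
    ring
  rw [abs_le, e1]
  constructor
  · nlinarith [mul_nonneg (sq_nonneg T) (by linarith : 0 ≤ -ρ T)]
  · have b3 : T ^ 2 * -ρ T ≤ T ^ 2 * (c T ^ 7 * (pUU T / T)) :=
      mul_le_mul_of_nonneg_left h1 (sq_nonneg T)
    have b4 : T ^ 2 * (c T ^ 7 * (pUU T / T)) ≤ c T ^ 7 * (c T ^ 2 * (pUU T / T) + pQU T) := by
      have e2 : c T ^ 7 * (c T ^ 2 * (pUU T / T) + pQU T) - T ^ 2 * (c T ^ 7 * (pUU T / T))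
          = c T ^ 7 * ((T * pQU T - (2 * T ^ 2 - 1) * pUU T) / T) := by
        rw [h6]
        field_simp
        ring
      have e3 : 0 ≤ c T ^ 7 * ((T * pQU T - (2 * T ^ 2 - 1) * pUU T) / T) := by positivity
      linarith
    have b5 := mul_nonneg hT2 (by linarith : 0 ≤ -ρ T)
    nlinarith

lemma pUU_nonneg (hT : T ∈ I8) (h1' : T < 1) : 0 ≤ pUU T := by
  have h0 := (I8_sub hT).1
  have hc := c_pos ⟨h0, h1'⟩
  have h1 := nρ_U hT
  have h3 := ρ_nonpos (I8_sub hT)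
  have h4 : 0 ≤ c T ^ 7 * (pUU T / T) := by linarith
  have h5 : 0 ≤ pUU T / T := nonneg_of_mul_nonneg_right h4 (by positivity)
  have h6 := mul_nonneg h5 h0.le
  rwa [div_mul_cancel₀ _ h0.ne'] at h6

lemma pQU_nonneg (hT : T ∈ I8) (h1' : T < 1) : 0 ≤ pQU T := by
  have h0 := (I8_sub hT).1
  have hc := c_pos ⟨h0, h1'⟩
  have h1 := nO_U hT
  have h3 := O2_nonpos (I8_sub hT)
  have h4 : 0 ≤ c T ^ 5 * (pQU T / T ^ 2) := by linarith
  have h5 : 0 ≤ pQU T / T ^ 2 := nonneg_of_mul_nonneg_right h4 (by positivity)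
  have h6 := mul_nonneg h5 (sq_nonneg T)
  rwa [div_mul_cancel₀ _ (by positivity)] at h6

lemma A_big {d : ℝ} (hd : 0 < d) (hd2 : d ^ 2 = 1 / 2) (hT : T ∈ I8) (h1' : T < 1) :
    2 * d * |ε T| ≤ 3 * e T * c T := by
  have h0 := (I8_sub hT).1
  have hc := c_pos ⟨h0, h1'⟩
  have h6 := c_sq (T := T) ⟨h0.le, hT.2⟩
  have h1 := abs_ε_le hT
  have h2 := e_L hT
  have h3 := poly_A hT.1 hT.2
  have hU := pUU_nonneg hT h1'
  have hQ := pQU_nonneg hT h1'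
  rw [← h6] at h3
  have a1 : 2 * d * c T ≤ (2 * c T ^ 2 + 169 / 100) * (5 / 13) := by
    have : (d * c T) ^ 2 = c T ^ 2 / 2 := by
      rw [mul_pow, hd2]
      ring
    nlinarith [sq_nonneg (2 * (d * c T) - 13 / 10)]
  have hX : 0 ≤ c T ^ 2 * pUU T + T * pQU T := by positivity
  have a2 := mul_le_mul_of_nonneg_right a1 hX
  calc 2 * d * |ε T| ≤ 2 * d * (c T ^ 7 * (c T ^ 2 * (pUU T / T) + pQU T)) :=
        mul_le_mul_of_nonneg_left h1 (by positivity)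
    _ = c T ^ 6 / T * (2 * d * c T * (c T ^ 2 * pUU T + T * pQU T)) := by
        field_simp
    _ ≤ c T ^ 6 / T * (3 * (T * pEL T)) := by
        refine mul_le_mul_of_nonneg_left ?_ (by positivity)
        linarith
    _ = 3 * (c T ^ 5 * pEL T) * c T := by field_simp
    _ ≤ 3 * e T * c T := by
        refine mul_le_mul_of_nonneg_right ?_ hc.le
        linarith

lemma f2_big (hT : T ∈ I8) : -(12 * T * r T) - 2 * ρ T ≤ 0 := by
  have h0 := (I8_sub hT).1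
  have h1 := Ie_L hT
  have h2 := nρ_U hT
  have h3 := poly_f2 hT.1 hT.2
  have h6 := c_sq (T := T) ⟨h0.le, hT.2⟩
  have hc := c_nonneg (T := T)
  rw [← h6] at h3
  rw [r_eq]
  have h4 : 12 * T * (c T * (c T ^ 4 * (pVL T / T))) ≤ 12 * T * (c T * Ie T) :=
    mul_le_mul_of_nonneg_left (mul_le_mul_of_nonneg_left h1 hc) (by positivity)
  have h5 : 0 ≤ 2 * (c T ^ 5 / T) * (6 * (T * pVL T) - c T ^ 2 * pUU T) :=
    mul_nonneg (by positivity) h3
  have e1 : 2 * (c T ^ 5 / T) * (6 * (T * pVL T) - c T ^ 2 * pUU T)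
      = 12 * T * (c T * (c T ^ 4 * (pVL T / T))) - 2 * (c T ^ 7 * (pUU T / T)) := by
    field_simp
    ring
  linarith

lemma B_big {d : ℝ} (hd : 0 < d) (hd2 : d ^ 2 = 1 / 2) (hT : T ∈ I8) (h1' : T < 1)
    {s t p g : ℝ} (hk : PairF s t p g) : NBs T s t p g (η T) (ρ T) (ε T) (e T) (r T) d ≤ 0 := by
  have h0 := (I8_sub hT).1
  have hc := c_pos ⟨h0, h1'⟩
  have h6 := c_sq (T := T) ⟨h0.le, hT.2⟩
  have hρ := ρ_nonpos (I8_sub hT)
  have hB := poly_B hT.1 hT.2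
  rw [← h6] at hB
  refine NBs_nonpos hk h0 h1' hc h6 hd hρ (e_nonneg (I8_sub hT)) (f2_big hT) ?_
  refine curly_le (U := pUU T) (V := pVU T) (E := pEU T) (Q := pQU T) (H := pH T)
    hT.1 h1' hc h6 hd hd2 (nρ_U hT) (abs_ε_le hT) (e_U hT) ?_ (η_L hT h1')
    (pUU_nonneg hT h1') (pQU_nonneg hT h1') hB
  rw [r_eq]
  have := mul_le_mul_of_nonneg_left (Ie_U hT) hc.le
  refine this.trans_eq ?_
  ring

end

end Vale.Agent.P224.R2.H178.Flow3
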