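import Mathlib

/-!
Polynomial inequalities for the flow in dimension three on `(0, 1/8]`, `T = s ^ 2 / 8` (generated).
-/

namespace Vale.Agent.P224.R2.H178.Flow3

open Real

set_option linter.style.longLine false

/-- upper bound of `-O2` times `s` -/
noncomputable def sW (s : ℝ) : ℝ := 8509 / 1250 + 303 / 2500 * s ^ 2 + (-11471 / 2500) * s

/-- upper bound of `-ρ` -/
noncomputable def sR (s : ℝ) : ℝ := 540571 / 4800000 + (-8509 / 120000) * s ^ 3 + 11471 / 320000 * s ^ 4 + (-303 / 400000) * s ^ 5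

/-- upper bound of `|ε|` -/
noncomputable def sE (s : ℝ) : ℝ := sR s + s ^ 3 / 64 * sW s

/-- upper bound of `e` -/
noncomputable def se (s : ℝ) : ℝ := s ^ 2 / 8 / 12 * (113 / 1000) + (4 + (s ^ 2 / 8) ^ 2) / 24 * (s / 8 * sW s)
  - s ^ 2 / 8 * (1 + 11 * (s ^ 2 / 8)) / 24 * (293 / 100) + 9 / 8 * (s ^ 2 / 8) * (1 - s ^ 2 / 8) * (5774 / 10000)

/-- the sum of the bounds -/
noncomputable def sS (F s : ℝ) : ℝ :=
  4 * (7072 / 10000) * (1009 / 1000) * (3 * sR s + sE s / 2)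
  + F * (2 * (1 + s ^ 2 / 8) * (1 + s ^ 2 / 7) + 5 * (s ^ 2 / 8) * (64 / 63))
  + 12 * (s ^ 2 / 8) * se s * (1 + s ^ 2 / 7)
  + 5 * (7072 / 10000) * (s ^ 2 / 8) * sR s * (2 * (1009 / 1000))
    * (3 * (1 + s ^ 2 / 8) * (1 + s ^ 2 / 7) + 6 * (s ^ 2 / 8) * (64 / 63))
  + 10 * (s ^ 2 / 8) * (7072 / 10000) * sE s * (1009 / 1000) * (1 + s ^ 2 / 7)

lemma small_a_b0 {x y : ℝ} (hx : 0 ≤ x) (hy : 0 ≤ y) : 0 ≤ 286133805989 / 250000000000 * y ^ 11 + 184676327550377 / 15750000000000 * x * y ^ 10 + 203414949806543 / 3780000000000 * x ^ 2 * y ^ 9 + 102294544328741 / 700000000000 * x ^ 3 * y ^ 8 + 10515860491086323 / 40320000000000 * x ^ 4 * y ^ 7 + 970520694385133879 / 3024000000000000 * x ^ 5 * y ^ 6 + 23321645254019029 / 84000000000000 * x ^ 6 * y ^ 5 + 17029549403934167 / 100800000000000 * x ^ 7 * y ^ 4 + 21538713743003977 / 302400000000000 * x ^ 8 * y ^ 3 + 10568669482993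 / 525000000000 * x ^ 9 * y ^ 2 + 12798162142199 / 3600000000000 * x ^ 10 * y + 219096740293 / 700000000000 * x ^ 11 := by
  positivity

lemma small_a_c0 {T : ℝ} (h0 : 0 ≤ T) (h1 : T ≤ 1) : 0 ≤ 3 * (992 / 1000 * (914 / 1000) - 64 / 63 * 2 * se T) - sS (2 * sR T) T := by
  have h := small_a_b0 (sub_nonneg.2 h0) (sub_nonneg.2 h1)
  refine h.trans_eq ?_
  unfold sS sE se sR sW
  ring

lemma small_a {T : ℝ} (h0 : 0 ≤ T) (h1 : T ≤ 1) : 0 ≤ 3 * (992 / 1000 * (914 / 1000) - 64 / 63 * 2 * se T) - sS (2 * sR T) T := by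
  exact small_a_c0 h0 h1

lemma small_b_b0 {x y : ℝ} (hx : 0 ≤ x) (hy : 0 ≤ y) : 0 ≤ 883058292967 / 750000000000 * y ^ 11 + 190372065675377 / 15750000000000 * x * y ^ 10 + 10015360635133 / 180000000000 * x ^ 2 * y ^ 9 + 318043168142473 / 2100000000000 * x ^ 3 * y ^ 8 + 10895540773686323 / 40320000000000 * x ^ 4 * y ^ 7 + 333286587956711293 / 1008000000000000 * x ^ 5 * y ^ 6 + 10132614536722441 / 36000000000000 * x ^ 6 * y ^ 5 + 16660168688934167 / 100800000000000 * x ^ 7 * y ^ 4 + 6537487244334659 / 100800000000000 * x ^ 8 * y ^ 3 + 25174215948979 / 1575000000000 * x ^ 9 * y ^ 2 + 55797894995393 / 25200000000000 * x ^ 10 * y + 285610220879 / 2100000000000 * x ^ 11 := by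
  positivity

lemma small_b_c0 {T : ℝ} (h0 : 0 ≤ T) (h1 : T ≤ 1) : 0 ≤ 3 * (992 / 1000 * (914 / 1000) - 64 / 63 * 2 * se T) - sS (2088 / 10000) T := by
  have h := small_b_b0 (sub_nonneg.2 h0) (sub_nonneg.2 h1)
  refine h.trans_eq ?_
  unfold sS sE se sR sW
  ring

lemma small_b {T : ℝ} (h0 : 0 ≤ T) (h1 : T ≤ 1) : 0 ≤ 3 * (992 / 1000 * (914 / 1000) - 64 / 63 * 2 * se T) - sS (2088 / 10000) T := by
  exact small_b_c0 h0 h1

lemma small_e_b0 {x y : ℝ} (hx : 0 ≤ x) (hy : 0 ≤ y) : 0 ≤ 1384 / 125 * y ^ 7 + 128302 / 1875 * x * y ^ 6 + 1789657 / 10000 * x ^ 2 * y ^ 5 + 2558921 / 10000 * x ^ 3 * y ^ 4 + 68862441 / 320000 * x ^ 4 * y ^ 3 + 406976903 / 3840000 * x ^ 5 * y ^ 2 + 144306173 / 5120000 * x ^ 6 * y + 95668711 / 30720000 * x ^ 7 := by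
  positivity

lemma small_e_c0 {T : ℝ} (h0 : 0 ≤ T) (h1 : T ≤ 1 / 2) : 0 ≤ 865 / 10000 - se T := by
  have h := small_e_b0 (sub_nonneg.2 h0) (sub_nonneg.2 h1)
  refine h.trans_eq ?_
  unfold se sW
  ring

lemma small_e_b1 {x y : ℝ} (hx : 0 ≤ x) (hy : 0 ≤ y) : 0 ≤ 95668711 / 240000 * y ^ 7 + 381068631 / 160000 * x * y ^ 6 + 5752134919 / 960000 * x ^ 2 * y ^ 5 + 5248455263 / 640000 * x ^ 3 * y ^ 4 + 1681575907 / 256000 * x ^ 4 * y ^ 3 + 7847956301 / 2560000 * x ^ 5 * y ^ 2 + 11808693829 / 15360000 * x ^ 6 * y + 817967741 / 10240000 * x ^ 7 := by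
  positivity

lemma small_e_c1 {T : ℝ} (h0 : 1 / 2 ≤ T) (h1 : T ≤ 3 / 4) : 0 ≤ 865 / 10000 - se T := by
  have h := small_e_b1 (sub_nonneg.2 h0) (sub_nonneg.2 h1)
  refine h.trans_eq ?_
  unfold se sW
  ring

lemma small_e_b2 {x y : ℝ} (hx : 0 ≤ x) (hy : 0 ≤ y) : 0 ≤ 817967741 / 640000 * y ^ 9 + 1564506391 / 192000 * x * y ^ 8 + 40823112599 / 1920000 * x ^ 2 * y ^ 7 + 272709683 / 9600 * x ^ 3 * y ^ 6 + 2310066307 / 120000 * x ^ 4 * y ^ 5 + 4959909 / 1000 * x ^ 5 * y ^ 4 + 1980589 / 7500 * x ^ 6 * y ^ 3 + 1116078 / 625 * x ^ 7 * y ^ 2 + 622676 / 375 * x ^ 8 * y + 258656 / 625 * x ^ 9 := by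
  positivity

lemma small_e_c2 {T : ℝ} (h0 : 3 / 4 ≤ T) (h1 : T ≤ 1) : 0 ≤ 865 / 10000 - se T := by
  have h := small_e_b2 (sub_nonneg.2 h0) (sub_nonneg.2 h1)
  refine h.trans_eq ?_
  unfold se sW
  ring

lemma small_e {T : ℝ} (h0 : 0 ≤ T) (h1 : T ≤ 1) : 0 ≤ 865 / 10000 - se T := by
  rcases le_total T (1 / 2) with h | h
  · exact small_e_c0 h0 h
  have h' := h
  clear h
  rcases le_total T (3 / 4) with h | h
  · exact small_e_c1 h' h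
  clear h'
  have h' := h
  clear h
  exact small_e_c2 h' h1

lemma small_eps_b0 {x y : ℝ} (hx : 0 ≤ x) (hy : 0 ≤ y) : 0 ≤ 35429 / 4800000 * y ^ 5 + 35429 / 960000 * x * y ^ 4 + 35429 / 480000 * x ^ 2 * y ^ 3 + 6137 / 160000 * x ^ 3 * y ^ 2 + 59 / 32000 * x ^ 4 * y + 531 / 80000 * x ^ 5 := by
  positivity

lemma small_eps_c0 {T : ℝ} (h0 : 0 ≤ T) (h1 : T ≤ 1) : 0 ≤ 12 / 100 - sE T := by
  have h := small_eps_b0 (sub_nonneg.2 h0) (sub_nonneg.2 h1)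
  refine h.trans_eq ?_
  unfold sE sR sW
  ring

lemma small_eps {T : ℝ} (h0 : 0 ≤ T) (h1 : T ≤ 1) : 0 ≤ 12 / 100 - sE T := by
  exact small_eps_c0 h0 h1

lemma small_R_b0 {x y : ℝ} (hx : 0 ≤ x) (hy : 0 ≤ y) : 0 ≤ 1829 / 4800000 * y ^ 5 + 1829 / 960000 * x * y ^ 4 + 1829 / 480000 * x ^ 2 * y ^ 3 + 2391 / 32000 * x ^ 3 * y ^ 2 + 863 / 8000 * x ^ 4 * y + 181 / 5000 * x ^ 5 := by
  positivity

lemma small_R_c0 {T : ℝ} (h0 : 0 ≤ T) (h1 : T ≤ 1) : 0 ≤ 113 / 1000 - sR T := by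
  have h := small_R_b0 (sub_nonneg.2 h0) (sub_nonneg.2 h1)
  refine h.trans_eq ?_
  unfold sR
  ring

lemma small_R {T : ℝ} (h0 : 0 ≤ T) (h1 : T ≤ 1) : 0 ≤ 113 / 1000 - sR T := by
  exact small_R_c0 h0 h1

end Vale.Agent.P224.R2.H178.Flow3
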