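import Vale.Agent.P224.R2.H178.Pos3f
import Vale.Agent.P224.R2.H178.Pos3r

/-!
Bounds of the flow in dimension three on `(0, 1/8]`, parametrised by `T = s ^ 2 / 8`.
-/

namespace Vale.Agent.P224.R2.H178.Flow3

open MeasureTheory Set Filter Function Real
open scoped Topology

section

variable {T s : ℝ}

lemma Ts_mem (hs : s ∈ Ioc (0 : ℝ) 1) : s ^ 2 / 8 ∈ Ioo (0 : ℝ) 1 :=
  ⟨by have := hs.1; positivity, by nlinarith [hs.1, hs.2]⟩

lemma Ts_le (hs : s ∈ Ioc (0 : ℝ) 1) : s ^ 2 / 8 ≤ 1 / 8 := by nlinarith [hs.1, hs.2]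

lemma hd_comp {F : ℝ → ℝ} {F' : ℝ} (h : HasDerivAt F F' (s ^ 2 / 8)) :
    HasDerivAt (fun s => F (s ^ 2 / 8)) (F' * (s / 4)) s := by
  have h1 : HasDerivAt (fun s : ℝ => s ^ 2 / 8) (s / 4) s := by
    refine ((hasDerivAt_pow 2 s).div_const 8).congr_deriv ?_
    push_cast
    ring
  exact h.comp s h1

/-- comparison -/
theorem cmpU {F R F' R' : ℝ → ℝ} (hF : ∀ s ∈ Ioc (0 : ℝ) 1, HasDerivAt F (F' s) s)
    (hR : ∀ s ∈ Ioc (0 : ℝ) 1, HasDerivAt R (R' s) s) (h1 : F 1 ≤ R 1)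
    (h : ∀ s ∈ Ioc (0 : ℝ) 1, R' s ≤ F' s) : ∀ s ∈ Ioc (0 : ℝ) 1, F s ≤ R s := by
  have hder : ∀ s ∈ Ioc (0 : ℝ) 1, HasDerivAt (fun s => R s - F s) (R' s - F' s) s := fun s hs =>
    (hR s hs).fun_sub (hF s hs)
  have hanti : AntitoneOn (fun s => R s - F s) (Ioc 0 1) := by
    refine antitoneOn_of_deriv_nonpos (convex_Ioc _ _) ?_ ?_ ?_
    · exact fun s hs => (hder s hs).continuousAt.continuousWithinAt
    · rw [interior_Ioc]
      exact fun s hs => (hder s ⟨hs.1, hs.2.le⟩).differentiableAt.differentiableWithinAt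
    · rw [interior_Ioc]
      intro s hs
      rw [(hder s ⟨hs.1, hs.2.le⟩).deriv]
      have := h s ⟨hs.1, hs.2.le⟩
      linarith
  intro s hs
  have h4 := hanti hs ⟨one_pos, le_rfl⟩ hs.2
  simp only at h4
  linarith

lemma kf_le_inv (hT : T ∈ Ioc (0 : ℝ) 1) : kf T ≤ 1 / T := by
  have h9 := nine_pos hT
  have h0 := hT.1
  have h2 := sqrt_pos.2 h9
  have hw : 0 ≤ 1 - T ^ 2 := by nlinarith [hT.2]
  unfold kf
  rw [div_le_div_iff₀ (by positivity) h0]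
  have h3 : (27 * √(1 - T ^ 2)) ^ 2 ≤ ((9 - T ^ 2) * √(9 - T ^ 2)) ^ 2 := by
    rw [mul_pow, mul_pow, sq_sqrt hw, sq_sqrt h9.le]
    nlinarith [sq_nonneg T, sq_nonneg (T ^ 2), mul_nonneg (sq_nonneg T) hw]
  have h4 : 27 * √(1 - T ^ 2) ≤ (9 - T ^ 2) * √(9 - T ^ 2) := le_of_sq_le_sq h3 (by positivity)
  calc 27 * √(1 - T ^ 2) * T ≤ (9 - T ^ 2) * √(9 - T ^ 2) * T :=
        mul_le_mul_of_nonneg_right h4 h0.le
    _ = _ := by ring

lemma c8_U : c (1 / 8) ≤ 127 / 128 := by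
  unfold c
  rw [sqrt_le_left (by norm_num)]
  norm_num

lemma c8_L : 9921 / 10000 ≤ c (1 / 8) := by
  unfold c
  refine le_sqrt_of_sq_le ?_
  norm_num

lemma c_small (h0 : 0 ≤ T) (h : T ≤ 1 / 8) : 992 / 1000 ≤ c T := by
  unfold c
  refine le_sqrt_of_sq_le ?_
  nlinarith

lemma mem8 : (1 / 8 : ℝ) ∈ I8 := ⟨le_rfl, by norm_num⟩

lemma K8_U : K (1 / 8) ≤ 193 / 100 := by
  refine (K_U mem8).trans ?_
  have h0 := c_nonneg (T := 1 / 8)
  have h1 : c (1 / 8) ^ 3 ≤ (127 / 128) ^ 3 := pow_le_pow_left₀ h0 c8_U 3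
  have h2 : 0 ≤ pPU (1 / 8) / (1 / 8) := div_nonneg (pPU_nonneg mem8) (by norm_num)
  refine (mul_le_mul_of_nonneg_right h1 h2).trans ?_
  unfold pPU
  norm_num

lemma O8_U : -O2 (1 / 8) ≤ 234 / 100 := by
  refine (nO_U mem8).trans ?_
  have h0 := c_nonneg (T := 1 / 8)
  have h1 : c (1 / 8) ^ 5 ≤ (127 / 128) ^ 5 := pow_le_pow_left₀ h0 c8_U 5
  have h2 : 0 ≤ pQU (1 / 8) / (1 / 8) ^ 2 :=
    div_nonneg (pQU_nonneg mem8 (by norm_num)) (by norm_num)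
  refine (mul_le_mul_of_nonneg_right h1 h2).trans ?_
  unfold pQU
  norm_num

lemma R8_U : -ρ (1 / 8) ≤ 768 / 10000 := by
  refine (nρ_U mem8).trans ?_
  have h0 := c_nonneg (T := 1 / 8)
  have h1 : c (1 / 8) ^ 7 ≤ (127 / 128) ^ 7 := pow_le_pow_left₀ h0 c8_U 7
  have h2 : 0 ≤ pUU (1 / 8) / (1 / 8) := div_nonneg (pUU_nonneg mem8 (by norm_num)) (by norm_num)
  refine (mul_le_mul_of_nonneg_right h1 h2).trans ?_
  unfold pUU
  norm_num

lemma M8_L : 293 / 100 ≤ M (1 / 8) := by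
  refine le_trans ?_ (M_L mem8)
  have h1 : (9921 / 10000 : ℝ) ^ 3 ≤ c (1 / 8) ^ 3 := pow_le_pow_left₀ (by norm_num) c8_L 3
  have h2 : 0 ≤ pqL (1 / 8) * pPL (1 / 8) / (1 / 8) := by
    unfold pqL pPL
    norm_num
  refine le_trans ?_ (mul_le_mul_of_nonneg_right h1 h2)
  unfold pqL pPL
  norm_num

lemma c8_4 : c (1 / 8) ^ 4 = (63 / 64) ^ 2 := by
  have h := c_sq (T := 1 / 8) ⟨by norm_num, by norm_num⟩
  have : c (1 / 8) ^ 4 = (c (1 / 8) ^ 2) ^ 2 := by ring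
  rw [this, h]
  norm_num

lemma Ie8_U : Ie (1 / 8) ≤ 1392 / 10000 := by
  refine (Ie_U mem8).trans ?_
  rw [c8_4]
  unfold pVU
  norm_num

lemma Ie8_L : 116 / 1000 ≤ Ie (1 / 8) := by
  refine le_trans ?_ (Ie_L mem8)
  rw [c8_4]
  unfold pVL
  norm_num

lemma q_le_c (hT : T ∈ Icc (0 : ℝ) 1) : q T ≤ 17321 / 10000 := by
  unfold q
  have := hT.1
  rw [sqrt_le_left (by norm_num), div_le_iff₀ (by positivity)]
  nlinarith

lemma j_le_c (hT : T ∈ Icc (0 : ℝ) 1) : j T ≤ 5774 / 10000 := by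
  unfold j
  have := hT.2
  have h0 := hT.1
  rw [sqrt_le_left (by norm_num), div_le_iff₀ (by linarith)]
  nlinarith

lemma O2_nonneg' (hT : T ∈ Ioc (0 : ℝ) 1) : 0 ≤ -O2 T := by
  have := O2_nonpos hT
  linarith

/-- bound of `K` -/
lemma sK_U (hs : s ∈ Ioc (0 : ℝ) 1) : K (s ^ 2 / 8) ≤ 193 / 100 + (1 / s - s) := by
  refine cmpU (F := fun s => K (s ^ 2 / 8)) (R := fun s => 193 / 100 + (1 / s - s))
    (F' := fun s => -kf (s ^ 2 / 8) * (s / 4)) (R' := fun s => -(1 / s ^ 2) - 1)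
    (fun s hs => hd_comp (hasDerivAt_K (Ts_mem hs))) (fun s hs => ?_) ?_ (fun s hs => ?_) s hs
  · have h1 := (((hasDerivAt_id s).inv hs.1.ne').sub (hasDerivAt_id s)).const_add (193 / 100)
    refine (h1.congr_of_eventuallyEq (Eventually.of_forall fun x => ?_)).congr_deriv ?_
    · simp
    · simp only [id]
      ring
  · have := K8_U
    norm_num at this ⊢
    exact this
  · have h0 := hs.1
    have h1 := kf_le_inv (T := s ^ 2 / 8) ⟨(Ts_mem hs).1, (Ts_mem hs).2.le⟩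
    have h2 : kf (s ^ 2 / 8) * (s / 4) ≤ 2 / s := by
      refine (mul_le_mul_of_nonneg_right h1 (by positivity)).trans_eq ?_
      field_simp
      ring
    have h3 : 2 / s ≤ 1 / s ^ 2 + 1 := by
      rw [div_add_one (by positivity), div_le_div_iff₀ h0 (by positivity)]
      nlinarith [sq_nonneg (s - 1)]
    linarith

/-- bound of `-O2` -/
lemma sO_U (hs : s ∈ Ioc (0 : ℝ) 1) : -O2 (s ^ 2 / 8) ≤ sW s / s := by
  have key := cmpU (F := fun s => -O2 (s ^ 2 / 8)) (R := fun s => 8509 / 1250 / s + 303 / 2500 * s + (-11471 / 2500))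
    (F' := fun s => -(-(om (s ^ 2 / 8) / (s ^ 2 / 8) ^ 2)) * (s / 4))
    (R' := fun s => -(8509 / 1250 / s ^ 2) + 303 / 2500)
    (fun s hs => hd_comp (hasDerivAt_O2 (Ts_mem hs)).fun_neg) (fun s hs => ?_) ?_
    (fun s hs => ?_) s hs
  · refine key.trans_eq ?_
    unfold sW
    have := hs.1.ne'
    field_simp
  · have h1 := ((((hasDerivAt_id s).inv hs.1.ne').const_mul (8509 / 1250)).add
      ((hasDerivAt_id s).const_mul (303 / 2500))).add_const (-11471 / 2500)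
    refine (h1.congr_of_eventuallyEq (Eventually.of_forall fun x => ?_)).congr_deriv ?_
    · simp [div_eq_mul_inv]
    · simp only [id]
      ring
  · have := O8_U
    norm_num at this ⊢
    linarith
  · have h0 := hs.1
    have hT := Ts_mem hs
    have h1 := sK_U hs
    have h2 := q_le_c ⟨hT.1.le, hT.2.le⟩
    have h3 := K_nonneg ⟨hT.1, hT.2.le⟩
    have hM : M (s ^ 2 / 8) ≤ 17321 / 10000 * (193 / 100 + (1 / s - s)) := by
      unfold M
      exact mul_le_mul h2 h1 h3 (by norm_num)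
    have e1 : -(-(om (s ^ 2 / 8) / (s ^ 2 / 8) ^ 2)) * (s / 4)
        = -(2 / s * (M (s ^ 2 / 8) / (1 + s ^ 2 / 8))) := by
      unfold om
      have : (1 : ℝ) + s ^ 2 / 8 ≠ 0 := by positivity
      field_simp
      ring
    have h4 : M (s ^ 2 / 8) / (1 + s ^ 2 / 8) ≤ M (s ^ 2 / 8) :=
      div_le_self (M_nonneg ⟨hT.1, hT.2.le⟩) (by nlinarith [hT.1])
    have h5 : 2 / s * (M (s ^ 2 / 8) / (1 + s ^ 2 / 8))
        ≤ 2 / s * (17321 / 10000 * (193 / 100 + (1 / s - s))) :=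
      mul_le_mul_of_nonneg_left (h4.trans hM) (by positivity)
    have h6 : 2 / s * (17321 / 10000 * (193 / 100 + (1 / s - s))) ≤ 8509 / 1250 / s ^ 2 - 303 / 2500 := by
      have e2 : 8509 / 1250 / s ^ 2 - 303 / 2500 - 2 / s * (17321 / 10000 * (193 / 100 + (1 / s - s)))
          = (8509 / 1250 - 303 / 2500 * s ^ 2 - 17321 / 5000 * (193 / 100 * s + 1 - s ^ 2)) / s ^ 2 := by
        field_simp
        ring
      have h7 : 0 ≤ (8509 / 1250 - 303 / 2500 * s ^ 2 - 17321 / 5000 * (193 / 100 * s + 1 - s ^ 2)) / s ^ 2 := by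
        refine div_nonneg ?_ (sq_nonneg s)
        nlinarith [sq_nonneg (s - 1)]
      linarith
    rw [e1]
    linarith

lemma sW_nonneg (hs : s ∈ Ioc (0 : ℝ) 1) : 0 ≤ sW s := by
  have h0 := hs.1
  have h1 := sO_U hs
  have h2 := O2_nonneg' ⟨(Ts_mem hs).1, (Ts_mem hs).2.le⟩
  have h3 := mul_nonneg (h2.trans h1) h0.le
  rwa [div_mul_cancel₀ _ h0.ne'] at h3

/-- bound of `-ρ` -/
lemma sR_U (hs : s ∈ Ioc (0 : ℝ) 1) : -ρ (s ^ 2 / 8) ≤ sR s := by
  refine cmpU (F := fun s => -ρ (s ^ 2 / 8)) (R := sR)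
    (F' := fun s => -σ (s ^ 2 / 8) * (s / 4))
    (R' := fun s => -(s ^ 2 * sW s / 32))
    (fun s hs => hd_comp (hasDerivAt_ρ (Ts_mem hs)).fun_neg) (fun s hs => ?_) ?_
    (fun s hs => ?_) s hs
  · have h := (((hasDerivAt_const s (540571 / 4800000 : ℝ)).fun_add
      ((hasDerivAt_pow 3 s).const_mul (-8509 / 120000 : ℝ))).fun_add
      ((hasDerivAt_pow 4 s).const_mul (11471 / 320000 : ℝ))).fun_add
      ((hasDerivAt_pow 5 s).const_mul (-303 / 400000 : ℝ))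
    refine h.congr_deriv ?_
    unfold sW
    push_cast
    ring
  · have := R8_U
    unfold sR
    norm_num at this ⊢
    linarith
  · have h0 := hs.1
    have h1 := sO_U hs
    have h2 : σ (s ^ 2 / 8) * (s / 4) ≤ s ^ 2 * sW s / 32 := by
      unfold σ
      calc -(s ^ 2 / 8 * O2 (s ^ 2 / 8)) * (s / 4) = s ^ 3 / 32 * -O2 (s ^ 2 / 8) := by ring
        _ ≤ s ^ 3 / 32 * (sW s / s) := mul_le_mul_of_nonneg_left h1 (by positivity)
        _ = _ := by field_simp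
    linarith

end

end Vale.Agent.P224.R2.H178.Flow3
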