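import Vale.Agent.P224.R2.H178.Pos3s

/-!
The sign of the second bracket of the defect in dimension three on `(0, 1/8]`.
-/

namespace Vale.Agent.P224.R2.H178.Flow3

open MeasureTheory Set Filter Function Real
open scoped Topology

section

variable {T s : ℝ}

lemma m01 (hs : s ∈ Ioc (0 : ℝ) 1) : s ^ 2 / 8 ∈ Ioc (0 : ℝ) 1 :=
  ⟨(Ts_mem hs).1, (Ts_mem hs).2.le⟩

/-- bound of `ε` -/
lemma sE_U (hs : s ∈ Ioc (0 : ℝ) 1) : |ε (s ^ 2 / 8)| ≤ sE s := by
  have h0 := hs.1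
  have hT := Ts_mem hs
  have hT8 := Ts_le hs
  have h1 := sR_U hs
  have h2 := sO_U hs
  have h3 := ρ_nonpos (m01 hs)
  have h4 := O2_nonneg' (m01 hs)
  have hst : (s ^ 2 / 8) ^ 2 * (sW s / s) = s ^ 3 / 64 * sW s := by
    field_simp
    ring
  unfold sE
  rw [← hst]
  generalize s ^ 2 / 8 = T at *
  have e1 : ε T = (1 - 2 * T ^ 2) * ρ T + T ^ 2 * (1 - T ^ 2) * O2 T := by
    unfold ε lin σ
    ring
  have hT2 : T ^ 2 ≤ 1 / 64 := by nlinarith [hT.1]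
  have hTn := sq_nonneg T
  have b1 : 0 ≤ (1 - 2 * T ^ 2) * -ρ T := mul_nonneg (by linarith) (by linarith)
  have b2 : 0 ≤ T ^ 2 * (1 - T ^ 2) * -O2 T := mul_nonneg (mul_nonneg hTn (by linarith)) h4
  have b3 : T ^ 2 * -O2 T ≤ T ^ 2 * (sW s / s) := mul_le_mul_of_nonneg_left h2 hTn
  have b4 : 0 ≤ T ^ 2 * -ρ T := mul_nonneg hTn (by linarith)
  have b5 : 0 ≤ T ^ 2 * (T ^ 2 * -O2 T) := mul_nonneg hTn (mul_nonneg hTn h4)
  rw [abs_of_nonpos (by rw [e1]; linarith), e1]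
  linarith

lemma K_anti {a b : ℝ} (ha : 0 < a) (hab : a ≤ b) (hb : b ≤ 1) : K b ≤ K a := by
  unfold K
  have h1 := intervalIntegral.integral_add_adjacent_intervals (a := a) (b := b) (c := 1)
    (f := kf) (μ := volume)
    ((int_kf ha (hab.trans hb)).mono_set (by
      rw [uIcc_of_le hab, uIcc_of_le (hab.trans hb)]
      exact Icc_subset_Icc_right hb)) (int_kf (ha.trans_le hab) hb)
  have h2 : 0 ≤ ∫ u in a..b, kf u :=
    intervalIntegral.integral_nonneg hab fun u hu => kf_nonneg ⟨ha.trans_le hu.1, hu.2.trans hb⟩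
  linarith

lemma q_anti {a b : ℝ} (ha : 0 < a) (hab : a ≤ b) (_hb : b ≤ 1) : q b ≤ q a := by
  unfold q
  refine sqrt_le_sqrt ?_
  rw [div_le_div_iff₀ (by linarith) (by linarith)]
  nlinarith

lemma M_small (h0 : 0 < T) (h : T ≤ 1 / 8) : 293 / 100 ≤ M T := by
  refine M8_L.trans ?_
  unfold M
  exact mul_le_mul (q_anti h0 h (by norm_num)) (K_anti h0 h (by norm_num))
    (K_nonneg ⟨by norm_num, by norm_num⟩) (q_pos ⟨h0.le, by linarith⟩).le

/-- bound of `e` -/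
lemma se_U (hs : s ∈ Ioc (0 : ℝ) 1) : e (s ^ 2 / 8) ≤ se s := by
  have h0 := hs.1
  have hT := Ts_mem hs
  have hT8 := Ts_le hs
  have h1 := sR_U hs
  have h1' := small_R h0.le hs.2
  have h2 := sO_U hs
  have h3 := ρ_nonpos (m01 hs)
  have h4 := O2_nonneg' (m01 hs)
  have h5 := M_small hT.1 hT8
  have h6 := j_le_c ⟨hT.1.le, hT.2.le⟩
  have hst : s ^ 2 / 8 * (sW s / s) = s / 8 * sW s := by
    field_simp
  unfold se
  rw [← hst]
  generalize s ^ 2 / 8 = T at *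
  have hT0 := hT.1
  have e1 : e T = T / 12 * -ρ T + (4 + T ^ 2) / 24 * (T * -O2 T) - T * (1 + 11 * T) / 24 * M T
      + 9 / 8 * T * (1 - T) * j T := by
    unfold e lin σ
    ring
  rw [e1]
  have b1 : T / 12 * -ρ T ≤ T / 12 * (113 / 1000) :=
    mul_le_mul_of_nonneg_left (by linarith) (by positivity)
  have b2 : (4 + T ^ 2) / 24 * (T * -O2 T) ≤ (4 + T ^ 2) / 24 * (T * (sW s / s)) :=
    mul_le_mul_of_nonneg_left (mul_le_mul_of_nonneg_left h2 hT0.le) (by positivity)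
  have b3 : T * (1 + 11 * T) / 24 * (293 / 100) ≤ T * (1 + 11 * T) / 24 * M T :=
    mul_le_mul_of_nonneg_left h5 (by positivity)
  have b4 : 9 / 8 * T * (1 - T) * j T ≤ 9 / 8 * T * (1 - T) * (5774 / 10000) :=
    mul_le_mul_of_nonneg_left h6 (mul_nonneg (by positivity) (by linarith))
  linarith

/-- every small level is of this form -/
lemma exists_s (h0 : 0 < T) (h : T ≤ 1 / 8) : ∃ s ∈ Ioc (0 : ℝ) 1, s ^ 2 / 8 = T := by
  refine ⟨√(8 * T), ⟨sqrt_pos.2 (by linarith), ?_⟩, ?_⟩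
  · refine (sqrt_le_left one_pos.le).2 ?_
    linarith
  · rw [sq_sqrt (by linarith)]
    ring

lemma e_small (h0 : 0 < T) (h : T ≤ 1 / 8) : e T ≤ 865 / 10000 := by
  obtain ⟨s, hs, rfl⟩ := exists_s h0 h
  have := se_U hs
  have := small_e hs.1.le hs.2
  linarith

lemma ε_small (h0 : 0 < T) (h : T ≤ 1 / 8) : |ε T| ≤ 12 / 100 := by
  obtain ⟨s, hs, rfl⟩ := exists_s h0 h
  have := sE_U hs
  have := small_eps hs.1.le hs.2
  linarith

lemma mo8 (h0 : 0 < T) (h : T ≤ 1 / 8) : T ∈ Ioo (0 : ℝ) 1 := ⟨h0, by linarith⟩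

lemma hd_Ie (hT : T ∈ Ioo (0 : ℝ) 1) : HasDerivAt Ie (-ei T) T := hasDerivAt_tail ei_contOn hT

lemma Ie_small (h0 : 0 < T) (h : T ≤ 1 / 8) : 116 / 1000 ≤ Ie T := by
  have hanti : AntitoneOn Ie (Ioc 0 (1 / 8)) := by
    refine antitoneOn_of_deriv_nonpos (convex_Ioc _ _) ?_ ?_ ?_
    · exact fun t ht => (hd_Ie (mo8 ht.1 ht.2)).continuousAt.continuousWithinAt
    · rw [interior_Ioc]
      exact fun t ht => (hd_Ie (mo8 ht.1 ht.2.le)).differentiableAt.differentiableWithinAt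
    · rw [interior_Ioc]
      intro t ht
      rw [(hd_Ie (mo8 ht.1 ht.2.le)).deriv]
      have := ei_nonneg (T := t) ⟨ht.1, by linarith [ht.2]⟩
      linarith
  exact Ie8_L.trans (hanti ⟨h0, h⟩ ⟨by norm_num, le_rfl⟩ h)

lemma c3_small (h0 : 0 < T) (h : T ≤ 1 / 8) : 97 / 100 ≤ c T ^ 3 := by
  have h1 := c_small h0.le h
  have := pow_le_pow_left₀ (by norm_num) h1 3
  refine le_trans ?_ this
  norm_num

lemma TIe_small (h0 : 0 < T) (h : T ≤ 1 / 8) : T * Ie T ≤ 174 / 10000 := by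
  have hder : ∀ t ∈ Ioc (0 : ℝ) (1 / 8), HasDerivAt (fun t => t * Ie t) (1 * Ie t + t * -ei t) t :=
    fun t ht => (hasDerivAt_id t).fun_mul (hd_Ie (mo8 ht.1 ht.2))
  have hmono : MonotoneOn (fun t => t * Ie t) (Ioc 0 (1 / 8)) := by
    refine monotoneOn_of_deriv_nonneg (convex_Ioc _ _) ?_ ?_ ?_
    · exact fun t ht => (hder t ht).continuousAt.continuousWithinAt
    · rw [interior_Ioc]
      exact fun t ht => (hder t ⟨ht.1, ht.2.le⟩).differentiableAt.differentiableWithinAt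
    · rw [interior_Ioc]
      intro t ht
      rw [(hder t ⟨ht.1, ht.2.le⟩).deriv, ei_eq (mo8 ht.1 ht.2.le)]
      have h1 := Ie_small ht.1 ht.2.le
      have h2 := e_small ht.1 ht.2.le
      have h3 := c3_small ht.1 ht.2.le
      have h4 : t * -(e t / (t * c t ^ 3)) = -(e t / c t ^ 3) := by
        have := ht.1.ne'
        field_simp
      have h5 : e t / c t ^ 3 ≤ 116 / 1000 := by
        rw [div_le_iff₀ (by linarith)]
        linarith
      rw [h4]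
      linarith
  have h1 := hmono ⟨h0, h⟩ ⟨by norm_num, le_rfl⟩ h
  simp only at h1
  have := Ie8_U
  linarith

lemma G8 : 922 / 1000 ≤ η (1 / 8) / c (1 / 8) + 2 * e (1 / 8) / c (1 / 8) ^ 3 := by
  have h := G_L mem8 (by norm_num)
  have h1 : pI (1 / 8) ≤ 3377 / 100000 := by
    unfold pI
    norm_num
  linarith

lemma G_small (h0 : 0 < T) (h : T ≤ 1 / 8) : 914 / 1000 ≤ η T / c T + 2 * e T / c T ^ 3 := by
  have hder : ∀ t ∈ Ioc (0 : ℝ) (1 / 8), HasDerivAt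
      (fun T => η T / c T + 2 * e T / c T ^ 3 - 3 / 10 * T ^ 2)
      (6 * t * e t / c t ^ 5 - 3 / 10 * (2 * t)) t := fun t ht => by
    have h2 := (hasDerivAt_pow 2 t).const_mul (3 / 10 : ℝ)
    refine ((hd_η (mo8 ht.1 ht.2)).fun_sub h2).congr_deriv ?_
    push_cast
    ring
  have hanti : AntitoneOn (fun T => η T / c T + 2 * e T / c T ^ 3 - 3 / 10 * T ^ 2)
      (Ioc 0 (1 / 8)) := by
    refine antitoneOn_of_deriv_nonpos (convex_Ioc _ _) ?_ ?_ ?_
    · exact fun t ht => (hder t ht).continuousAt.continuousWithinAt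
    · rw [interior_Ioc]
      exact fun t ht => (hder t ⟨ht.1, ht.2.le⟩).differentiableAt.differentiableWithinAt
    · rw [interior_Ioc]
      intro t ht
      rw [(hder t ⟨ht.1, ht.2.le⟩).deriv]
      have h2 := e_small ht.1 ht.2.le
      have h3 := c_small ht.1.le ht.2.le
      have h4 : (95 / 100 : ℝ) ≤ c t ^ 5 := by
        refine le_trans ?_ (pow_le_pow_left₀ (by norm_num) h3 5)
        norm_num
      have h5 : 6 * t * e t / c t ^ 5 ≤ 3 / 10 * (2 * t) := by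
        rw [div_le_iff₀ (by linarith)]
        have ht0 := ht.1
        nlinarith [mul_le_mul_of_nonneg_left h2 ht0.le, mul_le_mul_of_nonneg_left h4 ht0.le]
      linarith
  have h1 := hanti ⟨h0, h⟩ ⟨by norm_num, le_rfl⟩ h
  simp only at h1
  have := G8
  nlinarith

/-- lower bound of `η` -/
lemma η_small (h0 : 0 < T) (h : T ≤ 1 / 8) :
    992 / 1000 * (914 / 1000) - 64 / 63 * 2 * e T ≤ η T := by
  have h1 := G_small h0 h
  have hc := c_pos (mo8 h0 h)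
  have h2 := c_small h0.le h
  have h3 := c_sq (T := T) ⟨h0.le, by linarith⟩
  have h4 := e_nonneg (T := T) ⟨h0, by linarith⟩
  have h5 : η T = c T * (η T / c T + 2 * e T / c T ^ 3) - 2 * e T / c T ^ 2 := by
    field_simp
    ring
  have h6 : 2 * e T / c T ^ 2 ≤ 64 / 63 * 2 * e T := by
    rw [div_le_iff₀ (by positivity), h3]
    have : (63 / 64 : ℝ) ≤ 1 - T ^ 2 := by nlinarith
    nlinarith [mul_le_mul_of_nonneg_left this h4]
  have h7 : 992 / 1000 * (914 / 1000) ≤ c T * (η T / c T + 2 * e T / c T ^ 3) :=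
    mul_le_mul h2 h1 (by norm_num) hc.le
  rw [h5]
  linarith

/-- bound of `f2` -/
lemma f2_small (h0 : 0 < T) (h : T ≤ 1 / 8) {R : ℝ} (hR : -ρ T ≤ R) :
    |-(12 * T * r T) - 2 * ρ T| ≤ 2 * R ∨ |-(12 * T * r T) - 2 * ρ T| ≤ 2088 / 10000 := by
  have hI : T ∈ Ioc (0 : ℝ) 1 := ⟨h0, by linarith⟩
  have h1 := r_nonneg hI
  have h2 := ρ_nonpos hI
  have h3 := TIe_small h0 h
  have h4 : T * r T ≤ T * Ie T := by
    rw [r_eq]
    have h5 : c T ≤ 1 := by
      unfold c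
      refine (sqrt_le_left one_pos.le).2 ?_
      nlinarith
    have h6 := mul_nonneg h0.le (Ie_nonneg hI)
    nlinarith
  have h7 := mul_nonneg h0.le h1
  rcases le_total 0 (-(12 * T * r T) - 2 * ρ T) with h8 | h8
  · left
    rw [abs_of_nonneg h8]
    linarith
  · right
    rw [abs_of_nonpos h8]
    linarith

/-- the scalar inequality -/
lemma scalar_small {C d R A E' N F : ℝ} (hs : s ∈ Ioc (0 : ℝ) 1) (hT : s ^ 2 / 8 = T)
    (hC : 992 / 1000 ≤ C) (hC2 : C ^ 2 = 1 - T ^ 2) (hd : 0 < d) (hd2 : d ^ 2 = 1 / 2)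
    (hR0 : 0 ≤ R) (hR : R ≤ sR s) (hA0 : 0 ≤ A) (hA : A ≤ sE s) (hE0 : 0 ≤ E') (hE : E' ≤ se s)
    (hN : 992 / 1000 * (914 / 1000) - 64 / 63 * 2 * E' ≤ N) (hF : 0 ≤ F)
    (hS : 0 ≤ 3 * (992 / 1000 * (914 / 1000) - 64 / 63 * 2 * se s) - sS F s) :
    8 * (d / 2 * (3 * R + A / 2)) / C + F * (2 * (1 + T) * (1 / (1 - T)) + 5 * T / C ^ 2)
      + 12 * T * E' * (1 / (1 - T)) + (5 * d * T * R) * (2 / C)
        * (3 * (1 + T) * (1 / (1 - T)) + 6 * T / C ^ 2)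
      + 10 * T * (d * A) / C * (1 / (1 - T)) ≤ 3 * N := by
  have h0 := hs.1
  have hT0 : 0 < T := by rw [← hT]; positivity
  have hT8 : T ≤ 1 / 8 := by rw [← hT]; exact Ts_le hs
  have h1T : 0 < 1 - T := by linarith
  have hC0 : 0 < C := by linarith
  have hk : 1 / (1 - T) ≤ 1 + s ^ 2 / 7 := by
    rw [div_le_iff₀ h1T, ← hT]
    have : s ^ 2 ≤ 1 := by nlinarith
    nlinarith [sq_nonneg s]
  have hk0 : 0 ≤ 1 / (1 - T) := by positivity
  have hi : 1 / C ≤ 1009 / 1000 := by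
    rw [div_le_iff₀ hC0]
    linarith
  have hi2 : 1 / C ^ 2 ≤ 64 / 63 := by
    rw [div_le_iff₀ (by positivity), hC2]
    nlinarith
  have hi0 : 0 ≤ 1 / C := by positivity
  have hi20 : 0 ≤ 1 / C ^ 2 := by positivity
  have hdU : d ≤ 7072 / 10000 := by nlinarith
  have hsR := hR0.trans hR
  have hsE := hA0.trans hA
  have hse := hE0.trans hE
  have hX : 2 * (1 + T) * (1 / (1 - T)) + 5 * T * (1 / C ^ 2)
      ≤ 2 * (1 + s ^ 2 / 8) * (1 + s ^ 2 / 7) + 5 * (s ^ 2 / 8) * (64 / 63) := by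
    rw [hT]
    gcongr
  have hY : 3 * (1 + T) * (1 / (1 - T)) + 6 * T * (1 / C ^ 2)
      ≤ 3 * (1 + s ^ 2 / 8) * (1 + s ^ 2 / 7) + 6 * (s ^ 2 / 8) * (64 / 63) := by
    rw [hT]
    gcongr
  have hX0 : 0 ≤ 2 * (1 + T) * (1 / (1 - T)) + 5 * T * (1 / C ^ 2) := by positivity
  have hY0 : 0 ≤ 3 * (1 + T) * (1 / (1 - T)) + 6 * T * (1 / C ^ 2) := by positivity
  have t1 : 8 * (d / 2 * (3 * R + A / 2)) / C ≤ 4 * (7072 / 10000) * (1009 / 1000) * (3 * sR s + sE s / 2) := by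
    calc 8 * (d / 2 * (3 * R + A / 2)) / C = 4 * d * (1 / C) * (3 * R + A / 2) := by ring
      _ ≤ _ := by gcongr
  have t2 : F * (2 * (1 + T) * (1 / (1 - T)) + 5 * T / C ^ 2)
      ≤ F * (2 * (1 + s ^ 2 / 8) * (1 + s ^ 2 / 7) + 5 * (s ^ 2 / 8) * (64 / 63)) := by
    have e1 : 5 * T / C ^ 2 = 5 * T * (1 / C ^ 2) := by ring
    rw [e1]
    exact mul_le_mul_of_nonneg_left hX hF
  have t3 : 12 * T * E' * (1 / (1 - T)) ≤ 12 * (s ^ 2 / 8) * se s * (1 + s ^ 2 / 7) := by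
    rw [hT]
    gcongr
  have t4 : (5 * d * T * R) * (2 / C) * (3 * (1 + T) * (1 / (1 - T)) + 6 * T / C ^ 2)
      ≤ 5 * (7072 / 10000) * (s ^ 2 / 8) * sR s * (2 * (1009 / 1000))
    * (3 * (1 + s ^ 2 / 8) * (1 + s ^ 2 / 7) + 6 * (s ^ 2 / 8) * (64 / 63)) := by
    have e1 : 6 * T / C ^ 2 = 6 * T * (1 / C ^ 2) := by ring
    have e2 : 2 / C = 2 * (1 / C) := by ring
    rw [e1, e2]
    refine mul_le_mul ?_ hY hY0 (by positivity)
    rw [hT]
    gcongr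
  have t5 : 10 * T * (d * A) / C * (1 / (1 - T))
      ≤ 10 * (s ^ 2 / 8) * (7072 / 10000) * sE s * (1009 / 1000) * (1 + s ^ 2 / 7) := by
    have e1 : 10 * T * (d * A) / C = 10 * T * d * A * (1 / C) := by ring
    rw [e1, hT]
    gcongr
  have hfin : sS F s ≤ 3 * N := by linarith
  refine le_trans ?_ hfin
  unfold sS
  linarith

/-- **the second bracket on `(0, 1/8]`** -/
theorem B_small {d : ℝ} (hd : 0 < d) (hd2 : d ^ 2 = 1 / 2) (h0 : 0 < T) (h : T ≤ 1 / 8)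
    {σ' t p g : ℝ} (hk : PairF σ' t p g) : NBs T σ' t p g (η T) (ρ T) (ε T) (e T) (r T) d ≤ 0 := by
  obtain ⟨s, hs, hsT⟩ := exists_s h0 h
  have hI : T ∈ Ioc (0 : ℝ) 1 := ⟨h0, by linarith⟩
  have hc := c_pos (mo8 h0 h)
  have h6 := c_sq (T := T) ⟨h0.le, by linarith⟩
  have hρ := ρ_nonpos hI
  have hR : -ρ T ≤ sR s := by rw [← hsT]; exact sR_U hs
  have hA : |ε T| ≤ sE s := by rw [← hsT]; exact sE_U hs
  have hE : e T ≤ se s := by rw [← hsT]; exact se_U hs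
  have hsR : 0 ≤ sR s := by linarith
  rcases f2_small h0 h hR with h7 | h7
  · exact NBs_nonpos' hk h0 (by linarith) hc h6 hd hρ (e_nonneg hI) h7
      (scalar_small hs hsT (c_small h0.le h) h6 hd hd2 (by linarith) hR (abs_nonneg _) hA
        (e_nonneg hI) hE (η_small h0 h) (by linarith) (small_a hs.1.le hs.2))
  · exact NBs_nonpos' hk h0 (by linarith) hc h6 hd hρ (e_nonneg hI) h7
      (scalar_small hs hsT (c_small h0.le h) h6 hd hd2 (by linarith) hR (abs_nonneg _) hA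
        (e_nonneg hI) hE (η_small h0 h) (by norm_num) (small_b hs.1.le hs.2))

end

end Vale.Agent.P224.R2.H178.Flow3
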