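import Vale.Agent.P224.R2.H178.WO

/-!
The numbers of the law in odd dimension `17 ≤ m ≤ 35`.
-/

namespace Vale.Agent.P224.R2.H178

/-- the rows for odd `17 ≤ m ≤ 35` -/
def tabO : List ORow :=
  [⟨17, 43184 / 100000, 145395 / 100000⟩,
   ⟨19, 49801 / 100000, 159776 / 100000⟩,
   ⟨21, 55901 / 100000, 175913 / 100000⟩,
   ⟨23, 61654 / 100000, 193511 / 100000⟩,
   ⟨25, 67090 / 100000, 212362 / 100000⟩,
   ⟨27, 72302 / 100000, 232309 / 100000⟩,
   ⟨29, 77323 / 100000, 253245 / 100000⟩,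
   ⟨31, 82174 / 100000, 275096 / 100000⟩,
   ⟨33, 86877 / 100000, 297721 / 100000⟩,
   ⟨35, 91446 / 100000, 321057 / 100000⟩]

theorem tabO_ok : tabO.all (orowOK 17 17 17 17 17 (11 / 2) (-22) 22) = true := by decide +kernel

end Vale.Agent.P224.R2.H178
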